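import Crest.Agent.R238.KW

/-!
# Row 238 (S0369): AppAlg
Pointwise choices of `α`, `β` in the core inequality.  For `β`: `T = b bᵀ` (`exists_sqrt`), `A = T e b`;
then `T e T = A bᵀ`, `T e T e T = A Aᵀ`, `∑ Λ i j (A Aᵀ) i j = ∑_m qf Λ (A · m)`.
-/

set_option autoImplicit false
set_option linter.unusedVariables false

open MeasureTheory Filter Topology Matrix
open Crest.Agent.R285 (bas pd gibbs WPot PolyB SConv)

noncomputable section

namespace Crest.Agent.R238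

variable {n : ℕ}

/-- `2 a s w y - w y² ≤ a² s² w` -/
lemma alpha_in {N : ℕ} {Λ : A2 n} {c : Fin N → Fin n → ℝ} {a s w : Fin N → ℝ} (hw : ∀ i, 0 ≤ w i)
    (hΛ : ∀ ξ, ∑ i, w i * (∑ k, c i k * ξ k) ^ 2 ≤ qf Λ ξ) (ξ : Fin n → ℝ) :
    -2 * ∑ k, (-∑ i, a i * s i * w i * c i k) * ξ k - qf Λ ξ ≤ ∑ i, a i ^ 2 * s i ^ 2 * w i := by
  have e : ∑ k, (-∑ i, a i * s i * w i * c i k) * ξ k = -∑ i, a i * s i * w i * ∑ k, c i k * ξ k := by
    simp only [neg_mul, Finset.sum_neg_distrib, Finset.sum_mul, Finset.mul_sum, mul_assoc]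
    rw [Finset.sum_comm]
  have h : ∑ i, (2 * (a i * s i * w i * ∑ k, c i k * ξ k) - w i * (∑ k, c i k * ξ k) ^ 2) ≤
      ∑ i, a i ^ 2 * s i ^ 2 * w i := Finset.sum_le_sum fun i _ => by
    nlinarith [mul_nonneg (hw i) (sq_nonneg (a i * s i - ∑ k, c i k * ξ k))]
  rw [Finset.sum_sub_distrib, ← Finset.mul_sum] at h
  rw [e]
  linarith [hΛ ξ]

lemma alpha_out {Λ : A2 n} {ε : ℝ} (hε : 0 < ε) (hΛ : ∀ ξ, ε * ssq ξ ≤ qf Λ ξ) (g ξ : Fin n → ℝ) :
    -2 * ∑ k, g k * ξ k - qf Λ ξ ≤ ssq g / ε := by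
  have h : ∑ k, (-2 * (g k * ξ k) - ε * ξ k ^ 2) ≤ ∑ k, g k ^ 2 / ε := Finset.sum_le_sum fun k _ => by
    rw [le_div_iff₀ hε]
    nlinarith [sq_nonneg (g k + ε * ξ k)]
  rw [Finset.sum_sub_distrib, ← Finset.mul_sum, ← Finset.mul_sum, ← Finset.sum_div] at h
  have := hΛ ξ
  unfold ssq at *
  linarith

lemma appalg_red {T e : Mx n} (hT : ∀ k l, T k l = T l k) (h0 : ∀ ξ, 0 ≤ qf T ξ)
    (he : ∀ k l, e k l = e l k) : ∃ b A : Mx n, (∀ ξ, qf T ξ = ∑ m, (∑ l, ξ l * b l m) ^ 2) ∧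
      ∀ Λ D : A2 n, -2 * ∑ k, ∑ l, (T * e * T) k l * D k l - ∑ i, ∑ j, Λ i j * (T * e * T * e * T) i j =
        ∑ m, (-2 * ∑ k, (∑ l, D k l * b l m) * A k m - qf Λ fun k => A k m) := by
  obtain ⟨b, hb⟩ := exists_sqrt hT h0
  have h1 : T = b * bᵀ := by
    ext i j
    rw [hb, Matrix.mul_apply]
    rfl
  have hT' : Tᵀ = T := by ext i j; exact hT j i
  have he' : eᵀ = e := by ext i j; exact he j i
  have h2 : T * e * T = T * e * b * bᵀ := by rw [Matrix.mul_assoc (T * e), ← h1]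
  have h3 : T * e * T * e * T = T * e * b * (T * e * b)ᵀ := by
    rw [Matrix.transpose_mul, Matrix.transpose_mul, hT', he', h2]
    simp only [Matrix.mul_assoc]
  refine ⟨b, T * e * b, fun ξ => ?_, fun Λ D => ?_⟩
  · simp only [qf, hb, sq, Finset.sum_mul_sum]
    simp only [Finset.sum_mul]
    rw [Finset.sum_comm (γ := Fin n) (s := Finset.univ) (t := Finset.univ)
      (f := fun m i => ∑ j, ξ i * b i m * (ξ j * b j m))]
    refine Finset.sum_congr rfl fun i _ => ?_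
    rw [Finset.sum_comm]
    exact Finset.sum_congr rfl fun m _ => Finset.sum_congr rfl fun j _ => by ring
  · rw [h3, h2]
    generalize T * e * b = A
    rw [Finset.sum_sub_distrib, ← Finset.mul_sum]
    simp only [qf, Matrix.mul_apply, Matrix.transpose_apply, Finset.sum_mul, Finset.mul_sum _ _ (Λ _ _)]
    congr 1
    · congr 1
      symm
      rw [Finset.sum_comm]
      refine Finset.sum_congr rfl fun k _ => ?_
      rw [Finset.sum_comm]
      exact Finset.sum_congr rfl fun l _ => Finset.sum_congr rfl fun m _ => by ring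
    · symm
      rw [Finset.sum_comm]
      refine Finset.sum_congr rfl fun k _ => ?_
      rw [Finset.sum_comm]
      exact Finset.sum_congr rfl fun l _ => Finset.sum_congr rfl fun m _ => by ring

/-- `2 a ⟨Aᵀ c, bᵀ c⟩ ≤ |Aᵀ c|² + a² |bᵀ c|²` -/
lemma beta_in {N : ℕ} {T e : Mx n} {Λ : A2 n} {c : Fin N → Fin n → ℝ} {a w : Fin N → ℝ}
    (hT : ∀ k l, T k l = T l k) (h0 : ∀ ξ, 0 ≤ qf T ξ) (he : ∀ k l, e k l = e l k) (hw : ∀ i, 0 ≤ w i)
    (hΛ : ∀ ξ, ∑ i, w i * (∑ k, c i k * ξ k) ^ 2 ≤ qf Λ ξ) :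
    -2 * ∑ k, ∑ l, (T * e * T) k l * (-∑ i, a i * w i * c i k * c i l) -
      ∑ i, ∑ j, Λ i j * (T * e * T * e * T) i j ≤ ∑ i, a i ^ 2 * w i * qf T (c i) := by
  obtain ⟨b, A, hb, hA⟩ := appalg_red hT h0 he
  rw [hA Λ fun k l => -∑ i, a i * w i * c i k * c i l]
  simp only [hb, Finset.mul_sum _ _ (_ * w _)]
  rw [Finset.sum_comm]
  refine Finset.sum_le_sum fun m _ => ?_
  have h := alpha_in (a := a) (s := fun i => ∑ l, c i l * b l m) hw hΛ fun k => A k m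
  have e : ∀ k, ∑ l, (-∑ i, a i * w i * c i k * c i l) * b l m =
      -∑ i, a i * (∑ l, c i l * b l m) * w i * c i k := fun k => by
    simp only [neg_mul, Finset.sum_neg_distrib, Finset.sum_mul, Finset.mul_sum]
    rw [Finset.sum_comm]
    exact congrArg Neg.neg (Finset.sum_congr rfl fun i _ => Finset.sum_congr rfl fun l _ => by ring)
  simp only [e]
  exact h.trans_eq (Finset.sum_congr rfl fun i _ => by ring)

/-- `-2 ⟨A, D b⟩ - ε |A|² ≤ |D b|²/ε = ∑_k qf T (D k) / ε` -/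
lemma beta_out {T e : Mx n} {Λ : A2 n} {ε : ℝ} (hε : 0 < ε) (hT : ∀ k l, T k l = T l k)
    (h0 : ∀ ξ, 0 ≤ qf T ξ) (h1 : ∀ ξ, qf T ξ ≤ ε⁻¹ * ssq ξ) (he : ∀ k l, e k l = e l k)
    (hΛ : ∀ ξ, ε * ssq ξ ≤ qf Λ ξ) (D : A2 n) :
    -2 * ∑ k, ∑ l, (T * e * T) k l * D k l - ∑ i, ∑ j, Λ i j * (T * e * T * e * T) i j ≤
      (∑ k, ∑ l, D k l ^ 2) / ε ^ 2 := by
  obtain ⟨b, A, hb, hA⟩ := appalg_red hT h0 he
  rw [hA Λ D]
  refine (Finset.sum_le_sum fun m _ => alpha_out hε hΛ (fun k => ∑ l, D k l * b l m) _).trans ?_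
  simp only [ssq]
  rw [← Finset.sum_div, Finset.sum_comm, sq ε, ← div_div]
  refine div_le_div_of_nonneg_right ?_ hε.le
  rw [Finset.sum_div]
  refine Finset.sum_le_sum fun k _ => ?_
  rw [← hb, div_eq_inv_mul]
  exact h1 _

end Crest.Agent.R238
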