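import Crest.Agent.R238.Calc

/-!
# Row 238 (S0369): Hol
The API of `Mem`, `hn`, `HB`.  `supN`, `holN` are real suprema: use `le_ciSup` (bounded above by the
`Mem 0` data; the quotient is `0` for `x = y`) and `ciSup_le` / `Real.iSup_le`.  Statements for general
`k` are inductions on `k` (generalizing the functions), with `pd_add`, `pd_mul`, ... for the step.
-/

set_option autoImplicit false
set_option linter.unusedVariables false

open MeasureTheory Filter Topology Matrix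
open Crest.Agent.R285 (bas pd gibbs WPot PolyB SConv)

noncomputable section

namespace Crest.Agent.R238

variable {n : ℕ}

lemma mem_succ {k : ℕ} {f : Fn n} :
    Mem (k + 1) f ↔ Mem k f ∧ Differentiable ℝ f ∧ ∀ i, Mem k (pd i f) := Iff.rfl
lemma hn_succ (k : ℕ) (f : Fn n) : hn (k + 1) f = hn k f + ∑ i, hn k (pd i f) := rfl
lemma hn_zero (f : Fn n) : hn 0 f = supN f + holN f := rfl

lemma supN_nonneg (f : Fn n) : 0 ≤ supN f := by
  exact Real.iSup_nonneg fun _ => abs_nonneg _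
lemma holN_nonneg (f : Fn n) : 0 ≤ holN f := by
  exact Real.iSup_nonneg fun _ => by positivity
lemma hn_nonneg (k : ℕ) (f : Fn n) : 0 ≤ hn k f := by
  induction k generalizing f with
  | zero => exact add_nonneg (supN_nonneg f) (holN_nonneg f)
  | succ k ih => exact add_nonneg (ih f) (Finset.sum_nonneg fun i _ => ih _)
lemma supN_le {f : Fn n} {A : ℝ} (h : ∀ x, |f x| ≤ A) : supN f ≤ A := by
  exact ciSup_le h
lemma holN_le {f : Fn n} {B : ℝ} (hB : 0 ≤ B) (h : ∀ x y, |f x - f y| ≤ B * √‖x - y‖) :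
    holN f ≤ B := by
  exact ciSup_le fun p => div_le_of_le_mul₀ (Real.sqrt_nonneg _) hB (h _ _)
lemma Mem.abs_le_supN {f : Fn n} (h : Mem 0 f) (x : X n) : |f x| ≤ supN f := by
  obtain ⟨A, B, h1, -⟩ := h
  exact le_ciSup (f := fun x => |f x|) ⟨A, by rintro _ ⟨y, rfl⟩; exact h1 y⟩ x
lemma Mem.hol_le_holN {f : Fn n} (h : Mem 0 f) (x y : X n) : |f x - f y| ≤ holN f * √‖x - y‖ := by
  obtain ⟨A, B, -, h2⟩ := h
  rcases eq_or_ne x y with rfl | hxy
  · simp
  have h0 : 0 < √‖x - y‖ := Real.sqrt_pos.2 (norm_pos_iff.2 (sub_ne_zero.2 hxy))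
  rw [← div_le_iff₀ h0]
  refine le_ciSup (f := fun p : X n × X n => |f p.1 - f p.2| / √‖p.1 - p.2‖) ⟨|B|, ?_⟩ (x, y)
  rintro _ ⟨p, rfl⟩
  exact div_le_of_le_mul₀ (Real.sqrt_nonneg _) (abs_nonneg _)
    ((h2 _ _).trans (mul_le_mul_of_nonneg_right (le_abs_self B) (Real.sqrt_nonneg _)))

lemma Mem.mono {k l : ℕ} {f : Fn n} (h : Mem l f) (hkl : k ≤ l) : Mem k f := by
  induction hkl with
  | refl => exact h
  | step _ ih => exact ih h.1
lemma hn_mono {k l : ℕ} (f : Fn n) (hkl : k ≤ l) : hn k f ≤ hn l f := by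
  induction hkl with
  | refl => exact le_rfl
  | step _ ih =>
    exact ih.trans (le_add_of_nonneg_right (Finset.sum_nonneg fun i _ => hn_nonneg _ _))
lemma Mem.pd {k : ℕ} {f : Fn n} (h : Mem (k + 1) f) (i : Fin n) : Mem k (pd i f) := h.2.2 i
lemma Mem.diff {k : ℕ} {f : Fn n} (h : Mem (k + 1) f) : Differentiable ℝ f := h.2.1
lemma hn_pd_le (k : ℕ) (f : Fn n) (i : Fin n) : hn k (pd i f) ≤ hn (k + 1) f := by
  exact le_add_of_nonneg_of_le (hn_nonneg k f)
    (Finset.single_le_sum (f := fun i => hn k (pd i f)) (fun j _ => hn_nonneg _ _) (Finset.mem_univ i))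
lemma Mem.abs_le {k : ℕ} {f : Fn n} (h : Mem k f) (x : X n) : |f x| ≤ hn k f := by
  exact ((h.mono k.zero_le).abs_le_supN x).trans
    ((le_add_of_nonneg_right (holN_nonneg f)).trans (hn_mono f k.zero_le))
lemma Mem.hol_le {k : ℕ} {f : Fn n} (h : Mem k f) (x y : X n) :
    |f x - f y| ≤ hn k f * √‖x - y‖ := by
  exact ((h.mono k.zero_le).hol_le_holN x y).trans (mul_le_mul_of_nonneg_right
    ((le_add_of_nonneg_left (supN_nonneg f)).trans (hn_mono f k.zero_le)) (Real.sqrt_nonneg _))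
lemma Mem.continuous {k : ℕ} {f : Fn n} (h : Mem k f) : Continuous f := by
  refine continuous_iff_continuousAt.2 fun y => tendsto_iff_norm_sub_tendsto_zero.2 ?_
  refine squeeze_zero (fun _ => norm_nonneg _) (fun x => h.hol_le x y) ?_
  exact Continuous.tendsto' (by fun_prop) y 0 (by simp)
/-- induction with `contDiff_succ_of_pd` -/
lemma Mem.contDiff {k : ℕ} {f : Fn n} (h : Mem k f) : ContDiff ℝ k f := by
  induction k generalizing f with
  | zero => exact contDiff_zero.2 h.continuous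
  | succ k ih => exact contDiff_succ_of_pd h.diff fun i => ih (h.pd i)

lemma HB.mem {k : ℕ} {f : Fn n} {M : ℝ} (h : HB k f M) : Mem k f := h.1
lemma HB.le {k : ℕ} {f : Fn n} {M : ℝ} (h : HB k f M) : hn k f ≤ M := h.2
lemma HB.nonneg {k : ℕ} {f : Fn n} {M : ℝ} (h : HB k f M) : 0 ≤ M := (hn_nonneg k f).trans h.2
lemma Mem.hb {k : ℕ} {f : Fn n} (h : Mem k f) : HB k f (hn k f) := ⟨h, le_rfl⟩
lemma HB.weaken {k : ℕ} {f : Fn n} {M M' : ℝ} (h : HB k f M) (hM : M ≤ M') : HB k f M' :=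
  ⟨h.1, h.2.trans hM⟩
lemma HB.mono {k l : ℕ} {f : Fn n} {M : ℝ} (h : HB l f M) (hkl : k ≤ l) : HB k f M :=
  ⟨h.1.mono hkl, (hn_mono f hkl).trans h.2⟩
lemma HB.pd {k : ℕ} {f : Fn n} {M : ℝ} (h : HB (k + 1) f M) (i : Fin n) : HB k (pd i f) M :=
  ⟨h.1.pd i, (hn_pd_le k f i).trans h.2⟩
lemma HB.abs_le {k : ℕ} {f : Fn n} {M : ℝ} (h : HB k f M) (x : X n) : |f x| ≤ M :=
  (h.1.abs_le x).trans h.2
lemma HB.hol_le {k : ℕ} {f : Fn n} {M : ℝ} (h : HB k f M) (x y : X n) :
    |f x - f y| ≤ M * √‖x - y‖ :=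
  (h.1.hol_le x y).trans (mul_le_mul_of_nonneg_right h.2 (Real.sqrt_nonneg _))
lemma HB.congr {k : ℕ} {f g : Fn n} {M : ℝ} (h : HB k f M) (e : ∀ x, f x = g x) : HB k g M :=
  (funext e : f = g) ▸ h
lemma Mem.congr {k : ℕ} {f g : Fn n} (h : Mem k f) (e : ∀ x, f x = g x) : Mem k g :=
  (funext e : f = g) ▸ h

lemma hb_zero {f : Fn n} {A B : ℝ} (hB : 0 ≤ B) (h1 : ∀ x, |f x| ≤ A)
    (h2 : ∀ x y, |f x - f y| ≤ B * √‖x - y‖) : HB 0 f (A + B) :=
  ⟨⟨A, B, h1, h2⟩, add_le_add (supN_le h1) (holN_le hB h2)⟩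

lemma hb_succ {k : ℕ} {f : Fn n} {A B : ℝ} (h : HB k f A) (hd : Differentiable ℝ f)
    (h' : ∀ i, HB k (pd i f) B) : HB (k + 1) f (A + n * B) := by
  refine ⟨⟨h.1, hd, fun i => (h' i).1⟩, add_le_add h.2 ?_⟩
  simpa using Finset.sum_le_sum (s := Finset.univ) fun i _ => (h' i).2

/-- `|f x - f y| ≤ min (2A) (n M d) ≤ (2A + nM) √d` (cases `d ≤ 1`, `d ≥ 1`; `abs_sub_le_of_pd`) -/
lemma hb_zero_of_pd {f : Fn n} {A M : ℝ} (hM : 0 ≤ M) (h1 : ∀ x, |f x| ≤ A)
    (hd : Differentiable ℝ f) (h2 : ∀ i x, |pd i f x| ≤ M) : HB 0 f (3 * A + n * M) := by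
  have hA : 0 ≤ A := (abs_nonneg _).trans (h1 0)
  refine (hb_zero (B := 2 * A + n * M) (by positivity) h1 fun x y => ?_).weaken (le_of_eq (by ring))
  have hs := Real.sqrt_nonneg ‖x - y‖
  rcases le_total (√‖x - y‖) 1 with h | h
  · have h3 : ‖x - y‖ ≤ √‖x - y‖ := by nlinarith [Real.mul_self_sqrt (norm_nonneg (x - y))]
    refine (abs_sub_le_of_pd hd h2 x y).trans (mul_le_mul (by linarith) h3 (norm_nonneg _) (by positivity))
  · have h3 : |f x - f y| ≤ 2 * A := (abs_sub _ _).trans (by linarith [h1 x, h1 y])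
    exact h3.trans ((le_add_of_nonneg_right (by positivity)).trans
      (le_mul_of_one_le_right (by positivity) h))

lemma holb_succ {k : ℕ} {f : Fn n} {A : ℝ} {B : Fin n → ℝ} (h : HB k f A)
    (hd : Differentiable ℝ f) (h' : ∀ i, HB k (pd i f) (B i)) : HB (k + 1) f (A + ∑ i, B i) :=
  ⟨⟨h.1, hd, fun i => (h' i).1⟩, by
    rw [hn_succ]; exact add_le_add h.2 (Finset.sum_le_sum fun i _ => (h' i).2)⟩

lemma holb_add (k : ℕ) : ∀ {f g : Fn n}, Mem k f → Mem k g →
    HB k (fun x => f x + g x) (hn k f + hn k g) := by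
  induction k with
  | zero =>
    intro f g hf hg
    have h := hb_zero (f := fun x => f x + g x) (A := supN f + supN g) (B := holN f + holN g)
      (add_nonneg (holN_nonneg f) (holN_nonneg g))
      (fun x => (abs_add_le _ _).trans (add_le_add (hf.abs_le_supN x) (hg.abs_le_supN x)))
      (fun x y => by
        have e : f x + g x - (f y + g y) = (f x - f y) + (g x - g y) := by ring
        rw [e, add_mul]
        exact (abs_add_le _ _).trans (add_le_add (hf.hol_le_holN x y) (hg.hol_le_holN x y)))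
    exact h.weaken (by rw [hn_zero, hn_zero]; linarith)
  | succ k ih =>
    intro f g hf hg
    have h := holb_succ (B := fun i => hn k (pd i f) + hn k (pd i g)) (ih hf.1 hg.1)
      (hf.diff.add hg.diff) (fun i => by
        rw [R285.pd_add i hf.diff hg.diff]; exact ih (hf.pd i) (hg.pd i))
    exact h.weaken (by rw [hn_succ, hn_succ, Finset.sum_add_distrib]; linarith)

lemma holb_mul (k : ℕ) : ∀ {f g : Fn n}, Mem k f → Mem k g →
    HB k (fun x => f x * g x) (hn k f * hn k g) := by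
  induction k with
  | zero =>
    intro f g hf hg
    have h := hb_zero (f := fun x => f x * g x) (A := supN f * supN g)
      (B := supN f * holN g + holN f * supN g)
      (add_nonneg (mul_nonneg (supN_nonneg f) (holN_nonneg g))
        (mul_nonneg (holN_nonneg f) (supN_nonneg g)))
      (fun x => by
        rw [abs_mul]
        exact mul_le_mul (hf.abs_le_supN x) (hg.abs_le_supN x) (abs_nonneg _) (supN_nonneg f))
      (fun x y => by
        have e : f x * g x - f y * g y = f x * (g x - g y) + (f x - f y) * g y := by ring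
        rw [e]
        refine (abs_add_le _ _).trans ?_
        rw [abs_mul, abs_mul]
        have h1 := mul_le_mul (hf.abs_le_supN x) (hg.hol_le_holN x y) (abs_nonneg _)
          (supN_nonneg f)
        have h2 := mul_le_mul (hf.hol_le_holN x y) (hg.abs_le_supN y) (abs_nonneg _)
          (mul_nonneg (holN_nonneg f) (Real.sqrt_nonneg _))
        linarith)
    refine h.weaken ?_
    rw [hn_zero, hn_zero]
    have := mul_nonneg (holN_nonneg f) (holN_nonneg g)
    linarith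
  | succ k ih =>
    intro f g hf hg
    have h := holb_succ (B := fun i => hn k (pd i f) * hn k g + hn k f * hn k (pd i g))
      (ih hf.1 hg.1) (hf.diff.mul hg.diff) (fun i => by
        rw [R285.pd_mul i hf.diff hg.diff]
        have h1 := ih (hf.pd i) hg.1
        have h2 := ih hf.1 (hg.pd i)
        exact (holb_add k h1.1 h2.1).weaken (add_le_add h1.2 h2.2))
    refine h.weaken ?_
    rw [hn_succ, hn_succ, Finset.sum_add_distrib, ← Finset.sum_mul, ← Finset.mul_sum]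
    have := mul_nonneg (Finset.sum_nonneg fun i (_ : i ∈ Finset.univ) => hn_nonneg k (pd i f))
      (Finset.sum_nonneg fun i (_ : i ∈ Finset.univ) => hn_nonneg k (pd i g))
    linarith

lemma HB.const (k : ℕ) (c : ℝ) : HB k (fun _ : X n => c) |c| := by
  induction k generalizing c with
  | zero =>
    simpa using hb_zero (f := fun _ : X n => c) (A := |c|) (B := 0) le_rfl (fun _ => le_rfl)
      (fun x y => by simp)
  | succ k ih =>
    simpa using holb_succ (B := fun _ => 0) (ih c) (differentiable_const c) (fun i => by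
      rw [R285.pd_const]; simpa using ih 0)
lemma HB.add {k : ℕ} {f g : Fn n} {M N : ℝ} (hf : HB k f M) (hg : HB k g N) :
    HB k (fun x => f x + g x) (M + N) :=
  (holb_add k hf.1 hg.1).weaken (add_le_add hf.2 hg.2)
lemma HB.cmul {k : ℕ} {f : Fn n} {M : ℝ} (c : ℝ) (hf : HB k f M) :
    HB k (fun x => c * f x) (|c| * M) :=
  (holb_mul k (HB.const k c).1 hf.1).weaken
    (mul_le_mul (HB.const k c).2 hf.2 (hn_nonneg _ _) (abs_nonneg c))
/-- submultiplicativity: `[fg] ≤ sup|f| [g] + [f] sup|g|`; step: `∂(fg) = ∂f g + f ∂g` and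
`hn k f * hn k g + ∑ (hn k ∂f * hn k g + hn k f * hn k ∂g) ≤ hn (k+1) f * hn (k+1) g` -/
lemma HB.mul {k : ℕ} {f g : Fn n} {M N : ℝ} (hf : HB k f M) (hg : HB k g N) :
    HB k (fun x => f x * g x) (M * N) :=
  (holb_mul k hf.1 hg.1).weaken (mul_le_mul hf.2 hg.2 (hn_nonneg _ _) hf.nonneg)
lemma HB.neg {k : ℕ} {f : Fn n} {M : ℝ} (hf : HB k f M) : HB k (fun x => -f x) M := by
  simpa using hf.cmul (-1)
lemma HB.sub {k : ℕ} {f g : Fn n} {M N : ℝ} (hf : HB k f M) (hg : HB k g N) :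
    HB k (fun x => f x - g x) (M + N) := by
  simpa only [sub_eq_add_neg] using hf.add hg.neg
lemma HB.fsum {k : ℕ} {I : Type} (s : Finset I) {f : I → Fn n} {M : I → ℝ}
    (hf : ∀ i ∈ s, HB k (f i) (M i)) : HB k (fun x => ∑ i ∈ s, f i x) (∑ i ∈ s, M i) := by
  classical
  induction s using Finset.induction_on with
  | empty => simpa using HB.const (n := n) k 0
  | insert a s ha ih =>
    simp only [Finset.sum_insert ha]
    exact (hf a (Finset.mem_insert_self a s)).add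
      (ih fun i hi => hf i (Finset.mem_insert_of_mem hi))
lemma HB.sum {k : ℕ} {I : Type} [Fintype I] {f : I → Fn n} {M : I → ℝ}
    (hf : ∀ i, HB k (f i) (M i)) : HB k (fun x => ∑ i, f i x) (∑ i, M i) :=
  HB.fsum _ fun i _ => hf i
/-- sum over `Fin n` with a common bound -/
lemma HB.nsum {k : ℕ} {f : Fin n → Fn n} {M : ℝ} (hf : ∀ i, HB k (f i) M) :
    HB k (fun x => ∑ i, f i x) (n * M) := by
  simpa using HB.sum hf
lemma holb_affine {c : ℝ} (hc : |c| ≤ 1) (z : X n) (k : ℕ) : ∀ {f : Fn n}, Mem k f →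
    HB k (fun x => f (c • x + z)) (hn k f) := by
  induction k with
  | zero =>
    intro f hf
    refine hb_zero (holN_nonneg f) (fun x => hf.abs_le_supN _) fun x y => ?_
    refine (hf.hol_le_holN _ _).trans (mul_le_mul_of_nonneg_left (Real.sqrt_le_sqrt ?_)
      (holN_nonneg f))
    have e : c • x + z - (c • y + z) = c • (x - y) := by rw [smul_sub]; abel
    rw [e, norm_smul, Real.norm_eq_abs]
    exact mul_le_of_le_one_left (norm_nonneg _) hc
  | succ k ih =>
    intro f hf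
    have hd : Differentiable ℝ fun x : X n => f (c • x + z) :=
      hf.diff.comp ((differentiable_id.const_smul c).add_const z)
    exact holb_succ (B := fun i => hn k (pd i f)) (ih hf.1) hd (fun i => by
      rw [pd_affine i hf.diff]
      exact ((ih (hf.pd i)).cmul c).weaken (mul_le_of_le_one_left (hn_nonneg _ _) hc))
/-- contraction and translation of the argument do not increase the norm (`pd_affine`) -/
lemma HB.affine {k : ℕ} {f : Fn n} {M : ℝ} (hf : HB k f M) {c : ℝ} (hc : |c| ≤ 1) (z : X n) :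
    HB k (fun x => f (c • x + z)) M :=
  (holb_affine hc z k hf.1).weaken hf.2
lemma HB.neg_arg {k : ℕ} {f : Fn n} {M : ℝ} (hf : HB k f M) : HB k (fun x => f (-x)) M := by
  simpa using hf.affine (c := -1) (by simp) 0

lemma Mem.const (k : ℕ) (c : ℝ) : Mem k (fun _ : X n => c) := (HB.const k c).1
lemma Mem.add {k : ℕ} {f g : Fn n} (hf : Mem k f) (hg : Mem k g) : Mem k fun x => f x + g x :=
  (hf.hb.add hg.hb).1
lemma Mem.sub {k : ℕ} {f g : Fn n} (hf : Mem k f) (hg : Mem k g) : Mem k fun x => f x - g x :=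
  (hf.hb.sub hg.hb).1
lemma Mem.neg {k : ℕ} {f : Fn n} (hf : Mem k f) : Mem k fun x => -f x := hf.hb.neg.1
lemma Mem.mul {k : ℕ} {f g : Fn n} (hf : Mem k f) (hg : Mem k g) : Mem k fun x => f x * g x :=
  (hf.hb.mul hg.hb).1
lemma Mem.cmul {k : ℕ} {f : Fn n} (c : ℝ) (hf : Mem k f) : Mem k fun x => c * f x :=
  (hf.hb.cmul c).1
lemma Mem.sum {k : ℕ} {I : Type} [Fintype I] {f : I → Fn n} (hf : ∀ i, Mem k (f i)) :
    Mem k fun x => ∑ i, f i x := (HB.sum fun i => (hf i).hb).1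
lemma Mem.neg_arg {k : ℕ} {f : Fn n} (hf : Mem k f) : Mem k fun x => f (-x) := hf.hb.neg_arg.1
lemma Mem.eq_zero {k : ℕ} {f : Fn n} (hf : Mem k f) (h : hn k f ≤ 0) (x : X n) : f x = 0 :=
  abs_nonpos_iff.1 ((hf.abs_le x).trans h)

lemma HB.d2 {k : ℕ} {f : Fn n} {M : ℝ} (h : HB (k + 2) f M) (i j : Fin n) : HB k (d2 f i j) M :=
  (h.pd j).pd i
lemma Mem.d2 {k : ℕ} {f : Fn n} (h : Mem (k + 2) f) (i j : Fin n) : Mem k (d2 f i j) :=
  (h.pd j).pd i

/-- `τ : D²h` -/
lemma HB.trD2 {k : ℕ} {τ : MF n} {h : Fn n} {B M : ℝ} (hτ : ∀ a b, HB k (τ a b) B)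
    (hh : HB (k + 2) h M) : HB k (fun x => ∑ a, ∑ b, τ a b x * R238.d2 h a b x) (n * (n * (B * M))) :=
  HB.nsum fun a => HB.nsum fun b => (hτ a b).mul (hh.d2 a b)

lemma ell_idM : Ell 1 (idM : MF n) := by
  refine ⟨fun a b x => by simp only [idM, eq_comm], fun x ξ => le_of_eq ?_⟩
  simp [qf, ssq, idM, sq]
lemma coef_idM (k : ℕ) : Coef k 1 1 (idM : MF n) := by
  refine ⟨ell_idM, fun a b => (HB.const k (if a = b then 1 else 0)).weaken ?_⟩
  split_ifs <;> simp
lemma Ell.psd {κ : ℝ} {τ : MF n} (h : Ell κ τ) (hκ : 0 ≤ κ) (x : X n) (ξ : Fin n → ℝ) :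
    0 ≤ qf (fun a b => τ a b x) ξ :=
  (mul_nonneg hκ (ssq_nonneg ξ)).trans (h.lb x ξ)
lemma Ell.weaken {κ κ' : ℝ} {τ : MF n} (h : Ell κ τ) (hκ : κ' ≤ κ) : Ell κ' τ :=
  ⟨h.symm, fun x ξ => (mul_le_mul_of_nonneg_right hκ (ssq_nonneg ξ)).trans (h.lb x ξ)⟩
lemma Coef.mono {k l : ℕ} {κ B : ℝ} {τ : MF n} (h : Coef l κ B τ) (hkl : k ≤ l) : Coef k κ B τ :=
  ⟨h.ell, fun a b => (h.hb a b).mono hkl⟩

end Crest.Agent.R238
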