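import Crest.Agent.R238.Calc

/-!
# Row 238 (S0369): Tens
Linear algebra: quadratic forms, inverse matrices, and the contractions `ip2`, `ip3`.
Convenient model: `T = b bᵀ` (`exists_sqrt`), then `ip2 T e f = ∑ ẽ f̃` and `ip3 T z w = ∑ z̃ w̃` with the
transformed arrays (`ip2_eq_sqrt`, `ip3_eq_sqrt`).
-/

set_option autoImplicit false
set_option linter.unusedVariables false

open MeasureTheory Filter Topology Matrix
open Crest.Agent.R285 (bas pd gibbs WPot PolyB SConv)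

noncomputable section

namespace Crest.Agent.R238

variable {n : ℕ}

lemma tensa_qf_eq (A : A2 n) (ξ : Fin n → ℝ) : qf A ξ = ∑ a, ξ a * ∑ b, A a b * ξ b := by
  unfold qf
  refine Finset.sum_congr rfl fun a _ => ?_
  rw [Finset.mul_sum]
  exact Finset.sum_congr rfl fun b _ => by ring

lemma tensa_bil_eq (A : A2 n) (ξ ζ : Fin n → ℝ) :
    ∑ a, ∑ b, A a b * ξ a * ζ b = ∑ a, ξ a * ∑ b, A a b * ζ b := by
  refine Finset.sum_congr rfl fun a _ => ?_
  rw [Finset.mul_sum]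
  exact Finset.sum_congr rfl fun b _ => by ring

lemma tensa_qf_dot (A : A2 n) (ξ : Fin n → ℝ) :
    star ξ ⬝ᵥ (Matrix.of A *ᵥ ξ) = qf A ξ := by
  rw [tensa_qf_eq]
  rfl

lemma tensa_herm {A : A2 n} (hs : ∀ a b, A a b = A b a) : (Matrix.of A).IsHermitian := by
  ext i j
  simp [hs i j]

lemma tensa_ssq_nonneg (ξ : Fin n → ℝ) : 0 ≤ ssq ξ := Finset.sum_nonneg fun _ _ => sq_nonneg _

lemma tensa_ssq_single (i : Fin n) : ssq (Pi.single i (1 : ℝ)) = 1 := by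
  simp [ssq, Pi.single_apply]

lemma tensa_qf_smul (A : A2 n) (t : ℝ) (ξ : Fin n → ℝ) :
    qf A (fun a => t * ξ a) = t ^ 2 * qf A ξ := by
  unfold qf
  simp only [Finset.mul_sum]
  exact Finset.sum_congr rfl fun a _ => Finset.sum_congr rfl fun b _ => by ring

/-- `T (H ξ) = ξ` -/
lemma tensa_mul_inv {T H : A2 n} (h : ∀ i j, ∑ a, T i a * H a j = if i = j then 1 else 0)
    (ξ : Fin n → ℝ) (i : Fin n) : ∑ b, T i b * ∑ c, H b c * ξ c = ξ i := by
  calc ∑ b, T i b * ∑ c, H b c * ξ c = ∑ c, (∑ b, T i b * H b c) * ξ c := by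
        simp only [Finset.mul_sum, Finset.sum_mul]
        rw [Finset.sum_comm]
        exact Finset.sum_congr rfl fun a _ => Finset.sum_congr rfl fun b _ => by ring
    _ = ξ i := by simp [h]

lemma tensa_two_bil_le {A : A2 n} (hs : ∀ a b, A a b = A b a) (h0 : ∀ ξ, 0 ≤ qf A ξ)
    (ξ ζ : Fin n → ℝ) : 2 * ∑ a, ∑ b, A a b * ξ a * ζ b ≤ qf A ξ + qf A ζ := by
  have h1 := h0 fun a => ξ a - ζ a
  have h2 : ∑ a, ∑ b, A a b * ζ a * ξ b = ∑ a, ∑ b, A a b * ξ a * ζ b := by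
    rw [Finset.sum_comm]
    exact Finset.sum_congr rfl fun a _ => Finset.sum_congr rfl fun b _ => by rw [hs b a]; ring
  have h3 : qf A (fun a => ξ a - ζ a) = qf A ξ + qf A ζ - ∑ a, ∑ b, A a b * ξ a * ζ b -
      ∑ a, ∑ b, A a b * ζ a * ξ b := by
    unfold qf
    simp only [← Finset.sum_add_distrib, ← Finset.sum_sub_distrib]
    exact Finset.sum_congr rfl fun a _ => Finset.sum_congr rfl fun b _ => by ring
  linarith

lemma qf_single (A : A2 n) (i : Fin n) : qf A (Pi.single i 1) = A i i := by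
  simp [qf, Pi.single_apply]

/-- entries of a positive semidefinite symmetric array bounded by `C` (test with `e_i ± e_j`) -/
lemma abs_entry_le {A : A2 n} {C : ℝ} (hs : ∀ a b, A a b = A b a) (h0 : ∀ ξ, 0 ≤ qf A ξ)
    (h1 : ∀ ξ, qf A ξ ≤ C * ssq ξ) (i j : Fin n) : |A i j| ≤ C := by
  have hd : ∀ k, A k k ≤ C := fun k => by
    have := h1 (Pi.single k 1)
    rwa [qf_single, tensa_ssq_single, mul_one] at this
  have h2 := tensa_two_bil_le hs h0 (Pi.single i 1) (Pi.single j 1)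
  have h3 := tensa_two_bil_le hs h0 (Pi.single i 1) fun a => (-1) * (Pi.single j (1 : ℝ) : Fin n → ℝ) a
  rw [tensa_qf_smul] at h3
  rw [qf_single, qf_single] at h2 h3
  have e1 : ∑ a, ∑ b, A a b * (Pi.single i (1 : ℝ) : Fin n → ℝ) a *
      (Pi.single j (1 : ℝ) : Fin n → ℝ) b = A i j := by
    simp [Pi.single_apply]
  have e2 : ∑ a, ∑ b, A a b * (Pi.single i (1 : ℝ) : Fin n → ℝ) a *
      ((-1) * (Pi.single j (1 : ℝ) : Fin n → ℝ) b) = -A i j := by
    simp [Pi.single_apply]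
  rw [e1] at h2
  rw [e2] at h3
  rw [abs_le]
  constructor <;> linarith [hd i, hd j]

lemma abs_qf_le {A : A2 n} {B : ℝ} (h : ∀ a b, |A a b| ≤ B) (ξ : Fin n → ℝ) :
    |qf A ξ| ≤ n * B * ssq ξ := by
  have h1 : ∀ a b, |A a b * ξ a * ξ b| ≤ B / 2 * (ξ a ^ 2 + ξ b ^ 2) := fun a b => by
    have hB : 0 ≤ B := (abs_nonneg _).trans (h a b)
    have h2 : |ξ a * ξ b| ≤ (ξ a ^ 2 + ξ b ^ 2) / 2 := by
      rw [abs_le]
      constructor <;> nlinarith [sq_nonneg (ξ a + ξ b), sq_nonneg (ξ a - ξ b)]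
    rw [mul_assoc, abs_mul]
    calc |A a b| * |ξ a * ξ b| ≤ B * ((ξ a ^ 2 + ξ b ^ 2) / 2) :=
          mul_le_mul (h a b) h2 (abs_nonneg _) hB
      _ = _ := by ring
  calc |qf A ξ| ≤ ∑ a, ∑ b, B / 2 * (ξ a ^ 2 + ξ b ^ 2) :=
        (Finset.abs_sum_le_sum_abs _ _).trans (Finset.sum_le_sum fun a _ =>
          (Finset.abs_sum_le_sum_abs _ _).trans (Finset.sum_le_sum fun b _ => h1 a b))
    _ = n * B * ssq ξ := by
        simp only [← Finset.mul_sum, Finset.sum_add_distrib, Finset.sum_const, Finset.card_univ,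
          Fintype.card_fin, nsmul_eq_mul, ssq]
        ring

/-- Cauchy–Schwarz for a positive semidefinite form, AM-GM version -/
lemma two_bil_le {A : A2 n} (hs : ∀ a b, A a b = A b a) (h0 : ∀ ξ, 0 ≤ qf A ξ) (ξ ζ : Fin n → ℝ) :
    2 * ∑ a, ∑ b, A a b * ξ a * ζ b ≤ qf A ξ + qf A ζ := by
  exact tensa_two_bil_le hs h0 ξ ζ

/-- square root of a symmetric positive semidefinite array -/
lemma exists_sqrt {A : A2 n} (hs : ∀ a b, A a b = A b a) (h0 : ∀ ξ, 0 ≤ qf A ξ) :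
    ∃ b : Matrix (Fin n) (Fin n) ℝ, ∀ i j, A i j = ∑ m, b i m * b j m := by
  have hp : (Matrix.of A).PosSemidef :=
    .of_dotProduct_mulVec_nonneg (tensa_herm hs) fun ξ => by rw [tensa_qf_dot]; exact h0 ξ
  open MatrixOrder in
  obtain ⟨B, hB⟩ := CStarAlgebra.nonneg_iff_eq_star_mul_self.mp hp.nonneg
  refine ⟨Bᵀ, fun i j => ?_⟩
  have := congrFun (congrFun hB i) j
  simpa [Matrix.mul_apply, Matrix.star_apply] using this

/-- a left inverse is a right inverse (`Matrix.mul_eq_one_comm`) -/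
lemma inv_right {T H : A2 n} (h : ∀ i j, ∑ a, T i a * H a j = if i = j then 1 else 0) (i j : Fin n) :
    ∑ a, H i a * T a j = if i = j then 1 else 0 := by
  have h1 : Matrix.of T * Matrix.of H = 1 := by
    ext i j
    simp [Matrix.mul_apply, h, Matrix.one_apply]
  have h3 : Matrix.of H * Matrix.of T = 1 := mul_eq_one_comm.1 h1
  have h2 := congrFun (congrFun h3 i) j
  simpa [Matrix.mul_apply, Matrix.one_apply] using h2

lemma inv_symm {T H : A2 n} (h : ∀ i j, ∑ a, T i a * H a j = if i = j then 1 else 0)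
    (hs : ∀ a b, H a b = H b a) (i j : Fin n) : T i j = T j i := by
  have h1 := tensa_mul_inv h (fun c => T j c) i
  have h2 : ∀ b, ∑ c, H b c * T j c = if j = b then 1 else 0 := fun b => by
    rw [← h j b]
    exact Finset.sum_congr rfl fun c _ => by rw [hs b c]; ring
  simpa [h2] using h1

/-- `H ≤ C ⇒ T ≥ C⁻¹` for `T H = 1`, `T ≥ 0`: `2 |ξ|² t = 2 T(ξ, t H ξ) ≤ T ξξ + t² Hξξ`, `t = C⁻¹` -/
lemma inv_lower {T H : A2 n} {C : ℝ} (hC : 0 < C) (hs : ∀ a b, T a b = T b a) (h0 : ∀ ξ, 0 ≤ qf T ξ)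
    (h : ∀ i j, ∑ a, T i a * H a j = if i = j then 1 else 0) (h1 : ∀ ξ, qf H ξ ≤ C * ssq ξ)
    (ξ : Fin n → ℝ) : C⁻¹ * ssq ξ ≤ qf T ξ := by
  have h2 := tensa_two_bil_le hs h0 (fun a => C * ξ a) fun a => ∑ c, H a c * ξ c
  have h3 : qf T (fun a => ∑ c, H a c * ξ c) = qf H ξ := by
    rw [tensa_qf_eq, tensa_qf_eq]
    exact Finset.sum_congr rfl fun a _ => by rw [tensa_mul_inv h, mul_comm]
  have h4 : ∑ a, C * ξ a * ∑ b, T a b * ∑ c, H b c * ξ c = C * ssq ξ := by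
    rw [ssq, Finset.mul_sum]
    exact Finset.sum_congr rfl fun a _ => by rw [tensa_mul_inv h]; ring
  rw [tensa_bil_eq, h3, h4, tensa_qf_smul] at h2
  have h5 := h1 ξ
  rw [inv_mul_le_iff₀ hC]
  refine le_of_mul_le_mul_left ?_ hC
  nlinarith

/-- `H ≥ c ⇒ T ≤ c⁻¹` for `T H = 1`: with `η = T ξ`, `T ξξ = ξ·η = H ηη ≥ c |η|²` -/
lemma inv_upper {T H : A2 n} {c : ℝ} (hc : 0 < c) (hs : ∀ a b, H a b = H b a)
    (h : ∀ i j, ∑ a, T i a * H a j = if i = j then 1 else 0) (h1 : ∀ ξ, c * ssq ξ ≤ qf H ξ)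
    (ξ : Fin n → ℝ) : 0 ≤ qf T ξ ∧ qf T ξ ≤ c⁻¹ * ssq ξ := by
  have h3 : qf H (fun a => ∑ b, T a b * ξ b) = qf T ξ := by
    rw [tensa_qf_eq, tensa_qf_eq]
    exact Finset.sum_congr rfl fun a _ => by rw [tensa_mul_inv (inv_right h), mul_comm]
  have h4 := h1 fun a => ∑ b, T a b * ξ b
  rw [h3] at h4
  have h5 := tensa_ssq_nonneg fun a => ∑ b, T a b * ξ b
  refine ⟨le_trans (by positivity) h4, ?_⟩
  have h6 : 2 * c * qf T ξ ≤ ssq ξ + c ^ 2 * ssq fun a => ∑ b, T a b * ξ b := by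
    rw [tensa_qf_eq, ssq, ssq, Finset.mul_sum, Finset.mul_sum, ← Finset.sum_add_distrib]
    exact Finset.sum_le_sum fun a _ => by nlinarith [sq_nonneg (ξ a - c * ∑ b, T a b * ξ b)]
  rw [le_inv_mul_iff₀ hc]
  nlinarith

/-- a positive definite array has an inverse, and positive determinant (`Matrix.PosDef`) -/
lemma exists_inv {H : A2 n} {c : ℝ} (hc : 0 < c) (hs : ∀ a b, H a b = H b a)
    (h1 : ∀ ξ, c * ssq ξ ≤ qf H ξ) :
    0 < (Matrix.of H).det ∧ ∀ i j, ∑ a, (Matrix.of H)⁻¹ i a * H a j = if i = j then 1 else 0 := by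
  have hp : (Matrix.of H).PosDef := by
    refine .of_dotProduct_mulVec_pos (tensa_herm hs) fun ξ hξ => ?_
    rw [tensa_qf_dot]
    refine lt_of_lt_of_le (mul_pos hc ?_) (h1 ξ)
    obtain ⟨a, ha⟩ := Function.ne_iff.1 hξ
    exact Finset.sum_pos' (fun _ _ => sq_nonneg _) ⟨a, Finset.mem_univ _, sq_pos_of_ne_zero ha⟩
  refine ⟨hp.det_pos, fun i j => ?_⟩
  have h2 := congrFun (congrFun (Matrix.nonsing_inv_mul (Matrix.of H) hp.det_pos.ne'.isUnit) i) j
  simpa [Matrix.mul_apply, Matrix.one_apply] using h2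

/-- `|T ξ|² ≥ (T ξξ)²` for a unit vector, and the two comparisons between `|T ξ|²` and `T ξξ` -/
lemma sq_qf_le (T : A2 n) (ξ : Fin n → ℝ) :
    qf T ξ ^ 2 ≤ ssq ξ * ssq fun a => ∑ b, T a b * ξ b := by
  rw [tensa_qf_eq]
  exact Finset.sum_mul_sq_le_sq_mul_sq _ _ _

lemma ssq_mul_le {T : A2 n} {C : ℝ} (hs : ∀ a b, T a b = T b a) (h0 : ∀ ξ, 0 ≤ qf T ξ)
    (h1 : ∀ ξ, qf T ξ ≤ C * ssq ξ) (ξ : Fin n → ℝ) :
    (ssq fun a => ∑ b, T a b * ξ b) ≤ C * qf T ξ := by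
  rcases le_or_gt C 0 with hC | hC
  · have h2 : ∀ a b, T a b = 0 := fun a b =>
      abs_nonpos_iff.1 ((abs_entry_le hs h0 h1 a b).trans hC)
    simp [ssq, qf, h2]
  · have h2 := tensa_two_bil_le hs h0 (fun a => ∑ b, T a b * ξ b) fun a => C * ξ a
    have h3 : ∑ a, (∑ b, T a b * ξ b) * ∑ b, T a b * (C * ξ b) =
        C * ssq fun a => ∑ b, T a b * ξ b := by
      rw [ssq, Finset.mul_sum]
      refine Finset.sum_congr rfl fun a _ => ?_
      have : ∑ b, T a b * (C * ξ b) = C * ∑ b, T a b * ξ b := by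
        rw [Finset.mul_sum]
        exact Finset.sum_congr rfl fun b _ => by ring
      rw [this]
      ring
    rw [tensa_bil_eq, h3, tensa_qf_smul] at h2
    have h4 := h1 fun a => ∑ b, T a b * ξ b
    refine le_of_mul_le_mul_left ?_ hC
    nlinarith

/-! ## Contractions -/

lemma tensb_gen {ι κ : Type} [Fintype ι] [Fintype κ] (B : ι → κ → ℝ) (e f : ι → ℝ) :
    ∑ I, ∑ A, (∑ P, B I P * B A P) * e I * f A = ∑ P, (∑ I, B I P * e I) * ∑ A, B A P * f A := by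
  simp only [Finset.sum_mul_sum]
  simp only [Finset.sum_mul]
  symm
  rw [Finset.sum_comm]
  refine Finset.sum_congr rfl fun I _ => ?_
  rw [Finset.sum_comm]
  exact Finset.sum_congr rfl fun A _ => Finset.sum_congr rfl fun P _ => by ring

lemma tensb_ip2 (T e f : A2 n) : ip2 T e f = ∑ I : Fin n × Fin n, ∑ A : Fin n × Fin n,
    T I.1 A.1 * T I.2 A.2 * e I.1 I.2 * f A.1 A.2 := by
  simp only [ip2, Fintype.sum_prod_type]

lemma tensb_ip3 (T : A2 n) (z w : A3 n) : ip3 T z w =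
    ∑ I : Fin n × Fin n × Fin n, ∑ A : Fin n × Fin n × Fin n,
      T I.1 A.1 * T I.2.1 A.2.1 * T I.2.2 A.2.2 * z I.1 I.2.1 I.2.2 * w A.1 A.2.1 A.2.2 := by
  simp only [ip3, Fintype.sum_prod_type]

lemma ip2_eq_sqrt {T : A2 n} {b : Matrix (Fin n) (Fin n) ℝ} (hb : ∀ i j, T i j = ∑ m, b i m * b j m)
    (e f : A2 n) : ip2 T e f =
      ∑ p, ∑ q, (∑ i, ∑ j, b i p * b j q * e i j) * (∑ i, ∑ j, b i p * b j q * f i j) := by
  have h := tensb_gen (fun (I P : Fin n × Fin n) => b I.1 P.1 * b I.2 P.2) (fun I => e I.1 I.2)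
    (fun I => f I.1 I.2)
  rw [tensb_ip2]
  refine Eq.trans ?_ (h.trans ?_)
  · refine Finset.sum_congr rfl fun I _ => Finset.sum_congr rfl fun A _ => ?_
    rw [hb, hb, Finset.sum_mul_sum, Fintype.sum_prod_type]
    congr 2
    exact Finset.sum_congr rfl fun p _ => Finset.sum_congr rfl fun q _ => by ring
  · simp only [Fintype.sum_prod_type]

lemma ip3_eq_sqrt {T : A2 n} {b : Matrix (Fin n) (Fin n) ℝ} (hb : ∀ i j, T i j = ∑ m, b i m * b j m)
    (z w : A3 n) : ip3 T z w = ∑ p, ∑ q, ∑ r,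
      (∑ i, ∑ j, ∑ k, b i p * b j q * b k r * z i j k) *
        (∑ i, ∑ j, ∑ k, b i p * b j q * b k r * w i j k) := by
  have h := tensb_gen (fun (I P : Fin n × Fin n × Fin n) => b I.1 P.1 * b I.2.1 P.2.1 * b I.2.2 P.2.2)
    (fun I => z I.1 I.2.1 I.2.2) (fun I => w I.1 I.2.1 I.2.2)
  rw [tensb_ip3]
  refine Eq.trans ?_ (h.trans ?_)
  · refine Finset.sum_congr rfl fun I _ => Finset.sum_congr rfl fun A _ => ?_
    rw [hb, hb, hb, mul_assoc (∑ m, b I.1 m * b A.1 m), Finset.sum_mul_sum (f := fun m => b I.2.1 m * b A.2.1 m),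
      Finset.sum_mul, Fintype.sum_prod_type]
    congr 2
    refine Finset.sum_congr rfl fun p _ => ?_
    rw [Fintype.sum_prod_type, Finset.mul_sum]
    refine Finset.sum_congr rfl fun q _ => ?_
    rw [Finset.mul_sum]
    exact Finset.sum_congr rfl fun r _ => by ring
  · simp only [Fintype.sum_prod_type]

lemma ip2_symm {T : A2 n} (hs : ∀ a b, T a b = T b a) (e f : A2 n) : ip2 T e f = ip2 T f e := by
  rw [tensb_ip2, tensb_ip2, Finset.sum_comm]
  refine Finset.sum_congr rfl fun I _ => Finset.sum_congr rfl fun A _ => ?_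
  rw [hs A.1, hs A.2]; ring

lemma ip3_symm {T : A2 n} (hs : ∀ a b, T a b = T b a) (z w : A3 n) : ip3 T z w = ip3 T w z := by
  rw [tensb_ip3, tensb_ip3, Finset.sum_comm]
  refine Finset.sum_congr rfl fun I _ => Finset.sum_congr rfl fun A _ => ?_
  rw [hs A.1, hs A.2.1, hs A.2.2]; ring

lemma ip2_nonneg {T : A2 n} (hs : ∀ a b, T a b = T b a) (h0 : ∀ ξ, 0 ≤ qf T ξ) (e : A2 n) :
    0 ≤ ip2 T e e := by
  obtain ⟨b, hb⟩ := exists_sqrt hs h0
  rw [ip2_eq_sqrt hb]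
  exact Finset.sum_nonneg fun _ _ => Finset.sum_nonneg fun _ _ => mul_self_nonneg _

lemma ip3_nonneg {T : A2 n} (hs : ∀ a b, T a b = T b a) (h0 : ∀ ξ, 0 ≤ qf T ξ) (z : A3 n) :
    0 ≤ ip3 T z z := by
  obtain ⟨b, hb⟩ := exists_sqrt hs h0
  rw [ip3_eq_sqrt hb]
  exact Finset.sum_nonneg fun _ _ => Finset.sum_nonneg fun _ _ => Finset.sum_nonneg fun _ _ =>
    mul_self_nonneg _

lemma tensb_am (x y : ℝ) : 2 * (x * y) ≤ x * x + y * y := by nlinarith [sq_nonneg (x - y)]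

lemma tensb_am' (x y : ℝ) : 2 * (x * y) ≤ x * x / 2 + 2 * (y * y) := by
  nlinarith [sq_nonneg (x - 2 * y)]

lemma two_ip2_le {T : A2 n} (hs : ∀ a b, T a b = T b a) (h0 : ∀ ξ, 0 ≤ qf T ξ) (e f : A2 n) :
    2 * ip2 T e f ≤ ip2 T e e + ip2 T f f := by
  obtain ⟨b, hb⟩ := exists_sqrt hs h0
  rw [ip2_eq_sqrt hb, ip2_eq_sqrt hb, ip2_eq_sqrt hb, Finset.mul_sum, ← Finset.sum_add_distrib]
  refine Finset.sum_le_sum fun p _ => ?_
  rw [Finset.mul_sum, ← Finset.sum_add_distrib]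
  exact Finset.sum_le_sum fun q _ => tensb_am _ _

/-- weighted AM-GM -/
lemma two_ip3_le {T : A2 n} (hs : ∀ a b, T a b = T b a) (h0 : ∀ ξ, 0 ≤ qf T ξ) (z w : A3 n) :
    2 * ip3 T z w ≤ ip3 T z z / 2 + 2 * ip3 T w w := by
  obtain ⟨b, hb⟩ := exists_sqrt hs h0
  rw [ip3_eq_sqrt hb, ip3_eq_sqrt hb, ip3_eq_sqrt hb, Finset.mul_sum, Finset.mul_sum, Finset.sum_div,
    ← Finset.sum_add_distrib]
  refine Finset.sum_le_sum fun p _ => ?_
  rw [Finset.mul_sum, Finset.mul_sum, Finset.sum_div, ← Finset.sum_add_distrib]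
  refine Finset.sum_le_sum fun q _ => ?_
  rw [Finset.mul_sum, Finset.mul_sum, Finset.sum_div, ← Finset.sum_add_distrib]
  exact Finset.sum_le_sum fun r _ => tensb_am' _ _

lemma tensb_qf {T : A2 n} {b : Matrix (Fin n) (Fin n) ℝ} (hb : ∀ i j, T i j = ∑ m, b i m * b j m)
    (ξ : Fin n → ℝ) : qf T ξ = ∑ p, (∑ i, b i p * ξ i) * ∑ i, b i p * ξ i := by
  rw [← tensb_gen]
  exact Finset.sum_congr rfl fun i _ => Finset.sum_congr rfl fun j _ => by rw [hb]

lemma tensb_psd {T : A2 n} {κ : ℝ} (hκ : 0 ≤ κ) (h1 : ∀ ξ, κ * ssq ξ ≤ qf T ξ) (ξ : Fin n → ℝ) :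
    0 ≤ qf T ξ :=
  (mul_nonneg hκ (Finset.sum_nonneg fun _ _ => sq_nonneg _)).trans (h1 ξ)

/-- one contraction at a time -/
lemma tensb_step {ι : Type} [Fintype ι] {b : Matrix (Fin n) (Fin n) ℝ} {κ : ℝ}
    (h : ∀ ξ, κ * ssq ξ ≤ ∑ p, (∑ i, b i p * ξ i) * ∑ i, b i p * ξ i) (η : Fin n → ι → ℝ) :
    κ * ∑ i, ∑ Q, η i Q * η i Q ≤ ∑ p, ∑ Q, (∑ i, b i p * η i Q) * ∑ i, b i p * η i Q := by
  rw [Finset.sum_comm, Finset.sum_comm (f := fun p Q => (∑ i, b i p * η i Q) * ∑ i, b i p * η i Q),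
    Finset.mul_sum]
  refine Finset.sum_le_sum fun Q _ => ?_
  simpa only [ssq, sq] using h fun i => η i Q

/-- lower bounds: `T = κ I + T'` with `T' ≥ 0`; or iterate: for fixed other indices use
`κ |ξ|² ≤ T ξξ` on the `b`-transformed array -/
lemma ip2_lower {T : A2 n} {κ : ℝ} (hκ : 0 ≤ κ) (hs : ∀ a b, T a b = T b a)
    (h1 : ∀ ξ, κ * ssq ξ ≤ qf T ξ) (e : A2 n) : κ ^ 2 * ∑ i, ∑ j, e i j ^ 2 ≤ ip2 T e e := by
  obtain ⟨b, hb⟩ := exists_sqrt hs (tensb_psd hκ h1)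
  have h : ∀ ξ, κ * ssq ξ ≤ ∑ p, (∑ i, b i p * ξ i) * ∑ i, b i p * ξ i := fun ξ =>
    tensb_qf hb ξ ▸ h1 ξ
  have h2 := tensb_step h fun i q => ∑ j, b j q * e i j
  rw [ip2_eq_sqrt hb]
  simp only [mul_assoc, ← Finset.mul_sum]
  refine le_trans ?_ h2
  rw [sq, mul_assoc, Finset.mul_sum]
  exact mul_le_mul_of_nonneg_left (Finset.sum_le_sum fun i _ => h (e i)) hκ

lemma ip3_lower {T : A2 n} {κ : ℝ} (hκ : 0 ≤ κ) (hs : ∀ a b, T a b = T b a)
    (h1 : ∀ ξ, κ * ssq ξ ≤ qf T ξ) (z : A3 n) :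
    κ ^ 3 * ∑ i, ∑ j, ∑ k, z i j k ^ 2 ≤ ip3 T z z := by
  obtain ⟨b, hb⟩ := exists_sqrt hs (tensb_psd hκ h1)
  have h : ∀ ξ, κ * ssq ξ ≤ ∑ p, (∑ i, b i p * ξ i) * ∑ i, b i p * ξ i := fun ξ =>
    tensb_qf hb ξ ▸ h1 ξ
  have h2 := tensb_step h fun i (Q : Fin n × Fin n) => ∑ j, ∑ k, b j Q.1 * b k Q.2 * z i j k
  simp only [Fintype.sum_prod_type] at h2
  have e : ∀ p q r, ∑ i, ∑ j, ∑ k, b i p * b j q * b k r * z i j k =
      ∑ i, b i p * ∑ j, ∑ k, b j q * b k r * z i j k := fun p q r => by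
    simp only [Finset.mul_sum, mul_assoc]
  rw [ip3_eq_sqrt hb]
  simp only [e]
  refine le_trans ?_ h2
  rw [pow_succ', mul_assoc, Finset.mul_sum]
  refine mul_le_mul_of_nonneg_left (Finset.sum_le_sum fun i _ => ?_) hκ
  rw [← ip2_eq_sqrt hb]
  exact ip2_lower hκ hs h1 (z i)

lemma tensb_abs {g : Fin n → ℝ} {C : ℝ} (h : ∀ i, |g i| ≤ C) : |∑ i, g i| ≤ n * C := by
  refine (Finset.abs_sum_le_sum_abs _ _).trans
    ((Finset.sum_le_card_nsmul _ _ C fun i _ => h i).trans_eq ?_)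
  simp

lemma abs_ip3_le {T : A2 n} {z w : A3 n} {B Z W : ℝ} (hT : ∀ a b, |T a b| ≤ B)
    (hz : ∀ i j k, |z i j k| ≤ Z) (hw : ∀ i j k, |w i j k| ≤ W) :
    |ip3 T z w| ≤ n ^ 6 * (B ^ 3 * Z * W) := by
  have key : ∀ i j k a b c, |T i a * T j b * T k c * z i j k * w a b c| ≤ B ^ 3 * Z * W := by
    intro i j k a b c
    have hB : 0 ≤ B := (abs_nonneg _).trans (hT i a)
    have hZ : 0 ≤ Z := (abs_nonneg _).trans (hz i j k)
    have h1 := hT i a
    have h2 := hT j b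
    have h3 := hT k c
    have h4 := hz i j k
    have h5 := hw a b c
    simp only [abs_mul]
    calc _ ≤ B * B * B * Z * W := by gcongr
      _ = _ := by ring
  refine (tensb_abs fun i => tensb_abs fun j => tensb_abs fun k => tensb_abs fun a =>
    tensb_abs fun b => tensb_abs fun c => key i j k a b c).trans_eq ?_
  ring

/-- trace form of `ip2` -/
lemma ip2_eq_sum (T e f : Matrix (Fin n) (Fin n) ℝ) (hs : ∀ a b, T a b = T b a) :
    ip2 T e f = ∑ k, ∑ l, (T * e * T) k l * f k l := by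
  rw [tensb_ip2, Finset.sum_comm, Fintype.sum_prod_type]
  refine Finset.sum_congr rfl fun k _ => Finset.sum_congr rfl fun l _ => ?_
  rw [Fintype.sum_prod_type_right, Matrix.mul_apply, Finset.sum_mul]
  refine Finset.sum_congr rfl fun j _ => ?_
  rw [Matrix.mul_apply, Finset.sum_mul, Finset.sum_mul]
  refine Finset.sum_congr rfl fun i _ => ?_
  rw [hs k i]; ring

lemma tensc_s12 (f : A3 n) : ∑ p, ∑ q, ∑ r, f q p r = ∑ p, ∑ q, ∑ r, f p q r := Finset.sum_comm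

lemma tensc_s23 (f : A3 n) : ∑ p, ∑ q, ∑ r, f p r q = ∑ p, ∑ q, ∑ r, f p q r :=
  Finset.sum_congr rfl fun _ _ => Finset.sum_comm

lemma tensc_sq (f : A3 n) : 0 ≤ ∑ p, ∑ q, ∑ r, f p q r * f p q r :=
  Finset.sum_nonneg fun _ _ => Finset.sum_nonneg fun _ _ => Finset.sum_nonneg fun _ _ =>
    mul_self_nonneg _

lemma tensc_A (z : A3 n) :
    ∑ p, ∑ q, ∑ r, z p q r * z q p r ≤ ∑ p, ∑ q, ∑ r, z p q r * z p q r := by
  have h := tensc_sq fun p q r => z p q r - z q p r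
  have e : ∀ p q r, (z p q r - z q p r) * (z p q r - z q p r) =
      z p q r * z p q r + z q p r * z q p r - 2 * (z p q r * z q p r) := fun p q r => by ring
  simp only [e, Finset.sum_sub_distrib, Finset.sum_add_distrib, ← Finset.mul_sum] at h
  have h1 := tensc_s12 fun p q r => z p q r * z p q r
  linarith

lemma tensc_B {z : A3 n} (hz : ∀ k i j, z k i j = z k j i) :
    0 ≤ ∑ p, ∑ q, ∑ r, z p q r * z p q r + 2 * ∑ p, ∑ q, ∑ r, z p q r * z q p r := by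
  have h := tensc_sq fun p q r => z p q r + z q p r + z r p q
  have e : ∀ p q r, (z p q r + z q p r + z r p q) * (z p q r + z q p r + z r p q) =
      z p q r * z p q r + z q p r * z q p r + z r p q * z r p q + 2 * (z p q r * z q p r) +
        2 * (z p r q * z r p q) + 2 * (z q r p * z r q p) := fun p q r => by
    rw [hz p r q, hz q r p, hz r q p]
    ring
  simp only [e, Finset.sum_add_distrib, ← Finset.mul_sum] at h
  have h1 := tensc_s12 fun p q r => z p q r * z p q r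
  have h2 := tensc_s23 fun p q r => z q p r * z q p r
  have h3 := tensc_s23 fun p q r => z p q r * z q p r
  have h4 := tensc_s12 fun p q r => z p r q * z r p q
  have h5 := tensc_s23 fun p q r => z p q r * z q p r
  linarith

lemma tensc_core {w ρ : A3 n} (hw : ∀ k i j, w k i j = w k j i) (hρ : ∀ k i j, ρ k i j = ρ k j i) :
    0 ≤ ∑ p, ∑ q, ∑ r, w p q r * w p q r + ∑ p, ∑ q, ∑ r, w p q r * w q p r +
      3 * ∑ p, ∑ q, ∑ r, ρ p q r * w q p r + ∑ p, ∑ q, ∑ r, ρ p q r * w p q r +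
      ∑ p, ∑ q, ∑ r, ρ p q r * ρ p q r + ∑ p, ∑ q, ∑ r, ρ p q r * ρ q p r := by
  have h1 := tensc_B (z := fun p q r => w p q r + ρ p q r) fun k i j => by rw [hw k i j, hρ k i j]
  have h2 := tensc_A w
  have h3 := tensc_A ρ
  have h4 := tensc_A fun p q r => w p q r - ρ p q r
  have e1 : ∀ a b c d : ℝ, (a + b) * (c + d) = a * c + d * a + b * c + b * d := fun _ _ _ _ => by ring
  have e2 : ∀ a b c d : ℝ, (a - b) * (c - d) = a * c - d * a - b * c + b * d := fun _ _ _ _ => by ring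
  simp only [e1, Finset.sum_add_distrib] at h1
  simp only [e2, Finset.sum_add_distrib, Finset.sum_sub_distrib] at h4
  have h5 := tensc_s12 fun p q r => ρ p q r * w q p r
  linarith

lemma tensc_sg (b : Matrix (Fin n) (Fin n) ℝ) (z : A3 n) (p q r : Fin n) :
    ∑ i, ∑ j, ∑ k, b i p * b j q * b k r * sg z i j k =
      ∑ i, ∑ j, ∑ k, b i q * b j p * b k r * z i j k := by
  rw [← tensc_s12 fun i j k => b i q * b j p * b k r * z i j k]
  simp only [sg, mul_comm (b _ p) (b _ q)]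

lemma tensc_symm (b : Matrix (Fin n) (Fin n) ℝ) {z : A3 n} (hz : ∀ k i j, z k i j = z k j i)
    (p q r : Fin n) : ∑ i, ∑ j, ∑ k, b i p * b j q * b k r * z i j k =
      ∑ i, ∑ j, ∑ k, b i p * b j r * b k q * z i j k := by
  rw [← tensc_s23 fun i j k => b i p * b j r * b k q * z i j k]
  refine Finset.sum_congr rfl fun i _ => Finset.sum_congr rfl fun j _ =>
    Finset.sum_congr rfl fun k _ => ?_
  rw [hz i k j]
  ring

/-- the sum of squares.  With `w`, `ρ` symmetric in the last two indices pass to the transformed arrays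
(`ip3_eq_sqrt`; `sg` and the symmetry commute with the transformation).  For `z` symmetric in the last
two indices put `N z = ∑ z²`, `N' z = ∑ z · sg z`.  Then `N z + 2 N' z = (1/3) ∑ (z_{ijk}+z_{jik}+z_{kij})² ≥ 0`
and `N z - N' z = (1/2) ∑ (z - sg z)² ≥ 0`, and the bracket equals
`(2/3)(N + 2N')(w+ρ) + (1/6)[(N-N')(w) + (N-N')(ρ) + (N-N')(w-ρ)]`. -/
theorem bracket_nonneg {T : A2 n} (hs : ∀ a b, T a b = T b a) (h0 : ∀ ξ, 0 ≤ qf T ξ) {w ρ : A3 n}
    (hw : ∀ k i j, w k i j = w k j i) (hρ : ∀ k i j, ρ k i j = ρ k j i) :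
    0 ≤ ip3 T w w + ip3 T w (sg w) + 3 * ip3 T ρ (sg w) + ip3 T ρ w + ip3 T ρ ρ + ip3 T ρ (sg ρ) := by
  obtain ⟨b, hb⟩ := exists_sqrt hs h0
  simp only [ip3_eq_sqrt hb, tensc_sg]
  exact tensc_core (w := fun p q r => ∑ i, ∑ j, ∑ k, b i p * b j q * b k r * w i j k)
    (ρ := fun p q r => ∑ i, ∑ j, ∑ k, b i p * b j q * b k r * ρ i j k)
    (tensc_symm b hw) (tensc_symm b hρ)

end Crest.Agent.R238
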