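import Crest.Agent.R238.Ops
import Crest.Agent.R238.Tens
import Crest.Agent.R238.Hol

/-!
# Row 238 (S0369): Max
Maximum principles on the whole space for `L + β·∇` with bounded `τ ≥ 0`, `β`.
-/

set_option autoImplicit false
set_option linter.unusedVariables false

open MeasureTheory Filter Topology Matrix
open Crest.Agent.R285 (bas pd gibbs WPot PolyB SConv)

noncomputable section

namespace Crest.Agent.R238

variable {n : ℕ}

/-- the barrier `om³` is a supersolution up to a constant: by `Lop_comp` (with `f = ‖x‖²`,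
`φ q = (1+q)³`) and `pd_comp_real`,
`L om³ + β·∇om³ = 3 om² (2 tr τ - 2|x|² + 2 β·x) + 24 om τxx ≤ om² (C - 3 |x|²) ≤ C'`. -/
lemma barrier_le (n : ℕ) (B : ℝ) : ∃ C : ℝ, ∀ (τ : MF n) (β : Fin n → Fn n),
    (∀ a b x, |τ a b x| ≤ B) → (∀ a x, |β a x| ≤ B) → ∀ x,
    Lop τ (fun y => om y ^ 3) x + ∑ a, β a x * pd a (fun y => om y ^ 3) x ≤ C := by
  set A : ℝ := 30 * (n * |B|) + 6 * (n * B ^ 2) with hA
  have hA0 : 0 ≤ A := by positivity
  refine ⟨(1 + A) ^ 2 * A, fun τ β hτ hβ x => ?_⟩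
  have h1 : ∀ q : ℝ, HasDerivAt (fun q : ℝ => (1 + q) ^ 3) (3 * (1 + q) ^ 2) q := fun q => by
    simpa using ((hasDerivAt_id q).const_add 1).fun_pow 3
  have h2 : ∀ q : ℝ, HasDerivAt (fun q : ℝ => 3 * (1 + q) ^ 2) (6 * (1 + q)) q := fun q => by
    have := (((hasDerivAt_id q).const_add 1).fun_pow 2).const_mul 3
    refine this.congr_deriv ?_
    simp only [id]; push_cast; ring
  have e1 := Lop_comp τ (f := fun y : X n => ‖y‖ ^ 2) (contDiff_normsq 2)
    (φ := fun q => (1 + q) ^ 3) (φ' := fun q => 3 * (1 + q) ^ 2) (φ'' := fun q => 6 * (1 + q))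
    (fun y => h1 _) (fun y => h2 _) x
  rw [Lop_normsq, Gam_normsq] at e1
  have e2 : ∀ a, pd a (fun y : X n => om y ^ 3) x = 3 * (1 + ‖x‖ ^ 2) ^ 2 * (2 * x a) := by
    intro a
    have := pd_comp_real a (f := fun y : X n => ‖y‖ ^ 2) (x := x) (h1 _)
      ((contDiff_normsq 1).differentiable one_ne_zero x)
    rw [pd_normsq] at this
    exact this
  have e3 : Lop τ (fun y => om y ^ 3) x = Lop τ (fun y : X n => (1 + ‖y‖ ^ 2) ^ 3) x := rfl
  rw [e3, e1]
  simp only [e2]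
  have htr : ∑ a, τ a a x ≤ n * |B| := by
    refine (Finset.sum_le_card_nsmul _ _ |B| fun a _ =>
      (le_abs_self _).trans ((hτ a a x).trans (le_abs_self B))).trans ?_
    simp
  have hqf : qf (fun a b => τ a b x) (fun a => x a) ≤ n * |B| * ‖x‖ ^ 2 := by
    have := abs_qf_le (A := fun a b => τ a b x) (B := |B|)
      (fun a b => (hτ a b x).trans (le_abs_self B)) fun a => x a
    rw [ssq_coe] at this
    exact (le_abs_self _).trans this
  have hβx : ∑ a, β a x * (2 * x a) ≤ 2 * (n * B ^ 2) + ‖x‖ ^ 2 / 2 := by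
    have h3 : ∑ a, β a x * (2 * x a) ≤ ∑ a : Fin n, (2 * B ^ 2 + x a ^ 2 / 2) := by
      refine Finset.sum_le_sum fun a _ => ?_
      have h4 : β a x ^ 2 ≤ B ^ 2 := sq_le_sq' (abs_le.1 (hβ a x)).1 (abs_le.1 (hβ a x)).2
      nlinarith [sq_nonneg (2 * β a x - x a)]
    refine h3.trans (le_of_eq ?_)
    rw [Finset.sum_add_distrib, ← Finset.sum_div, ← ssq_coe]
    simp [ssq]; ring
  have e4 : ∑ a, β a x * (3 * (1 + ‖x‖ ^ 2) ^ 2 * (2 * x a)) =
      3 * (1 + ‖x‖ ^ 2) ^ 2 * ∑ a, β a x * (2 * x a) := by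
    rw [Finset.mul_sum]; exact Finset.sum_congr rfl fun a _ => by ring
  rw [e4]
  generalize ∑ a, β a x * (2 * x a) = s at hβx
  generalize ∑ a, τ a a x = t at htr
  generalize qf (fun a b => τ a b x) (fun a => x a) = r at hqf
  have hq : 0 ≤ ‖x‖ ^ 2 := sq_nonneg _
  generalize ‖x‖ ^ 2 = q at *
  have hnB : 0 ≤ n * |B| := by positivity
  have ho : 0 ≤ (1 + q) ^ 2 := sq_nonneg _
  have h5 : 6 * (1 + q) * (4 * r) ≤ (1 + q) ^ 2 * (24 * (n * |B|)) := by
    have : r ≤ n * |B| * (1 + q) := hqf.trans (by nlinarith)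
    nlinarith [mul_le_mul_of_nonneg_left this (by linarith : 0 ≤ 1 + q)]
  have h6 : 3 * (1 + q) ^ 2 * (2 * t - 2 * q) + 6 * (1 + q) * (4 * r) + 3 * (1 + q) ^ 2 * s ≤
      (1 + q) ^ 2 * (A - q) := by
    have h7 := mul_le_mul_of_nonneg_left htr ho
    have h8 := mul_le_mul_of_nonneg_left hβx ho
    have h9 := mul_nonneg ho hq
    rw [hA]
    nlinarith
  refine h6.trans ?_
  rcases le_total A q with h | h
  · exact (mul_nonpos_of_nonneg_of_nonpos ho (by linarith)).trans (by positivity)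
  · exact mul_le_mul (pow_le_pow_left₀ (by linarith) (by linarith) 2) (by linarith) (by linarith)
      (by positivity)

/-- `w - δ om³` tends to `-∞`, so it has a global maximum `x_δ` (`Continuous.exists_forall_ge'` or
`IsCompact.exists_isMaxOn` on a big ball); there `L w + β·∇w ≤ δ C < c₀` (`trace_nonpos`,
`pd_eq_zero_of_max`, `Lop_sub`), so `w x_δ ≤ K` and `w x ≤ K + δ om x ^ 3`; let `δ → 0`. -/
theorem maxp {τ : MF n} {β : Fin n → Fn n} {B : ℝ} (hs : ∀ a b x, τ a b x = τ b a x)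
    (hp : ∀ x ξ, 0 ≤ qf (fun a b => τ a b x) ξ) (hτ : ∀ a b x, |τ a b x| ≤ B)
    (hβ : ∀ a x, |β a x| ≤ B) {w : Fn n} (hw : ContDiff ℝ 2 w) {M K c₀ : ℝ}
    (hg : ∀ x, w x ≤ M * om x ^ 2) (hc : 0 < c₀)
    (h : ∀ x, K < w x → c₀ ≤ Lop τ w x + ∑ a, β a x * pd a w x) (x : X n) : w x ≤ K := by
  by_contra hx
  rw [not_le] at hx
  obtain ⟨C, hC⟩ := barrier_le n B
  have hom : ∀ y : X n, 1 ≤ om y := fun y => le_add_of_nonneg_right (sq_nonneg _)
  have hox : 0 < om x ^ 3 := pow_pos (by linarith [hom x]) 3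
  set δ : ℝ := min (c₀ / (|C| + 1)) ((w x - K) / (2 * om x ^ 3)) with hδ
  have hδ0 : 0 < δ := lt_min (by positivity) (div_pos (by linarith) (by positivity))
  have hδ1 : δ * (|C| + 1) ≤ c₀ := (le_div_iff₀ (by positivity)).1 (min_le_left _ _)
  have hδ2 : δ * (2 * om x ^ 3) ≤ w x - K := (le_div_iff₀ (by positivity)).1 (min_le_right _ _)
  have hb : ContDiff ℝ 2 fun y : X n => om y ^ 3 := (contDiff_const.add (contDiff_normsq 2)).pow 3
  have hb' : ContDiff ℝ 2 fun y : X n => δ * om y ^ 3 := contDiff_const.mul hb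
  have hg2 : ContDiff ℝ 2 fun y : X n => w y - δ * om y ^ 3 := hw.sub hb'
  set m : ℝ := w x - δ * om x ^ 3 with hm
  obtain ⟨z, hz⟩ := hg2.continuous.exists_forall_ge' x (by
    filter_upwards [(show Tendsto (fun y : X n => ‖y‖) (cocompact (X n)) atTop from
      tendsto_norm_cocompact_atTop).eventually (eventually_ge_atTop ((M + |m|) / δ))] with y hy
    have h1 : ‖y‖ ≤ om y := by
      unfold om; nlinarith [sq_nonneg (‖y‖ - 1), sq_nonneg ‖y‖]
    have h2 : M + |m| ≤ δ * om y := by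
      have := (div_le_iff₀ hδ0).1 (hy.trans h1)
      linarith
    have h3 : 1 ≤ om y ^ 2 := one_le_pow₀ (hom y)
    have h4 := mul_le_mul_of_nonneg_left h2 (by linarith : 0 ≤ om y ^ 2)
    have h5 := mul_le_mul_of_nonneg_right h3 (abs_nonneg m)
    have h6 := neg_abs_le m
    have h7 := hg y
    change w y - δ * om y ^ 3 ≤ m
    nlinarith)
  have hmax : IsLocalMax (fun y : X n => w y - δ * om y ^ 3) z := Eventually.of_forall hz
  have hwz : K < w z := by
    have h1 : m ≤ w z - δ * om z ^ 3 := hz x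
    have h2 : 0 < δ * om z ^ 3 := mul_pos hδ0 (pow_pos (by linarith [hom z]) 3)
    have h3 : 0 < δ * om x ^ 3 := mul_pos hδ0 hox
    linarith
  have h0 := fun a => pd_eq_zero_of_max hmax a
  have hL : Lop τ (fun y : X n => w y - δ * om y ^ 3) z ≤ 0 := by
    unfold Lop
    simp only [h0, mul_zero, Finset.sum_const_zero, sub_zero]
    exact trace_nonpos hg2 hmax (fun a b => hs a b z) (hp z)
  rw [Lop_sub τ hw hb', Lop_cmul τ δ hb] at hL
  have hpd : ∀ a, pd a w z = δ * pd a (fun y : X n => om y ^ 3) z := by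
    intro a
    have := h0 a
    rw [R285.pd_sub a (hw.differentiable two_ne_zero) (hb'.differentiable two_ne_zero),
      pd_cmul a δ (hb.differentiable two_ne_zero)] at this
    simp only at this
    linarith
  have h1 := h z hwz
  have h2 := mul_le_mul_of_nonneg_left (hC τ β hτ hβ z) hδ0.le
  have e : ∑ a, β a z * pd a w z = δ * ∑ a, β a z * pd a (fun y : X n => om y ^ 3) z := by
    rw [Finset.mul_sum]; exact Finset.sum_congr rfl fun a _ => by rw [hpd]; ring
  rw [e] at h1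
  have h3 := mul_le_mul_of_nonneg_left (le_abs_self C) hδ0.le
  nlinarith

/-- version without drift and with a linear lower bound: apply `maxp` with `K + η` for every `η > 0` -/
theorem maxp_lin {τ : MF n} {B : ℝ} (hs : ∀ a b x, τ a b x = τ b a x)
    (hp : ∀ x ξ, 0 ≤ qf (fun a b => τ a b x) ξ) (hτ : ∀ a b x, |τ a b x| ≤ B)
    {w : Fn n} (hw : ContDiff ℝ 2 w) {M K c : ℝ} (hg : ∀ x, w x ≤ M * om x ^ 2) (hc : 0 < c)
    (h : ∀ x, K < w x → c * (w x - K) ≤ Lop τ w x) (x : X n) : w x ≤ K := by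
  refine le_of_forall_pos_le_add fun η hη => ?_
  refine maxp (β := fun _ _ => 0) (B := |B|) hs hp (fun a b y => (hτ a b y).trans (le_abs_self B))
    (fun a y => by simp) hw hg (mul_pos hc hη) (fun y hy => ?_) x
  have h1 := h y (by linarith)
  have h2 : c * η ≤ c * (w y - K) := mul_le_mul_of_nonneg_left (by linarith) hc.le
  simp only [zero_mul, Finset.sum_const_zero, add_zero]
  linarith

theorem max_one {τ : MF n} {β : Fin n → Fn n} {B : ℝ} (hs : ∀ a b x, τ a b x = τ b a x)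
    (hp : ∀ x ξ, 0 ≤ qf (fun a b => τ a b x) ξ) (hτ : ∀ a b x, |τ a b x| ≤ B)
    (hβ : ∀ a x, |β a x| ≤ B) {c h : Fn n} (hh : ContDiff ℝ 2 h) {M c₀ G S R : ℝ}
    (hb : ∀ x, |h x| ≤ M) (hc₀ : 0 < c₀) (hG : 0 ≤ G) (hc : ∀ x, R ≤ ‖x‖ → c x ≤ -c₀)
    (hg : ∀ x, |Op τ β c h x| ≤ G) (hS : ∀ x, ‖x‖ < R → |h x| ≤ S) (x : X n) :
    h x ≤ max S (G / c₀) := by
  refine le_of_forall_pos_le_add fun η hη => ?_
  refine maxp hs hp hτ hβ hh (M := M) (fun y => ?_) (mul_pos hc₀ hη) (fun y hy => ?_) x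
  · have h1 : 1 ≤ om y ^ 2 := one_le_pow₀ (le_add_of_nonneg_right (sq_nonneg _))
    have h2 := (abs_nonneg _).trans (hb y)
    exact ((le_abs_self _).trans (hb y)).trans (le_mul_of_one_le_right h2 h1)
  · have h1 := le_max_left S (G / c₀)
    have h2 := le_max_right S (G / c₀)
    have hR : R ≤ ‖y‖ := by
      by_contra hR
      have := (le_abs_self _).trans (hS y (not_le.1 hR))
      linarith
    have h3 : 0 ≤ G / c₀ := by positivity
    have h4 := mul_le_mul_of_nonneg_right (hc y hR) (by linarith : 0 ≤ h y)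
    have h5 := (abs_le.1 (hg y)).1
    unfold Op at h5
    have h6 : c₀ * (G / c₀ + η) ≤ c₀ * h y := mul_le_mul_of_nonneg_left (by linarith) hc₀.le
    rw [mul_add, mul_div_cancel₀ _ hc₀.ne'] at h6
    linarith

/-- sup bound for `Op τ β c h = g` when `c ≤ -c₀` outside a ball: `maxp` for `h` and `-h` with
`K = max S (G / c₀) + η` -/
theorem maxp_abs {τ : MF n} {β : Fin n → Fn n} {B : ℝ} (hs : ∀ a b x, τ a b x = τ b a x)
    (hp : ∀ x ξ, 0 ≤ qf (fun a b => τ a b x) ξ) (hτ : ∀ a b x, |τ a b x| ≤ B)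
    (hβ : ∀ a x, |β a x| ≤ B) {c h : Fn n} (hh : ContDiff ℝ 2 h) {M c₀ G S R : ℝ}
    (hb : ∀ x, |h x| ≤ M) (hc₀ : 0 < c₀) (hG : 0 ≤ G) (hc : ∀ x, R ≤ ‖x‖ → c x ≤ -c₀)
    (hg : ∀ x, |Op τ β c h x| ≤ G) (hS : ∀ x, ‖x‖ < R → |h x| ≤ S) (x : X n) :
    |h x| ≤ max S (G / c₀) := by
  rw [abs_le]
  refine ⟨?_, max_one hs hp hτ hβ hh hb hc₀ hG hc hg hS x⟩
  have := max_one hs hp hτ hβ (h := fun y => (-1) * h y) (contDiff_const.mul hh) (M := M)
    (fun y => by simpa using hb y) hc₀ hG hc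
    (fun y => by rw [Op_cmul τ β c (-1) hh]; simpa using hg y) (S := S)
    (fun y hy => by simpa using hS y hy) x
  linarith

end Crest.Agent.R238
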