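import Crest.Agent.R238.Schauder
import Crest.Agent.R238.Max

/-!
# Row 238 (S0369): Apri
A priori estimates of every order, with lower-order terms.
-/

set_option autoImplicit false
set_option linter.unusedVariables false

open MeasureTheory Filter Topology Matrix
open Crest.Agent.R285 (bas pd gibbs WPot PolyB SConv)

noncomputable section

namespace Crest.Agent.R238

variable {n : ℕ}

/-- induction on `k`: `Lop τ (∂_i h) = ∂_i (Lop τ h) + ∂_i h - ∑ ∂_i τ_{ab} ∂_{ab} h` (`pd_Lop`) is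
bounded in `HB k` by `G + hn (k+2) h (1 + n² B)`, `|∂_i h| ≤ hn (k+2) h`, and the induction hypothesis
bounds `hn (k+2) h` and `hn (k+2) (∂_i h)`. -/
theorem schauder (n k : ℕ) {κ : ℝ} (hκ : 0 < κ) (B : ℝ) : ∃ C : ℝ, 0 < C ∧
    ∀ (τ : MF n) (h : Fn n) (G S : ℝ), Coef k κ B τ → Mem (k + 2) h → HB k (Lop τ h) G →
    (∀ x, |h x| ≤ S) → hn (k + 2) h ≤ C * (G + S) := by
  induction k with
  | zero => exact schauder0 n hκ B
  | succ k ih =>
    obtain ⟨C, hC, H⟩ := ih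
    refine ⟨C + n * (C * (1 + (2 + n * (n * |B|)) * C)), by positivity, fun τ h G S hτ hh hG hS => ?_⟩
    have hS0 : 0 ≤ S := (abs_nonneg _).trans (hS 0)
    have hG0 := hG.nonneg
    have h2 : Mem (k + 2) h := hh.mono (by omega)
    have h1 := H τ h G S (hτ.mono (by omega)) h2 (hG.mono (by omega)) hS
    have h3 : ContDiff ℝ 3 h := (hh.mono (show 3 ≤ k + 1 + 2 by omega)).contDiff
    have hi : ∀ i, hn (k + 2) (pd i h) ≤ C * (1 + (2 + n * (n * |B|)) * C) * (G + S) := by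
      intro i
      have a1 : HB k (Lop τ (pd i h)) (G + hn (k + 2) h + n * (n * (|B| * hn (k + 2) h))) := by
        refine (((hG.pd i).add ((h2.hb.pd i).mono (Nat.le_succ k))).sub
          (HB.trD2 (τ := fun a b => pd i (τ a b))
            (fun a b => ((hτ.hb a b).pd i).weaken (le_abs_self B)) h2.hb)).congr fun x => ?_
        rw [pd_Lop (fun a b => (hτ.hb a b).mem.diff) h3 i]
        ring
      refine (H τ (pd i h) _ _ (hτ.mono (by omega)) (hh.pd i) a1 (h2.hb.pd i).abs_le).trans ?_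
      rw [mul_assoc C]
      refine mul_le_mul_of_nonneg_left ?_ hC.le
      have a2 := mul_le_mul_of_nonneg_left h1 (show 0 ≤ 2 + n * (n * |B|) by positivity)
      linarith
    rw [show k + 1 + 2 = k + 2 + 1 from rfl, hn_succ]
    have h4 := Finset.sum_le_card_nsmul _ _ _ fun i (_ : i ∈ Finset.univ) => hi i
    rw [Finset.card_univ, Fintype.card_fin, nsmul_eq_mul] at h4
    linarith

/-- systems with lower-order coupling: sum `schauder` over `j`, `interp`, absorb -/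
theorem apri_sys (n k : ℕ) (J : Type) [Fintype J] {κ : ℝ} (hκ : 0 < κ) (B B' : ℝ) : ∃ C : ℝ, 0 < C ∧
    ∀ (τ : MF n) (h : J → Fn n) (A S : ℝ), Coef k κ B τ → (∀ j, Mem (k + 2) (h j)) → 0 ≤ A →
    (∀ j, HB k (Lop τ (h j)) (A + B' * ∑ j', hn (k + 1) (h j'))) → (∀ j x, |h j x| ≤ S) →
    ∀ j, hn (k + 2) (h j) ≤ C * (A + S) := by
  obtain ⟨C₁, hC₁, H₁⟩ := schauder n k hκ B
  set N : ℝ := (Fintype.card J : ℝ) with hN
  have hN0 : 0 ≤ N := Nat.cast_nonneg _
  have hq : 0 ≤ N * C₁ * |B'| := by positivity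
  obtain ⟨C₂, hC₂, H₂⟩ := interp n (k + 1) (η := 1 / (2 * (N * C₁ * |B'| + 1))) (by positivity)
  refine ⟨2 * N * C₁ + 2 * (N * C₁ * |B'|) * (N * C₂) + 1, by positivity, ?_⟩
  intro τ h A S hτ hm hA hL hS j
  have hS0 : 0 ≤ S := (abs_nonneg _).trans (hS j 0)
  set T := ∑ j', hn (k + 2) (h j') with hT
  set U := ∑ j', hn (k + 1) (h j') with hU
  have hT0 : 0 ≤ T := Finset.sum_nonneg fun _ _ => hn_nonneg _ _
  have hU0 : 0 ≤ U := Finset.sum_nonneg fun _ _ => hn_nonneg _ _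
  have h1 : T ≤ N * (C₁ * (A + |B'| * U + S)) := by
    rw [hN, ← Finset.card_univ, ← nsmul_eq_mul]
    refine Finset.sum_le_card_nsmul _ _ _ fun j' _ => ?_
    exact H₁ τ (h j') _ S hτ (hm j') ((hL j').weaken (by
      linarith [mul_le_mul_of_nonneg_right (le_abs_self B') hU0])) (hS j')
  have h2 : U ≤ 1 / (2 * (N * C₁ * |B'| + 1)) * T + N * (C₂ * S) := by
    calc U ≤ ∑ j' : J, (1 / (2 * (N * C₁ * |B'| + 1)) * hn (k + 2) (h j') + C₂ * S) :=
          Finset.sum_le_sum fun j' _ => H₂ (h j') S (hm j') (hS j')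
      _ = _ := by
          rw [Finset.sum_add_distrib, ← Finset.mul_sum, Finset.sum_const, Finset.card_univ,
            nsmul_eq_mul]
  have h3 : N * C₁ * |B'| * (1 / (2 * (N * C₁ * |B'| + 1))) ≤ 1 / 2 := by
    rw [mul_one_div, div_le_div_iff₀ (by positivity) (by positivity)]
    linarith
  have h4 := mul_le_mul_of_nonneg_left h2 hq
  have h5 := mul_le_mul_of_nonneg_right h3 hT0
  have h6 : hn (k + 2) (h j) ≤ T :=
    Finset.single_le_sum (f := fun j' => hn (k + 2) (h j')) (fun _ _ => hn_nonneg _ _)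
      (Finset.mem_univ j)
  have h7 : 0 ≤ N * C₁ * |B'| * (N * C₂) * A := by positivity
  nlinarith

/-- `Lop τ h = Op τ β c h - β·∇h - c h`, then `apri_sys` with `J = Unit` -/
theorem apri_sup (n k : ℕ) {κ : ℝ} (hκ : 0 < κ) (B : ℝ) : ∃ C : ℝ, 0 < C ∧
    ∀ (τ : MF n) (β : Fin n → Fn n) (c h : Fn n) (G S : ℝ), Coef k κ B τ → (∀ a, HB k (β a) B) →
    HB k c B → Mem (k + 2) h → HB k (Op τ β c h) G → (∀ x, |h x| ≤ S) →
    hn (k + 2) h ≤ C * (G + S) := by
  obtain ⟨C, hC, H⟩ := apri_sys n k Unit hκ B (n * B + B)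
  refine ⟨C, hC, fun τ β c h G S hτ hβ hc hm hG hS => ?_⟩
  refine H τ (fun _ => h) G S hτ (fun _ => hm) hG.nonneg (fun _ => ?_) (fun _ => hS) ()
  have h1 : HB (k + 1) h (hn (k + 1) h) := (hm.mono (Nat.le_succ _)).hb
  have h2 := HB.nsum fun a => (hβ a).mul (h1.pd a)
  have h3 := hc.mul (h1.mono (Nat.le_succ k))
  refine (((hG.sub h2).sub h3).congr fun x => ?_).weaken (le_of_eq ?_)
  · simp only [Op]
    ring
  · simp only [Finset.univ_unique, Finset.sum_singleton]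
    ring

/-- `apri_sup` and `maxp_abs` with `R = 0`, `S = 0` -/
theorem apri_neg (n k : ℕ) {κ c₀ : ℝ} (hκ : 0 < κ) (hc₀ : 0 < c₀) (B : ℝ) : ∃ C : ℝ, 0 < C ∧
    ∀ (τ : MF n) (β : Fin n → Fn n) (c h : Fn n) (G : ℝ), Coef k κ B τ → (∀ a, HB k (β a) B) →
    HB k c B → (∀ x, c x ≤ -c₀) → Mem (k + 2) h → HB k (Op τ β c h) G → hn (k + 2) h ≤ C * G := by
  obtain ⟨C, hC, H⟩ := apri_sup n k hκ B
  refine ⟨C * (1 + 1 / c₀), by positivity, fun τ β c h G hτ hβ hc hneg hh hG => ?_⟩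
  have hG0 := hG.nonneg
  have h1 : ∀ x, |h x| ≤ G / c₀ := fun x =>
    (maxp_abs (R := 0) (S := 0) hτ.ell.symm (hτ.ell.psd hκ.le) (fun a b => (hτ.hb a b).abs_le)
      (fun a => (hβ a).abs_le) (hh.mono (show 2 ≤ k + 2 by omega)).contDiff hh.abs_le hc₀ hG0
      (fun x _ => hneg x) hG.abs_le (fun x hx => absurd hx (norm_nonneg x).not_gt) x).trans_eq
      (max_eq_right (by positivity))
  exact (H τ β c h G _ hτ hβ hc hh hG h1).trans_eq (by ring)

end Crest.Agent.R238
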