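import Crest.Agent.R238.Hol

/-!
# Row 238 (S0369): Avg
Averaging operators `g ↦ ∫ w ω * g (a ω • x + z ω)` with `|a| ≤ 1`, and mollification.
-/

set_option autoImplicit false
set_option linter.unusedVariables false

open MeasureTheory Filter Topology Matrix
open Crest.Agent.R285 (bas pd gibbs WPot PolyB SConv)

noncomputable section

namespace Crest.Agent.R238

variable {n : ℕ}

/-- the averaging operator -/
def avg {Ω : Type} [MeasurableSpace Ω] (ν : Measure Ω) (w a : Ω → ℝ) (z : Ω → X n) (g : Fn n) : Fn n :=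
  fun x => ∫ ω, w ω * g (a ω • x + z ω) ∂ν

lemma avga_meas {Ω : Type} [MeasurableSpace Ω] {a : Ω → ℝ} {z : Ω → X n}
    (ha : Measurable a) (hz : Measurable z) (x : X n) : Measurable fun ω => a ω • x + z ω :=
  (ha.smul_const x).add hz

lemma avga_int {Ω : Type} [MeasurableSpace Ω] {ν : Measure Ω} {w a : Ω → ℝ} {z : Ω → X n}
    (hw : Integrable w ν) (ha : Measurable a) (hz : Measurable z) {g : Fn n} (hg : Measurable g)
    {M : ℝ} (hM : ∀ x, |g x| ≤ M) (x : X n) :
    Integrable (fun ω => w ω * g (a ω • x + z ω)) ν :=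
  hw.mul_bdd (c := M) (hg.comp (avga_meas ha hz x)).aestronglyMeasurable
    (ae_of_all _ fun ω => hM _)

lemma avga_wa {Ω : Type} [MeasurableSpace Ω] {ν : Measure Ω} {w a : Ω → ℝ}
    (hw : Integrable w ν) (ha : Measurable a) (ha1 : ∀ ω, |a ω| ≤ 1) :
    Integrable (fun ω => w ω * a ω) ν :=
  hw.mul_bdd (c := 1) ha.aestronglyMeasurable (ae_of_all _ fun ω => ha1 _)

lemma avga_fderiv_le {f : Fn n} {M : ℝ} (hM : 0 ≤ M) (h : ∀ a z, |pd a f z| ≤ M) (z : X n) :
    ‖fderiv ℝ f z‖ ≤ n * M := by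
  refine ContinuousLinearMap.opNorm_le_bound _ (by positivity) fun v => ?_
  rw [R285.fderiv_apply_eq_sum_pd]
  refine (norm_sum_le _ _).trans ?_
  calc ∑ a, ‖v a • pd a f z‖ ≤ ∑ _a : Fin n, M * ‖v‖ := Finset.sum_le_sum fun a _ => by
        rw [norm_smul, mul_comm]
        exact mul_le_mul (h a z) (R285.abs_coord_le v a) (norm_nonneg _) hM
    _ = n * M * ‖v‖ := by simp [mul_assoc]

lemma avga_abs_le {Ω : Type} [MeasurableSpace Ω] {ν : Measure Ω} {w : Ω → ℝ} (hw : Integrable w ν)
    {F : Ω → ℝ} {M : ℝ} (hF : ∀ ω, |F ω| ≤ M) :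
    |∫ ω, w ω * F ω ∂ν| ≤ (∫ ω, |w ω| ∂ν) * M := by
  rw [← integral_mul_const]
  refine (Real.norm_eq_abs _).symm.trans_le
    (norm_integral_le_of_norm_le (hw.abs.mul_const M) (ae_of_all _ fun ω => ?_))
  rw [Real.norm_eq_abs, abs_mul]
  exact mul_le_mul_of_nonneg_left (hF ω) (abs_nonneg _)

/-- differentiation under the integral (`hasFDerivAt_integral_of_dominated_of_fderiv_le`, bound
`|w ω| * (n * hn 1 g)`), or directly from `taylor_full`-type estimates -/
theorem avg_pd {Ω : Type} [MeasurableSpace Ω] {ν : Measure Ω} {w a : Ω → ℝ} {z : Ω → X n}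
    (hw : Integrable w ν) (ha : Measurable a) (ha1 : ∀ ω, |a ω| ≤ 1) (hz : Measurable z) {g : Fn n}
    (hg : Mem 1 g) : Differentiable ℝ (avg ν w a z g) ∧
      ∀ i, pd i (avg ν w a z g) = avg ν (fun ω => w ω * a ω) a z (pd i g) := by
  have hgd : Differentiable ℝ g := hg.diff
  have hM : ∀ i x, |pd i g x| ≤ hn 1 g := fun i x => ((hg.pd i).abs_le x).trans (hn_pd_le 0 g i)
  have hF : ∀ x, ‖fderiv ℝ g x‖ ≤ n * hn 1 g := avga_fderiv_le (hn_nonneg 1 g) hM
  have hgm : Measurable g := hgd.continuous.measurable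
  have hwa := avga_wa hw ha ha1
  have hmeas : ∀ x : X n, AEStronglyMeasurable
      (fun ω => (w ω * a ω) • fderiv ℝ g (a ω • x + z ω)) ν := fun x =>
    hwa.aestronglyMeasurable.smul
      ((measurable_fderiv ℝ g).comp (avga_meas ha hz x)).aestronglyMeasurable
  have hbd : ∀ ω (x : X n), ‖(w ω * a ω) • fderiv ℝ g (a ω • x + z ω)‖ ≤ |w ω * a ω| * (n * hn 1 g) :=
    fun ω x => by
      rw [norm_smul, Real.norm_eq_abs]
      exact mul_le_mul_of_nonneg_left (hF _) (abs_nonneg _)
  have key : ∀ x : X n, HasFDerivAt (avg ν w a z g)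
      (∫ ω, (w ω * a ω) • fderiv ℝ g (a ω • x + z ω) ∂ν) x := fun x => by
    refine hasFDerivAt_integral_of_dominated_of_fderiv_le (s := Set.univ)
      (F := fun x ω => w ω * g (a ω • x + z ω))
      (F' := fun x ω => (w ω * a ω) • fderiv ℝ g (a ω • x + z ω))
      (bound := fun ω => |w ω * a ω| * (n * hn 1 g)) univ_mem
      (Eventually.of_forall fun y => (avga_int hw ha hz hgm hg.abs_le y).aestronglyMeasurable)
      (avga_int hw ha hz hgm hg.abs_le x) (hmeas x) (ae_of_all _ fun ω y _ => hbd ω y)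
      (hwa.abs.mul_const _) (ae_of_all _ fun ω y _ => ?_)
    have h1 : HasFDerivAt (fun x : X n => a ω • x + z ω) (a ω • ContinuousLinearMap.id ℝ (X n)) y :=
      ((hasFDerivAt_id y).const_smul (a ω)).add_const (z ω)
    have h2 := ((hgd (a ω • y + z ω)).hasFDerivAt.comp y h1).const_mul (w ω)
    refine h2.congr_fderiv ?_
    ext v
    simp [mul_assoc]
  refine ⟨fun x => (key x).differentiableAt, fun i => ?_⟩
  funext x
  have hint : Integrable (fun ω => (w ω * a ω) • fderiv ℝ g (a ω • x + z ω)) ν :=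
    Integrable.mono' (hwa.abs.mul_const (n * hn 1 g)) (hmeas x) (ae_of_all _ fun ω => hbd ω x)
  simp only [pd]
  rw [(key x).fderiv, ContinuousLinearMap.integral_apply hint]
  rfl

lemma avga_hb {Ω : Type} [MeasurableSpace Ω] {ν : Measure Ω} {a : Ω → ℝ} {z : Ω → X n}
    (ha : Measurable a) (ha1 : ∀ ω, |a ω| ≤ 1) (hz : Measurable z) (k : ℕ) :
    ∀ {w : Ω → ℝ} {g : Fn n}, Integrable w ν → Mem k g →
      HB k (avg ν w a z g) ((∫ ω, |w ω| ∂ν) * hn k g) := by
  induction k with
  | zero =>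
    intro w g hw hg
    have hW : 0 ≤ ∫ ω, |w ω| ∂ν := integral_nonneg fun ω => abs_nonneg _
    have hgm : Measurable g := hg.continuous.measurable
    rw [hn_zero, mul_add]
    refine hb_zero (mul_nonneg hW (holN_nonneg g)) (fun x => ?_) fun x y => ?_
    · exact avga_abs_le hw fun ω => hg.abs_le_supN _
    · simp only [avg]
      rw [← integral_sub (avga_int hw ha hz hgm hg.abs_le x) (avga_int hw ha hz hgm hg.abs_le y),
        mul_assoc]
      simp only [← mul_sub]
      refine avga_abs_le hw fun ω => (hg.hol_le_holN _ _).trans ?_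
      refine mul_le_mul_of_nonneg_left (Real.sqrt_le_sqrt ?_) (holN_nonneg g)
      rw [add_sub_add_right_eq_sub, ← smul_sub, norm_smul, Real.norm_eq_abs]
      exact mul_le_of_le_one_left (norm_nonneg _) (ha1 ω)
  | succ k ih =>
    intro w g hw hg
    obtain ⟨hd, hp⟩ := avg_pd hw ha ha1 hz (hg.mono (Nat.le_add_left 1 k))
    have hwa := avga_wa hw ha ha1
    have hW : ∫ ω, |w ω * a ω| ∂ν ≤ ∫ ω, |w ω| ∂ν :=
      integral_mono hwa.abs hw.abs fun ω => by
        simp only [abs_mul]
        exact mul_le_of_le_one_right (abs_nonneg _) (ha1 ω)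
    have h0 := ih hw hg.1
    have h1 : ∀ i, HB k (pd i (avg ν w a z g)) ((∫ ω, |w ω| ∂ν) * hn k (pd i g)) := fun i => by
      rw [hp i]
      exact (ih hwa (hg.pd i)).weaken (mul_le_mul_of_nonneg_right hW (hn_nonneg _ _))
    refine ⟨⟨h0.1, hd, fun i => (h1 i).1⟩, ?_⟩
    rw [hn_succ, hn_succ, mul_add, Finset.mul_sum]
    exact add_le_add h0.2 (Finset.sum_le_sum fun i _ => (h1 i).2)

/-- induction on `k` generalizing `w`, `g`, `M` (state it with `hn k g`); `∫ |w a| ≤ ∫ |w|` -/
theorem avg_hb {Ω : Type} [MeasurableSpace Ω] {ν : Measure Ω} {w a : Ω → ℝ} {z : Ω → X n}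
    (hw : Integrable w ν) (ha : Measurable a) (ha1 : ∀ ω, |a ω| ≤ 1) (hz : Measurable z) {k : ℕ}
    {g : Fn n} {M : ℝ} (hg : HB k g M) : HB k (avg ν w a z g) ((∫ ω, |w ω| ∂ν) * M) :=
  (avga_hb ha ha1 hz k hw hg.1).weaken
    (mul_le_mul_of_nonneg_left hg.2 (integral_nonneg fun ω => abs_nonneg _))

/-- dominated convergence -/
theorem avg_lim {Ω : Type} [MeasurableSpace Ω] {ν : Measure Ω} {w a : Ω → ℝ} {z : Ω → X n}
    (hw : Integrable w ν) (ha : Measurable a) (hz : Measurable z) {G : ℕ → Fn n} {g : Fn n} {M : ℝ}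
    (hG : ∀ m, HB 0 (G m) M) (hl : ∀ x, Tendsto (fun m => G m x) atTop (𝓝 (g x))) (x : X n) :
    Tendsto (fun m => avg ν w a z (G m) x) atTop (𝓝 (avg ν w a z g x)) := by
  refine tendsto_integral_of_dominated_convergence (fun ω => |w ω| * M) (fun m => ?_)
    (hw.abs.mul_const M) (fun m => ae_of_all _ fun ω => ?_) (ae_of_all _ fun ω => ?_)
  · exact (avga_int hw ha hz (hG m).1.continuous.measurable (hG m).abs_le x).aestronglyMeasurable
  · rw [Real.norm_eq_abs, abs_mul]
    exact mul_le_mul_of_nonneg_left ((hG m).abs_le _) (abs_nonneg _)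
  · exact (hl _).const_mul _

/-- convolution with a kernel, written as an averaging operator -/
def conv (φ g : Fn n) : Fn n := avg volume φ (fun _ => 1) (fun y => -y) g

theorem avgb_eq (φ g : Fn n) : conv φ g = convolution φ g (ContinuousLinearMap.lsmul ℝ ℝ) volume := by
  funext x
  simp only [conv, avg, convolution_lsmul, one_smul, smul_eq_mul, sub_eq_add_neg]

/-- `conv φ g x = ∫ φ y * g (x - y) = ∫ φ (x - y) * g y`; differentiate the kernel
(`HasCompactSupport.hasFDerivAt_convolution_left` with `ContinuousLinearMap.mul ℝ ℝ`, or by hand) -/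
theorem conv_pd {φ g : Fn n} (hφ : ContDiff ℝ 1 φ) (hc : HasCompactSupport φ) (hg : Continuous g) :
    Differentiable ℝ (conv φ g) ∧ ∀ i, pd i (conv φ g) = conv (pd i φ) g := by
  have hl : LocallyIntegrable g volume := hg.locallyIntegrable
  have h := fun x => hc.hasFDerivAt_convolution_right (ContinuousLinearMap.lsmul ℝ ℝ).flip hl hφ x
  have e : ∀ ψ : Fn n, conv ψ g = convolution g ψ (ContinuousLinearMap.lsmul ℝ ℝ).flip volume := fun ψ => by
    rw [avgb_eq, convolution_flip]
  refine ⟨fun x => by rw [e]; exact (h x).differentiableAt, fun i => ?_⟩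
  funext x
  rw [e, e, pd, (h x).fderiv,
    convolution_precompR_apply _ hl (hc.fderiv ℝ) (hφ.continuous_fderiv one_ne_zero)]
  rfl

/-- induction on `j` generalizing `φ` (`avg_hb` for `j = 0`, `conv_pd` for the step) -/
theorem conv_mem {k : ℕ} {g : Fn n} (hg : Mem k g) (j : ℕ) {φ : Fn n} (hφ : ∀ m : ℕ, ContDiff ℝ m φ)
    (hc : HasCompactSupport φ) : Mem (k + j) (conv φ g) := by
  induction j generalizing φ with
  | zero =>
    exact (avg_hb ((hφ 0).continuous.integrable_of_hasCompactSupport hc) measurable_const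
      (fun _ => by simp) measurable_neg hg.hb).mem
  | succ j ih =>
    have h := conv_pd (hφ 1) hc hg.continuous
    refine mem_succ.2 ⟨ih hφ hc, h.1, fun i => ?_⟩
    rw [h.2 i]
    exact ih (fun m => contDiff_pd (hφ (m + 1)) i) (hc.fderiv_apply ℝ (bas i))

/-- `G m = conv φ_m g` with `φ_m = ContDiffBump.normed` of outer radius `1/(m+1)`:
`|G m x - g x| ≤ M √(1/(m+1))` -/
theorem moll {k : ℕ} {g : Fn n} {M : ℝ} (hg : HB k g M) : ∃ G : ℕ → Fn n,
    (∀ m, Mem (k + 2) (G m) ∧ HB k (G m) M) ∧ ∀ x, Tendsto (fun m => G m x) atTop (𝓝 (g x)) := by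
  let φ : ℕ → ContDiffBump (0 : X n) := fun m =>
    ⟨1 / ((m : ℝ) + 1) / 2, 1 / ((m : ℝ) + 1), by positivity, half_lt_self (by positivity)⟩
  refine ⟨fun m => conv ((φ m).normed volume) g, fun m => ⟨conv_mem hg.mem 2
    (fun j => (φ m).contDiff_normed) (φ m).hasCompactSupport_normed, ?_⟩, fun x => ?_⟩
  · have h := avg_hb (a := fun _ => 1) (z := fun y : X n => -y) ((φ m).integrable_normed (μ := volume))
      measurable_const (fun _ => by simp) measurable_neg hg
    have e : ∫ y, |(φ m).normed volume y| = 1 := by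
      rw [← (φ m).integral_normed (μ := volume)]
      exact integral_congr_ae (.of_forall fun y => abs_of_nonneg ((φ m).nonneg_normed y))
    rw [e, one_mul] at h
    exact h
  · simp only [avgb_eq]
    exact ContDiffBump.convolution_tendsto_right_of_continuous tendsto_one_div_add_atTop_nhds_zero_nat
      hg.mem.continuous x

end Crest.Agent.R238
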