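import Crest.Agent.R238.Calc

/-!
# Row 238 (S0369): Ops
Algebra of the operators `Lop`, `Gam`, `Op`; second-order conditions at a maximum.
All proofs: unfold, rewrite with `pd_*` (function-level equations, `differentiable_pd` for the inner
derivative), `Finset.sum_add_distrib`, `Finset.mul_sum`, `ring`.
-/

set_option autoImplicit false
set_option linter.unusedVariables false

open MeasureTheory Filter Topology Matrix
open Crest.Agent.R285 (bas pd gibbs WPot PolyB SConv)

noncomputable section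

namespace Crest.Agent.R238

variable {n : ℕ}

lemma opsa_diff {f : Fn n} (hf : ContDiff ℝ 2 f) : Differentiable ℝ f :=
  hf.differentiable (by norm_num)

lemma Lop_add (τ : MF n) {f g : Fn n} (hf : ContDiff ℝ 2 f) (hg : ContDiff ℝ 2 g) (x : X n) :
    Lop τ (fun y => f y + g y) x = Lop τ f x + Lop τ g x := by
  simp only [Lop, d2, R285.pd_add _ (opsa_diff hf) (opsa_diff hg),
    R285.pd_add _ (differentiable_pd hf _) (differentiable_pd hg _), mul_add,
    Finset.sum_add_distrib]
  ring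

lemma Lop_sub (τ : MF n) {f g : Fn n} (hf : ContDiff ℝ 2 f) (hg : ContDiff ℝ 2 g) (x : X n) :
    Lop τ (fun y => f y - g y) x = Lop τ f x - Lop τ g x := by
  simp only [Lop, d2, R285.pd_sub _ (opsa_diff hf) (opsa_diff hg),
    R285.pd_sub _ (differentiable_pd hf _) (differentiable_pd hg _), mul_sub,
    Finset.sum_sub_distrib]
  ring

lemma Lop_cmul (τ : MF n) (c : ℝ) {f : Fn n} (hf : ContDiff ℝ 2 f) (x : X n) :
    Lop τ (fun y => c * f y) x = c * Lop τ f x := by
  simp only [Lop, d2, pd_cmul _ c (opsa_diff hf), pd_cmul _ c (differentiable_pd hf _), mul_sub,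
    Finset.mul_sum]
  congr 1
  · exact Finset.sum_congr rfl fun a _ => Finset.sum_congr rfl fun b _ => by ring
  · exact Finset.sum_congr rfl fun a _ => by ring

lemma Lop_const (τ : MF n) (c : ℝ) (x : X n) : Lop τ (fun _ => c) x = 0 := by
  simp [Lop, d2, R285.pd_const]

lemma Lop_sum (τ : MF n) {I : Type} [Fintype I] {f : I → Fn n} (hf : ∀ i, ContDiff ℝ 2 (f i))
    (x : X n) : Lop τ (fun y => ∑ i, f i y) x = ∑ i, Lop τ (f i) x := by
  simp only [Lop, d2, pd_usum _ (fun i => opsa_diff (hf i)),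
    pd_usum _ (fun i => differentiable_pd (hf i) _), Finset.sum_sub_distrib, Finset.mul_sum]
  congr 1
  · rw [Finset.sum_comm (s := (Finset.univ : Finset I))]
    refine Finset.sum_congr rfl fun a _ => ?_
    rw [Finset.sum_comm]
  · rw [Finset.sum_comm]

/-- product rule -/
lemma Lop_mul {τ : MF n} (hs : ∀ a b x, τ a b x = τ b a x) {f g : Fn n} (hf : ContDiff ℝ 2 f)
    (hg : ContDiff ℝ 2 g) (x : X n) :
    Lop τ (fun y => f y * g y) x = f x * Lop τ g x + g x * Lop τ f x + 2 * Gam τ f g x := by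
  have h2 : ∀ a b, d2 (fun y => f y * g y) a b x =
      f x * d2 g a b x + g x * d2 f a b x + pd a f x * pd b g x + pd b f x * pd a g x := by
    intro a b
    simp only [d2, R285.pd_mul _ (opsa_diff hf) (opsa_diff hg)]
    rw [R285.pd_add a ((differentiable_pd hf b).fun_mul (opsa_diff hg))
      ((opsa_diff hf).fun_mul (differentiable_pd hg b)),
      R285.pd_mul a (differentiable_pd hf b) (opsa_diff hg),
      R285.pd_mul a (opsa_diff hf) (differentiable_pd hg b)]
    ring
  have h3 : ∑ a, ∑ b, τ a b x * (pd b f x * pd a g x) = Gam τ f g x := by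
    rw [Finset.sum_comm]
    exact Finset.sum_congr rfl fun a _ => Finset.sum_congr rfl fun b _ => by rw [hs b a]; ring
  have h4 : ∑ a, ∑ b, τ a b x * (pd a f x * pd b g x) = Gam τ f g x :=
    Finset.sum_congr rfl fun a _ => Finset.sum_congr rfl fun b _ => by ring
  have h5 : ∀ (c : ℝ) (u : Fn n), ∑ a, ∑ b, τ a b x * (c * d2 u a b x) =
      c * ∑ a, ∑ b, τ a b x * d2 u a b x := by
    intro c u
    simp only [Finset.mul_sum]
    exact Finset.sum_congr rfl fun a _ => Finset.sum_congr rfl fun b _ => by ring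
  have h6 : ∑ a, x a * pd a (fun y => f y * g y) x =
      f x * ∑ a, x a * pd a g x + g x * ∑ a, x a * pd a f x := by
    simp only [R285.pd_mul _ (opsa_diff hf) (opsa_diff hg), Finset.mul_sum,
      ← Finset.sum_add_distrib]
    exact Finset.sum_congr rfl fun a _ => by ring
  unfold Lop
  simp only [h2, mul_add, Finset.sum_add_distrib]
  rw [h3, h4, h5, h5, h6]
  ring

/-- chain rule; `φ` only needs derivatives on the range of `f` -/
lemma Lop_comp (τ : MF n) {f : Fn n} (hf : ContDiff ℝ 2 f) {φ φ' φ'' : ℝ → ℝ}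
    (h1 : ∀ y, HasDerivAt φ (φ' (f y)) (f y)) (h2 : ∀ y, HasDerivAt φ' (φ'' (f y)) (f y)) (x : X n) :
    Lop τ (fun y => φ (f y)) x = φ' (f x) * Lop τ f x + φ'' (f x) * Gam τ f f x := by
  have hd := opsa_diff hf
  have e1 : ∀ b, pd b (fun y => φ (f y)) = fun y => φ' (f y) * pd b f y := fun b =>
    funext fun y => pd_comp_real b (h1 y) (hd y)
  have hd' : Differentiable ℝ fun y => φ' (f y) := fun y =>
    ((h2 y).comp_hasFDerivAt y (hd y).hasFDerivAt).differentiableAt
  have e2 : ∀ a b, d2 (fun y => φ (f y)) a b x =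
      φ' (f x) * d2 f a b x + φ'' (f x) * (pd a f x * pd b f x) := by
    intro a b
    simp only [d2, e1]
    rw [R285.pd_mul a hd' (differentiable_pd hf b)]
    simp only
    rw [pd_comp_real a (h2 x) (hd x)]
    ring
  unfold Lop Gam
  simp only [e2, e1, mul_add, mul_sub, Finset.sum_add_distrib, Finset.mul_sum]
  have h3 : ∑ a, ∑ b, τ a b x * (φ' (f x) * d2 f a b x) =
      ∑ a, ∑ b, φ' (f x) * (τ a b x * d2 f a b x) :=
    Finset.sum_congr rfl fun a _ => Finset.sum_congr rfl fun b _ => by ring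
  have h4 : ∑ a, ∑ b, τ a b x * (φ'' (f x) * (pd a f x * pd b f x)) =
      ∑ a, ∑ b, φ'' (f x) * (τ a b x * pd a f x * pd b f x) :=
    Finset.sum_congr rfl fun a _ => Finset.sum_congr rfl fun b _ => by ring
  have h5 : ∑ a, x a * (φ' (f x) * pd a f x) = ∑ a, φ' (f x) * (x a * pd a f x) :=
    Finset.sum_congr rfl fun a _ => by ring
  rw [h3, h4, h5]
  ring

lemma Lop_normsq (τ : MF n) (x : X n) :
    Lop τ (fun y => ‖y‖ ^ 2) x = 2 * ∑ a, τ a a x - 2 * ‖x‖ ^ 2 := by
  have e2 : ∀ a b : Fin n, d2 (fun y : X n => ‖y‖ ^ 2) a b x = if b = a then 2 else 0 := by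
    intro a b
    simp only [d2, pd_normsq]
    rw [pd_cmul a 2 (differentiable_crd b), pd_crd]
    simp
  unfold Lop
  simp only [e2, pd_normsq, mul_ite, mul_zero, Finset.sum_ite_eq', Finset.mem_univ, if_true,
    R285.norm_sq_eq_sum x, Finset.mul_sum]
  congr 1
  · exact Finset.sum_congr rfl fun a _ => by ring
  · exact Finset.sum_congr rfl fun a _ => by ring

lemma Gam_normsq (τ : MF n) (x : X n) :
    Gam τ (fun y => ‖y‖ ^ 2) (fun y => ‖y‖ ^ 2) x = 4 * qf (fun a b => τ a b x) fun a => x a := by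
  simp only [Gam, qf, pd_normsq, Finset.mul_sum]
  exact Finset.sum_congr rfl fun a _ => Finset.sum_congr rfl fun b _ => by ring

lemma Gam_self (τ : MF n) (f : Fn n) (x : X n) :
    Gam τ f f x = qf (fun a b => τ a b x) fun a => pd a f x := rfl

lemma Gam_symm {τ : MF n} (hs : ∀ a b x, τ a b x = τ b a x) (f g : Fn n) (x : X n) :
    Gam τ f g x = Gam τ g f x := by
  unfold Gam
  rw [Finset.sum_comm]
  exact Finset.sum_congr rfl fun a _ => Finset.sum_congr rfl fun b _ => by rw [hs b a]; ring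

lemma Gam_mul_right (τ : MF n) (f : Fn n) {g h : Fn n} (hg : Differentiable ℝ g)
    (hh : Differentiable ℝ h) (x : X n) :
    Gam τ f (fun y => g y * h y) x = g x * Gam τ f h x + h x * Gam τ f g x := by
  simp only [Gam, R285.pd_mul _ hg hh, Finset.mul_sum, ← Finset.sum_add_distrib]
  exact Finset.sum_congr rfl fun a _ => Finset.sum_congr rfl fun b _ => by ring

lemma Gam_mul_left (τ : MF n) (f : Fn n) {g h : Fn n} (hg : Differentiable ℝ g)
    (hh : Differentiable ℝ h) (x : X n) :
    Gam τ (fun y => g y * h y) f x = g x * Gam τ h f x + h x * Gam τ g f x := by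
  simp only [Gam, R285.pd_mul _ hg hh, Finset.mul_sum, ← Finset.sum_add_distrib]
  exact Finset.sum_congr rfl fun a _ => Finset.sum_congr rfl fun b _ => by ring

/-- commutation of `∂_i` with `L` (use `d3_swap12`, `d3_swap23`, `d2_comm`, `pd_crd`) -/
lemma pd_Lop {τ : MF n} (hτ : ∀ a b, Differentiable ℝ (τ a b)) {h : Fn n} (hh : ContDiff ℝ 3 h)
    (i : Fin n) : pd i (Lop τ h) = fun x =>
      Lop τ (pd i h) x - pd i h x + ∑ a, ∑ b, pd i (τ a b) x * d2 h a b x := by
  have h2 : ContDiff ℝ 2 h := hh.of_le (by norm_num)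
  have h1 : ∀ a, Differentiable ℝ (pd a h) := differentiable_pd h2
  have h3 : ∀ a b, Differentiable ℝ (d2 h a b) := fun a b =>
    differentiable_pd (contDiff_pd (m := 2) hh b) a
  have hA : ∀ a b, Differentiable ℝ fun x => τ a b x * d2 h a b x := fun a b =>
    (hτ a b).mul (h3 a b)
  have hB : ∀ a, Differentiable ℝ fun x => ∑ b, τ a b x * d2 h a b x := fun a =>
    Differentiable.fun_sum fun b _ => hA a b
  have hC : ∀ a, Differentiable ℝ fun x : X n => x a * pd a h x := fun a =>
    (differentiable_crd a).mul (h1 a)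
  have e : ∀ a b, pd i (d2 h a b) = d2 (pd i h) a b := fun a b => by
    have e1 := d3_swap12 hh i a b
    have e2 := d3_swap23 hh a i b
    exact e1.trans e2
  have e' : ∀ a, pd i (pd a h) = pd a (pd i h) := fun a => d2_comm h2 i a
  unfold Lop
  rw [R285.pd_sub i (Differentiable.fun_sum fun a _ => hB a)
    (Differentiable.fun_sum fun a _ => hC a), pd_usum i hB, pd_usum i hC]
  funext x
  simp only [pd_usum i (hA _), R285.pd_mul i (hτ _ _) (h3 _ _),
    R285.pd_mul i (differentiable_crd _) (h1 _), pd_crd, e, e', Finset.sum_add_distrib, ite_mul,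
    one_mul, zero_mul, Finset.sum_ite_eq', Finset.mem_univ, if_true]
  ring

lemma contDiff_Lop {m : ℕ} {τ : MF n} (hτ : ∀ a b, ContDiff ℝ m (τ a b)) {h : Fn n}
    (hh : ContDiff ℝ (m + 2 : ℕ) h) : ContDiff ℝ m (Lop τ h) := by
  have h1 : ∀ a, ContDiff ℝ (m + 1 : ℕ) (pd a h) := contDiff_pd (m := m + 1) hh
  unfold Lop
  refine ContDiff.sub (ContDiff.sum fun a _ => ContDiff.sum fun b _ =>
    (hτ a b).mul (contDiff_pd (h1 b) a)) (ContDiff.sum fun a _ => (contDiff_crd a _).mul ?_)
  exact (h1 a).of_le (by exact_mod_cast Nat.le_succ m)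

/-- second-order commutation: apply `pd_Lop` twice -/
lemma Lop_d2 {τ : MF n} (hτ : ∀ a b, ContDiff ℝ 2 (τ a b)) {h : Fn n} (hh : ContDiff ℝ 4 h)
    (i j : Fin n) (x : X n) :
    Lop τ (d2 h i j) x = d2 (Lop τ h) i j x + 2 * d2 h i j x -
      ∑ a, ∑ b, (pd i (τ a b) x * d3 h j a b x + pd j (τ a b) x * d3 h i a b x +
        d2 (τ a b) i j x * d2 h a b x) := by
  have hτ1 : ∀ a b, Differentiable ℝ (τ a b) := fun a b => (hτ a b).differentiable (by norm_num)
  have h3 : ContDiff ℝ 3 h := hh.of_le (by norm_num)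
  have hj : ContDiff ℝ 3 (pd j h) := contDiff_pd (m := 3) hh j
  have hd2 : ∀ a b, Differentiable ℝ (d2 h a b) := fun a b =>
    differentiable_pd (contDiff_pd (m := 2) h3 b) a
  have hL : Differentiable ℝ (Lop τ (pd j h)) :=
    (contDiff_Lop (m := 1) (fun a b => (hτ a b).of_le (by norm_num)) hj).differentiable one_ne_zero
  have hp : Differentiable ℝ (pd j h) := hj.differentiable (by norm_num)
  have hA : ∀ a b, Differentiable ℝ fun x => pd j (τ a b) x * d2 h a b x := fun a b =>
    (differentiable_pd (hτ a b) j).mul (hd2 a b)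
  have hB : ∀ a, Differentiable ℝ fun x => ∑ b, pd j (τ a b) x * d2 h a b x := fun a =>
    Differentiable.fun_sum fun b _ => hA a b
  have e : ∀ a b, d2 (pd j h) a b = d3 h j a b := fun a b =>
    ((d3_swap12 h3 j a b).trans (d3_swap23 h3 a j b)).symm
  have key : d2 (Lop τ h) i j x = Lop τ (d2 h i j) x - d2 h i j x +
      ∑ a, ∑ b, pd i (τ a b) x * d3 h j a b x - d2 h i j x +
      ∑ a, ∑ b, (d2 (τ a b) i j x * d2 h a b x + pd j (τ a b) x * d3 h i a b x) := by
    show pd i (pd j (Lop τ h)) x = _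
    rw [pd_Lop hτ1 h3 j, R285.pd_add i (hL.fun_sub hp) (Differentiable.fun_sum fun a _ => hB a),
      R285.pd_sub i hL hp, pd_Lop hτ1 hj i, pd_usum i hB]
    simp only [pd_usum i (hA _), R285.pd_mul i (differentiable_pd (hτ _ _) j) (hd2 _ _), e]
  rw [key]
  simp only [Finset.sum_add_distrib]
  ring

lemma Lop_neg_arg {τ : MF n} (hτ : ∀ a b, Ev (τ a b)) {h : Fn n} (hh : ContDiff ℝ 2 h) (x : X n) :
    Lop τ (fun y => h (-y)) x = Lop τ h (-x) := by
  have e2 : ∀ a b, d2 (fun y => h (-y)) a b x = d2 h a b (-x) := by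
    intro a b
    simp only [d2, pd_neg_arg _ (opsa_diff hh)]
    rw [R285.pd_neg a (fun y => pd b h (-y)), pd_neg_arg a (differentiable_pd hh b)]
    simp
  unfold Lop
  simp only [e2, pd_neg_arg _ (opsa_diff hh)]
  congr 1
  · exact Finset.sum_congr rfl fun a _ => Finset.sum_congr rfl fun b _ => by rw [hτ a b x]
  · exact Finset.sum_congr rfl fun a _ => by simp

lemma Op_add (τ : MF n) (β : Fin n → Fn n) (c : Fn n) {f g : Fn n} (hf : ContDiff ℝ 2 f)
    (hg : ContDiff ℝ 2 g) (x : X n) :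
    Op τ β c (fun y => f y + g y) x = Op τ β c f x + Op τ β c g x := by
  simp only [Op, Lop_add τ hf hg, R285.pd_add _ (opsa_diff hf) (opsa_diff hg), mul_add,
    Finset.sum_add_distrib]
  ring

lemma Op_sub (τ : MF n) (β : Fin n → Fn n) (c : Fn n) {f g : Fn n} (hf : ContDiff ℝ 2 f)
    (hg : ContDiff ℝ 2 g) (x : X n) :
    Op τ β c (fun y => f y - g y) x = Op τ β c f x - Op τ β c g x := by
  simp only [Op, Lop_sub τ hf hg, R285.pd_sub _ (opsa_diff hf) (opsa_diff hg), mul_sub,
    Finset.sum_sub_distrib]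
  ring

lemma Op_cmul (τ : MF n) (β : Fin n → Fn n) (c : Fn n) (s : ℝ) {f : Fn n} (hf : ContDiff ℝ 2 f)
    (x : X n) : Op τ β c (fun y => s * f y) x = s * Op τ β c f x := by
  have h5 : ∑ a, β a x * (s * pd a f x) = s * ∑ a, β a x * pd a f x := by
    rw [Finset.mul_sum]
    exact Finset.sum_congr rfl fun a _ => by ring
  simp only [Op, Lop_cmul τ s hf, pd_cmul _ s (opsa_diff hf), h5]
  ring

lemma Op_neg_arg {τ : MF n} (hτ : ∀ a b, Ev (τ a b)) {β : Fin n → Fn n} (hβ : ∀ a, Od (β a))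
    {c : Fn n} (hc : Ev c) {h : Fn n} (hh : ContDiff ℝ 2 h) (x : X n) :
    Op τ β c (fun y => h (-y)) x = Op τ β c h (-x) := by
  simp only [Op, Lop_neg_arg hτ hh, pd_neg_arg _ (opsa_diff hh), hc x]
  congr 2
  exact Finset.sum_congr rfl fun a _ => by rw [hβ a x]; ring

/-- conjugation by the weight `om`: `Lop_mul`, `Lop_normsq`, `om x * rho 1 x = 1` -/
lemma Lop_omul {τ : MF n} (hs : ∀ a b x, τ a b x = τ b a x) (θ : ℝ) {h : Fn n} (hh : ContDiff ℝ 2 h)
    (x : X n) : Lop τ (omul h) x + θ * omul h x = om x * Op τ (cβ τ) (cc τ θ) h x := by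
  have hom : ContDiff ℝ 2 (om : Fn n) := contDiff_const.add (contDiff_normsq 2)
  have h0 : om x * rho 1 x = 1 := by
    simp only [om, rho, one_mul]
    exact mul_inv_cancel₀ (by positivity)
  have h1 : Lop τ om x = 2 * ∑ a, τ a a x - 2 * ‖x‖ ^ 2 := by
    have := Lop_add τ (f := fun _ => (1 : ℝ)) (g := fun y => ‖y‖ ^ 2) contDiff_const
      (contDiff_normsq 2) x
    rw [Lop_const, Lop_normsq, zero_add] at this
    exact this
  have h2 : ∀ a, pd a (om : Fn n) x = 2 * x a := by
    intro a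
    have := congrFun (R285.pd_add a (f := fun _ : X n => (1 : ℝ)) (g := fun y => ‖y‖ ^ 2)
      (differentiable_const _) (opsa_diff (contDiff_normsq 2))) x
    rw [R285.pd_const, pd_normsq] at this
    simp only [zero_add] at this
    exact this
  have h3 : om x * ∑ a, cβ τ a x * pd a h x = 2 * Gam τ om h x := by
    rw [Gam_symm hs]
    simp only [Gam, cβ, h2, Finset.mul_sum, Finset.sum_mul]
    refine Finset.sum_congr rfl fun a _ => Finset.sum_congr rfl fun b _ => ?_
    linear_combination (4 * τ a b x * x b * pd a h x) * h0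
  have h4 := Lop_mul hs hom hh x
  change Lop τ (fun y => om y * h y) x + θ * (om x * h x) = _
  rw [h4, h1]
  simp only [Op, cc, mul_add, h3]
  linear_combination (-(2 * ∑ a, τ a a x - 2 * ‖x‖ ^ 2) * h x) * h0

/-! ## Maxima -/

lemma pd_eq_zero_of_max {f : Fn n} {x : X n} (h : IsLocalMax f x) (a : Fin n) : pd a f x = 0 := by
  simp only [pd, h.fderiv_eq_zero]; rfl

/-- one-dimensional second-order condition: `φ' = deriv`, `φ'(t₀) = 0` and if `φ''(t₀) > 0` then `φ` is
strictly increasing to the right of `t₀` (or use Mathlib's `isLocalMin_of_deriv_deriv_pos` to get that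
`φ` is locally constant). -/
lemma deriv2_nonpos_of_max {φ φ' : ℝ → ℝ} {t₀ c : ℝ} (h : IsLocalMax φ t₀)
    (h1 : ∀ t, HasDerivAt φ (φ' t) t) (h2 : HasDerivAt φ' c t₀) : c ≤ 0 := by
  by_contra hc
  replace hc : 0 < c := not_le.1 hc
  have e : deriv φ = φ' := funext fun t => (h1 t).deriv
  have h0 : deriv φ t₀ = 0 := h.deriv_eq_zero
  have hmin : IsLocalMin φ t₀ :=
    isLocalMin_of_deriv_deriv_pos (by rw [e, h2.deriv]; exact hc) h0 (h1 t₀).continuousAt
  have hconst : φ =ᶠ[𝓝 t₀] fun _ => φ t₀ :=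
    (Filter.Eventually.and h hmin).mono fun t ht => le_antisymm ht.1 ht.2
  have h3 : deriv (deriv φ) t₀ = 0 := by
    rw [hconst.deriv.deriv_eq]; simp
  rw [e, h2.deriv] at h3
  exact hc.ne' h3

/-- the Hessian at a local maximum is negative semidefinite (restrict to the line `x + t ξ`,
`hasDerivAt_line` twice) -/
lemma qf_d2_nonpos {f : Fn n} (hf : ContDiff ℝ 2 f) {x : X n} (h : IsLocalMax f x) (ξ : Fin n → ℝ) :
    qf (fun a b => d2 f a b x) ξ ≤ 0 := by
  let v : X n := WithLp.toLp 2 ξ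
  have hf1 : Differentiable ℝ f := hf.differentiable (by norm_num)
  have hmax : IsLocalMax (fun s : ℝ => f (x + s • v)) 0 := by
    have hc : ContinuousAt (fun s : ℝ => x + s • v) 0 := by fun_prop
    refine IsLocalMax.comp_continuous (f := f) (g := fun s : ℝ => x + s • v) ?_ hc
    simpa using h
  have h2 : HasDerivAt (fun t : ℝ => ∑ b, v b * pd b f (x + t • v))
      (∑ b, v b * ∑ a, v a * pd a (pd b f) (x + (0 : ℝ) • v)) 0 :=
    HasDerivAt.fun_sum fun b _ => (hasDerivAt_line (differentiable_pd hf b) x v 0).const_mul (v b)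
  have h3 := deriv2_nonpos_of_max hmax (hasDerivAt_line hf1 x v) h2
  refine le_of_eq_of_le ?_ h3
  simp only [qf, zero_smul, add_zero, Finset.mul_sum, v]
  rw [Finset.sum_comm]
  exact Finset.sum_congr rfl fun b _ => Finset.sum_congr rfl fun a _ => by ring

open scoped MatrixOrder in
lemma opsb_sqrt {A : A2 n} (hs : ∀ a b, A a b = A b a) (hp : ∀ ξ, 0 ≤ qf A ξ) :
    ∃ B : A2 n, ∀ a b, A a b = ∑ k, B k a * B k b := by
  have hA : (Matrix.of A).PosSemidef := by
    rw [Matrix.posSemidef_iff_dotProduct_mulVec]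
    refine ⟨?_, fun ξ => ?_⟩
    · ext a b
      simp [hs a b]
    · refine (hp ξ).trans (le_of_eq ?_)
      simp only [qf, dotProduct, Matrix.mulVec, star_trivial, Matrix.of_apply, Finset.mul_sum]
      exact Finset.sum_congr rfl fun a _ => Finset.sum_congr rfl fun b _ => by ring
  obtain ⟨B, hB⟩ := CStarAlgebra.nonneg_iff_eq_star_mul_self.mp hA.nonneg
  refine ⟨B, fun a b => ?_⟩
  have := congrFun (congrFun hB a) b
  simpa [Matrix.mul_apply] using this

/-- `A : D²f ≤ 0` at a local maximum for `A` symmetric positive semidefinite: write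
`A = Bᵀ B` (`Matrix.posSemidef_iff_eq_conjTranspose_mul_self` or `exists_sqrt` of `R238/Tens`-type
argument; prove a local copy) and sum `qf_d2_nonpos` over the rows of `B`. -/
lemma trace_nonpos {f : Fn n} (hf : ContDiff ℝ 2 f) {x : X n} (h : IsLocalMax f x) {A : A2 n}
    (hs : ∀ a b, A a b = A b a) (hp : ∀ ξ, 0 ≤ qf A ξ) : ∑ a, ∑ b, A a b * d2 f a b x ≤ 0 := by
  obtain ⟨B, hB⟩ := opsb_sqrt hs hp
  have e : ∑ a, ∑ b, A a b * d2 f a b x = ∑ k, qf (fun a b => d2 f a b x) (B k) := by
    simp only [qf, hB, Finset.sum_mul]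
    rw [Finset.sum_comm (f := fun k a => ∑ b, d2 f a b x * B k a * B k b)]
    refine Finset.sum_congr rfl fun a _ => ?_
    rw [Finset.sum_comm]
    exact Finset.sum_congr rfl fun k _ => Finset.sum_congr rfl fun b _ => by ring
  rw [e]
  exact Finset.sum_nonpos fun k _ => qf_d2_nonpos hf h (B k)

end Crest.Agent.R238
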