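import Crest.Agent.R238.Hol
import Crest.Agent.R238.Ops

/-!
# Row 238 (S0369): Int
Functions of polynomial growth, integration by parts, Poincaré inequality, parity, density bounds.
`WPot.integrable`, `WPot.integral_fderiv`, `WPot.prob`, `integral_gibbs`, `pc_gen` are in `R285`.
-/

set_option autoImplicit false
set_option linter.unusedVariables false

open MeasureTheory Filter Topology Matrix
open Crest.Agent.R285 (bas pd gibbs WPot PolyB SConv)

noncomputable section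

namespace Crest.Agent.R238

variable {n : ℕ}

lemma pg_succ {k : ℕ} {f : Fn n} :
    PG (k + 1) f ↔ PG k f ∧ Differentiable ℝ f ∧ ∀ i, PG k (pd i f) := Iff.rfl
lemma PG.pd {k : ℕ} {f : Fn n} (h : PG (k + 1) f) (i : Fin n) : PG k (pd i f) := h.2.2 i
lemma PG.diff {k : ℕ} {f : Fn n} (h : PG (k + 1) f) : Differentiable ℝ f := h.2.1
lemma PG.mono {k l : ℕ} {f : Fn n} (h : PG l f) (hkl : k ≤ l) : PG k f := by
  induction l, hkl using Nat.le_induction with
  | base => exact h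
  | succ m _ ih => exact ih h.1
lemma PG.zero {k : ℕ} {f : Fn n} (h : PG k f) : PG 0 f := h.mono (Nat.zero_le _)
lemma PG.continuous {k : ℕ} {f : Fn n} (h : PG k f) : Continuous f := h.zero.1
lemma PG.polyB {k : ℕ} {f : Fn n} (h : PG k f) : PolyB f := h.zero.2
lemma PG.contDiff {k : ℕ} {f : Fn n} (h : PG k f) : ContDiff ℝ k f := by
  induction k generalizing f with
  | zero => exact contDiff_zero.2 h.1
  | succ k ih => exact contDiff_succ_of_pd h.diff fun i => ih (h.pd i)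
lemma PG.congr {k : ℕ} {f g : Fn n} (h : PG k f) (e : ∀ x, f x = g x) : PG k g :=
  (funext e : f = g) ▸ h
lemma Mem.pg {k : ℕ} {f : Fn n} (h : Mem k f) : PG k f := by
  induction k generalizing f with
  | zero =>
    refine ⟨h.continuous, 0, hn 0 f, fun x => ?_⟩
    rw [pow_zero, mul_one]
    exact h.abs_le x
  | succ k ih => exact ⟨ih h.1, h.diff, fun i => ih (h.pd i)⟩
lemma PG.const (k : ℕ) (c : ℝ) : PG k fun _ : X n => c := (Mem.const k c).pg
lemma PG.crd (k : ℕ) (i : Fin n) : PG k fun x : X n => x i := by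
  induction k with
  | zero =>
    refine ⟨(differentiable_crd i).continuous, 1, 1, fun x => ?_⟩
    rw [pow_one, one_mul]
    exact (R285.abs_coord_le x i).trans (le_add_of_nonneg_left zero_le_one)
  | succ k ih =>
    refine ⟨ih, differentiable_crd i, fun a => ?_⟩
    rw [pd_crd]
    exact PG.const k _
lemma PG.add {k : ℕ} {f g : Fn n} (hf : PG k f) (hg : PG k g) : PG k fun x => f x + g x := by
  induction k generalizing f g with
  | zero => exact ⟨hf.1.add hg.1, hf.2.add hg.2⟩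
  | succ k ih =>
    refine ⟨ih hf.1 hg.1, hf.diff.add hg.diff, fun a => ?_⟩
    rw [R285.pd_add a hf.diff hg.diff]
    exact ih (hf.pd a) (hg.pd a)
lemma PG.mul {k : ℕ} {f g : Fn n} (hf : PG k f) (hg : PG k g) : PG k fun x => f x * g x := by
  induction k generalizing f g with
  | zero => exact ⟨hf.1.mul hg.1, hf.2.mul hg.2⟩
  | succ k ih =>
    refine ⟨ih hf.1 hg.1, hf.diff.mul hg.diff, fun a => ?_⟩
    rw [R285.pd_mul a hf.diff hg.diff]
    exact (ih (hf.pd a) hg.1).add (ih hf.1 (hg.pd a))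
lemma PG.cmul {k : ℕ} {f : Fn n} (c : ℝ) (hf : PG k f) : PG k fun x => c * f x :=
  (PG.const k c).mul hf
lemma PG.neg {k : ℕ} {f : Fn n} (hf : PG k f) : PG k fun x => -f x := by
  simpa using hf.cmul (-1)
lemma PG.sub {k : ℕ} {f g : Fn n} (hf : PG k f) (hg : PG k g) : PG k fun x => f x - g x := by
  simpa only [sub_eq_add_neg] using hf.add hg.neg
lemma PG.sq {k : ℕ} {f : Fn n} (hf : PG k f) : PG k fun x => f x ^ 2 := by
  simpa only [pow_two] using hf.mul hf
lemma PG.div_const {k : ℕ} {f : Fn n} (hf : PG k f) (c : ℝ) : PG k fun x => f x / c := by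
  simpa only [div_eq_mul_inv] using hf.mul (PG.const k c⁻¹)
lemma PG.fsum {k : ℕ} {I : Type} (s : Finset I) {f : I → Fn n} (hf : ∀ i ∈ s, PG k (f i)) :
    PG k fun x => ∑ i ∈ s, f i x := by
  classical
  induction s using Finset.induction_on with
  | empty => exact (PG.const k 0).congr fun x => by simp
  | insert a s ha ih =>
    exact ((hf a (Finset.mem_insert_self _ _)).add
      (ih fun i hi => hf i (Finset.mem_insert_of_mem hi))).congr fun x => by
        rw [Finset.sum_insert ha]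
lemma PG.sum {k : ℕ} {I : Type} [Fintype I] {f : I → Fn n} (hf : ∀ i, PG k (f i)) :
    PG k fun x => ∑ i, f i x := PG.fsum _ fun i _ => hf i
lemma PG.normsq (k : ℕ) : PG k fun x : X n => ‖x‖ ^ 2 := by
  simpa only [R285.norm_sq_eq_sum] using PG.sum fun i : Fin n => (PG.crd k i).sq
lemma PG.om (k : ℕ) : PG k (om : Fn n) := (PG.const k 1).add (PG.normsq k)
lemma PG.omul {k : ℕ} {h : Fn n} (hh : PG k h) : PG k (omul h) := (PG.om k).mul hh
lemma PG.d2 {k : ℕ} {f : Fn n} (h : PG (k + 2) f) (i j : Fin n) : PG k (d2 f i j) := (h.pd j).pd i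
lemma PG.Lop {k : ℕ} {τ : MF n} (hτ : ∀ a b, PG k (τ a b)) {h : Fn n} (hh : PG (k + 2) h) :
    PG k (Lop τ h) :=
  (PG.sum fun a => PG.sum fun b => (hτ a b).mul (hh.d2 a b)).sub
    (PG.sum fun a => (PG.crd k a).mul ((hh.pd a).mono (Nat.le_succ k)))
lemma PG.Gam {k : ℕ} {τ : MF n} (hτ : ∀ a b, PG k (τ a b)) {f g : Fn n} (hf : PG (k + 1) f)
    (hg : PG (k + 1) g) : PG k (Gam τ f g) :=
  PG.sum fun a => PG.sum fun b => ((hτ a b).mul (hf.pd a)).mul (hg.pd b)
lemma PG.ip2 {k : ℕ} {τ e f : MF n} (hτ : ∀ a b, PG k (τ a b)) (he : ∀ a b, PG k (e a b))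
    (hf : ∀ a b, PG k (f a b)) :
    PG k fun x => ip2 (fun a b => τ a b x) (fun a b => e a b x) fun a b => f a b x :=
  PG.sum fun i => PG.sum fun j => PG.sum fun a => PG.sum fun b =>
    (((hτ i a).mul (hτ j b)).mul (he i j)).mul (hf a b)

lemma PG.integrable {V : Fn n} (hV : WPot V) {k : ℕ} {f : Fn n} (hf : PG k f) :
    Integrable f (gibbs V) :=
  hV.integrable hf.polyB hf.continuous.aestronglyMeasurable

lemma inta_cont {F : Fn n} (hF : PG 1 F) : Continuous (fderiv ℝ F) :=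
  hF.contDiff.continuous_fderiv (by simp)

lemma inta_poly {F : Fn n} (hF : PG 1 F) : PolyB (fderiv ℝ F) := by
  have h := ((PG.const 0 1).add (PG.sum fun i => (hF.pd i).sq)).polyB
  refine h.of_le' fun x => le_trans ?_ (le_abs_self _)
  have h1 : ‖fderiv ℝ F x‖ ^ 2 ≤ ∑ i, pd i F x ^ 2 := by
    simpa [pd] using R285.norm_sq_le_sum (fderiv ℝ F x)
  nlinarith [sq_nonneg (‖fderiv ℝ F x‖ - 1), norm_nonneg (fderiv ℝ F x)]

/-- `WPot` from growth data (`gradient_coord`, `continuous_euclidean`-type arguments) -/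
lemma wpot_of_pg {V : Fn n} (hV : PG 1 V) {c C : ℝ} (hc : 0 < c) (h : ∀ x, c * ‖x‖ ^ 2 - C ≤ V x) :
    WPot V :=
  ⟨hV.diff, (InnerProductSpace.toDual ℝ (X n)).symm.continuous.comp (inta_cont hV),
    (inta_poly hV).of_le' fun x => (R285.norm_gradient V x).le, c, hc, C, h⟩

/-- integration by parts (`WPot.integral_fderiv` with `v = bas a`; `fderiv F` is continuous by
`PG.contDiff` and `PolyB` by `norm_sq_le_sum` or `fderiv_apply_eq_sum_pd`) -/
theorem ibp {V : Fn n} (hV : WPot V) {F : Fn n} (hF : PG 1 F) (a : Fin n) :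
    ∫ x, pd a F x ∂gibbs V = ∫ x, pd a V x * F x ∂gibbs V := by
  refine (hV.integral_fderiv hF.diff (inta_cont hF) hF.polyB (inta_poly hF) (bas a)).trans ?_
  congr 1
  funext x
  rw [real_inner_comm, R285.inner_gradient, smul_eq_mul]
  rfl

/-- copy the proof of `R285.poincare`, replacing `TG` by `PG 1` -/
theorem poincare {V : Fn n} (hV : WPot V) {ε : ℝ} (hε : 0 < ε) (hc : SConv V ε) {f : Fn n}
    (hf : PG 1 f) (h0 : ∫ x, f x ∂gibbs V = 0) :
    ∫ x, f x ^ 2 ∂gibbs V ≤ (∫ x, ∑ i, pd i f x ^ 2 ∂gibbs V) / ε := by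
  have := hV.prob
  have hD : Continuous (fderiv ℝ f) := inta_cont hf
  have hNp : PolyB fun x => ‖fderiv ℝ f x‖ := (inta_poly hf).norm'
  have i1 : Integrable (fun x => ‖fderiv ℝ f x‖) (gibbs V) :=
    hV.integrable hNp hD.norm.aestronglyMeasurable
  have i2 : Integrable (fun x => ‖fderiv ℝ f x‖ ^ 2) (gibbs V) :=
    hV.integrable (hNp.pow 2) (hD.norm.pow 2).aestronglyMeasurable
  have i3 : Integrable (fun x => ∑ i, pd i f x ^ 2) (gibbs V) :=
    (PG.sum fun i => (hf.pd i).sq).integrable hV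
  have key : ∀ δ : ℝ, 0 < δ → ∫ x, f x ^ 2 ∂gibbs V ≤
      ((∫ x, ‖fderiv ℝ f x‖ ^ 2 ∂gibbs V) + 2 * δ * (∫ x, ‖fderiv ℝ f x‖ ∂gibbs V) + δ ^ 2) / ε := by
    intro δ hδ
    have h1 := R285.pc_gen hV hε hc (G := fun x => ‖fderiv ℝ f x‖ + δ) hf.continuous
      (hD.norm.add continuous_const) hf.polyB (hNp.add (PolyB.const _)) (fun x => by positivity)
      fun R => by
        obtain ⟨r, hr, hu⟩ := Metric.uniformContinuousOn_iff_le.1
          ((isCompact_closedBall (0 : X n) R).uniformContinuousOn_of_continuous hD.continuousOn)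
          δ hδ
        refine ⟨r, hr, fun x y hx hy hxy => (le_abs_self _).trans ?_⟩
        have hconv : Convex ℝ (Metric.closedBall (0 : X n) R ∩ Metric.closedBall x r) :=
          (convex_closedBall _ _).inter (convex_closedBall _ _)
        refine hconv.norm_image_sub_le_of_norm_fderiv_le (𝕜 := ℝ) (f := f)
          (fun z _ => hf.diff z) (fun z hz => ?_)
          ⟨mem_closedBall_zero_iff.2 hy, by rwa [Metric.mem_closedBall, dist_comm, dist_eq_norm]⟩
          ⟨mem_closedBall_zero_iff.2 hx, Metric.mem_closedBall_self hr.le⟩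
        have h2 := hu z hz.1 x (mem_closedBall_zero_iff.2 hx) hz.2
        rw [dist_eq_norm] at h2
        linarith [norm_sub_norm_le (fderiv ℝ f z) (fderiv ℝ f x)]
    have e : (fun x => (‖fderiv ℝ f x‖ + δ) ^ 2) =
        fun x => (‖fderiv ℝ f x‖ ^ 2 + (2 * δ) * ‖fderiv ℝ f x‖) + δ ^ 2 := by
      funext x; ring
    rw [e, integral_add (f := fun x => ‖fderiv ℝ f x‖ ^ 2 + (2 * δ) * ‖fderiv ℝ f x‖)
      (i2.add (i1.const_mul _)) (integrable_const _), integral_add i2 (i1.const_mul _),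
      integral_const_mul, h0] at h1
    simpa using h1
  have hlim : Tendsto (fun δ : ℝ => ((∫ x, ‖fderiv ℝ f x‖ ^ 2 ∂gibbs V) +
      2 * δ * (∫ x, ‖fderiv ℝ f x‖ ∂gibbs V) + δ ^ 2) / ε) (𝓝[>] 0)
      (𝓝 ((∫ x, ‖fderiv ℝ f x‖ ^ 2 ∂gibbs V) / ε)) := by
    refine (Continuous.tendsto' (by fun_prop) 0 _ (by simp)).mono_left nhdsWithin_le_nhds
  refine (ge_of_tendsto hlim (eventually_nhdsWithin_of_forall key)).trans ?_
  refine div_le_div_of_nonneg_right (integral_mono i2 i3 fun x => ?_) hε.le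
  simpa [pd] using R285.norm_sq_le_sum (fderiv ℝ f x)

/-- midpoint strong convexity from the Hessian bound: `φ s = V (m + s d)`, `m` the midpoint,
`d = (x - y)/2`; `s ↦ φ s - ε s² |d|²/2` is convex (`hasDerivAt_line` twice) -/
theorem sconv_of_d2 {V : Fn n} (hV : ContDiff ℝ 2 V) {ε : ℝ}
    (h : ∀ x ξ, ε * ssq ξ ≤ qf (fun i j => d2 V i j x) ξ) : SConv V ε := by
  intro x y
  obtain ⟨v, rfl⟩ : ∃ v, x = y + v := ⟨x - y, by abel⟩
  have hd : Differentiable ℝ V := hV.differentiable (by norm_num)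
  have h1 : ∀ s : ℝ, HasDerivAt (fun s : ℝ => V (y + s • v) - ε / 2 * ‖v‖ ^ 2 * s ^ 2)
      (∑ a, v a * pd a V (y + s • v) - ε * ‖v‖ ^ 2 * s) s := fun s => by
    refine ((hasDerivAt_line hd y v s).fun_sub
      ((hasDerivAt_pow 2 s).const_mul (ε / 2 * ‖v‖ ^ 2))).congr_deriv ?_
    push_cast
    ring
  have h2 : ∀ s : ℝ, HasDerivAt (fun s : ℝ => ∑ a, v a * pd a V (y + s • v) - ε * ‖v‖ ^ 2 * s)
      (∑ a, v a * ∑ b, v b * pd b (pd a V) (y + s • v) - ε * ‖v‖ ^ 2 * 1) s := fun s =>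
    (HasDerivAt.fun_sum fun a _ =>
      (hasDerivAt_line (differentiable_pd hV a) y v s).const_mul (v a)).fun_sub
      ((hasDerivAt_id' s).const_mul _)
  have h3 := monotone_of_hasDerivAt_nonneg h2 fun s => by
    have h4 := h (y + s • v) fun a => v a
    rw [ssq_coe, qf, Finset.sum_comm] at h4
    simp only [Pi.zero_apply, Finset.mul_sum, mul_one, sub_nonneg]
    refine h4.trans_eq (Finset.sum_congr rfl fun a _ => Finset.sum_congr rfl fun b _ => ?_)
    ring
  rw [← funext fun s => (h1 s).deriv] at h3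
  have h5 := (Monotone.convexOn_univ_of_deriv (fun s => (h1 s).differentiableAt) h3).2
    (Set.mem_univ (0 : ℝ)) (Set.mem_univ (1 : ℝ)) (show (0 : ℝ) ≤ 1 / 2 by norm_num)
    (show (0 : ℝ) ≤ 1 / 2 by norm_num) (by norm_num)
  simp only [smul_eq_mul, mul_zero, mul_one, zero_add, zero_smul, add_zero, one_smul] at h5
  rw [show (1 / 2 : ℝ) • (y + v + y) = y + (1 / 2 : ℝ) • v by module, add_sub_cancel_left]
  linarith

/-- `integral_gibbs` and `integral_neg_eq_self` -/
theorem integral_neg_arg {V : Fn n} (hV : Ev V) (F : Fn n) :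
    ∫ x, F (-x) ∂gibbs V = ∫ x, F x ∂gibbs V := by
  rw [R285.integral_gibbs, R285.integral_gibbs,
    ← integral_neg_eq_self (fun x => Real.exp (-V x) • F x) volume]
  simp only [hV _]

theorem integral_odd {V : Fn n} (hV : Ev V) {F : Fn n} (hF : Od F) : ∫ x, F x ∂gibbs V = 0 := by
  have h := integral_neg_arg hV F
  simp only [hF _] at h
  rw [integral_neg] at h
  linarith

/-- Cauchy–Schwarz -/
theorem sq_integral_mul_le {V : Fn n} (hV : WPot V) {f g : Fn n} (hf : PG 0 f) (hg : PG 0 g) :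
    (∫ x, f x * g x ∂gibbs V) ^ 2 ≤ (∫ x, f x ^ 2 ∂gibbs V) * ∫ x, g x ^ 2 ∂gibbs V := by
  have i1 := hf.sq.integrable hV
  have i2 := (hf.mul hg).integrable hV
  have i3 := hg.sq.integrable hV
  have h := discrim_le_zero (a := ∫ x, f x ^ 2 ∂gibbs V) (b := 2 * ∫ x, f x * g x ∂gibbs V)
    (c := ∫ x, g x ^ 2 ∂gibbs V) fun t => by
      have h1 : 0 ≤ ∫ x, (t * f x + g x) ^ 2 ∂gibbs V := integral_nonneg fun x => sq_nonneg _
      have e : (fun x => (t * f x + g x) ^ 2) =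
          fun x => ((t * t) * f x ^ 2 + (2 * t) * (f x * g x)) + g x ^ 2 := by
        funext x; ring
      rw [e, integral_add (f := fun x => (t * t) * f x ^ 2 + (2 * t) * (f x * g x))
        ((i1.const_mul _).add (i2.const_mul _)) i3, integral_add (i1.const_mul _) (i2.const_mul _),
        integral_const_mul, integral_const_mul] at h1
      linarith
  rw [discrim] at h
  linarith

lemma intb_wpot0 {C : ℝ} (hC : 0 < C) : WPot fun x : X n => C / 2 * ‖x‖ ^ 2 :=
  wpot_of_pg ((PG.normsq 1).cmul (C / 2)) (C := 0) (half_pos hC) fun x => by simp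

lemma intb_wpot {C B : ℝ} (hC : 0 < C) {b : Fn n} (hb : PG 1 b) (hB : ∀ y, |b y| ≤ B) :
    WPot (quad C b) :=
  wpot_of_pg (((PG.normsq 1).cmul (C / 2)).add hb) (C := B) (half_pos hC) fun x => by
    rw [quad]
    linarith [(abs_le.1 (hB x)).1]

lemma intb_hi {C B : ℝ} {b : Fn n} (hB : ∀ y, |b y| ≤ B) (x : X n) :
    Real.exp (-quad C b x) ≤ Real.exp B * Real.exp (-(C / 2 * ‖x‖ ^ 2)) := by
  rw [← Real.exp_add, quad]
  exact Real.exp_le_exp.2 (by linarith [(abs_le.1 (hB x)).1])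

lemma intb_lo {C B : ℝ} {b : Fn n} (hB : ∀ y, |b y| ≤ B) (x : X n) :
    Real.exp (-B) * Real.exp (-(C / 2 * ‖x‖ ^ 2)) ≤ Real.exp (-quad C b x) := by
  rw [← Real.exp_add, quad]
  exact Real.exp_le_exp.2 (by linarith [(abs_le.1 (hB x)).2])

/-- the density of `gibbs (quad C b)` is at least `exp (-C (R+r)²/2 - 2B) / Z_C` on the ball of radius
`R + r`, `Z_C = ∫ exp (-C|x|²/2)`; all balls of radius `r` have the same positive volume -/
theorem dens_lo (n : ℕ) {C : ℝ} (hC : 0 < C) (B R : ℝ) {r : ℝ} (hr : 0 < r) : ∃ c : ℝ, 0 < c ∧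
    ∀ (b F : Fn n) (x : X n) (s : ℝ), PG 1 b → (∀ y, |b y| ≤ B) → PG 0 F → (∀ y, 0 ≤ F y) →
    ‖x‖ ≤ R → 0 ≤ s → (∀ y, ‖y - x‖ ≤ r → s ≤ F y) → c * s ≤ ∫ y, F y ∂gibbs (quad C b) := by
  have hZ := (intb_wpot0 (n := n) hC).partition_pos
  have hv : 0 < (volume : Measure (X n)).real (Metric.closedBall 0 r) :=
    ENNReal.toReal_pos (Metric.measure_closedBall_pos _ _ hr).ne' measure_closedBall_lt_top.ne
  refine ⟨(Real.exp B * ∫ x : X n, Real.exp (-(C / 2 * ‖x‖ ^ 2)))⁻¹ *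
    (Real.exp (-B) * Real.exp (-(C / 2 * (R + r) ^ 2)) *
      (volume : Measure (X n)).real (Metric.closedBall 0 r)), by positivity,
    fun b F x s hb hB hF hF0 hx hs hsF => ?_⟩
  have hW := intb_wpot hC hb hB
  have hI := hW.integrable_weight hF.polyB hF.continuous.aestronglyMeasurable
  have h1 : ∫ x, Real.exp (-quad C b x) ≤ Real.exp B * ∫ x : X n, Real.exp (-(C / 2 * ‖x‖ ^ 2)) := by
    rw [← integral_const_mul]
    exact integral_mono hW.integrable_exp ((intb_wpot0 hC).integrable_exp.const_mul _) (intb_hi hB)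
  have h2 := setIntegral_ge_of_const_le_real (s := Metric.closedBall x r)
    (c := Real.exp (-B) * Real.exp (-(C / 2 * (R + r) ^ 2)) * s) measurableSet_closedBall
    measure_closedBall_lt_top.ne (fun y hy => by
      rw [mem_closedBall_iff_norm] at hy
      have h3 : ‖y‖ ≤ R + r := by linarith [norm_sub_norm_le y x]
      refine mul_le_mul (le_trans ?_ (intb_lo (C := C) hB y)) (hsF y hy) hs (Real.exp_pos _).le
      gcongr) hI.integrableOn
  have h3 := setIntegral_le_integral (s := Metric.closedBall x r) hI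
    (ae_of_all _ fun y => mul_nonneg (Real.exp_pos _).le (hF0 y))
  rw [Measure.addHaar_real_closedBall_center] at h2
  rw [R285.integral_gibbs, smul_eq_mul, mul_assoc]
  exact mul_le_mul (inv_anti₀ hW.partition_pos h1) (by linarith) (by positivity)
    (inv_pos.2 hW.partition_pos).le

theorem mom_hi (n : ℕ) {C : ℝ} (hC : 0 < C) (B : ℝ) : ∃ K : ℝ, 0 < K ∧
    ∀ b : Fn n, PG 1 b → (∀ y, |b y| ≤ B) → ∫ y, om y ^ 2 ∂gibbs (quad C b) ≤ K := by
  have hZ := (intb_wpot0 (n := n) hC).partition_pos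
  have hp : PG 0 fun y : X n => om y ^ 2 := (PG.om 0).sq
  have h0 : 0 ≤ ∫ x : X n, Real.exp (-(C / 2 * ‖x‖ ^ 2)) * om x ^ 2 :=
    integral_nonneg fun x => by positivity
  refine ⟨(Real.exp (-B) * ∫ x : X n, Real.exp (-(C / 2 * ‖x‖ ^ 2)))⁻¹ *
    (Real.exp B * ∫ x : X n, Real.exp (-(C / 2 * ‖x‖ ^ 2)) * om x ^ 2) + 1, by positivity,
    fun b hb hB => ?_⟩
  have hW := intb_wpot hC hb hB
  have h1 : Real.exp (-B) * ∫ x : X n, Real.exp (-(C / 2 * ‖x‖ ^ 2)) ≤ ∫ x, Real.exp (-quad C b x) := by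
    rw [← integral_const_mul]
    exact integral_mono ((intb_wpot0 hC).integrable_exp.const_mul _) hW.integrable_exp (intb_lo hB)
  have h2 : ∫ x, Real.exp (-quad C b x) • om x ^ 2 ≤
      Real.exp B * ∫ x : X n, Real.exp (-(C / 2 * ‖x‖ ^ 2)) * om x ^ 2 := by
    rw [← integral_const_mul]
    refine integral_mono (hW.integrable_weight hp.polyB hp.continuous.aestronglyMeasurable)
      (((intb_wpot0 hC).integrable_weight hp.polyB hp.continuous.aestronglyMeasurable).const_mul _)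
      fun x => ?_
    beta_reduce
    rw [← mul_assoc]
    exact mul_le_mul_of_nonneg_right (intb_hi hB x) (sq_nonneg _)
  rw [R285.integral_gibbs, smul_eq_mul]
  refine le_trans (mul_le_mul (inv_anti₀ (by positivity) h1) h2
    (integral_nonneg fun x => mul_nonneg (Real.exp_pos _).le (sq_nonneg _)) (by positivity)) ?_
  linarith

lemma intb_dct {ε : ℝ} (hε : 0 < ε) {V : ℕ → Fn n} {V₀ : Fn n} (hV : ∀ m, Continuous (V m))
    (hlo : ∀ m x, ε / 2 * ‖x‖ ^ 2 ≤ V m x)
    (hl : ∀ x, Tendsto (fun m => V m x) atTop (𝓝 (V₀ x))) {F : ℕ → Fn n} {F₀ : Fn n}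
    (hF : ∀ m, Continuous (F m)) {K : ℝ} {k : ℕ} (hb : ∀ m x, |F m x| ≤ K * (1 + ‖x‖) ^ k)
    (hFl : ∀ x, Tendsto (fun m => F m x) atTop (𝓝 (F₀ x))) :
    Tendsto (fun m => ∫ x, Real.exp (-V m x) * F m x) atTop (𝓝 (∫ x, Real.exp (-V₀ x) * F₀ x)) := by
  have hp : PolyB fun x : X n => K * (1 + ‖x‖) ^ k := ⟨k, |K|, fun x => by
    rw [Real.norm_eq_abs, abs_mul, abs_of_nonneg (show 0 ≤ (1 + ‖x‖) ^ k by positivity)]⟩
  refine tendsto_integral_of_dominated_convergence _
    (fun m => ((Real.continuous_exp.comp (hV m).neg).mul (hF m)).aestronglyMeasurable)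
    ((intb_wpot0 hε).integrable_weight hp (Continuous.aestronglyMeasurable (by fun_prop)))
    (fun m => ae_of_all _ fun x => ?_)
    (ae_of_all _ fun x => ((Real.continuous_exp.tendsto _).comp (hl x).neg).mul (hFl x))
  rw [Real.norm_eq_abs, abs_mul, abs_of_pos (Real.exp_pos _)]
  exact mul_le_mul (Real.exp_le_exp.2 (neg_le_neg (hlo m x))) (hb m x) (abs_nonneg _)
    (Real.exp_pos _).le

/-- convergence of Gibbs expectations: `integral_gibbs`, dominated convergence for numerator and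
denominator with the bound `K (1+‖x‖)^k exp (-ε |x|²/2)` -/
theorem gibbs_lim {ε : ℝ} (hε : 0 < ε) {V : ℕ → Fn n} {V₀ : Fn n} (hV : ∀ m, Continuous (V m))
    (hV₀ : Continuous V₀) (hlo : ∀ m x, ε / 2 * ‖x‖ ^ 2 ≤ V m x)
    (hl : ∀ x, Tendsto (fun m => V m x) atTop (𝓝 (V₀ x))) {F : ℕ → Fn n} {F₀ : Fn n}
    (hF : ∀ m, Continuous (F m)) {K : ℝ} {k : ℕ} (hb : ∀ m x, |F m x| ≤ K * (1 + ‖x‖) ^ k)
    (hFl : ∀ x, Tendsto (fun m => F m x) atTop (𝓝 (F₀ x))) :
    Tendsto (fun m => ∫ x, F m x ∂gibbs (V m)) atTop (𝓝 (∫ x, F₀ x ∂gibbs V₀)) := by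
  have h1 := intb_dct hε hV hlo hl (F := fun _ _ => 1) (F₀ := fun _ => 1) (fun _ => continuous_const)
    (K := 1) (k := 0) (fun _ _ => by simp) fun _ => tendsto_const_nhds
  have h2 : Integrable fun x => Real.exp (-V₀ x) :=
    (intb_wpot0 hε).integrable_exp.mono' (Real.continuous_exp.comp hV₀.neg).aestronglyMeasurable
      (ae_of_all _ fun x => by
        rw [Real.norm_of_nonneg (Real.exp_pos _).le]
        exact Real.exp_le_exp.2 (neg_le_neg (ge_of_tendsto' (hl x) fun m => hlo m x)))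
  simp only [mul_one] at h1
  simp only [R285.integral_gibbs, smul_eq_mul]
  exact (h1.inv₀ (integral_exp_pos h2).ne').mul (intb_dct hε hV hlo hl hF hb hFl)

end Crest.Agent.R238
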