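import Crest.Agent.R238.Hol
import Crest.Agent.R238.Tens

/-!
# Row 238 (S0369): Rat
Concrete members of the Hölder scale: rational weights, compactly supported functions, inverse matrices.
-/

set_option autoImplicit false
set_option linter.unusedVariables false

open MeasureTheory Filter Topology Matrix
open Crest.Agent.R285 (bas pd gibbs WPot PolyB SConv)

noncomputable section

namespace Crest.Agent.R238

variable {n : ℕ}

lemma om_pos (x : X n) : 0 < om x := by unfold om; positivity
lemma one_le_om (x : X n) : 1 ≤ om x := by unfold om; nlinarith [sq_nonneg ‖x‖]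
lemma om_mul_rho (x : X n) : om x * rho 1 x = 1 := by
  have := om_pos x
  unfold om rho at *; rw [one_mul]; exact mul_inv_cancel₀ this.ne'
lemma contDiff_om (m : WithTop ℕ∞) : ContDiff ℝ m (om : Fn n) := contDiff_const.add (contDiff_normsq m)
lemma ev_om : Ev (om : Fn n) := fun x => by simp [om]
lemma ev_rho (δ : ℝ) : Ev (rho δ : Fn n) := fun x => by simp [rho]
lemma contDiff_omul {m : ℕ} {h : Fn n} (hh : ContDiff ℝ m h) : ContDiff ℝ m (omul h) :=
  (contDiff_om _).mul hh

lemma rata_den_pos {δ : ℝ} (hδ : 0 ≤ δ) (x : X n) : 0 < 1 + δ * ‖x‖ ^ 2 := by positivity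

lemma contDiff_rho {δ : ℝ} (hδ : 0 ≤ δ) (m : WithTop ℕ∞) : ContDiff ℝ m (rho δ : Fn n) := by
  exact (contDiff_const.add (contDiff_const.mul (contDiff_normsq m))).inv
    fun x => (rata_den_pos hδ x).ne'

lemma pd_rho {δ : ℝ} (hδ : 0 ≤ δ) (a : Fin n) :
    pd a (rho δ : Fn n) = fun x => -2 * (δ * x a * rho δ x) * rho δ x := by
  funext x
  have h0 := (rata_den_pos hδ x).ne'
  have h1 : HasDerivAt (fun t : ℝ => 1 + δ * t) δ (‖x‖ ^ 2) := by
    simpa using ((hasDerivAt_id (‖x‖ ^ 2)).const_mul δ).const_add 1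
  have h := pd_comp_real a (φ := fun t : ℝ => (1 + δ * t)⁻¹) (f := fun x : X n => ‖x‖ ^ 2) (x := x)
    (h1.inv h0) ((contDiff_normsq 1).differentiable one_ne_zero x)
  rw [pd_normsq] at h
  refine h.trans ?_
  simp only [rho]
  field_simp

lemma rata_rho_pos (x : X n) : 0 < rho 1 x := inv_pos.2 (rata_den_pos zero_le_one x)

lemma rata_abs_of {t : ℝ} (x : X n) (h : |t| ≤ om x) : |t * rho 1 x| ≤ 1 := by
  rw [abs_mul, abs_of_pos (rata_rho_pos x)]
  exact (mul_le_mul_of_nonneg_right h (rata_rho_pos x).le).trans_eq (om_mul_rho x)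

lemma rata_abs_r (x : X n) : |rho 1 x| ≤ 1 := by
  simpa using rata_abs_of (t := 1) x (by simpa using one_le_om x)

lemma rata_abs_p (a : Fin n) (x : X n) : |x a * rho 1 x| ≤ 1 := by
  refine rata_abs_of x ((R285.abs_coord_le x a).trans ?_)
  unfold om
  nlinarith [sq_nonneg (‖x‖ - 1), norm_nonneg x]

lemma rata_abs_q (a c : Fin n) (x : X n) : |x a * x c * rho 1 x| ≤ 1 := by
  refine rata_abs_of x ?_
  rw [abs_mul]
  have := mul_le_mul (R285.abs_coord_le x a) (R285.abs_coord_le x c) (abs_nonneg _) (norm_nonneg _)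
  unfold om
  nlinarith

lemma rata_diff_r : Differentiable ℝ (rho 1 : Fn n) :=
  (contDiff_rho zero_le_one 1).differentiable one_ne_zero

lemma rata_diff_p (a : Fin n) : Differentiable ℝ fun x : X n => x a * rho 1 x :=
  (differentiable_crd a).mul rata_diff_r

lemma rata_diff_q (a c : Fin n) : Differentiable ℝ fun x : X n => x a * x c * rho 1 x :=
  ((differentiable_crd a).mul (differentiable_crd c)).mul rata_diff_r

lemma rata_pd_r (i : Fin n) :
    pd i (rho 1 : Fn n) = fun x => -2 * (x i * rho 1 x * rho 1 x) := by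
  rw [pd_rho zero_le_one]
  funext x
  ring

lemma rata_pd_p (a i : Fin n) : pd i (fun x : X n => x a * rho 1 x) =
    fun x => (if a = i then 1 else 0) * rho 1 x + -2 * (x a * x i * rho 1 x * rho 1 x) := by
  rw [R285.pd_mul i (differentiable_crd a) rata_diff_r, pd_crd, rata_pd_r]
  funext x
  ring

lemma rata_pd_q (a c i : Fin n) : pd i (fun x : X n => x a * x c * rho 1 x) =
    fun x => (if a = i then 1 else 0) * (x c * rho 1 x) + (if c = i then 1 else 0) * (x a * rho 1 x) +
      -2 * (x a * x c * rho 1 x * (x i * rho 1 x)) := by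
  rw [R285.pd_mul i (f := fun x : X n => x a * x c)
      ((differentiable_crd a).mul (differentiable_crd c)) rata_diff_r,
    R285.pd_mul i (differentiable_crd a) (differentiable_crd c), pd_crd, pd_crd, rata_pd_r]
  funext x
  ring

/-- induction on `k` for the three families together: their derivatives are polynomials in the three
families (`pd_rho`, `pd_mul`, `pd_crd`), all three are bounded by `1`; base case `hb_zero_of_pd`. -/
theorem mem_rho_one (k : ℕ) : Mem k (rho 1 : Fn n) ∧ (∀ a, Mem k fun x : X n => x a * rho 1 x) ∧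
    ∀ a c, Mem k fun x : X n => x a * x c * rho 1 x := by
  induction k with
  | zero =>
    have b1 := rata_abs_r (n := n)
    have b2 := rata_abs_p (n := n)
    have b3 := rata_abs_q (n := n)
    have hi : ∀ a i : Fin n, |(if a = i then 1 else 0 : ℝ)| ≤ 1 := fun a i => by
      split_ifs <;> simp
    have hm : ∀ {u v : ℝ}, |u| ≤ 1 → |v| ≤ 1 → |u * v| ≤ 1 := fun hu hv => by
      rw [abs_mul]; exact mul_le_one₀ hu (abs_nonneg _) hv
    refine ⟨(hb_zero_of_pd (M := 4) (by norm_num) b1 rata_diff_r fun i x => ?_).1,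
      fun a => (hb_zero_of_pd (M := 4) (by norm_num) (b2 a) (rata_diff_p a) fun i x => ?_).1,
      fun a c => (hb_zero_of_pd (M := 4) (by norm_num) (b3 a c) (rata_diff_q a c) fun i x => ?_).1⟩
    · rw [rata_pd_r]
      have := abs_le.1 (hm (b2 i x) (b1 x))
      exact abs_le.2 ⟨by linarith [this.1, this.2], by linarith [this.1, this.2]⟩
    · rw [rata_pd_p]
      have h1 := abs_le.1 (hm (hi a i) (b1 x))
      have h2 := abs_le.1 (hm (b3 a i x) (b1 x))
      exact abs_le.2 ⟨by linarith [h1.1, h1.2, h2.1, h2.2], by linarith [h1.1, h1.2, h2.1, h2.2]⟩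
    · rw [rata_pd_q]
      have h1 := abs_le.1 (hm (hi a i) (b2 c x))
      have h2 := abs_le.1 (hm (hi c i) (b2 a x))
      have h3 := abs_le.1 (hm (b3 a c x) (b2 i x))
      exact abs_le.2 ⟨by linarith [h1.1, h1.2, h2.1, h2.2, h3.1, h3.2],
        by linarith [h1.1, h1.2, h2.1, h2.2, h3.1, h3.2]⟩
  | succ k ih =>
    obtain ⟨h1, h2, h3⟩ := ih
    refine ⟨mem_succ.2 ⟨h1, rata_diff_r, fun i => ?_⟩,
      fun a => mem_succ.2 ⟨h2 a, rata_diff_p a, fun i => ?_⟩,
      fun a c => mem_succ.2 ⟨h3 a c, rata_diff_q a c, fun i => ?_⟩⟩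
    · rw [rata_pd_r]
      exact ((h2 i).mul h1).cmul (-2)
    · rw [rata_pd_p]
      exact (h1.cmul _).add (((h3 a i).mul h1).cmul (-2))
    · rw [rata_pd_q]
      exact (((h2 c).cmul _).add ((h2 a).cmul _)).add (((h3 a c).mul (h2 i)).cmul (-2))

lemma rata_hb_one (n k : ℕ) : ∃ B : ℝ, 0 < B ∧ HB k (rho 1 : Fn n) B ∧
    (∀ a, HB k (fun x : X n => x a * rho 1 x) B) ∧
    ∀ a c, HB k (fun x : X n => x a * x c * rho 1 x) B := by
  obtain ⟨h1, h2, h3⟩ := mem_rho_one (n := n) k
  have p1 := hn_nonneg k (rho 1 : Fn n)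
  have p2 : 0 ≤ ∑ a, hn k (fun x : X n => x a * rho 1 x) :=
    Finset.sum_nonneg fun _ _ => hn_nonneg _ _
  have p3 : 0 ≤ ∑ a, ∑ c, hn k (fun x : X n => x a * x c * rho 1 x) :=
    Finset.sum_nonneg fun _ _ => Finset.sum_nonneg fun _ _ => hn_nonneg _ _
  refine ⟨1 + hn k (rho 1 : Fn n) + ∑ a, hn k (fun x : X n => x a * rho 1 x) +
    ∑ a, ∑ c, hn k (fun x : X n => x a * x c * rho 1 x), by positivity,
    h1.hb.weaken (by linarith), fun a => (h2 a).hb.weaken ?_, fun a c => (h3 a c).hb.weaken ?_⟩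
  · have := Finset.single_le_sum (f := fun a => hn k (fun x : X n => x a * rho 1 x))
      (fun _ _ => hn_nonneg _ _) (Finset.mem_univ a)
    linarith
  · have q1 := Finset.single_le_sum (f := fun c => hn k (fun x : X n => x a * x c * rho 1 x))
      (fun _ _ => hn_nonneg _ _) (Finset.mem_univ c)
    have q2 := Finset.single_le_sum
      (f := fun a => ∑ c, hn k (fun x : X n => x a * x c * rho 1 x))
      (fun _ _ => Finset.sum_nonneg fun _ _ => hn_nonneg _ _) (Finset.mem_univ a)
    linarith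

/-- scaling: `rho δ x = rho 1 (√δ • x)`, `HB.affine` -/
theorem hb_rho (n k : ℕ) : ∃ B : ℝ, 0 < B ∧ ∀ δ : ℝ, 0 < δ → δ ≤ 1 → HB k (rho δ : Fn n) B ∧
    (∀ a, HB k (fun x : X n => δ * x a * rho δ x) B) ∧
    ∀ a c, HB k (fun x : X n => δ * x a * x c * rho δ x) B := by
  obtain ⟨B, hB, h1, h2, h3⟩ := rata_hb_one n k
  refine ⟨B, hB, fun δ hδ hδ1 => ?_⟩
  have hs : |√δ| ≤ 1 := by
    rw [abs_of_nonneg (Real.sqrt_nonneg δ)]
    exact Real.sqrt_le_one.2 hδ1
  have hq : √δ * √δ = δ := Real.mul_self_sqrt hδ.le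
  have e : ∀ x : X n, rho 1 (√δ • x + 0) = rho δ x := fun x => by
    simp only [rho, add_zero, norm_smul, Real.norm_eq_abs, mul_pow, sq_abs, Real.sq_sqrt hδ.le,
      one_mul]
  have ec : ∀ (x : X n) (a : Fin n), (√δ • x + 0) a = √δ * x a := fun x a => by simp
  refine ⟨(h1.affine hs 0).congr e, fun a => ?_, fun a c => ((h3 a c).affine hs 0).congr fun x => ?_⟩
  · refine ((((h2 a).affine hs 0).cmul √δ).weaken (mul_le_of_le_one_left hB.le hs)).congr fun x => ?_
    simp only [e, ec]
    linear_combination (x a * rho δ x) * hq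
  · simp only [e, ec]
    linear_combination (x a * x c * rho δ x) * hq

/-- bounds for the coefficients of the conjugated operator (`‖x‖² = ∑ x_a²`) -/
theorem hb_conj (n k : ℕ) (B Θ : ℝ) : ∃ B' : ℝ, ∀ (τ : MF n) (θ : ℝ), (∀ a b, HB k (τ a b) B) →
    |θ| ≤ Θ → (∀ a, HB k (cβ τ a) B') ∧ HB k (cc τ θ) B' := by
  obtain ⟨R, hR, h1, h2, h3⟩ := rata_hb_one n k
  refine ⟨max (|(4 : ℝ)| * (n * (B * R))) (|(2 : ℝ)| * (n * (B * R)) + |(2 : ℝ)| * (n * R) + Θ),
    fun τ θ hτ hθ => ⟨fun a => ?_, ?_⟩⟩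
  · exact ((HB.nsum fun b => (hτ a b).mul (h2 b)).cmul 4).weaken (le_max_left _ _)
  · refine (((((HB.nsum fun a => (hτ a a).mul h1).cmul 2).sub
      ((HB.nsum fun a => h3 a a).cmul 2)).add ((HB.const k θ).weaken hθ)).weaken
      (le_max_right _ _)).congr fun x => ?_
    rw [cc, R285.norm_sq_eq_sum]
    simp only [← Finset.sum_mul, sq]
    ring

/-- `cc τ θ = -2 + θ + (2 tr τ + 2) / (1 + |x|²)` -/
lemma cc_le {τ : MF n} {B : ℝ} (hτ : ∀ a b x, |τ a b x| ≤ B) (θ : ℝ) (x : X n) :
    cc τ θ x ≤ -2 + θ + (2 * (n * B) + 2) * rho 1 x := by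
  have h1 : ∑ a, τ a a x ≤ n * B := by
    simpa using Finset.sum_le_sum (s := Finset.univ) fun a _ => (le_abs_self _).trans (hτ a a x)
  have h2 := om_mul_rho x
  have h3 := mul_le_mul_of_nonneg_right h1 (rata_rho_pos x).le
  unfold om at h2
  unfold cc
  nlinarith

lemma od_cβ {τ : MF n} (hτ : ∀ a b, Ev (τ a b)) (a : Fin n) : Od (cβ τ a) := by
  intro x
  simp only [cβ, hτ a _ x, ev_rho 1 x, PiLp.neg_apply, neg_mul, mul_neg, Finset.sum_neg_distrib]
lemma ev_cc {τ : MF n} (hτ : ∀ a b, Ev (τ a b)) (θ : ℝ) : Ev (cc τ θ) := by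
  intro x
  simp only [cc, hτ _ _ x, ev_rho 1 x, norm_neg]

/-- induction on `k`; `HasCompactSupport.fderiv`, `Continuous.bounded_above_of_compact_support` -/
theorem mem_of_compact {k : ℕ} {f : Fn n} (hf : ContDiff ℝ (k + 1 : ℕ) f) (hc : HasCompactSupport f) :
    Mem k f := by
  induction k generalizing f with
  | zero =>
    have hd : Differentiable ℝ f := hf.differentiable (by simp)
    obtain ⟨A, hA⟩ := hf.continuous.bounded_above_of_compact_support hc
    have h1 : ∀ i, ∃ M : ℝ, ∀ x, ‖pd i f x‖ ≤ M := fun i =>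
      (contDiff_pd hf i).continuous.bounded_above_of_compact_support (hc.fderiv_apply ℝ (bas i))
    choose M hM using h1
    refine (hb_zero_of_pd (A := A) (M := ∑ i, |M i|) (by positivity) hA hd fun i x => ?_).1
    exact ((hM i x).trans (le_abs_self _)).trans
      (Finset.single_le_sum (f := fun i => |M i|) (fun i _ => abs_nonneg _) (Finset.mem_univ i))
  | succ k ih =>
    refine ⟨ih (hf.of_le (by exact_mod_cast Nat.le_succ _)) hc, hf.differentiable (by simp),
      fun i => ih (contDiff_pd hf i) (hc.fderiv_apply ℝ (bas i))⟩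

lemma ratb_left {T H S : A2 n} (h : ∀ i j, ∑ a, T i a * H a j = if i = j then 1 else 0) (i j : Fin n) :
    ∑ a, ∑ b, T i a * H a b * S b j = S i j := by
  rw [Finset.sum_comm]
  simp only [← Finset.sum_mul, h]
  simp

lemma ratb_right {T H S : A2 n} (h : ∀ i j, ∑ a, T i a * H a j = if i = j then 1 else 0) (i j : Fin n) :
    ∑ a, ∑ b, S i a * H a b * T b j = S i j := by
  simp only [mul_assoc, ← Finset.mul_sum, inv_right h]
  simp

/-- derivative of an inverse matrix: differentiate `τ H = 1` and multiply by `τ` on the right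
(`inv_right`) -/
lemma pd_inv {τ H : MF n} (hτ : ∀ a b, Differentiable ℝ (τ a b)) (hH : ∀ a b, Differentiable ℝ (H a b))
    (h : ∀ x i j, ∑ a, τ i a x * H a j x = if i = j then 1 else 0) (k i j : Fin n) :
    pd k (τ i j) = fun x => -∑ a, ∑ b, τ i a x * pd k (H a b) x * τ b j x := by
  funext x
  have h1 : ∀ b, ∑ a, (pd k (τ i a) x * H a b x + τ i a x * pd k (H a b) x) = 0 := fun b => by
    have e : (fun x => ∑ a, τ i a x * H a b x) = fun _ => if i = b then (1 : ℝ) else 0 :=
      funext fun x => h x i b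
    have e2 := pd_usum k (f := fun a x => τ i a x * H a b x) fun a => (hτ i a).mul (hH a b)
    rw [e, R285.pd_const] at e2
    have e3 := congrFun e2 x
    simp only [R285.pd_mul k (hτ i _) (hH _ b)] at e3
    exact e3.symm
  have h2 := ratb_right (T := fun a b => τ a b x) (H := fun a b => H a b x)
    (S := fun a b => pd k (τ a b) x) (h x) i j
  have h3 : ∑ b, (∑ a, (pd k (τ i a) x * H a b x + τ i a x * pd k (H a b) x)) * τ b j x = 0 := by
    simp [h1]
  simp only [Finset.sum_mul, add_mul, Finset.sum_add_distrib] at h3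
  rw [Finset.sum_comm, h2, Finset.sum_comm] at h3
  linarith

lemma ratb_prod {I : Type} (s : Finset I) {f : I → Fn n} (hf : ∀ i, Differentiable ℝ (f i)) :
    Differentiable ℝ fun x => ∏ i ∈ s, f i x := by
  classical
  induction s using Finset.induction_on with
  | empty => simp
  | insert a s ha ih =>
    simp only [Finset.prod_insert ha]
    exact (hf a).mul ih

lemma ratb_det {M : X n → Matrix (Fin n) (Fin n) ℝ} (hM : ∀ a b, Differentiable ℝ fun x => M x a b) :
    Differentiable ℝ fun x => (M x).det := by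
  simp only [Matrix.det_apply']
  exact Differentiable.fun_sum fun σ _ => (ratb_prod _ fun i => hM _ _).const_mul _

/-- a bounded inverse of a differentiable matrix field is differentiable: either
`τ x - τ y = τ x (H y - H x) τ y` (continuity, then little-o), or `τ = adjugate / det` -/
lemma differentiable_inv {τ H : MF n} (hH : ∀ a b, Differentiable ℝ (H a b))
    (h : ∀ x i j, ∑ a, τ i a x * H a j x = if i = j then 1 else 0) (i j : Fin n) :
    Differentiable ℝ (τ i j) := by
  have h1 : ∀ x, mat τ x * mat H x = 1 := fun x => by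
    ext i j
    rw [Matrix.mul_apply, Matrix.one_apply]
    exact h x i j
  have h2 : ∀ x, (mat H x).det ≠ 0 := fun x => by
    have := congrArg Matrix.det (h1 x)
    rw [Matrix.det_mul, Matrix.det_one] at this
    exact right_ne_zero_of_mul_eq_one this
  have h3 : τ i j = fun x => ((mat H x).det)⁻¹ * ((mat H x).updateRow j (Pi.single i 1)).det := by
    funext x
    have := congrFun (congrFun (Matrix.inv_eq_left_inv (h1 x)) i) j
    rw [Matrix.inv_def, Matrix.smul_apply, Matrix.adjugate_apply, Ring.inverse_eq_inv', smul_eq_mul]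
      at this
    exact this.symm
  rw [h3]
  refine ((ratb_det (M := mat H) hH).inv h2).mul (ratb_det fun a b => ?_)
  simp only [Matrix.updateRow_apply]
  split_ifs
  · exact differentiable_const _
  · exact hH a b

/-- induction on `k`; base: `τ x - τ y = τ x (H y - H x) τ y`; step: `pd_inv` and `HB.mul` -/
theorem hb_inv (n k : ℕ) (B B₀ : ℝ) : ∃ B' : ℝ, ∀ (τ H : MF n), (∀ a b, HB k (H a b) B) →
    (∀ a b x, |τ a b x| ≤ B₀) → (∀ x i j, ∑ a, τ i a x * H a j x = if i = j then 1 else 0) →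
    ∀ a b, HB k (τ a b) B' := by
  induction k with
  | zero =>
    refine ⟨B₀ + n * (n * (|B₀| * |B| * |B₀|)), fun τ H hH hτ h i j => ?_⟩
    refine hb_zero (by positivity) (hτ i j) fun x y => ?_
    have e1 := ratb_right (T := fun a b => τ a b y) (H := fun a b => H a b y)
      (S := fun a b => τ a b x) (h y) i j
    have e2 := ratb_left (T := fun a b => τ a b x) (H := fun a b => H a b x)
      (S := fun a b => τ a b y) (h x) i j
    have e3 : τ i j x - τ i j y = ∑ a, ∑ b, τ i a x * (H a b y - H a b x) * τ b j y := by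
      simp only [mul_sub, sub_mul, Finset.sum_sub_distrib, e1, e2]
    have b1 : ∀ a b, |τ i a x * (H a b y - H a b x) * τ b j y| ≤ |B₀| * |B| * |B₀| * √‖x - y‖ := by
      intro a b
      have c1 := (hτ i a x).trans (le_abs_self _)
      have c2 := (hτ b j y).trans (le_abs_self _)
      have c3 : |H a b y - H a b x| ≤ |B| * √‖x - y‖ := by
        rw [abs_sub_comm]
        exact ((hH a b).weaken (le_abs_self _)).hol_le x y
      rw [abs_mul, abs_mul]
      calc _ ≤ |B₀| * (|B| * √‖x - y‖) * |B₀| := by gcongr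
        _ = _ := by ring
    rw [e3]
    calc _ ≤ ∑ _a : Fin n, ∑ _b : Fin n, |B₀| * |B| * |B₀| * √‖x - y‖ :=
          (Finset.abs_sum_le_sum_abs _ _).trans (Finset.sum_le_sum fun a _ =>
            (Finset.abs_sum_le_sum_abs _ _).trans (Finset.sum_le_sum fun b _ => b1 a b))
      _ = _ := by simp; ring
  | succ k ih =>
    obtain ⟨B₁, h₁⟩ := ih
    refine ⟨B₁ + n * (n * (n * (B₁ * B * B₁))), fun τ H hH hτ h i j => ?_⟩
    have a1 := h₁ τ H (fun a b => (hH a b).mono (Nat.le_succ k)) hτ h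
    have a2 : ∀ a b, Differentiable ℝ (H a b) := fun a b => (hH a b).1.diff
    have a3 := differentiable_inv a2 h
    refine hb_succ (a1 i j) (a3 i j) fun l => ?_
    rw [pd_inv a3 a2 h]
    exact (HB.nsum fun a => HB.nsum fun b => ((a1 i a).mul ((hH a b).pd l)).mul (a1 b j)).neg

end Crest.Agent.R238
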