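import Crest.Agent.R238.Apri
import Crest.Agent.R238.Rat

/-!
# Row 238 (S0369): Up
If `(L + 1) χ = g` with `χ = om * h` and `Dτ`, `D²τ` are small at infinity then `D²χ ∈ C^{3,1/2}`.
-/

set_option autoImplicit false
set_option linter.unusedVariables false

open MeasureTheory Filter Topology Matrix
open Crest.Agent.R285 (bas pd gibbs WPot PolyB SConv)

noncomputable section

namespace Crest.Agent.R238

variable {n : ℕ}

/-- `Dτ`, `D²τ` are at most `η` outside the ball of radius `R` -/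
def Small (η R : ℝ) (τ : MF n) : Prop := ∀ x, R ≤ ‖x‖ →
  (∀ a b i, |pd i (τ a b) x| ≤ η) ∧ ∀ a b i j, |d2 (τ a b) i j x| ≤ η

lemma upa_pd_om (a : Fin n) : pd a (om : Fn n) = fun x => 2 * x a := by
  have := R285.pd_add a (differentiable_const (1 : ℝ))
    ((contDiff_normsq (n := n) 1).differentiable one_ne_zero)
  rw [R285.pd_const, pd_normsq] at this
  simp only [zero_add] at this
  exact this

lemma upa_crd (i : Fin n) (x : X n) : |2 * x i| ≤ om x := by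
  have h1 : |x i| ≤ ‖x‖ := by simpa using PiLp.norm_apply_le x i
  rw [abs_mul, abs_two, om]
  nlinarith [sq_nonneg (‖x‖ - 1)]

lemma d2_omul {h : Fn n} (hh : ContDiff ℝ 2 h) (i j : Fin n) : d2 (omul h) i j = fun x =>
    om x * d2 h i j x + 2 * x i * pd j h x + 2 * x j * pd i h x + (if i = j then 2 else 0) * h x := by
  have hd : Differentiable ℝ h := hh.differentiable (by norm_num)
  have ho : Differentiable ℝ (om : Fn n) := (contDiff_om 1).differentiable one_ne_zero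
  have h2 : Differentiable ℝ fun x : X n => 2 * x j := (differentiable_crd j).const_mul 2
  have e : pd j (omul h) = fun x => 2 * x j * h x + om x * pd j h x := by
    have := R285.pd_mul j ho hd
    rw [upa_pd_om] at this
    exact this
  change pd i (pd j (omul h)) = _
  rw [e, R285.pd_add i (h2.fun_mul hd) (ho.fun_mul (differentiable_pd hh j)), R285.pd_mul i h2 hd,
    R285.pd_mul i ho (differentiable_pd hh j), upa_pd_om, pd_cmul i 2 (differentiable_crd j), pd_crd]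
  funext x
  by_cases hij : i = j
  · subst hij; simp only [if_true]; ring
  · simp only [if_neg hij, if_neg (Ne.symm hij)]; ring

lemma abs_d2_omul_le {h : Fn n} {M : ℝ} (hh : HB 2 h M) (i j : Fin n) (x : X n) :
    |d2 (omul h) i j x| ≤ 7 * M * om x := by
  rw [d2_omul hh.mem.contDiff]
  have hM := hh.nonneg
  have h0 := om_pos x
  have h1 : |om x * d2 h i j x| ≤ om x * M := by
    rw [abs_mul, abs_of_pos h0]
    exact mul_le_mul_of_nonneg_left ((HB.d2 (k := 0) hh i j).abs_le x) h0.le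
  have h2 : ∀ a b, |2 * x a * pd b h x| ≤ om x * M := fun a b => by
    rw [abs_mul]
    exact mul_le_mul (upa_crd a x) ((HB.pd (k := 1) hh b).abs_le x) (abs_nonneg _) h0.le
  have h3 : |(if i = j then 2 else 0) * h x| ≤ 2 * M := by
    rw [abs_mul]
    refine mul_le_mul ?_ (hh.abs_le x) (abs_nonneg _) (by norm_num)
    split_ifs <;> simp
  have h4 : M ≤ om x * M := le_mul_of_one_le_left hM (one_le_om x)
  have h5 := abs_le.1 h1
  have h6 := abs_le.1 (h2 i j)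
  have h7 := abs_le.1 (h2 j i)
  have h8 := abs_le.1 h3
  rw [abs_le]
  constructor <;> nlinarith

/-- `rho δ * om = rho δ + δ⁻¹ ∑_a δ x_a x_a rho δ`, `rho δ * x_i = δ⁻¹ (δ x_i rho δ)`; `hb_rho` -/
lemma mem_rho_d2 {h : Fn n} (hh : Mem 5 h) {δ : ℝ} (hδ : 0 < δ) (hδ1 : δ ≤ 1) (i j : Fin n) :
    Mem 3 fun x => rho δ x * d2 (omul h) i j x := by
  obtain ⟨B, -, hB⟩ := hb_rho n 3
  obtain ⟨h0, h1, h2⟩ := hB δ hδ hδ1
  have m1 : Mem 3 fun x : X n => rho δ x + δ⁻¹ * ∑ a, δ * x a * x a * rho δ x :=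
    h0.mem.add ((Mem.sum fun a => (h2 a a).mem).cmul _)
  have m2 : ∀ a b, Mem 3 fun x : X n => 2 * δ⁻¹ * (δ * x a * rho δ x * pd b h x) := fun a b =>
    ((h1 a).mem.mul (Mem.pd (k := 3) (hh.mono (by norm_num)) b)).cmul _
  refine ((((m1.mul (Mem.d2 (k := 3) hh i j)).add (m2 i j)).add (m2 j i)).add
    ((h0.mem.mul (hh.mono (by norm_num))).cmul (if i = j then 2 else 0))).congr fun x => ?_
  rw [d2_omul ((hh.mono (show 2 ≤ 5 by norm_num)).contDiff)]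
  have e : ∑ a, δ * x a * x a * rho δ x = δ * (‖x‖ ^ 2 * rho δ x) := by
    rw [R285.norm_sq_eq_sum, Finset.sum_mul, Finset.mul_sum]
    exact Finset.sum_congr rfl fun a _ => by ring
  simp only [e, om]
  field_simp

/-- the equation for `v = D²χ` (`Lop_d2` with `Lop τ χ = g - χ`) -/
lemma Lop_d2_eq {τ : MF n} (hτ : ∀ a b, ContDiff ℝ 2 (τ a b)) {χ g : Fn n} (hχ : ContDiff ℝ 4 χ)
    (hg : ContDiff ℝ 2 g) (he : ∀ x, Lop τ χ x + χ x = g x) (i j : Fin n) (x : X n) :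
    Lop τ (d2 χ i j) x = d2 g i j x + d2 χ i j x -
      ∑ a, ∑ b, (pd i (τ a b) x * d3 χ j a b x + pd j (τ a b) x * d3 χ i a b x +
        d2 (τ a b) i j x * d2 χ a b x) := by
  have e : Lop τ χ = fun y => g y - χ y := funext fun y => eq_sub_of_add_eq (he y)
  have h2 : ContDiff ℝ 2 χ := hχ.of_le (by norm_num)
  have e2 : d2 (fun y => g y - χ y) i j = fun y => d2 g i j y - d2 χ i j y := by
    change pd i (pd j _) = _
    rw [R285.pd_sub j (opsa_diff hg) (opsa_diff h2),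
      R285.pd_sub i (differentiable_pd hg j) (differentiable_pd h2 j)]
  rw [Lop_d2 hτ hχ, e, e2]
  ring

lemma upb_le_sqrt2 (v : Fin n → Fin n → ℝ) (i j : Fin n) :
    |v i j| ≤ √(∑ i, ∑ j, v i j ^ 2) := by
  apply Real.abs_le_sqrt
  calc v i j ^ 2 ≤ ∑ j, v i j ^ 2 :=
        Finset.single_le_sum (f := fun j => v i j ^ 2) (fun _ _ => sq_nonneg _) (Finset.mem_univ j)
    _ ≤ _ := Finset.single_le_sum (f := fun i => ∑ j, v i j ^ 2)
        (fun _ _ => Finset.sum_nonneg fun _ _ => sq_nonneg _) (Finset.mem_univ i)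

lemma upb_le_sqrt3 (t : Fin n → Fin n → Fin n → ℝ) (a i j : Fin n) :
    |t a i j| ≤ √(∑ i, ∑ j, ∑ a, t a i j ^ 2) := by
  apply Real.abs_le_sqrt
  calc t a i j ^ 2 ≤ ∑ a, t a i j ^ 2 :=
        Finset.single_le_sum (f := fun a => t a i j ^ 2) (fun _ _ => sq_nonneg _) (Finset.mem_univ a)
    _ ≤ ∑ j, ∑ a, t a i j ^ 2 := Finset.single_le_sum (f := fun j => ∑ a, t a i j ^ 2)
        (fun _ _ => Finset.sum_nonneg fun _ _ => sq_nonneg _) (Finset.mem_univ j)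
    _ ≤ _ := Finset.single_le_sum (f := fun i => ∑ j, ∑ a, t a i j ^ 2)
        (fun _ _ => Finset.sum_nonneg fun _ _ => Finset.sum_nonneg fun _ _ => sq_nonneg _)
        (Finset.mem_univ i)

lemma upb_abs_mul {a b A B : ℝ} (ha : |a| ≤ A) (hb : |b| ≤ B) : |a * b| ≤ A * B := by
  rw [abs_mul]
  exact mul_le_mul ha hb (abs_nonneg _) ((abs_nonneg _).trans ha)

lemma upb_abs_sum2 {F : Fin n → Fin n → ℝ} {M : ℝ} (h : ∀ a b, |F a b| ≤ M) :
    |∑ a, ∑ b, F a b| ≤ n ^ 2 * M := by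
  calc |∑ a, ∑ b, F a b| ≤ ∑ a, |∑ b, F a b| := Finset.abs_sum_le_sum_abs _ _
    _ ≤ ∑ a : Fin n, ∑ b : Fin n, M := Finset.sum_le_sum fun a _ =>
        (Finset.abs_sum_le_sum_abs _ _).trans (Finset.sum_le_sum fun b _ => h a b)
    _ = n ^ 2 * M := by simp; ring

lemma upb_amgm {N κ η W S G : ℝ} (hη : 0 ≤ η) (h1 : 8 * (N ^ 2 * η) ≤ 1) (hk : 8 * (N ^ 2 * η) ≤ κ)
    (hW : 0 ≤ W) (hS : 0 ≤ S) :
    W ^ 2 / 2 - 2 * N ^ 2 * G ^ 2 ≤
      2 * (W ^ 2 - N * (W * G + W * (N * (η * S + η * S + η * W)))) + 2 * (κ * S ^ 2) := by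
  set e := N ^ 2 * η with he
  have he0 : 0 ≤ e := by positivity
  have key : 2 * (W ^ 2 - N * (W * G + W * (N * (η * S + η * S + η * W)))) =
      2 * W ^ 2 - 2 * (W * (N * G)) - 4 * e * (W * S) - 2 * e * W ^ 2 := by rw [he]; ring
  rw [key]
  have a1 : 2 * (W * (N * G)) ≤ W ^ 2 / 2 + 2 * N ^ 2 * G ^ 2 := by
    nlinarith [sq_nonneg (W - 2 * (N * G))]
  have a2 : 4 * e * (W * S) ≤ 2 * e * W ^ 2 + 2 * e * S ^ 2 := by
    nlinarith [mul_nonneg he0 (sq_nonneg (W - S))]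
  have a3 : 8 * e * W ^ 2 ≤ W ^ 2 := by nlinarith [sq_nonneg W]
  have a4 : 8 * e * S ^ 2 ≤ κ * S ^ 2 := mul_le_mul_of_nonneg_right hk (sq_nonneg S)
  have a5 : 0 ≤ e * S ^ 2 := by positivity
  nlinarith [sq_nonneg W]

/-- `w = ∑ v_{ij}²`, `D = ∑ (d3 χ)²`.  `L w = 2 ∑ v L v + 2 ∑ Γ(v,v) ≥ 2 ∑ v L v + 2 κ D`; with `|v| ≤ √w`,
`|d3 χ| ≤ √D`: `2 ∑ v L v ≥ 2 w - 2 n² G √w - 4 n⁴ η √w √D - 2 n⁴ η w`.  For
`η = min 1 κ / (8 (n⁴+1))` AM-GM gives `L w ≥ w / 2 - 2 n⁴ G²`. -/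
lemma up_ineq (n : ℕ) {κ : ℝ} (hκ : 0 < κ) : ∃ η : ℝ, 0 < η ∧ ∀ (τ : MF n) (χ g : Fn n) (G : ℝ)
    (x : X n), Ell κ τ → (∀ a b, ContDiff ℝ 2 (τ a b)) → ContDiff ℝ 4 χ → ContDiff ℝ 2 g →
    (∀ y, Lop τ χ y + χ y = g y) → (∀ i j, |d2 g i j x| ≤ G) →
    (∀ a b i, |pd i (τ a b) x| ≤ η) → (∀ a b i j, |d2 (τ a b) i j x| ≤ η) →
    (∑ i, ∑ j, d2 χ i j x ^ 2) / 2 - 2 * n ^ 4 * G ^ 2 ≤
      Lop τ (fun y => ∑ i, ∑ j, d2 χ i j y ^ 2) x := by
  have hm : 0 < min 1 κ := lt_min one_pos hκ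
  have hN : (0 : ℝ) < 8 * (((n : ℝ) ^ 2) ^ 2 + 1) := by positivity
  refine ⟨min 1 κ / (8 * (((n : ℝ) ^ 2) ^ 2 + 1)), div_pos hm hN, ?_⟩
  set η := min 1 κ / (8 * (((n : ℝ) ^ 2) ^ 2 + 1)) with hη
  have hη0 : 0 ≤ η := (div_pos hm hN).le
  have hηm : 8 * (((n : ℝ) ^ 2) ^ 2 * η) ≤ min 1 κ := by
    have : η * (8 * (((n : ℝ) ^ 2) ^ 2 + 1)) = min 1 κ := div_mul_cancel₀ _ hN.ne'
    nlinarith
  intro τ χ g G x hE hτ hχ hg he hG h1 h2
  have hv : ∀ i j, ContDiff ℝ 2 (d2 χ i j) := fun i j =>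
    contDiff_pd (m := 2) (contDiff_pd (m := 3) hχ j) i
  have hL : Lop τ (fun y => ∑ i, ∑ j, d2 χ i j y ^ 2) x =
      ∑ i, ∑ j, (2 * (d2 χ i j x * Lop τ (d2 χ i j) x) + 2 * Gam τ (d2 χ i j) (d2 χ i j) x) := by
    rw [Lop_sum τ (f := fun i y => ∑ j, d2 χ i j y ^ 2)
      (fun i => ContDiff.sum fun j _ => (hv i j).pow 2)]
    refine Finset.sum_congr rfl fun i _ => ?_
    rw [Lop_sum τ (f := fun j y => d2 χ i j y ^ 2) (fun j => (hv i j).pow 2)]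
    refine Finset.sum_congr rfl fun j _ => ?_
    simp only [sq]
    rw [Lop_mul hE.symm (hv i j) (hv i j)]
    ring
  set W := √(∑ i, ∑ j, d2 χ i j x ^ 2) with hW
  set S := √(∑ i, ∑ j, ∑ a, d3 χ a i j x ^ 2) with hS
  have hW2 : W ^ 2 = ∑ i, ∑ j, d2 χ i j x ^ 2 :=
    Real.sq_sqrt (Finset.sum_nonneg fun _ _ => Finset.sum_nonneg fun _ _ => sq_nonneg _)
  have hS2 : S ^ 2 = ∑ i, ∑ j, ∑ a, d3 χ a i j x ^ 2 :=
    Real.sq_sqrt (Finset.sum_nonneg fun _ _ => Finset.sum_nonneg fun _ _ =>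
      Finset.sum_nonneg fun _ _ => sq_nonneg _)
  have bW : ∀ i j, |d2 χ i j x| ≤ W := fun i j => upb_le_sqrt2 (fun i j => d2 χ i j x) i j
  have bS : ∀ a i j, |d3 χ a i j x| ≤ S := fun a i j =>
    upb_le_sqrt3 (fun a i j => d3 χ a i j x) a i j
  set E := W * G + W * ((n : ℝ) ^ 2 * (η * S + η * S + η * W)) with hE'
  have hterm : ∀ i j, 2 * (d2 χ i j x ^ 2 - E) + 2 * (κ * ∑ a, d3 χ a i j x ^ 2) ≤
      2 * (d2 χ i j x * Lop τ (d2 χ i j) x) + 2 * Gam τ (d2 χ i j) (d2 χ i j) x := by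
    intro i j
    have g1 : κ * ∑ a, d3 χ a i j x ^ 2 ≤ Gam τ (d2 χ i j) (d2 χ i j) x :=
      hE.lb x fun a => d3 χ a i j x
    have g2 := upb_abs_mul (bW i j) (hG i j)
    have g3 := upb_abs_mul (bW i j) (upb_abs_sum2 (F := fun a b =>
      pd i (τ a b) x * d3 χ j a b x + pd j (τ a b) x * d3 χ i a b x +
        d2 (τ a b) i j x * d2 χ a b x) (M := η * S + η * S + η * W) fun a b =>
      (abs_add_three _ _ _).trans (add_le_add (add_le_add (upb_abs_mul (h1 a b i) (bS j a b))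
        (upb_abs_mul (h1 a b j) (bS i a b))) (upb_abs_mul (h2 a b i j) (bW a b))))
    rw [Lop_d2_eq hτ hχ hg he]
    have g4 := neg_abs_le (d2 χ i j x * d2 g i j x)
    have g5 := le_abs_self (d2 χ i j x * ∑ a, ∑ b, (pd i (τ a b) x * d3 χ j a b x +
      pd j (τ a b) x * d3 χ i a b x + d2 (τ a b) i j x * d2 χ a b x))
    rw [hE']
    nlinarith
  have hsum : ∑ i, ∑ j, (2 * (d2 χ i j x ^ 2 - E) + 2 * (κ * ∑ a, d3 χ a i j x ^ 2)) =
      2 * (W ^ 2 - (n : ℝ) ^ 2 * E) + 2 * (κ * S ^ 2) := by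
    rw [hW2, hS2]
    simp only [Finset.sum_add_distrib, ← Finset.mul_sum, Finset.sum_sub_distrib, Finset.sum_const,
      Finset.card_univ, Fintype.card_fin, nsmul_eq_mul]
    ring
  have hfin := upb_amgm (N := (n : ℝ) ^ 2) (G := G) hη0 (hηm.trans (min_le_left _ _))
    (hηm.trans (min_le_right _ _)) (Real.sqrt_nonneg _ : 0 ≤ W) (Real.sqrt_nonneg _ : 0 ≤ S)
  rw [hL, ← hW2]
  calc W ^ 2 / 2 - 2 * (n : ℝ) ^ 4 * G ^ 2 = W ^ 2 / 2 - 2 * ((n : ℝ) ^ 2) ^ 2 * G ^ 2 := by ring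
    _ ≤ 2 * (W ^ 2 - (n : ℝ) ^ 2 * E) + 2 * (κ * S ^ 2) := hfin
    _ = _ := hsum.symm
    _ ≤ _ := Finset.sum_le_sum fun i _ => Finset.sum_le_sum fun j _ => hterm i j

/-- `maxp_lin` with `c = 1/2`, `K = 4 n⁴ G² + n² (7 M (1 + R²))²` -/
theorem up_sup (n : ℕ) {κ : ℝ} (hκ : 0 < κ) : ∃ η : ℝ, 0 < η ∧ ∀ B R : ℝ, ∃ C : ℝ, 0 < C ∧
    ∀ (τ : MF n) (h g : Fn n) (G : ℝ), Coef 3 κ B τ → Small η R τ → Mem 5 h → HB 3 g G →
    (∀ x, Lop τ (omul h) x + omul h x = g x) → ∀ i j x, |d2 (omul h) i j x| ≤ C * (G + hn 5 h) := by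
  obtain ⟨η, hη, hin⟩ := up_ineq n hκ
  refine ⟨η, hη, fun B R => ⟨2 * n ^ 2 + 7 * n * (1 + R ^ 2) + 1, by positivity,
    fun τ h g G hτ hs hh hg he i j x => ?_⟩⟩
  set M := hn 5 h with hM
  have hM0 : 0 ≤ M := hn_nonneg 5 h
  have hG0 : 0 ≤ G := hg.nonneg
  have hχ : ContDiff ℝ 4 (omul h) := contDiff_omul (m := 4) (hh.mono (by norm_num)).contDiff
  have hv : ∀ a b, ContDiff ℝ 2 (d2 (omul h) a b) := fun a b =>
    contDiff_pd (m := 2) (contDiff_pd (m := 3) hχ b) a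
  have hb : ∀ y, ∑ a, ∑ b, d2 (omul h) a b y ^ 2 ≤ (n * (7 * M * om y)) ^ 2 := fun y => by
    calc _ ≤ ∑ _a : Fin n, ∑ _b : Fin n, (7 * M * om y) ^ 2 :=
          Finset.sum_le_sum fun a _ => Finset.sum_le_sum fun b _ =>
            sq_le_sq' (abs_le.1 (abs_d2_omul_le (hh.hb.mono (by norm_num)) a b y)).1
              (abs_le.1 (abs_d2_omul_le (hh.hb.mono (by norm_num)) a b y)).2
      _ = _ := by simp only [Finset.sum_const, Finset.card_univ, Fintype.card_fin, nsmul_eq_mul]; ring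
  have hmax := maxp_lin hτ.ell.symm (hτ.ell.psd hκ.le) (fun a b => (hτ.hb a b).abs_le)
    (w := fun y => ∑ a, ∑ b, d2 (omul h) a b y ^ 2)
    (ContDiff.sum fun a _ => ContDiff.sum fun b _ => (hv a b).pow 2) (M := (n * (7 * M)) ^ 2)
    (K := 4 * n ^ 4 * G ^ 2 + (n * (7 * M * (1 + R ^ 2))) ^ 2) (c := 1 / 2)
    (fun y => (hb y).trans_eq (by ring)) (by norm_num) (fun y hy => by
      have hR : R ≤ ‖y‖ := by
        by_contra hlt
        have h1 : om y ≤ 1 + R ^ 2 := by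
          unfold om
          nlinarith [norm_nonneg y, not_le.1 hlt]
        have h2 : (n * (7 * M * om y)) ^ 2 ≤ (n * (7 * M * (1 + R ^ 2))) ^ 2 := by
          have := om_pos y
          gcongr
        have h3 : (0 : ℝ) ≤ 4 * n ^ 4 * G ^ 2 := by positivity
        linarith [hb y]
      have h4 := hin τ (omul h) g G y hτ.ell
        (fun a b => ((hτ.hb a b).mem.mono (show 2 ≤ 3 by norm_num)).contDiff) hχ
        (hg.mem.mono (show 2 ≤ 3 by norm_num)).contDiff he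
        (fun a b => (HB.d2 (k := 1) hg a b).abs_le y) (hs y hR).1 (hs y hR).2
      nlinarith [sq_nonneg (n * (7 * M * (1 + R ^ 2)))]) x
  have h5 : d2 (omul h) i j x ^ 2 ≤ ∑ a, ∑ b, d2 (omul h) a b x ^ 2 :=
    (Finset.single_le_sum (f := fun b => d2 (omul h) i b x ^ 2) (fun _ _ => sq_nonneg _)
      (Finset.mem_univ j)).trans (Finset.single_le_sum (f := fun a => ∑ b, d2 (omul h) a b x ^ 2)
        (fun _ _ => Finset.sum_nonneg fun _ _ => sq_nonneg _) (Finset.mem_univ i))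
  refine abs_le_of_sq_le_sq (h5.trans (hmax.trans ?_)) (by positivity)
  have h6 : (0 : ℝ) ≤ 2 * n ^ 2 * G := by positivity
  have h7 : (0 : ℝ) ≤ n * (7 * M * (1 + R ^ 2)) := by positivity
  calc _ ≤ (2 * n ^ 2 * G + n * (7 * M * (1 + R ^ 2))) ^ 2 := by nlinarith [mul_nonneg h6 h7]
    _ ≤ _ := by
      refine pow_le_pow_left₀ (by positivity) ?_ 2
      have h8 : (0 : ℝ) ≤ 2 * n ^ 2 * M := by positivity
      have h9 : (0 : ℝ) ≤ 7 * n * (1 + R ^ 2) * G := by positivity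
      nlinarith

/-- `ρ ∂_c v = ∂_c (ρ v) + 2 (δ x_c ρ) (ρ v)` -/
lemma upc_rho_pd {δ : ℝ} (hδ : 0 ≤ δ) {v : Fn n} (hv : Differentiable ℝ v) (c : Fin n) (x : X n) :
    rho δ x * pd c v x =
      pd c (fun y => rho δ y * v y) x + 2 * ((δ * x c * rho δ x) * (rho δ x * v x)) := by
  have hρ : Differentiable ℝ (rho δ : Fn n) := (contDiff_rho hδ 1).differentiable one_ne_zero
  rw [R285.pd_mul c hρ hv, pd_rho hδ]
  ring

lemma upc_diff_p {δ : ℝ} (hδ : 0 ≤ δ) (b : Fin n) :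
    Differentiable ℝ fun x : X n => δ * x b * rho δ x :=
  ((differentiable_crd b).const_mul δ).mul ((contDiff_rho hδ 1).differentiable one_ne_zero)

lemma upc_d2_rho {δ : ℝ} (hδ : 0 ≤ δ) (a b : Fin n) (x : X n) :
    d2 (rho δ : Fn n) a b x = (-2 * pd a (fun y : X n => δ * y b * rho δ y) x +
      4 * ((δ * x b * rho δ x) * (δ * x a * rho δ x))) * rho δ x := by
  have hρ : Differentiable ℝ (rho δ : Fn n) := (contDiff_rho hδ 1).differentiable one_ne_zero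
  have hp := upc_diff_p (n := n) hδ b
  have h1 : d2 (rho δ : Fn n) a b = pd a fun y : X n => -2 * (δ * y b * rho δ y) * rho δ y := by
    rw [d2, pd_rho hδ b]
  rw [h1, R285.pd_mul a (hp.const_mul (-2)) hρ, pd_cmul a (-2) hp, pd_rho hδ]
  ring

/-- `L ρ = γ ρ` -/
lemma upc_Lop_rho (τ : MF n) {δ : ℝ} (hδ : 0 ≤ δ) (x : X n) :
    Lop τ (rho δ) x = (∑ a, ∑ b, τ a b x * (-2 * pd a (fun y : X n => δ * y b * rho δ y) x +
      4 * ((δ * x b * rho δ x) * (δ * x a * rho δ x))) +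
      2 * ∑ a, δ * x a * x a * rho δ x) * rho δ x := by
  simp only [Lop, upc_d2_rho hδ, pd_rho hδ, add_mul, Finset.sum_mul, Finset.mul_sum]
  rw [sub_eq_add_neg, ← Finset.sum_neg_distrib]
  congr 1
  · refine Finset.sum_congr rfl fun a _ => Finset.sum_congr rfl fun b _ => ?_
    ring
  · refine Finset.sum_congr rfl fun a _ => ?_
    ring

/-- the pointwise identity for `L (ρ v_{ij})` -/
lemma upc_ident {τ : MF n} (hs : ∀ a b x, τ a b x = τ b a x) (hτ : ∀ a b, ContDiff ℝ 2 (τ a b))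
    {χ g : Fn n} (hχ : ContDiff ℝ 4 χ) (hg : ContDiff ℝ 2 g) (he : ∀ x, Lop τ χ x + χ x = g x)
    {δ : ℝ} (hδ : 0 ≤ δ) (i j : Fin n) (x : X n) :
    Lop τ (fun y => rho δ y * d2 χ i j y) x =
      rho δ x * d2 g i j x + rho δ x * d2 χ i j x -
        ∑ a, ∑ b, (pd i (τ a b) x * (rho δ x * d3 χ j a b x) +
          pd j (τ a b) x * (rho δ x * d3 χ i a b x) +
          d2 (τ a b) i j x * (rho δ x * d2 χ a b x)) +
      (∑ a, ∑ b, τ a b x * (-2 * pd a (fun y : X n => δ * y b * rho δ y) x +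
        4 * ((δ * x b * rho δ x) * (δ * x a * rho δ x))) +
        2 * ∑ a, δ * x a * x a * rho δ x) * (rho δ x * d2 χ i j x) +
      -4 * ∑ a, ∑ b, τ a b x * (δ * x a * rho δ x) * (rho δ x * d3 χ b i j x) := by
  have hv : ContDiff ℝ 2 (d2 χ i j) :=
    contDiff_pd (m := 2) (contDiff_pd (m := 3) (by exact_mod_cast hχ) j) i
  rw [Lop_mul hs (contDiff_rho hδ 2) hv, Lop_d2_eq hτ hχ hg he, upc_Lop_rho τ hδ]
  have h1 : Gam τ (rho δ) (d2 χ i j) x =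
      -2 * ∑ a, ∑ b, τ a b x * (δ * x a * rho δ x) * (rho δ x * d3 χ b i j x) := by
    simp only [Gam, pd_rho hδ, Finset.mul_sum]
    refine Finset.sum_congr rfl fun a _ => Finset.sum_congr rfl fun b _ => ?_
    ring
  have h2 : ∑ a, ∑ b, (pd i (τ a b) x * (rho δ x * d3 χ j a b x) +
      pd j (τ a b) x * (rho δ x * d3 χ i a b x) + d2 (τ a b) i j x * (rho δ x * d2 χ a b x)) =
      rho δ x * ∑ a, ∑ b, (pd i (τ a b) x * d3 χ j a b x + pd j (τ a b) x * d3 χ i a b x +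
        d2 (τ a b) i j x * d2 χ a b x) := by
    simp only [Finset.mul_sum]
    refine Finset.sum_congr rfl fun a _ => Finset.sum_congr rfl fun b _ => ?_
    ring
  rw [h1, h2]
  ring

/-- Put `ρ = rho δ`, `β_a = -2 δ x_a ρ` (so `∂_a ρ = β_a ρ`), `v = D²χ`, `k_{ij} = ρ v_{ij}`; then
`ρ ∂_a v = ∂_a k - β_a k`, `L ρ = ρ γ` with `γ = τ_{ab} (∂_a β_b + β_a β_b) + 2 ∑ δ x_a x_a ρ`, and
`L k_{ij} = ρ L v_{ij} + γ k_{ij} + 2 τ_{ab} β_a (∂_b k_{ij} - β_b k_{ij})` with `ρ L v_{ij}` from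
`Lop_d2_eq`.  Prove the pointwise identity, then `HB.congr` and the `HB` algebra (`hb_rho n 2`). -/
theorem up_conj (n : ℕ) (B : ℝ) : ∃ B' : ℝ, 0 < B' ∧ ∀ (τ : MF n) (χ g : Fn n) (G δ : ℝ),
    (∀ a b x, τ a b x = τ b a x) → (∀ a b, HB 3 (τ a b) B) → ContDiff ℝ 4 χ → HB 3 g G →
    (∀ x, Lop τ χ x + χ x = g x) → 0 < δ → δ ≤ 1 →
    (∀ i j, Mem 2 fun x => rho δ x * d2 χ i j x) → ∀ i j,
    HB 1 (Lop τ fun x => rho δ x * d2 χ i j x)
      (B' * G + B' * ∑ q : Fin n × Fin n, hn 2 fun x => rho δ x * d2 χ q.1 q.2 x) := by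
  obtain ⟨R, hR, hρ⟩ := hb_rho n 2
  set γ : ℝ := n * (n * (B * (|(-2 : ℝ)| * R + |(4 : ℝ)| * (R * R)))) + |(2 : ℝ)| * (n * R) with hγ
  set t : ℝ := 1 + |(2 : ℝ)| * R with ht
  set c : ℝ := 1 + n * (n * (B * t + B * t + B)) + γ + |(-4 : ℝ)| * (n * (n * (B * R * t)))
    with hc
  refine ⟨R + |c|, by positivity, ?_⟩
  intro τ χ g G δ hs hτ hχ hg he hδ hδ1 hk i j
  obtain ⟨hρ0, hp, hq⟩ := hρ δ hδ hδ1
  set S : ℝ := ∑ q : Fin n × Fin n, hn 2 fun x => rho δ x * d2 χ q.1 q.2 x with hS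
  have hS0 : 0 ≤ S := Finset.sum_nonneg fun q _ => hn_nonneg _ _
  have hG0 : 0 ≤ G := hg.nonneg
  have hK : ∀ a b, HB 2 (fun x => rho δ x * d2 χ a b x) S := fun a b => by
    refine (hk a b).hb.weaken ?_
    have h := Finset.single_le_sum
      (f := fun q : Fin n × Fin n => hn 2 fun x => rho δ x * d2 χ q.1 q.2 x)
      (fun q _ => hn_nonneg _ _) (Finset.mem_univ (a, b))
    dsimp only at h
    rw [hS]
    exact h
  clear_value S
  have hK1 : ∀ a b, HB 1 (fun x => rho δ x * d2 χ a b x) S := fun a b => (hK a b).mono (by norm_num)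
  have hp1 : ∀ a, HB 1 (fun x : X n => δ * x a * rho δ x) R := fun a => (hp a).mono (by norm_num)
  have hτ1 : ∀ a b, HB 1 (τ a b) B := fun a b => (hτ a b).mono (by norm_num)
  have hτ2 : ∀ a b, ContDiff ℝ 2 (τ a b) := fun a b =>
    ((hτ a b).mono (by norm_num : 2 ≤ 3)).mem.contDiff
  have hg2 : ContDiff ℝ 2 g := (hg.mono (by norm_num : 2 ≤ 3)).mem.contDiff
  have hv : ∀ a b, Differentiable ℝ (d2 χ a b) := fun a b =>
    opsa_diff (contDiff_pd (m := 2) (contDiff_pd (m := 3) (by exact_mod_cast hχ) b) a)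
  have hT : ∀ e a b, HB 1 (fun x => rho δ x * d3 χ e a b x) (t * S) := fun e a b =>
    ((((hK a b).pd e).add (((hp1 e).mul (hK1 a b)).cmul 2)).congr fun x =>
      (upc_rho_pd hδ.le (hv a b) e x).symm).weaken (le_of_eq (by rw [ht]; ring))
  have hΓ : HB 1 (fun x => ∑ a, ∑ b, τ a b x * (-2 * pd a (fun y : X n => δ * y b * rho δ y) x +
      4 * ((δ * x b * rho δ x) * (δ * x a * rho δ x))) + 2 * ∑ a, δ * x a * x a * rho δ x) γ :=
    (HB.nsum fun a => HB.nsum fun b => (hτ1 a b).mul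
      ((((hp b).pd a).cmul (-2)).add (((hp1 b).mul (hp1 a)).cmul 4))).add
      ((HB.nsum fun a => (hq a a).mono (by norm_num)).cmul 2)
  have hA : HB 1 (fun x => ∑ a, ∑ b, (pd i (τ a b) x * (rho δ x * d3 χ j a b x) +
      pd j (τ a b) x * (rho δ x * d3 χ i a b x) + d2 (τ a b) i j x * (rho δ x * d2 χ a b x)))
      (n * (n * (B * (t * S) + B * (t * S) + B * S))) :=
    HB.nsum fun a => HB.nsum fun b =>
      (((((hτ a b).mono (by norm_num : 2 ≤ 3)).pd i).mul (hT j a b)).add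
        ((((hτ a b).mono (by norm_num : 2 ≤ 3)).pd j).mul (hT i a b))).add
        (((hτ a b).d2 i j).mul (hK1 a b))
  have hC : HB 1 (fun x => ∑ a, ∑ b, τ a b x * (δ * x a * rho δ x) * (rho δ x * d3 χ b i j x))
      (n * (n * (B * R * (t * S)))) :=
    HB.nsum fun a => HB.nsum fun b => ((hτ1 a b).mul (hp1 a)).mul (hT b i j)
  have hall := ((((((hρ0.mono (by norm_num : 1 ≤ 2)).mul (hg.d2 i j)).add (hK1 i j)).sub hA).add
    (hΓ.mul (hK1 i j))).add (hC.cmul (-4))).congr fun x =>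
      (upc_ident hs hτ2 hχ hg2 he hδ.le i j x).symm
  refine hall.weaken ?_
  have e : R * G + S + n * (n * (B * (t * S) + B * (t * S) + B * S)) + γ * S +
      |(-4 : ℝ)| * (n * (n * (B * R * (t * S)))) = R * G + c * S := by
    rw [hc]; ring
  rw [e]
  have h1 : c * S ≤ |c| * S := mul_le_mul_of_nonneg_right (le_abs_self c) hS0
  have h2 : 0 ≤ |c| * G := mul_nonneg (abs_nonneg c) hG0
  have h3 : 0 ≤ R * S := mul_nonneg hR.le hS0
  nlinarith

/-- `apri_sys` (`k = 1`, `J = Fin n × Fin n`) for `rho δ * v`, uniformly in `δ = 1/(m+1)`; `lim_hb` -/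
theorem up (n : ℕ) {κ : ℝ} (hκ : 0 < κ) : ∃ η : ℝ, 0 < η ∧ ∀ B R : ℝ, ∃ C : ℝ, 0 < C ∧
    ∀ (τ : MF n) (h g : Fn n) (G : ℝ), Coef 3 κ B τ → Small η R τ → Mem 5 h → HB 3 g G →
    (∀ x, Lop τ (omul h) x + omul h x = g x) →
    ∀ i j, HB 3 (d2 (omul h) i j) (C * (G + hn 5 h)) := by
  obtain ⟨η, hη, hsup⟩ := up_sup n hκ
  refine ⟨η, hη, fun B R => ?_⟩
  obtain ⟨C₁, hC₁, h1⟩ := hsup B R
  obtain ⟨B', hB', h2⟩ := up_conj n B
  obtain ⟨C₂, hC₂, h3⟩ := apri_sys n 1 (Fin n × Fin n) hκ B B'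
  obtain ⟨C₃, hC₃, h4⟩ := lim_hb n 3
  refine ⟨C₃ * (C₂ * (B' + C₁)), by positivity, fun τ h g G hτ hs hh hg he i j => ?_⟩
  have hG0 : 0 ≤ G := hg.nonneg
  have hM0 : 0 ≤ hn 5 h := hn_nonneg 5 h
  have hχ : ContDiff ℝ 4 (omul h) := contDiff_omul (m := 4) (hh.mono (by norm_num)).contDiff
  have key : ∀ δ : ℝ, 0 < δ → δ ≤ 1 → HB 3 (fun x => rho δ x * d2 (omul h) i j x)
      (C₂ * (B' + C₁) * (G + hn 5 h)) := fun δ hδ hδ1 => by
    have hm := mem_rho_d2 hh hδ hδ1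
    refine ⟨hm i j, (h3 τ (fun q x => rho δ x * d2 (omul h) q.1 q.2 x) (B' * G) (C₁ * (G + hn 5 h))
      (hτ.mono (by norm_num)) (fun q => hm q.1 q.2) (by positivity)
      (fun q => h2 τ (omul h) g G δ hτ.ell.symm hτ.hb hχ hg he hδ hδ1
        (fun a b => (hm a b).mono (by norm_num)) q.1 q.2) (fun q x => ?_) (i, j)).trans ?_⟩
    · have hr : |rho δ x| ≤ 1 := by
        rw [rho, abs_of_pos (inv_pos.2 (rata_den_pos hδ.le x))]
        exact inv_le_one_of_one_le₀ (le_add_of_nonneg_right (by positivity))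
      rw [abs_mul]
      exact (mul_le_of_le_one_left (abs_nonneg _) hr).trans (h1 τ h g G hτ hs hh hg he q.1 q.2 x)
    · rw [mul_assoc]
      refine mul_le_mul_of_nonneg_left ?_ hC₂.le
      nlinarith [mul_nonneg hB'.le hM0]
  rw [mul_assoc]
  refine h4 (fun m x => rho (1 / ((m : ℝ) + 1)) x * d2 (omul h) i j x) _ _
    (fun m => key _ Nat.one_div_pos_of_nat
      ((div_le_one (by positivity)).2 (le_add_of_nonneg_left (Nat.cast_nonneg m)))) fun x => ?_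
  have h5 : Tendsto (fun m : ℕ => (1 + 1 / ((m : ℝ) + 1) * ‖x‖ ^ 2)⁻¹) atTop (𝓝 (1 + 0 * ‖x‖ ^ 2)⁻¹) :=
    ((tendsto_one_div_add_atTop_nhds_zero_nat.mul_const _).const_add 1).inv₀ (by simp)
  simpa [rho] using h5.mul_const (d2 (omul h) i j x)

end Crest.Agent.R238
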