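import Crest.Agent.R238.Calabi
import Crest.Agent.R238.Up
import Crest.Agent.R238.Int

/-!
# Row 238 (S0369): Bnd
Uniform bounds for moment potentials of admissible potentials.
-/

set_option autoImplicit false
set_option linter.unusedVariables false

open MeasureTheory Filter Topology Matrix
open Crest.Agent.R285 (bas pd gibbs WPot PolyB SConv)

noncomputable section

namespace Crest.Agent.R238

variable {n : ℕ}

lemma contDiff_quad {m : ℕ} (C : ℝ) {b : Fn n} (hb : ContDiff ℝ m b) : ContDiff ℝ m (quad C b) :=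
  (contDiff_const.mul (contDiff_normsq _)).add hb

lemma d2_quad (C : ℝ) {b : Fn n} (hb : ContDiff ℝ 2 b) (i j : Fin n) :
    d2 (quad C b) i j = fun x => (if i = j then C else 0) + d2 b i j x := by
  have hd : Differentiable ℝ b := hb.differentiable (by norm_num)
  have hn : Differentiable ℝ fun x : X n => ‖x‖ ^ 2 := (contDiff_normsq 1).differentiable (by norm_num)
  have h1 : pd j (quad C b) = fun x => C * x j + pd j b x := by
    unfold quad
    rw [R285.pd_add j (hn.const_mul _) hd, pd_cmul j _ hn, pd_normsq]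
    funext x
    ring
  rw [d2, h1, R285.pd_add i ((differentiable_crd j).const_mul _) (differentiable_pd hb j),
    pd_cmul i _ (differentiable_crd j), pd_crd]
  funext x
  simp only [mul_ite, mul_one, mul_zero, eq_comm (a := j)]

lemma d3_quad (C : ℝ) {b : Fn n} (hb : ContDiff ℝ 3 b) (i j k : Fin n) :
    d3 (quad C b) i j k = d3 b i j k := by
  have h2 : ContDiff ℝ 2 (pd k b) := contDiff_pd (m := 2) hb k
  change pd i (d2 (quad C b) j k) = _
  rw [d2_quad C (hb.of_le (by norm_num)), R285.pd_add i (differentiable_const _) (differentiable_pd h2 j),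
    R285.pd_const]
  funext x
  simp only [zero_add]

variable {V u : Fn n} {τ : MF n}

lemma bnda_eq (A : MF n) (ξ : Fin n → ℝ) :
    (fun y => qf (fun i j => A i j y) ξ) = fun y => ∑ i, ∑ j, ξ i * ξ j * A i j y := by
  funext y
  exact Finset.sum_congr rfl fun i _ => Finset.sum_congr rfl fun j _ => by ring

lemma bnda_cd {A : MF n} (hA : ∀ i j, ContDiff ℝ 2 (A i j)) (ξ : Fin n → ℝ) :
    ContDiff ℝ 2 fun y => qf (fun i j => A i j y) ξ := by
  rw [bnda_eq]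
  exact ContDiff.sum fun i _ => ContDiff.sum fun j _ => contDiff_const.mul (hA i j)

lemma bnda_L (τ : MF n) {A : MF n} (hA : ∀ i j, ContDiff ℝ 2 (A i j)) (ξ : Fin n → ℝ) (x : X n) :
    Lop τ (fun y => qf (fun i j => A i j y) ξ) x = qf (fun i j => Lop τ (A i j) x) ξ := by
  rw [bnda_eq, Lop_sum τ fun i => ContDiff.sum fun j _ => contDiff_const.mul (hA i j)]
  refine Finset.sum_congr rfl fun i _ => ?_
  rw [Lop_sum τ fun j => contDiff_const.mul (hA i j)]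
  refine Finset.sum_congr rfl fun j _ => ?_
  rw [Lop_cmul τ _ (hA i j)]
  ring

lemma bnda_grow {A : MF n} {B : ℝ} (hA : ∀ i j x, |A i j x| ≤ B) (ξ : Fin n → ℝ) (x : X n) :
    qf (fun i j => A i j x) ξ ≤ n * B * ssq ξ * om x ^ 2 := by
  have h1 := abs_qf_le (A := fun i j => A i j x) (fun i j => hA i j x) ξ
  have h2 : (1 : ℝ) ≤ om x := le_add_of_nonneg_right (sq_nonneg _)
  exact ((le_abs_self _).trans h1).trans
    (le_mul_of_one_le_right ((abs_nonneg _).trans h1) (one_le_pow₀ h2))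

lemma bnda_conj {T A : A2 n} (hs : ∀ a b, T a b = T b a) (ξ : Fin n → ℝ) :
    qf (fun i j => ∑ a, ∑ b, T i a * A a b * T b j) ξ = qf A fun a => ∑ b, T a b * ξ b := by
  simp only [qf, Finset.sum_mul, Finset.mul_sum]
  rw [Finset.sum_comm]
  simp_rw [Finset.sum_comm (γ := Fin n) (f := fun i a => ∑ b, T i a * A a b * T b _ * ξ i * ξ _)]
  rw [Finset.sum_comm]
  refine Finset.sum_congr rfl fun a _ => ?_
  simp_rw [Finset.sum_comm (γ := Fin n) (f := fun i b => T i a * A a b * T b _ * ξ i * ξ _)]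
  rw [Finset.sum_comm]
  refine Finset.sum_congr rfl fun b _ => Finset.sum_congr rfl fun j _ =>
    Finset.sum_congr rfl fun i _ => ?_
  rw [hs i a]
  ring

lemma bnda_bdd {A : MF n} {k : ℕ} (h : ∀ a b, Mem k (A a b)) : ∃ B, ∀ a b x, |A a b x| ≤ B :=
  ⟨∑ q : Fin n × Fin n, hn k (A q.1 q.2), fun a b x => ((h a b).abs_le x).trans
    (Finset.single_le_sum (f := fun q : Fin n × Fin n => hn k (A q.1 q.2)) (fun _ _ => hn_nonneg _ _)
      (Finset.mem_univ (a, b)))⟩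

/-- `w = H ξξ` is bounded and `L w = w + Q ξξ - V₂ ξξ ≥ w - C₁ |ξ|²` (`LH`, `Q_psd`, `Lop_sum`); `maxp_lin` -/
theorem Geo.H_le (h : Geo V u τ) {B C₁ : ℝ} (hτ : ∀ a b x, |τ a b x| ≤ B)
    (hH : ∀ i j x, |d2 u i j x| ≤ B) (hi : ∀ x ξ, qf (fun i j => d2 V i j x) ξ ≤ C₁ * ssq ξ) (x : X n)
    (ξ : Fin n → ℝ) : qf (fun i j => d2 u i j x) ξ ≤ C₁ * ssq ξ := by
  have hc : ∀ i j, ContDiff ℝ 2 (d2 u i j) := fun i j => (h.H3 i j).of_le (by norm_num)
  refine maxp_lin h.symm h.psd hτ (bnda_cd hc ξ) (bnda_grow hH ξ) one_pos (fun y _ => ?_) x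
  have e : qf (fun i j => Lop τ (d2 u i j) y) ξ = qf (fun i j => d2 u i j y) ξ
      + qf (fun i j => Qf u τ i j y) ξ - qf (fun i j => d2 V i j y) ξ := by
    simp only [h.LH, qf, add_mul, sub_mul, Finset.sum_add_distrib, Finset.sum_sub_distrib]
  rw [bnda_L τ hc, e]
  linarith [h.Q_psd y ξ, hi y ξ]

/-- for `ssq ξ = s > 0`, `w = τ ξξ`: `L w = -w + (Q + V₂)(τξ, τξ) ≥ -w + ε w²/s ≥ w - s/ε` (`Lτ`, `Q_psd`,
`sq_qf_le`; the last inequality is `(εw - s)² ≥ 0`); `maxp_lin` with `K = s/ε`, `c = 1` -/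
theorem Geo.τ_le (h : Geo V u τ) {B ε : ℝ} (hε : 0 < ε) (hτ : ∀ a b x, |τ a b x| ≤ B)
    (lo : ∀ x ξ, ε * ssq ξ ≤ qf (fun i j => d2 V i j x) ξ) (x : X n) (ξ : Fin n → ℝ) :
    qf (fun a b => τ a b x) ξ ≤ ε⁻¹ * ssq ξ := by
  have hc : ∀ i j, ContDiff ℝ 2 (τ i j) := fun i j => (h.τ3 i j).of_le (by norm_num)
  refine maxp_lin h.symm h.psd hτ (bnda_cd hc ξ) (bnda_grow hτ ξ) one_pos (fun y _ => ?_) x
  set η : Fin n → ℝ := fun a => ∑ b, τ a b y * ξ b with hη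
  have e : qf (fun i j => Lop τ (τ i j) y) ξ = -qf (fun i j => τ i j y) ξ
      + (qf (fun i j => Qf u τ i j y) η + qf (fun i j => d2 V i j y) η) := by
    have e1 := bnda_conj (T := fun a b => τ a b y) (A := fun a b => Qf u τ a b y + d2 V a b y)
      (fun a b => h.symm a b y) ξ
    have e2 : qf (fun a b => Qf u τ a b y + d2 V a b y) η
        = qf (fun i j => Qf u τ i j y) η + qf (fun i j => d2 V i j y) η := by
      simp only [qf, add_mul, Finset.sum_add_distrib]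
    rw [← e2, ← e1]
    simp only [h.Lτ, qf, add_mul, neg_mul, Finset.sum_add_distrib, Finset.sum_neg_distrib]
  have h1 := sq_qf_le (fun a b => τ a b y) ξ
  have h2 : 2 * qf (fun a b => τ a b y) ξ ≤ ε * ssq η + ε⁻¹ * ssq ξ := by
    refine (abs_le_of_sq_le_sq' ?_ (add_nonneg (mul_nonneg hε.le (ssq_nonneg _))
      (mul_nonneg (inv_nonneg.2 hε.le) (ssq_nonneg _)))).2
    have h3 : ε * ssq η * (ε⁻¹ * ssq ξ) = ssq ξ * ssq η := by field_simp
    nlinarith [sq_nonneg (ε * ssq η - ε⁻¹ * ssq ξ)]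
  rw [bnda_L τ hc, e]
  linarith [h.Q_psd y η, lo y η]

/-- `Mom.geo`, `Mom.τeven`, `wpot_of_pg`, `sconv_of_d2`, `H_le` with `inv_lower`, `τ_le` -/
theorem Mom.nice {p : Par} {b : Fn n} (hb : Pot p b) (h : Mom (quad p.C b) u τ) :
    Nice p.ε p.C₁ (quad p.C b) u τ := by
  have hC : 0 < p.C := p.ε_pos.trans_le p.ε_le
  have hC₁ : 0 < p.C₁ := hC.trans_le p.le_C₁
  have hV : ContDiff ℝ (3 : ℕ) (quad p.C b) := contDiff_quad _ hb.hb.mem.contDiff
  have hg := h.geo hV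
  obtain ⟨B, hB⟩ := bnda_bdd h.τ3
  obtain ⟨B', hB'⟩ := bnda_bdd h.H3
  exact
    { ε_pos := p.ε_pos
      C₁_pos := hC₁
      geo := hg
      wpot := intb_wpot hC (hb.hb.mem.pg.mono (by norm_num)) hb.hb.abs_le
      sconv := sconv_of_d2 (hV.of_le (by norm_num)) hb.lo
      Vpg := ((PG.normsq 3).cmul _).add hb.hb.mem.pg
      Veven := fun x => by simp only [quad, norm_neg, hb.even x]
      τeven := h.τeven
      τ3 := h.τ3
      H3 := h.H3
      lo := hb.lo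
      ell := ⟨hg.symm, fun x ξ => inv_lower hC₁ (fun a c => hg.symm a c x) (hg.psd x) (hg.inv x)
        (hg.H_le (B := max B B') (fun a c y => (hB a c y).trans (le_max_left _ _))
          (fun a c y => (hB' a c y).trans (le_max_right _ _)) hb.hi x) ξ⟩
      τhi := hg.τ_le p.ε_pos hB hb.lo }

variable {ε C₁ : ℝ}

lemma Nice.abs_τ_le (h : Nice ε C₁ V u τ) (a b : Fin n) (x : X n) : |τ a b x| ≤ ε⁻¹ :=
  abs_entry_le (A := fun a b => τ a b x) (fun a b => h.geo.symm a b x) (h.geo.psd x) (h.τhi x) a b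

/-- `ε ≤ H ≤ C₁` (`inv_lower`, `inv_upper` with the roles of `τ` and `H` exchanged, `inv_right`) -/
lemma Nice.H_bounds (h : Nice ε C₁ V u τ) (x : X n) (ξ : Fin n → ℝ) :
    ε * ssq ξ ≤ qf (fun i j => d2 u i j x) ξ ∧ qf (fun i j => d2 u i j x) ξ ≤ C₁ * ssq ξ := by
  have hs : ∀ a b, d2 u a b x = d2 u b a x := fun a b => by
    rw [d2_comm (h.geo.u5.of_le (by norm_num)) a b]
  have hi := inv_right (T := fun a b => τ a b x) (H := fun a b => d2 u a b x) (h.geo.inv x)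
  have h1 := fun ζ => inv_upper (T := fun a b => d2 u a b x) (H := fun a b => τ a b x)
    (inv_pos.2 h.C₁_pos) (fun a b => h.geo.symm a b x) hi (h.ell.lb x) ζ
  have h2 := inv_lower (T := fun a b => d2 u a b x) (H := fun a b => τ a b x)
    (inv_pos.2 h.ε_pos) hs (fun ζ => (h1 ζ).1) hi (h.τhi x) ξ
  exact ⟨by simpa only [inv_inv] using h2, by simpa only [inv_inv] using (h1 ξ).2⟩

lemma Nice.abs_H_le (h : Nice ε C₁ V u τ) (i j : Fin n) (x : X n) : |d2 u i j x| ≤ C₁ := by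
  exact abs_entry_le (A := fun a b => d2 u a b x)
    (fun a b => by rw [d2_comm (h.geo.u5.of_le (by norm_num)) a b])
    (fun ξ => (mul_nonneg h.ε_pos.le (ssq_nonneg ξ)).trans (h.H_bounds x ξ).1)
    (fun ξ => (h.H_bounds x ξ).2) i j

lemma bndb_om {M s : ℝ} (hM : 0 ≤ M) (hs : s ≤ M) (x : X n) : s ≤ M * om x ^ 2 :=
  hs.trans (le_mul_of_one_le_right hM (one_le_pow₀ (le_add_of_nonneg_right (sq_nonneg _))))

lemma bndb_S (h : Nice ε C₁ V u τ) : ∃ M, 0 ≤ M ∧ ∀ x, Sf u τ x ≤ M := by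
  obtain ⟨Z, hZ⟩ := (Set.finite_range fun q : Fin n × Fin n × Fin n => hn 2 (d3 u q.1 q.2.1 q.2.2)).bddAbove
  have h1 : ∀ x i j k, |d3 u i j k x| ≤ Z := fun x i j k =>
    (((h.H3 j k).pd i).abs_le x).trans (hZ ⟨(i, j, k), rfl⟩)
  have h2 := fun x => abs_ip3_le (fun a b => h.abs_τ_le a b x) (h1 x) (h1 x)
  exact ⟨_, (abs_nonneg _).trans (h2 0), fun x => (le_abs_self _).trans (h2 x)⟩

lemma bndb_U (h : Nice ε C₁ V u τ) (x : X n) (i j k : Fin n) : d3 u i j k x ^ 2 ≤ C₁ ^ 3 * Sf u τ x := by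
  have h0 := h.C₁_pos
  have h1 := ip3_lower (T := fun a b => τ a b x) (inv_pos.2 h0).le (fun a b => h.geo.symm a b x)
    (h.ell.lb x) fun i j k => d3 u i j k x
  have h2 : d3 u i j k x ^ 2 ≤ ∑ i, ∑ j, ∑ k, d3 u i j k x ^ 2 := by
    refine le_trans ?_ (Finset.single_le_sum (f := fun i => ∑ j, ∑ k, d3 u i j k x ^ 2)
      (fun _ _ => by positivity) (Finset.mem_univ i))
    refine le_trans ?_ (Finset.single_le_sum (f := fun j => ∑ k, d3 u i j k x ^ 2)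
      (fun _ _ => by positivity) (Finset.mem_univ j))
    exact Finset.single_le_sum (f := fun k => d3 u i j k x ^ 2) (fun _ _ => sq_nonneg _) (Finset.mem_univ k)
  rw [inv_pow, inv_mul_le_iff₀ (by positivity)] at h1
  exact h2.trans h1

lemma bndb_V (h : Nice ε C₁ V u τ) (x : X n) (ξ : Fin n → ℝ) : 0 ≤ qf (fun i j => d2 V i j x) ξ :=
  (mul_nonneg h.ε_pos.le (ssq_nonneg ξ)).trans (h.lo x ξ)

/-- `calabi` and `two_ip3_le`: `L S ≥ S/2 - 2 M`, `M = n⁶ ε⁻³ B²` (`abs_ip3_le`, `d3_quad`); `S` is bounded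
(`abs_ip3_le`); `maxp_lin` gives `S ≤ 4 M` -/
theorem S_bound (n : ℕ) (p : Par) : ∃ K : ℝ, 0 < K ∧ ∀ (b u : Fn n) (τ : MF n), Pot p b →
    Mom (quad p.C b) u τ → ∀ x, Sf u τ x ≤ K := by
  have hε := p.ε_pos
  have hM : 0 ≤ (n : ℝ) ^ 6 * (p.ε⁻¹ ^ 3 * p.B * p.B) := by
    rw [mul_assoc]
    exact mul_nonneg (by positivity) (mul_nonneg (by positivity) (mul_self_nonneg _))
  refine ⟨4 * (n ^ 6 * (p.ε⁻¹ ^ 3 * p.B * p.B)) + 1, by positivity, fun b u τ hb h x => ?_⟩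
  have hN := h.nice hb
  obtain ⟨M, hM0, hM1⟩ := bndb_S hN
  refine le_trans (maxp_lin (c := 1 / 2) hN.geo.symm hN.geo.psd hN.abs_τ_le hN.geo.contDiff_Sf
    (fun x => bndb_om hM0 (hM1 x) x) (by norm_num) (fun y _ => ?_) x) (le_add_of_nonneg_right zero_le_one)
  have h1 := calabi hN.geo (bndb_V hN y)
  have h2 := two_ip3_le (T := fun a b => τ a b y) (fun a b => hN.geo.symm a b y) (hN.geo.psd y)
    (fun i j k => d3 u i j k y) fun i j k => d3 (quad p.C b) i j k y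
  have h3 : ∀ i j k, |d3 (quad p.C b) i j k y| ≤ p.B := fun i j k => by
    rw [d3_quad _ hb.hb.mem.contDiff]
    exact (((hb.hb.pd k).pd j).pd i).abs_le y
  have h4 := (le_abs_self _).trans (abs_ip3_le (fun a b => hN.abs_τ_le a b y) h3 h3)
  change _ ≤ Sf u τ y / 2 + _ at h2
  linarith

/-- `ip3_lower` with `κ = C₁⁻¹` -/
theorem U_bound (n : ℕ) (p : Par) : ∃ K : ℝ, 0 < K ∧ ∀ (b u : Fn n) (τ : MF n), Pot p b →
    Mom (quad p.C b) u τ → ∀ i j k x, |d3 u i j k x| ≤ K := by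
  obtain ⟨K, hK, h1⟩ := S_bound n p
  have h0 : 0 < p.C₁ := p.ε_pos.trans_le (p.ε_le.trans p.le_C₁)
  refine ⟨√(p.C₁ ^ 3 * K), by positivity, fun b u τ hb h i j k x => Real.abs_le_sqrt ?_⟩
  exact (bndb_U (h.nice hb) x i j k).trans (mul_le_mul_of_nonneg_left (h1 b u τ hb h x) (by positivity))

/-- the decaying barrier `β = (A + |x|²)^(-1/4)`, `A = 1 + 5 n B`: by `Lop_comp`
`L β = -(1/4) ω^(-5/4) (2 tr τ - 2|x|²) + (5/4) ω^(-9/4) τxx ≤ (1/2 + (5/4) n B/A) β ≤ (3/4) β` -/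
lemma barrier_decay (n : ℕ) {B : ℝ} (hB : 0 ≤ B) : ∃ β : Fn n, ContDiff ℝ 2 β ∧ (∀ x, 0 < β x) ∧
    (∀ R, ∃ c, 0 < c ∧ ∀ x, ‖x‖ ≤ R → c ≤ β x) ∧ (∀ η, 0 < η → ∃ R, ∀ x, R ≤ ‖x‖ → β x ≤ η) ∧
    ∀ τ : MF n, (∀ a x, 0 ≤ τ a a x) → (∀ a b x, |τ a b x| ≤ B) → ∀ x, Lop τ β x ≤ β x := by
  obtain ⟨A, hA⟩ : ∃ A : ℝ, A = 1 + 5 * (n * B) := ⟨_, rfl⟩
  have hnB : 0 ≤ n * B := by positivity
  have hA0 : 0 < A := by linarith
  have hw : ∀ x : X n, 0 < A + ‖x‖ ^ 2 := fun x => by positivity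
  refine ⟨fun x => (A + ‖x‖ ^ 2) ^ (-(1 / 4) : ℝ),
    (contDiff_const.add (contDiff_normsq _)).rpow_const_of_ne fun x => (hw x).ne',
    fun x => Real.rpow_pos_of_pos (hw x) _,
    fun R => ⟨(A + R ^ 2) ^ (-(1 / 4) : ℝ), by positivity, fun x hx => ?_⟩, fun η hη => ?_,
    fun τ h0 hτ x => ?_⟩
  · exact Real.rpow_le_rpow_of_nonpos (hw x) (by gcongr) (by norm_num)
  · obtain ⟨T, hT⟩ := eventually_atTop.1
      ((tendsto_rpow_neg_atTop (y := 1 / 4) (by norm_num)).eventually (ge_mem_nhds hη))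
    refine ⟨max T 1, fun x hx => hT _ ?_⟩
    have h1 := (le_max_left _ _).trans hx
    have h2 := (le_max_right _ _).trans hx
    nlinarith
  · rw [Lop_comp τ (contDiff_normsq 2) (φ := fun s => (A + s) ^ (-(1 / 4) : ℝ))
      (φ' := fun s => -(1 / 4) * (A + s) ^ (-(1 / 4) - 1 : ℝ))
      (φ'' := fun s => -(1 / 4) * ((-(1 / 4) - 1) * (A + s) ^ (-(1 / 4) - 1 - 1 : ℝ)))
      (fun y => (((hasDerivAt_id' (‖y‖ ^ 2)).const_add A).rpow_const (Or.inl (hw y).ne')).congr_deriv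
        (by rw [one_mul]))
      (fun y => ((((hasDerivAt_id' (‖y‖ ^ 2)).const_add A).rpow_const (Or.inl (hw y).ne')).const_mul
        (-(1 / 4))).congr_deriv (by rw [one_mul])),
      Lop_normsq, Gam_normsq, Real.rpow_sub_one (hw x).ne' (-(1 / 4) - 1), Real.rpow_sub_one (hw x).ne']
    beta_reduce
    have h1 : 0 ≤ ∑ a, τ a a x := Finset.sum_nonneg fun a _ => h0 a x
    have h2 := (le_abs_self _).trans (abs_qf_le (fun a b => hτ a b x) fun a => x a)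
    rw [ssq_coe] at h2
    have h3 := Real.rpow_pos_of_pos (hw x) (-(1 / 4) : ℝ)
    have h4 := hw x
    have h5 := sq_nonneg ‖x‖
    generalize (A + ‖x‖ ^ 2) ^ (-(1 / 4) : ℝ) = β at h3
    generalize (qf (fun a b => τ a b x) fun a => x a) = Q at h2
    generalize ∑ a, τ a a x = T at h1
    generalize ‖x‖ ^ 2 = s at h2 h4 h5
    have h6 : -(1 / 4) * (2 * T - 2 * s) / (A + s) ≤ 1 / 2 := by
      rw [div_le_iff₀ h4]
      linarith
    have h7 : 5 / 4 * Q / (A + s) / (A + s) ≤ 1 / 2 := by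
      rw [div_le_iff₀ h4, div_le_iff₀ h4]
      nlinarith [mul_le_mul (show 5 * (n * B) ≤ A + s by linarith) (show s ≤ A + s by linarith) h5 h4.le]
    calc _ = β * (-(1 / 4) * (2 * T - 2 * s) / (A + s) + 5 / 4 * Q / (A + s) / (A + s)) := by ring
      _ ≤ β * (1 / 2 + 1 / 2) := by gcongr
      _ = β := by ring

/-- `w = S - A β` with `A c ≥ K` on the ball of radius `p.R`; outside `L S ≥ S` (`calabi`, `Pot.out`), so
`L w ≥ w`; `maxp_lin` with `K = 0`, `c = 1`; then `ip3_lower` -/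
theorem U_decay (n : ℕ) (p : Par) {η : ℝ} (hη : 0 < η) : ∃ R : ℝ, ∀ (b u : Fn n) (τ : MF n), Pot p b →
    Mom (quad p.C b) u τ → ∀ x, R ≤ ‖x‖ → ∀ i j k, |d3 u i j k x| ≤ η := by
  obtain ⟨K, hK, h1⟩ := S_bound n p
  have h0 : 0 < p.C₁ := p.ε_pos.trans_le (p.ε_le.trans p.le_C₁)
  obtain ⟨β, hβ, hp, hc, hd, hL⟩ := barrier_decay n (inv_pos.2 p.ε_pos).le
  obtain ⟨c, hc0, hc⟩ := hc p.R
  obtain ⟨R, hR⟩ := hd (η ^ 2 / (p.C₁ ^ 3 * (K / c))) (by positivity)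
  refine ⟨R, fun b u τ hb h x hx i j k => abs_le_of_sq_le_sq' ?_ hη.le |> abs_le.2⟩
  have hN := h.nice hb
  have hA : 0 < K / c := by positivity
  have h2 : Sf u τ x - K / c * β x ≤ 0 := by
    refine maxp_lin (c := 1) (w := fun y => Sf u τ y - K / c * β y) hN.geo.symm hN.geo.psd hN.abs_τ_le
      (hN.geo.contDiff_Sf.sub (contDiff_const.mul hβ))
      (fun y => bndb_om hK.le ((sub_le_self _ (mul_pos hA (hp y)).le).trans (h1 b u τ hb h y)) y)
      one_pos (fun y hy => ?_) x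
    have h3 : p.R ≤ ‖y‖ := le_of_not_ge fun h' => by
      have := mul_le_mul_of_nonneg_left (hc y h') hA.le
      rw [div_mul_cancel₀ _ hc0.ne'] at this
      linarith [h1 b u τ hb h y]
    have h4 := calabi hN.geo (bndb_V hN y)
    have h5 : ∀ i j k, |d3 (quad p.C b) i j k y| ≤ 0 := fun i j k => by
      rw [d3_quad _ hb.hb.mem.contDiff, hb.out y h3, abs_zero]
    have h6 := (le_abs_self _).trans (abs_ip3_le (fun a b => hN.abs_τ_le a b y)
      (fun i j k => Real.abs_le_sqrt (bndb_U hN y i j k)) h5)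
    have h7 := mul_le_mul_of_nonneg_left (hL τ (fun a z => by
      simpa only [qf_single] using hN.geo.psd z (Pi.single a 1)) hN.abs_τ_le y) hA.le
    rw [Lop_sub τ hN.geo.contDiff_Sf (contDiff_const.mul hβ), Lop_cmul τ _ hβ]
    rw [mul_zero, mul_zero] at h6
    linarith
  have h3 := hR x hx
  rw [le_div_iff₀ (by positivity)] at h3
  have h4 := mul_le_mul_of_nonneg_left (sub_nonpos.1 h2) (pow_pos h0 3).le
  linarith [bndb_U hN x i j k]

/-- a product estimate that is linear in the Hölder norms -/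
lemma HB.mul0 {f g : Fn n} {M N A A' : ℝ} (hf : HB 0 f M) (hg : HB 0 g N) (hA : ∀ x, |f x| ≤ A)
    (hA' : ∀ x, |g x| ≤ A') : HB 0 (fun x => f x * g x) (A * N + A' * M) := by
  have a0 : 0 ≤ A := (abs_nonneg _).trans (hA 0)
  have a1 : 0 ≤ A' := (abs_nonneg _).trans (hA' 0)
  have b0 := holN_nonneg f
  have b1 := holN_nonneg g
  refine (hb_zero (A := A * supN g) (B := A * holN g + A' * holN f) (by positivity) (fun x => ?_)
    fun x y => ?_).weaken ?_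
  · rw [abs_mul]
    exact mul_le_mul (hA x) (hg.mem.abs_le_supN x) (abs_nonneg _) a0
  · rw [show f x * g x - f y * g y = f x * (g x - g y) + g y * (f x - f y) by ring, add_mul,
      mul_assoc, mul_assoc]
    refine (abs_add_le _ _).trans (add_le_add ?_ ?_) <;> rw [abs_mul]
    · exact mul_le_mul (hA x) (hg.mem.hol_le_holN x y) (abs_nonneg _) a0
    · exact mul_le_mul (hA' y) (hf.mem.hol_le_holN x y) (abs_nonneg _) a1
  · have h1 := mul_le_mul_of_nonneg_left hg.le a0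
    have h2 := mul_le_mul_of_nonneg_left hf.le a1
    have h3 := mul_nonneg a1 (supN_nonneg f)
    rw [hn_zero] at h1 h2
    linarith

lemma bndc_dτ (h : Nice ε C₁ V u τ) {K : ℝ} {x : X n} (hK : ∀ i j k, |d3 u i j k x| ≤ K)
    (k i j : Fin n) : |pd k (τ i j) x| ≤ n * (n * (ε⁻¹ * K * ε⁻¹)) := by
  have he : 0 ≤ ε⁻¹ := inv_nonneg.2 h.ε_pos.le
  have hK0 : 0 ≤ K := (abs_nonneg _).trans (hK k k k)
  rw [h.geo.dτ, abs_neg]
  have h1 : ∀ {f : Fin n → ℝ} {c : ℝ}, (∀ a, |f a| ≤ c) → |∑ a, f a| ≤ n * c := fun {f c} hf => by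
    refine (Finset.abs_sum_le_sum_abs _ _).trans ((Finset.sum_le_sum fun a _ => hf a).trans ?_)
    rw [Finset.sum_const, Finset.card_univ, Fintype.card_fin, nsmul_eq_mul]
  refine h1 fun a => h1 fun b => ?_
  rw [abs_mul, abs_mul]
  exact mul_le_mul (mul_le_mul (h.abs_τ_le i a x) (hK k a b) (abs_nonneg _) he) (h.abs_τ_le b j x)
    (abs_nonneg _) (mul_nonneg he hK0)

lemma bndc_LH {p : Par} {b : Fn n} (hb : Pot p b) (h : Geo (quad p.C b) u τ) {k : ℕ} (hk : k ≤ 1)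
    {T H W : ℝ} (i j : Fin n) (hτ : ∀ a b, HB k (τ a b) T) (hH : HB k (d2 u i j) H)
    (hW : ∀ a b c d, HB k (fun x => d3 u i a b x * d3 u j c d x) W) :
    HB k (Lop τ (d2 u i j)) (H + n * (n * (n * (n * (T * T * W)))) + (|p.C| + p.B)) := by
  have h1 : HB k (Qf u τ i j) (n * (n * (n * (n * (T * T * W))))) :=
    HB.nsum fun a => HB.nsum fun b => HB.nsum fun c => HB.nsum fun d =>
      (((hτ a c).mul (hτ b d)).mul (hW a b c d)).congr fun x => by ring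
  have h2 : HB k (d2 (quad p.C b) i j) (|p.C| + p.B) := by
    rw [d2_quad p.C (hb.hb.mem.mono (k := 2) (by norm_num)).contDiff]
    refine ((HB.const k _).weaken ?_).add ((hb.hb.d2 (k := 1) i j).mono hk)
    split_ifs
    · exact le_rfl
    · rw [abs_zero]; exact abs_nonneg _
  exact ((hH.add h1).sub h2).congr fun x => (h.LH i j x).symm

/-- `|∂τ| ≤ n² ε⁻² K` (`dτ`, `U_bound`) gives `Coef 0` (`hb_zero_of_pd`); `LH` with `HB.mul0` gives
`HB 0 (L H_{ij}) (A + B' ∑ hn 1 H)`; `apri_sys` (`k = 0`, `J = Fin n × Fin n`) -/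
theorem boot2 (n : ℕ) (p : Par) : ∃ B : ℝ, ∀ (b u : Fn n) (τ : MF n), Pot p b →
    Mom (quad p.C b) u τ → ∀ i j, HB 2 (d2 u i j) B := by
  obtain ⟨K, hK, HK⟩ := U_bound n p
  have hC : 0 < p.C₁ := p.ε_pos.trans_le (p.ε_le.trans p.le_C₁)
  have he : 0 ≤ p.ε⁻¹ := inv_nonneg.2 p.ε_pos.le
  obtain ⟨T, hT⟩ : ∃ T : ℝ, T = 3 * p.ε⁻¹ + n * (n * (n * (p.ε⁻¹ * K * p.ε⁻¹))) := ⟨_, rfl⟩
  obtain ⟨C, -, HC⟩ := apri_sys n 0 (Fin n × Fin n) (inv_pos.2 hC) T
    (1 + n * (n * (n * (n * (T * T * (2 * K))))))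
  refine ⟨C * (|p.C| + p.B + p.C₁), fun b u τ hb h i j => ?_⟩
  have hN := h.nice hb
  have hU := HK b u τ hb h
  have hτ : ∀ a c, HB 0 (τ a c) T := fun a c => hT ▸ hb_zero_of_pd (by positivity) (hN.abs_τ_le a c)
    (hN.geo.τdiff a c) fun k x => bndc_dτ hN (fun i j k => hU i j k x) k a c
  have hm : ∀ q : Fin n × Fin n, Mem (0 + 2) (d2 u q.1 q.2) := fun q => (h.H3 _ _).mono (by norm_num)
  refine ⟨hm (i, j), HC τ (fun q => d2 u q.1 q.2) _ _ ⟨hN.ell, hτ⟩ hm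
    (add_nonneg (abs_nonneg _) hb.hb.nonneg) (fun q => ?_) (fun q => hN.abs_H_le q.1 q.2) (i, j)⟩
  have h1 : ∀ a c, HB (0 + 1) (d2 u a c) (∑ q : Fin n × Fin n, hn (0 + 1) (d2 u q.1 q.2)) :=
    fun a c => ⟨(h.H3 a c).mono (by norm_num), Finset.single_le_sum
      (f := fun q : Fin n × Fin n => hn (0 + 1) (d2 u q.1 q.2)) (fun _ _ => hn_nonneg _ _)
      (Finset.mem_univ (a, c))⟩
  refine (bndc_LH hb hN.geo (by norm_num) q.1 q.2 hτ ((h1 _ _).mono (by norm_num))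
    fun a b c d => HB.mul0 ((h1 a b).pd q.1) ((h1 c d).pd q.2) (hU _ _ _) (hU _ _ _)).weaken
    (le_of_eq ?_)
  ring

/-- `boot2`, `hb_inv` (`k = 2`), `LH` is bounded in `HB 1`, `schauder` (`k = 1`), `hb_inv` (`k = 3`) -/
theorem boot (n : ℕ) (p : Par) : ∃ B : ℝ, ∀ (b u : Fn n) (τ : MF n), Pot p b →
    Mom (quad p.C b) u τ → (∀ i j, HB 3 (d2 u i j) B) ∧ ∀ i j, HB 3 (τ i j) B := by
  obtain ⟨B₂, H₂⟩ := boot2 n p
  have hC : 0 < p.C₁ := p.ε_pos.trans_le (p.ε_le.trans p.le_C₁)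
  obtain ⟨T, HT⟩ := hb_inv n 2 B₂ p.ε⁻¹
  obtain ⟨C, -, HC⟩ := schauder n 1 (inv_pos.2 hC) T
  obtain ⟨B₃, hB₃⟩ : ∃ B₃ : ℝ, B₃ = C * (B₂ + n * (n * (n * (n * (T * T * (B₂ * B₂))))) +
    (|p.C| + p.B) + p.C₁) := ⟨_, rfl⟩
  obtain ⟨T', HT'⟩ := hb_inv n 3 B₃ p.ε⁻¹
  refine ⟨max B₃ T', fun b u τ hb h => ?_⟩
  have hN := h.nice hb
  have h2 := H₂ b u τ hb h
  have hτ : ∀ a c, HB 1 (τ a c) T := fun a c =>
    (HT τ (d2 u) h2 hN.abs_τ_le h.inv a c).mono (by norm_num)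
  have h3 : ∀ i j, HB 3 (d2 u i j) B₃ := fun i j => ⟨h.H3 i j, hB₃ ▸ HC τ _ _ _ ⟨hN.ell, hτ⟩ (h.H3 i j)
    (bndc_LH hb hN.geo le_rfl i j hτ ((h2 i j).mono (by norm_num))
      fun a b c d => ((h2 a b).pd i).mul ((h2 c d).pd j)) (hN.abs_H_le i j)⟩
  exact ⟨fun i j => (h3 i j).weaken (le_max_left _ _), fun i j =>
    (HT' τ (d2 u) h3 hN.abs_τ_le h.inv i j).weaken (le_max_right _ _)⟩

/-- first derivatives: `dτ`, `U_decay`; second derivatives: `interp_loc` for `pd j (τ a b)` with `t ≤ 1`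
small, then `s` small -/
theorem τ_decay (n : ℕ) (p : Par) {η : ℝ} (hη : 0 < η) : ∃ R : ℝ, ∀ (b u : Fn n) (τ : MF n), Pot p b →
    Mom (quad p.C b) u τ → Small η R τ := by
  obtain ⟨B, HB'⟩ := boot n p
  have he : 0 ≤ p.ε⁻¹ := inv_nonneg.2 p.ε_pos.le
  obtain ⟨r, hr0, hr1, hr⟩ : ∃ r : ℝ, 0 < r ∧ r ≤ 1 ∧ |B| * r ≤ η / 2 := by
    refine ⟨min 1 (η / (2 * (|B| + 1))), by positivity, min_le_left _ _,
      (mul_le_mul_of_nonneg_left (min_le_right _ _) (abs_nonneg B)).trans ?_⟩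
    rw [← mul_div_assoc, div_le_div_iff₀ (by positivity) (by positivity)]
    nlinarith [abs_nonneg B]
  have ht1 : r ^ 2 ≤ 1 := pow_le_one₀ hr0.le hr1
  obtain ⟨q, hq⟩ : ∃ q : ℝ, q = n * (n * (p.ε⁻¹ * p.ε⁻¹)) := ⟨_, rfl⟩
  have hq0 : 0 ≤ q := by rw [hq]; positivity
  obtain ⟨R, HR⟩ := U_decay n p (η := η * r ^ 2 / 4 / (q + 1)) (by positivity)
  refine ⟨R + 1, fun b u τ hb h x hx => ?_⟩
  have hN := h.nice hb
  have h1 : ∀ y, R ≤ ‖y‖ → ∀ a c i, |pd i (τ a c) y| ≤ η * r ^ 2 / 4 := fun y hy a c i => by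
    refine (bndc_dτ hN (HR b u τ hb h y hy) i a c).trans ?_
    rw [show (n : ℝ) * (n * (p.ε⁻¹ * (η * r ^ 2 / 4 / (q + 1)) * p.ε⁻¹)) =
      η * r ^ 2 / 4 * (q / (q + 1)) by rw [hq]; ring]
    exact mul_le_of_le_one_right (by positivity) ((div_le_one (by positivity)).2 (by linarith))
  refine ⟨fun a c i => (h1 x (by linarith) a c i).trans (by nlinarith), fun a c i j => ?_⟩
  have h2 : HB 1 (pd j (τ a c)) |B| :=
    ((((HB' b u τ hb h).2 a c).mono (k := 2) (by norm_num)).pd j).weaken (le_abs_self B)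
  refine (interp_loc h2 (x := x) (pow_pos hr0 2) (s := η * r ^ 2 / 4) (fun y hy => h1 y ?_ a c j) i).trans ?_
  · have := norm_sub_norm_le x y
    rw [norm_sub_rev] at this
    linarith
  · rw [Real.sqrt_sq hr0.le, show 2 * (η * r ^ 2 / 4) / r ^ 2 = η / 2 by field_simp; ring]
    linarith

end Crest.Agent.R238
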