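import Crest.Agent.R238.Ops
import Crest.Agent.R238.Tens

/-!
# Row 238 (S0369): Brandt
Brandt's barrier argument in the frame `m s = e^{-s} x₀` moving with the drift.
-/

set_option autoImplicit false
set_option linter.unusedVariables false

open MeasureTheory Filter Topology Matrix
open Crest.Agent.R285 (bas pd gibbs WPot PolyB SConv)

noncomputable section

namespace Crest.Agent.R238

variable {n : ℕ}

/-- the moving centre -/
def ctr (x₀ : X n) (s : ℝ) : X n := Real.exp (-s) • x₀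

/-- the function to be maximised -/
def brW (v : Fn n) (x₀ : X n) (l : Fin n) (s : ℝ) (z : X n) (t : ℝ) : ℝ :=
  v (ctr x₀ s + z + t • bas l) - v (ctr x₀ s + z - t • bas l)

/-- the barrier -/
def brP (A ω R s : ℝ) (z : X n) (t : ℝ) : ℝ := A * t * (2 * R - t) / R ^ 2 + ω * (‖z‖ ^ 2 + s) / R ^ 2

lemma brandta_right {φ : ℝ → ℝ} {s D : ℝ} (h : HasDerivAt φ D s) (h1 : ∀ᶠ s' in 𝓝[>] s, φ s' ≤ φ s) :
    D ≤ 0 := by
  refine le_of_tendsto ((hasDerivAt_iff_tendsto_slope.1 h).mono_left (nhdsGT_le_nhdsNE s)) ?_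
  filter_upwards [h1, self_mem_nhdsWithin] with s' h2 h3
  rw [slope_def_field]
  exact div_nonpos_of_nonpos_of_nonneg (by linarith) (by linarith [show s < s' from h3])

lemma brandta_s {v : Fn n} (hv : Differentiable ℝ v) (x₀ c : X n) (s : ℝ) :
    HasDerivAt (fun s' => v (ctr x₀ s' + c)) (-∑ i, ctr x₀ s i * pd i v (ctr x₀ s + c)) s := by
  have h1 : HasDerivAt (fun s' : ℝ => Real.exp (-s')) (-Real.exp (-s)) s := by
    simpa using (hasDerivAt_neg s).exp
  have h2 := (hasDerivAt_line hv c x₀ (Real.exp (-s))).comp s h1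
  simp only [ctr, add_comm _ c]
  refine h2.congr_deriv ?_
  rw [mul_neg, Finset.sum_mul]
  congr 1
  exact Finset.sum_congr rfl fun i _ => by simp only [PiLp.smul_apply, smul_eq_mul]; ring

lemma brandta_neg {f : Fn n} (hf : Differentiable ℝ f) (x : X n) (i : Fin n) (t : ℝ) :
    HasDerivAt (fun s : ℝ => f (x - s • bas i)) (-pd i f (x - t • bas i)) t := by
  have h := (hasDerivAt_bas hf x i (-t)).comp t (hasDerivAt_neg t)
  simp only [sub_eq_add_neg, ← neg_smul]
  exact h.congr_deriv (by ring)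

lemma brandta_tr (i : Fin n) {f : Fn n} (hf : Differentiable ℝ f) (c : X n) :
    pd i (fun x => f (x + c)) = fun x => pd i f (x + c) := by
  simpa using pd_affine i hf 1 c

lemma brandta_ite (l : Fin n) (g : Fin n → Fin n → ℝ) :
    ∑ i, ∑ j, (if i = l ∧ j = l then 1 else 0) * g i j = g l l := by
  rw [Finset.sum_eq_single l (fun i _ hi => by simp [hi]) (by simp),
    Finset.sum_eq_single l (fun j _ hj => by simp [hj]) (by simp)]
  simp

lemma brandta_z {v : Fn n} (hv : ContDiff ℝ 2 v) {c₁ c₂ z : X n} {K w : ℝ}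
    (h : IsLocalMax (fun x => v (x + c₁) - v (x + c₂) - (K + w * ‖x‖ ^ 2)) z) :
    (∀ i, pd i v (z + c₁) - pd i v (z + c₂) = 2 * w * z i) ∧
      ∀ A : A2 n, (∀ i j, A i j = A j i) → (∀ ξ, 0 ≤ qf A ξ) →
        ∑ i, ∑ j, A i j * (d2 v i j (z + c₁) - d2 v i j (z + c₂)) ≤ 2 * (w * ∑ i, A i i) := by
  have hd : Differentiable ℝ v := hv.differentiable (by norm_num)
  have tr : ∀ {f : Fn n}, Differentiable ℝ f → ∀ c : X n, Differentiable ℝ fun x => f (x + c) :=
    fun hf c => hf.comp (differentiable_id.add_const c)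
  have hn : Differentiable ℝ fun x : X n => ‖x‖ ^ 2 := (contDiff_normsq 1).differentiable (by norm_num)
  have e1 : ∀ j, pd j (fun x => v (x + c₁) - v (x + c₂) - (K + w * ‖x‖ ^ 2)) =
      fun x => pd j v (x + c₁) - pd j v (x + c₂) - 2 * w * x j := fun j => by
    rw [R285.pd_sub j ((tr hd c₁).fun_sub (tr hd c₂)) ((hn.const_mul w).const_add K),
      R285.pd_sub j (tr hd c₁) (tr hd c₂), R285.pd_add j (differentiable_const K) (hn.const_mul w),
      R285.pd_const, pd_cmul j w hn, pd_normsq, brandta_tr j hd, brandta_tr j hd]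
    funext x
    ring
  have e2 : ∀ i j, d2 (fun x => v (x + c₁) - v (x + c₂) - (K + w * ‖x‖ ^ 2)) i j z =
      d2 v i j (z + c₁) - d2 v i j (z + c₂) - 2 * w * if j = i then 1 else 0 := fun i j => by
    have hj := differentiable_pd hv j
    rw [d2, e1, R285.pd_sub i ((tr hj c₁).fun_sub (tr hj c₂)) ((differentiable_crd j).const_mul _),
      R285.pd_sub i (tr hj c₁) (tr hj c₂), pd_cmul i _ (differentiable_crd j), pd_crd,
      brandta_tr i hj, brandta_tr i hj]
  refine ⟨fun i => ?_, fun A hs hp => ?_⟩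
  · have := pd_eq_zero_of_max h i
    rw [e1] at this
    linarith
  · have hc : ContDiff ℝ 2 fun x => v (x + c₁) - v (x + c₂) - (K + w * ‖x‖ ^ 2) :=
      ((hv.comp (contDiff_id.add contDiff_const)).sub (hv.comp (contDiff_id.add contDiff_const))).sub
        (contDiff_const.add (contDiff_const.mul (contDiff_normsq 2)))
    have := trace_nonpos hc h hs hp
    simp only [e2, mul_sub (A _ _) (_ - _), Finset.sum_sub_distrib, mul_ite, mul_one, mul_zero,
      Finset.sum_ite_eq', Finset.mem_univ, if_true, ← Finset.sum_mul] at this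
    linarith

/-- The inequality at an interior maximum of `Φ = brW - brP`.  Put `p± = ctr s + z ± t e`, `e = bas l`.
(1) `s`-direction (one-sided maximum on `[s, s+δ)`): `-ctr s · (∇v p₊ - ∇v p₋) - ω/R² ≤ 0`
(derivative of `s ↦ v (e^{-s} x₀ + c)`; `HasDerivAt` plus a one-sided maximum gives derivative `≤ 0`).
(2) `z`-direction: `trace_nonpos` with the array `a - κ e eᵀ` (positive semidefinite since
`κ ξ_l² ≤ κ |ξ|²`) and `pd_eq_zero_of_max` for `z ↦ Φ s z t` (use `pd_affine` with `c = 1`).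
(3) `t`-direction: first derivative `0`, `deriv2_nonpos_of_max` (`hasDerivAt_bas`).
Add (1) + (2) + κ (3'') - z·(2') - t (3'):
`(a:D²v - p₊·∇v)(p₊) - (a:D²v - p₋·∇v)(p₋) ≤ ω/R² + 2ω tr(a - κ e eᵀ)/R² - 2κA/R² - 2ω|z|²/R² - tA(2R-2t)/R²`. -/
lemma br_max {κ B : ℝ} (hκ : 0 < κ) {v : Fn n} (hv : ContDiff ℝ 2 v) {a : A2 n}
    (hs : ∀ i j, a i j = a j i) (he : ∀ ξ, κ * ssq ξ ≤ qf a ξ) (hb : ∀ i j, |a i j| ≤ B)
    (x₀ : X n) (l : Fin n) {A ω R s t : ℝ} {z : X n} (hR : 0 < R) (hA : 0 ≤ A) (hω : 0 ≤ ω)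
    (ht0 : 0 < t) (htR : t < R)
    (h1 : ∀ᶠ s' in 𝓝[>] s, brW v x₀ l s' z t - brP A ω R s' z t ≤ brW v x₀ l s z t - brP A ω R s z t)
    (h2 : IsLocalMax (fun z' => brW v x₀ l s z' t - brP A ω R s z' t) z)
    (h3 : IsLocalMax (fun t' => brW v x₀ l s z t' - brP A ω R s z t') t) :
    Lop (fun i j _ => a i j) v (ctr x₀ s + z + t • bas l) -
      Lop (fun i j _ => a i j) v (ctr x₀ s + z - t • bas l) ≤
      (ω * (1 + 2 * (n * B)) - 2 * κ * A) / R ^ 2 := by
  have hd : Differentiable ℝ v := hv.differentiable (by norm_num)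
  obtain ⟨m, hm⟩ : ∃ m, m = ctr x₀ s := ⟨_, rfl⟩
  obtain ⟨p, hp⟩ : ∃ p, p = m + z + t • bas l := ⟨_, rfl⟩
  obtain ⟨q, hq⟩ : ∃ q, q = m + z - t • bas l := ⟨_, rfl⟩
  have hR2 : 0 < R ^ 2 := by positivity
  -- the `s`-direction
  have a1 : -∑ i, m i * pd i v p - -∑ i, m i * pd i v q - ω / R ^ 2 ≤ 0 := by
    refine brandta_right ?_ h1
    have b1 := brandta_s hd x₀ (z + t • bas l) s
    have b2 := brandta_s hd x₀ (z - t • bas l) s
    simp only [← add_assoc, ← add_sub_assoc] at b1 b2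
    rw [← hm, ← hp] at b1
    rw [← hm, ← hq] at b2
    have b3 : HasDerivAt (fun s' => brP A ω R s' z t) (ω / R ^ 2) s := by
      have := (((hasDerivAt_id s).const_add (‖z‖ ^ 2)).const_mul ω).div_const (R ^ 2)
      simpa [brP] using this.const_add (A * t * (2 * R - t) / R ^ 2)
    exact (b1.sub b2).sub b3
  -- the `z`-direction
  have e2 : (fun z' => brW v x₀ l s z' t - brP A ω R s z' t) = fun z' =>
      v (z' + (m + t • bas l)) - v (z' + (m - t • bas l)) -
        ((A * t * (2 * R - t) / R ^ 2 + ω * s / R ^ 2) + ω / R ^ 2 * ‖z'‖ ^ 2) := by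
    funext z'
    rw [brW, brP, ← hm, show m + z' + t • bas l = z' + (m + t • bas l) by abel,
      show m + z' - t • bas l = z' + (m - t • bas l) by abel]
    ring
  rw [e2] at h2
  obtain ⟨a2, a3⟩ := brandta_z hv h2
  rw [show z + (m + t • bas l) = p by rw [hp]; abel, show z + (m - t • bas l) = q by rw [hq]; abel]
    at a2 a3
  have a4 := a3 (fun i j => a i j - κ * (if i = l ∧ j = l then 1 else 0))
    (fun i j => by simp only [hs i j, and_comm]) (fun ξ => by
      have c1 : ξ l ^ 2 ≤ ssq ξ :=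
        Finset.single_le_sum (f := fun i => ξ i ^ 2) (fun _ _ => sq_nonneg _) (Finset.mem_univ l)
      have c2 : qf (fun i j => a i j - κ * (if i = l ∧ j = l then 1 else 0)) ξ = qf a ξ - κ * ξ l ^ 2 := by
        simp only [qf, sub_mul, Finset.sum_sub_distrib, mul_assoc, ← Finset.mul_sum, brandta_ite]
        ring
      rw [c2]
      nlinarith [he ξ])
  simp only [sub_mul, Finset.sum_sub_distrib, mul_assoc, ← Finset.mul_sum, brandta_ite, and_self,
    Finset.sum_ite_eq', Finset.mem_univ, if_true] at a4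
  -- the `t`-direction
  have d1 : ∀ t', HasDerivAt (fun t' => brW v x₀ l s z t' - brP A ω R s z t')
      (pd l v (m + z + t' • bas l) - -pd l v (m + z - t' • bas l) - A * (2 * R - 2 * t') / R ^ 2) t' := by
    intro t'
    have b3 : HasDerivAt (fun t' => brP A ω R s z t') (A * (2 * R - 2 * t') / R ^ 2) t' := by
      have := ((((hasDerivAt_id t').const_mul A).mul ((hasDerivAt_id t').const_sub (2 * R))).div_const
        (R ^ 2)).add_const (ω * (‖z‖ ^ 2 + s) / R ^ 2)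
      refine this.congr_deriv ?_
      simp only [id]
      ring
    rw [hm]
    exact ((hasDerivAt_bas hd _ l t').sub (brandta_neg hd _ l t')).sub b3
  have a5 := h3.hasDerivAt_eq_zero (d1 t)
  have hd' := differentiable_pd hv l
  have a6 := deriv2_nonpos_of_max h3 d1
    (((hasDerivAt_bas hd' (m + z) l t).sub (brandta_neg hd' (m + z) l t).neg).sub
      (((((hasDerivAt_id t).const_mul 2).const_sub (2 * R)).const_mul A).div_const (R ^ 2)))
  rw [← hp, ← hq] at a5 a6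
  -- assembling
  have a7 : ∑ i, a i i ≤ n * B := by
    refine (Finset.sum_le_card_nsmul _ _ B fun i _ => (le_abs_self _).trans (hb i i)).trans_eq ?_
    simp
  have a8 : ∑ i, z i * (pd i v p - pd i v q) = 2 * (ω / R ^ 2) * ∑ i, z i ^ 2 := by
    rw [Finset.mul_sum]
    exact Finset.sum_congr rfl fun i _ => by rw [a2 i]; ring
  have a9 : 0 ≤ 2 * (ω / R ^ 2) * ∑ i, z i ^ 2 := by positivity
  have b1 : ∑ i, p i * pd i v p = ∑ i, m i * pd i v p + ∑ i, z i * pd i v p + t * pd l v p := by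
    have : ∀ i, p i = m i + z i + t * if i = l then 1 else 0 := fun i => by
      rw [hp, ← bas_apply]; rfl
    simp [this, add_mul, Finset.sum_add_distrib]
  have b2 : ∑ i, q i * pd i v q = ∑ i, m i * pd i v q + ∑ i, z i * pd i v q - t * pd l v q := by
    have : ∀ i, q i = m i + z i - t * if i = l then 1 else 0 := fun i => by
      rw [hq, ← bas_apply]; rfl
    simp [this, add_mul, sub_mul, Finset.sum_add_distrib]
  simp only [mul_sub, Finset.sum_sub_distrib] at a4 a8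
  rw [← hm, ← hp, ← hq]
  simp only [Lop]
  rw [b1, b2]
  have c1 : 0 ≤ t * (A * (2 * R - 2 * t) / R ^ 2) := by
    have : 0 ≤ 2 * R - 2 * t := by linarith
    positivity
  have c2 : 0 ≤ ω / R ^ 2 := by positivity
  have c3 := mul_le_mul_of_nonneg_left a7 c2
  have c4 := mul_le_mul_of_nonneg_left a6 hκ.le
  have c5 : t * (pd l v p + pd l v q) = t * (A * (2 * R - 2 * t) / R ^ 2) := by
    congr 1; linarith
  have c6 : (ω * (1 + 2 * (n * B)) - 2 * κ * A) / R ^ 2 =
      ω / R ^ 2 + 2 * (ω / R ^ 2 * (n * B)) - κ * (2 * A / R ^ 2) := by ring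
  have c7 : A * -(2 * 1) / R ^ 2 = -(2 * A / R ^ 2) := by ring
  rw [c7] at c4
  rw [c6]
  nlinarith [mul_nonneg c2 hκ.le]

lemma brandtb_neg (τ : MF n) (v : Fn n) (x : X n) : Lop τ (fun y => -v y) x = -Lop τ v x := by
  simp only [Lop, d2, R285.pd_neg, mul_neg, Finset.sum_neg_distrib]
  ring

lemma brandtb_one {κ B : ℝ} (hκ : 0 < κ) {v : X n → ℝ} {a : ℝ → A2 n} (x₀ : X n) (l : Fin n)
    {R F ω A : ℝ} (hv : ContDiff ℝ 2 v) (hs : ∀ s i j, a s i j = a s j i)
    (he : ∀ s ξ, κ * ssq ξ ≤ qf (a s) ξ) (hb : ∀ s i j, |a s i j| ≤ B) (hR : 0 < R) (hω : 0 ≤ ω)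
    (hA : ω ≤ A) (hA' : ω * (1 + 2 * (n * B)) + 2 * F * R ^ 2 < 2 * κ * A)
    (hF : ∀ s ∈ Set.Icc 0 (R ^ 2), ∀ y, ‖y - ctr x₀ s‖ ≤ 2 * R →
      |Lop (fun i j _ => a s i j) v y| ≤ F)
    (hO : ∀ y y', ‖y - y'‖ ≤ 2 * R → |v y - v y'| ≤ ω) {t : ℝ} (ht : t ∈ Set.Icc 0 R) :
    v (x₀ + t • bas l) - v (x₀ - t • bas l) ≤ t / R * (2 * A) := by
  have hA0 : 0 ≤ A := hω.trans hA
  have hR2 : 0 < R ^ 2 := by positivity
  set K : Set (ℝ × X n × ℝ) := Set.Icc 0 (R ^ 2) ×ˢ Metric.closedBall 0 R ×ˢ Set.Icc 0 R with hK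
  have hKc : IsCompact K := isCompact_Icc.prod ((isCompact_closedBall _ _).prod isCompact_Icc)
  have hm : ((0 : ℝ), (0 : X n), t) ∈ K := ⟨⟨le_rfl, hR2.le⟩, Metric.mem_closedBall_self hR.le, ht⟩
  have hvc := hv.continuous
  have hc : Continuous fun p : ℝ × X n × ℝ =>
      brW v x₀ l p.1 p.2.1 p.2.2 - brP A ω R p.1 p.2.1 p.2.2 := by
    unfold brW brP ctr
    fun_prop
  obtain ⟨⟨s, z, r⟩, ⟨hs1, hz1, hr1⟩, hmax⟩ := hKc.exists_isMaxOn ⟨_, hm⟩ hc.continuousOn
  simp only at hs1 hz1 hr1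
  replace hmax : ∀ s' ∈ Set.Icc 0 (R ^ 2), ∀ z' ∈ Metric.closedBall (0 : X n) R, ∀ r' ∈ Set.Icc 0 R,
      brW v x₀ l s' z' r' - brP A ω R s' z' r' ≤ brW v x₀ l s z r - brP A ω R s z r :=
    fun s' h1 z' h2 r' h3 => isMaxOn_iff.1 hmax (s', z', r') ⟨h1, h2, h3⟩
  rw [mem_closedBall_zero_iff] at hz1
  have hnr : ‖r • (bas l : X n)‖ = r := by
    rw [norm_smul, R285.norm_bas, mul_one, Real.norm_of_nonneg hr1.1]
  have hW : brW v x₀ l s z r ≤ ω := by
    refine (le_abs_self _).trans (hO _ _ ?_)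
    rw [add_sub_sub_cancel]
    exact (norm_add_le _ _).trans (by rw [hnr]; linarith [hr1.2])
  have hP1 : 0 ≤ A * r * (2 * R - r) / R ^ 2 :=
    div_nonneg (mul_nonneg (mul_nonneg hA0 hr1.1) (by linarith [hr1.2])) hR2.le
  have hP2 : 0 ≤ ω * (‖z‖ ^ 2 + s) / R ^ 2 :=
    div_nonneg (mul_nonneg hω (add_nonneg (sq_nonneg _) hs1.1)) hR2.le
  have hP3 : R ^ 2 ≤ ‖z‖ ^ 2 + s → ω ≤ ω * (‖z‖ ^ 2 + s) / R ^ 2 := fun h => by
    rw [le_div_iff₀ hR2]
    exact mul_le_mul_of_nonneg_left h hω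
  have key : brW v x₀ l s z r - brP A ω R s z r ≤ 0 := by
    rw [sub_nonpos]
    rcases hs1.2.eq_or_lt with h1 | h1
    · have := hP3 (by nlinarith [sq_nonneg ‖z‖])
      unfold brP
      linarith
    rcases hz1.eq_or_lt with h2 | h2
    · have := hP3 (by rw [h2]; linarith [hs1.1])
      unfold brP
      linarith
    rcases hr1.2.eq_or_lt with h3 | h3
    · have : A * r * (2 * R - r) / R ^ 2 = A := by
        rw [h3]
        field_simp
        ring
      unfold brP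
      linarith
    rcases hr1.1.eq_or_lt with h4 | h4
    · have : brW v x₀ l s z r = 0 := by simp [brW, ← h4]
      unfold brP
      linarith
    exfalso
    have hz2 : z ∈ Metric.closedBall (0 : X n) R := mem_closedBall_zero_iff.2 hz1
    have h5 := br_max hκ hv (hs s) (he s) (hb s) x₀ l (A := A) (ω := ω) (s := s) (z := z) hR hA0 hω
      h4 h3
      (by
        filter_upwards [Ioo_mem_nhdsGT h1] with s' hs'
        exact hmax s' ⟨hs1.1.trans hs'.1.le, hs'.2.le⟩ z hz2 r hr1)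
      (by
        filter_upwards [Metric.isOpen_ball.mem_nhds (mem_ball_zero_iff.2 h2)] with z' hz'
        exact hmax s hs1 z' (Metric.ball_subset_closedBall hz') r hr1)
      (by
        filter_upwards [Ioo_mem_nhds h4 h3] with r' hr'
        exact hmax s hs1 z hz2 r' ⟨hr'.1.le, hr'.2.le⟩)
    have h6 := hF s hs1 (ctr x₀ s + z + r • bas l) (by
      rw [add_assoc, add_sub_cancel_left]
      exact (norm_add_le _ _).trans (by rw [hnr]; linarith))
    have h7 := hF s hs1 (ctr x₀ s + z - r • bas l) (by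
      rw [add_sub_assoc, add_sub_cancel_left]
      exact (norm_sub_le _ _).trans (by rw [hnr]; linarith))
    have h8 : (ω * (1 + 2 * (n * B)) - 2 * κ * A) / R ^ 2 < -(2 * F) := by
      rw [div_lt_iff₀ hR2]
      linarith
    linarith [(abs_le.1 h6).1, (abs_le.1 h7).2]
  have h9 : brW v x₀ l 0 0 t - brP A ω R 0 0 t ≤ 0 := (hmax 0 hm.1 0 hm.2.1 t ht).trans key
  have e1 : brW v x₀ l 0 0 t = v (x₀ + t • bas l) - v (x₀ - t • bas l) := by simp [brW, ctr]
  have e2 : brP A ω R 0 (0 : X n) t ≤ t / R * (2 * A) := by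
    have h0 : 0 ≤ A * t * t / R ^ 2 := div_nonneg (mul_nonneg (mul_nonneg hA0 ht.1) ht.1) hR2.le
    have : brP A ω R 0 (0 : X n) t = t / R * (2 * A) - A * t * t / R ^ 2 := by
      simp only [brP, norm_zero]
      field_simp
      ring
    linarith
  linarith

/-- Brandt's estimate.  Choose `A = ω + (ω (1 + 2nB) + 2 F R² + η) / (2κ)` (any `η > 0`), maximise
`brW - brP` over the compact set `[0,R²] × closedBall 0 R × [0,R]`.  By `br_max` the maximum is not attained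
with `s < R²`, `‖z‖ < R`, `0 < t < R`; on the remaining boundary `brW ≤ brP` (`brW = 0` for `t = 0`;
`brP ≥ ω` if `s = R²`, `‖z‖ = R` or `t = R`).  Evaluate at `s = 0`, `z = 0`: `brW ≤ 2 A t / R`.  Same for
`-v`.  Points `ctr s + z ± t e` are within `2R` of `ctr s`. -/
theorem brandt (n : ℕ) {κ : ℝ} (hκ : 0 < κ) (B : ℝ) : ∃ C : ℝ, 0 < C ∧
    ∀ (v : Fn n) (a : ℝ → A2 n) (x₀ : X n) (l : Fin n) (R F ω : ℝ), ContDiff ℝ 2 v →
    (∀ s i j, a s i j = a s j i) → (∀ s ξ, κ * ssq ξ ≤ qf (a s) ξ) → (∀ s i j, |a s i j| ≤ B) →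
    0 < R → 0 ≤ F → 0 ≤ ω →
    (∀ s ∈ Set.Icc 0 (R ^ 2), ∀ y, ‖y - ctr x₀ s‖ ≤ 2 * R → |Lop (fun i j _ => a s i j) v y| ≤ F) →
    (∀ y y', ‖y - y'‖ ≤ 2 * R → |v y - v y'| ≤ ω) →
    ∀ t ∈ Set.Icc 0 R, |v (x₀ + t • bas l) - v (x₀ - t • bas l)| ≤ t / R * (C * (ω + F * R ^ 2)) := by
  refine ⟨2 + (3 + 2 * (n * |B|)) / κ, by positivity, ?_⟩
  intro v a x₀ l R F ω hv hs he hb hR hF0 hω hF hO t ht
  have hB : 0 ≤ B := (abs_nonneg _).trans (hb 0 l l)
  rw [abs_of_nonneg hB]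
  refine le_of_forall_pos_le_add fun η hη => ?_
  obtain ⟨A, hA⟩ : ∃ A, A = ω + (ω * (1 + 2 * (n * B)) + 2 * F * R ^ 2 + κ * η) / (2 * κ) := ⟨_, rfl⟩
  have hA1 : ω ≤ A := by
    rw [hA]
    exact le_add_of_nonneg_right (by positivity)
  have hA2 : 2 * κ * A = 2 * κ * ω + (ω * (1 + 2 * (n * B)) + 2 * F * R ^ 2 + κ * η) := by
    rw [hA]
    field_simp
  have hA3 : ω * (1 + 2 * (n * B)) + 2 * F * R ^ 2 < 2 * κ * A := by
    have h1 : 0 ≤ 2 * κ * ω := by positivity
    have h2 : 0 < κ * η := by positivity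
    linarith
  have h1 := brandtb_one hκ x₀ l hv hs he hb hR hω hA1 hA3 hF hO ht
  have h2 := brandtb_one (v := fun y => -v y) hκ x₀ l hv.neg hs he hb hR hω hA1 hA3
    (fun s hs y hy => by rw [brandtb_neg, abs_neg]; exact hF s hs y hy)
    (fun y y' h => by rw [neg_sub_neg, abs_sub_comm]; exact hO y y' h) ht
  have h3 : |v (x₀ + t • bas l) - v (x₀ - t • bas l)| ≤ t / R * (2 * A) :=
    abs_le.2 ⟨by linarith, h1⟩
  refine h3.trans ?_
  have ht0 : 0 ≤ t / R := div_nonneg ht.1 hR.le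
  have ht1 : t / R ≤ 1 := (div_le_one hR).2 ht.2
  have h4 : 2 * A ≤ (2 + (3 + 2 * (n * B)) / κ) * (ω + F * R ^ 2) + η := by
    refine le_of_mul_le_mul_left ?_ hκ
    have e : κ * ((2 + (3 + 2 * (n * B)) / κ) * (ω + F * R ^ 2) + η) =
        (2 * κ + (3 + 2 * (n * B))) * (ω + F * R ^ 2) + κ * η := by
      field_simp
    have u1 : 0 ≤ F * R ^ 2 := by positivity
    have u2 : 0 ≤ κ * (F * R ^ 2) := by positivity
    have u3 : 0 ≤ n * B * (F * R ^ 2) := by positivity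
    rw [e]
    nlinarith
  calc _ ≤ t / R * ((2 + (3 + 2 * (n * B)) / κ) * (ω + F * R ^ 2) + η) :=
        mul_le_mul_of_nonneg_left h4 ht0
    _ ≤ _ := by nlinarith

end Crest.Agent.R238
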