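import Crest.Agent.R238.Calabi0

/-!
# Row 238 (S0369): Calabi
Linear changes of variables, and Calabi's inequality at an arbitrary point.
-/

set_option autoImplicit false
set_option linter.unusedVariables false

open MeasureTheory Filter Topology Matrix
open Crest.Agent.R285 (bas pd gibbs WPot PolyB SConv)

noncomputable section

namespace Crest.Agent.R238

variable {n : ℕ}

/-- the linear map of a matrix -/
def linM (b : Matrix (Fin n) (Fin n) ℝ) : X n →L[ℝ] X n :=
  LinearMap.toContinuousLinearMap (Matrix.toEuclideanLin b)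

lemma linM_apply (b : Matrix (Fin n) (Fin n) ℝ) (y : X n) (i : Fin n) :
    linM b y i = ∑ j, b i j * y j := by
  rfl

/-- pulled back function -/
def pb (b : Matrix (Fin n) (Fin n) ℝ) (f : Fn n) : Fn n := fun y => f (linM b y)
/-- pulled back coefficient field `b' τ b'ᵀ` -/
def pbM (b b' : Matrix (Fin n) (Fin n) ℝ) (τ : MF n) : MF n := fun i j y =>
  ∑ a, ∑ c, b' i a * τ a c (linM b y) * b' j c

lemma contDiff_pb (b : Matrix (Fin n) (Fin n) ℝ) {m : WithTop ℕ∞} {f : Fn n} (hf : ContDiff ℝ m f) :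
    ContDiff ℝ m (pb b f) := hf.comp (linM b).contDiff

lemma pd_pb (b : Matrix (Fin n) (Fin n) ℝ) {f : Fn n} (hf : Differentiable ℝ f) (i : Fin n) :
    pd i (pb b f) = fun y => ∑ a, b a i * pb b (pd a f) y := by
  funext y
  have h : HasFDerivAt (pb b f) ((fderiv ℝ f (linM b y)).comp (linM b)) y :=
    (hf (linM b y)).hasFDerivAt.comp y (linM b).hasFDerivAt
  rw [pd, h.fderiv, ContinuousLinearMap.comp_apply, R285.fderiv_apply_eq_sum_pd]
  refine Finset.sum_congr rfl fun a _ => ?_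
  rw [linM_apply, smul_eq_mul]
  congr 1
  simp [bas_apply]

lemma calabia_pd_sum (b : Matrix (Fin n) (Fin n) ℝ) {I : Type} [Fintype I] (c : I → ℝ) {g : I → Fn n}
    (hg : ∀ p, Differentiable ℝ (g p)) (i : Fin n) :
    pd i (fun y => ∑ p, c p * pb b (g p) y) = fun y => ∑ a, ∑ p, b a i * c p * pb b (pd a (g p)) y := by
  have h1 : ∀ p, Differentiable ℝ (pb b (g p)) := fun p => (hg p).comp (linM b).differentiable
  rw [pd_usum i fun p => (h1 p).const_mul (c p)]
  funext y
  rw [Finset.sum_comm]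
  refine Finset.sum_congr rfl fun p _ => ?_
  rw [pd_cmul i _ (h1 p), pd_pb b (hg p)]
  simp only [Finset.mul_sum]
  exact Finset.sum_congr rfl fun a _ => by ring

lemma d2_pb (b : Matrix (Fin n) (Fin n) ℝ) {f : Fn n} (hf : ContDiff ℝ 2 f) (i j : Fin n) :
    d2 (pb b f) i j = fun y => ∑ a, ∑ c, b a i * b c j * pb b (d2 f a c) y := by
  rw [d2, pd_pb b (hf.differentiable two_ne_zero), calabia_pd_sum b _ (differentiable_pd hf)]

lemma d3_pb (b : Matrix (Fin n) (Fin n) ℝ) {f : Fn n} (hf : ContDiff ℝ 3 f) (i j k : Fin n) :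
    d3 (pb b f) i j k = fun y => ∑ a, ∑ c, ∑ d, b a i * b c j * b d k * pb b (d3 f a c d) y := by
  have h1 := d2_pb b (hf.of_le (by norm_num)) j k
  simp only [← Fintype.sum_prod_type'] at h1
  have h2 : ∀ p : Fin n × Fin n, Differentiable ℝ (d2 f p.1 p.2) := fun p =>
    differentiable_pd (contDiff_pd (m := 2) hf p.2) p.1
  show pd i (d2 (pb b f) j k) = _
  rw [h1, calabia_pd_sum b (fun p : Fin n × Fin n => b p.1 j * b p.2 k) h2]
  funext y
  simp only [Fintype.sum_prod_type, mul_assoc]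

lemma calabia_conj {b b' : Matrix (Fin n) (Fin n) ℝ} (hb : b * b' = 1) (T : Matrix (Fin n) (Fin n) ℝ) :
    b * (b' * T * b'ᵀ) * bᵀ = T := by
  calc b * (b' * T * b'ᵀ) * bᵀ = (b * b') * T * (b * b')ᵀ := by
        simp only [transpose_mul, Matrix.mul_assoc]
    _ = T := by rw [hb, transpose_one, Matrix.one_mul, Matrix.mul_one]

lemma calabia_entry (b T : Matrix (Fin n) (Fin n) ℝ) (i j : Fin n) :
    (b * T * bᵀ) i j = ∑ a, ∑ c, b i a * T a c * b j c := by
  simp only [Matrix.mul_apply, Finset.sum_mul, transpose_apply]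
  exact Finset.sum_comm

lemma calabia_two {b b' : Matrix (Fin n) (Fin n) ℝ} (hb : b * b' = 1) (T F : A2 n) :
    ∑ i, ∑ j, (∑ a, ∑ c, b' i a * T a c * b' j c) * ∑ a, ∑ c, b a i * b c j * F a c =
      ∑ a, ∑ c, T a c * F a c := by
  obtain ⟨S, hS⟩ : ∃ S : A2 n, ∀ i j, ∑ a, ∑ c, b' i a * T a c * b' j c = S i j := ⟨_, fun _ _ => rfl⟩
  have h1 : ∀ a c, T a c = ∑ i, ∑ j, b a i * S i j * b c j := fun a c => by
    have h := congrFun (congrFun (calabia_conj hb (Matrix.of T)) a) c
    simpa only [calabia_entry, Matrix.of_apply, hS] using h.symm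
  simp only [hS]
  simp only [h1, Finset.mul_sum, Finset.sum_mul]
  have h2 := Finset.sum_comm (s := Finset.univ) (t := Finset.univ)
    (f := fun p q : Fin n × Fin n => S p.1 p.2 * (b q.1 p.1 * b q.2 p.2 * F q.1 q.2))
  simp only [Fintype.sum_prod_type] at h2
  rw [h2]
  refine Finset.sum_congr rfl fun a _ => Finset.sum_congr rfl fun c _ =>
    Finset.sum_congr rfl fun i _ => Finset.sum_congr rfl fun j _ => ?_
  ring

/-- `b (b' τ b'ᵀ) bᵀ = τ` and `∑_i y_i b_{ai} = (b y)_a` -/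
lemma Lop_pb {b b' : Matrix (Fin n) (Fin n) ℝ} (hb : b * b' = 1) (τ : MF n) {f : Fn n}
    (hf : ContDiff ℝ 2 f) (y : X n) : Lop (pbM b b' τ) (pb b f) y = Lop τ f (linM b y) := by
  unfold Lop
  congr 1
  · simp only [d2_pb b hf]
    exact calabia_two hb (fun a c => τ a c (linM b y)) fun a c => d2 f a c (linM b y)
  · simp only [pd_pb b (hf.differentiable two_ne_zero), linM_apply, Finset.mul_sum, Finset.sum_mul]
    rw [Finset.sum_comm]
    exact Finset.sum_congr rfl fun a _ => Finset.sum_congr rfl fun c _ => by rw [pb]; ring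

open Kronecker in
lemma calabia_ip3 (T : Matrix (Fin n) (Fin n) ℝ) (z w : A3 n) :
    ip3 T z w = (fun p : Fin n × Fin n × Fin n => z p.1 p.2.1 p.2.2) ⬝ᵥ
      ((T ⊗ₖ (T ⊗ₖ T)) *ᵥ fun p => w p.1 p.2.1 p.2.2) := by
  simp only [ip3, dotProduct, mulVec, Fintype.sum_prod_type, Finset.mul_sum, kroneckerMap_apply]
  refine Finset.sum_congr rfl fun i _ => Finset.sum_congr rfl fun j _ => Finset.sum_congr rfl fun k _ =>
    Finset.sum_congr rfl fun a _ => Finset.sum_congr rfl fun c _ => Finset.sum_congr rfl fun d _ => ?_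
  ring

open Kronecker in
lemma calabia_vec (b : Matrix (Fin n) (Fin n) ℝ) (z : A3 n) :
    (fun p : Fin n × Fin n × Fin n => ∑ a, ∑ c, ∑ d, b a p.1 * b c p.2.1 * b d p.2.2 * z a c d) =
      (fun p : Fin n × Fin n × Fin n => z p.1 p.2.1 p.2.2) ᵥ* (b ⊗ₖ (b ⊗ₖ b)) := by
  funext p
  simp only [vecMul, dotProduct, Fintype.sum_prod_type, kroneckerMap_apply]
  refine Finset.sum_congr rfl fun a _ => Finset.sum_congr rfl fun c _ => Finset.sum_congr rfl fun d _ => ?_
  ring

/-- invariance of the contraction -/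
lemma ip3_pb {b b' : Matrix (Fin n) (Fin n) ℝ} (hb : b * b' = 1) (T : A2 n) (z w : A3 n) :
    ip3 (fun i j => ∑ a, ∑ c, b' i a * T a c * b' j c)
      (fun i j k => ∑ a, ∑ c, ∑ d, b a i * b c j * b d k * z a c d)
      (fun i j k => ∑ a, ∑ c, ∑ d, b a i * b c j * b d k * w a c d) = ip3 T z w := by
  have h1 : (fun i j => ∑ a, ∑ c, b' i a * T a c * b' j c) = b' * Matrix.of T * b'ᵀ := by
    funext i j
    rw [calabia_entry]
    rfl
  have h2 := calabia_ip3 (Matrix.of T) z w
  rw [h1, calabia_ip3, calabia_vec, calabia_vec, ← dotProduct_mulVec, ← mulVec_transpose, mulVec_mulVec,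
    mulVec_mulVec, ← kroneckerMap_transpose, ← kroneckerMap_transpose, ← mul_kronecker_mul,
    ← mul_kronecker_mul, ← mul_kronecker_mul, ← mul_kronecker_mul, calabia_conj hb]
  exact h2.symm

variable {V u : Fn n} {τ : MF n}

lemma calabib_M (p : Matrix (Fin n) (Fin n) ℝ) (T : A2 n) :
    (Matrix.of fun i j => ∑ a, ∑ c, p i a * T a c * p j c) = p * Matrix.of T * pᵀ := by
  ext i j
  simp only [Matrix.of_apply, Matrix.mul_apply, Matrix.transpose_apply, Finset.sum_mul]
  exact Finset.sum_comm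

lemma calabib_one {T H : A2 n} : (∀ i j, ∑ a, T i a * H a j = if i = j then 1 else 0) ↔
    Matrix.of T * Matrix.of H = 1 := by
  simp only [← Matrix.ext_iff, Matrix.mul_apply, Matrix.of_apply, Matrix.one_apply]

lemma calabib_qf (p : Matrix (Fin n) (Fin n) ℝ) (T : A2 n) (ξ : Fin n → ℝ) :
    qf (fun i j => ∑ a, ∑ c, p i a * T a c * p j c) ξ = qf T fun a => ∑ i, p i a * ξ i := by
  rw [← tensa_qf_dot, ← tensa_qf_dot, calabib_M, ← Matrix.mulVec_mulVec, ← Matrix.mulVec_mulVec,
    Matrix.dotProduct_mulVec, ← Matrix.mulVec_transpose]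
  rfl

theorem Geo.pb (h : Geo V u τ) {b b' : Matrix (Fin n) (Fin n) ℝ} (hb : b * b' = 1) :
    Geo (pb b V) (pb b u) (pbM b b' τ) := by
  refine ⟨contDiff_pb b h.u5, contDiff_pb b h.V3, fun i j => ?_, fun i j y => ?_, fun y ξ => ?_,
    fun y i j => ?_, fun i y => ?_⟩
  · exact ContDiff.sum fun a _ => ContDiff.sum fun c _ =>
      (contDiff_const.mul (contDiff_pb b (h.τ3 a c))).mul contDiff_const
  · unfold pbM
    rw [Finset.sum_comm]
    refine Finset.sum_congr rfl fun a _ => Finset.sum_congr rfl fun c _ => ?_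
    rw [h.symm c a]
    ring
  · exact (h.psd _ _).trans_eq (calabib_qf b' (fun a c => τ a c (linM b y)) ξ).symm
  · have h1 := calabib_one.1 (h.inv (linM b y))
    revert i j
    refine calabib_one.2 ?_
    have e1 : (Matrix.of fun i a => pbM b b' τ i a y) =
        b' * (Matrix.of fun a c => τ a c (linM b y)) * b'ᵀ := calabib_M _ _
    have e2 : (Matrix.of fun a j => d2 (R238.pb b u) a j y) =
        bᵀ * (Matrix.of fun a c => d2 u a c (linM b y)) * bᵀᵀ := by
      rw [← calabib_M]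
      ext i j
      rw [Matrix.of_apply, d2_pb b (h.u5.of_le (by norm_num))]
      exact Finset.sum_congr rfl fun a _ => Finset.sum_congr rfl fun c _ => mul_right_comm _ _ _
    rw [e1, e2, transpose_transpose, Matrix.mul_assoc, Matrix.mul_assoc, ← Matrix.mul_assoc b'ᵀ,
      ← Matrix.mul_assoc b'ᵀ, ← transpose_mul, hb, transpose_one, Matrix.one_mul,
      ← Matrix.mul_assoc _ _ b, h1, Matrix.one_mul, mul_eq_one_comm.1 hb]
  · have h2 : ∀ a, ContDiff ℝ 2 (pd a u) := fun a => contDiff_pd (m := 2) (h.u5.of_le (by norm_num)) a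
    rw [pd_pb b (h.u5.differentiable (by norm_num)), pd_pb b (h.V3.differentiable (by norm_num)),
      Lop_sum _ fun a => contDiff_const.mul (contDiff_pb b (h2 a)), ← Finset.sum_neg_distrib]
    refine Finset.sum_congr rfl fun a _ => ?_
    rw [Lop_cmul _ _ (contDiff_pb b (h2 a)), Lop_pb hb τ (h2 a), h.eq1, mul_neg]
    rfl

lemma Geo.contDiff_Sf (h : Geo V u τ) : ContDiff ℝ 2 (Sf u τ) := by
  have h1 : ∀ a b, ContDiff ℝ 2 (τ a b) := fun a b => (h.τ3 a b).of_le (by norm_num)
  have h2 : ∀ i j k, ContDiff ℝ 2 (d3 u i j k) := fun i j k =>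
    contDiff_pd (m := 2) (contDiff_pd (m := 3) (contDiff_pd (m := 4) h.u5 k) j) i
  unfold Sf ip3
  exact ContDiff.sum fun i _ => ContDiff.sum fun j _ => ContDiff.sum fun k _ =>
    ContDiff.sum fun a _ => ContDiff.sum fun b _ => ContDiff.sum fun c _ =>
      ((((h1 i a).mul (h1 j b)).mul (h1 k c)).mul (h2 i j k)).mul (h2 a b c)

/-- `τ x = b bᵀ` (`exists_sqrt`), `b` is invertible since `τ x` is; `b' = b⁻¹`, `y = linM b' x`;
`Sf (pb b u) (pbM b b' τ) = pb b (Sf u τ)` by `ip3_pb`, `d3_pb`; `calabi_normal`, `Lop_pb`. -/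
theorem calabi (h : Geo V u τ) {x : X n} (hV : ∀ ξ, 0 ≤ qf (fun i j => d2 V i j x) ξ) :
    Sf u τ x - 2 * ip3 (fun a b => τ a b x) (fun i j k => d3 u i j k x) (fun i j k => d3 V i j k x) ≤
      Lop τ (Sf u τ) x := by
  obtain ⟨b, hb0⟩ := exists_sqrt (A := fun a c => τ a c x) (fun a c => h.symm a c x) (h.psd x)
  have hT : (Matrix.of fun a c => τ a c x) = b * bᵀ := Matrix.ext fun i j => hb0 i j
  obtain ⟨b', hb⟩ : ∃ b', b * b' = 1 :=
    ⟨_, by rw [← calabib_one.1 (h.inv x), hT, Matrix.mul_assoc]⟩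
  have hy : linM b (linM b' x) = x := by
    ext i
    simp only [linM_apply]
    exact tensa_mul_inv (calabib_one.2 hb) (fun a => x a) i
  have hu3 : ContDiff ℝ 3 u := h.u5.of_le (by norm_num)
  have hS : Sf (pb b u) (pbM b b' τ) = pb b (Sf u τ) := funext fun y => by
    simp only [Sf, d3_pb b hu3]
    exact ip3_pb hb (fun a c => τ a c (linM b y)) (fun i j k => d3 u i j k (linM b y))
      fun i j k => d3 u i j k (linM b y)
  have h1 := calabi_normal (h.pb hb) (x := linM b' x) (fun i j => by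
    have e := calabib_M b' fun a c => τ a c x
    rw [hT, ← Matrix.mul_assoc, mul_eq_one_comm.1 hb, Matrix.one_mul, ← transpose_mul,
      mul_eq_one_comm.1 hb, transpose_one] at e
    unfold pbM
    rw [hy]
    exact congrFun (congrFun e i) j) fun ξ => by
      refine (hV _).trans_eq ((calabib_qf bᵀ (fun i j => d2 V i j x) ξ).symm.trans ?_)
      congr 1
      funext i j
      rw [d2_pb b (h.V3.of_le (by norm_num))]
      simp only [pb, hy]
      exact Finset.sum_congr rfl fun a _ => Finset.sum_congr rfl fun c _ => mul_right_comm _ _ _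
  have h2 := ip3_pb hb (fun a c => τ a c x) (fun i j k => d3 u i j k x) fun i j k => d3 V i j k x
  rw [hS, Lop_pb hb τ h.contDiff_Sf, hy] at h1
  simp only [d3_pb b hu3, d3_pb b h.V3, pb, pbM, hy] at h1
  rwa [h2] at h1

end Crest.Agent.R238
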