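import Crest.Agent.R238.Ops

/-!
# Row 238 (S0369): array identities for `calabi_prod`
-/

set_option autoImplicit false
set_option linter.unusedVariables false

noncomputable section

namespace Crest.Agent.R238

variable {n : ℕ}

/-- Kronecker delta -/
abbrev kd (i j : Fin n) : ℝ := if i = j then 1 else 0

lemma ca_s4 (F : Fin n → Fin n → Fin n → Fin n → ℝ) : ∑ i, ∑ j, ∑ k, ∑ a, F i j k a =
    ∑ q : Fin n × Fin n × Fin n × Fin n, F q.1 q.2.1 q.2.2.1 q.2.2.2 := by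
  simp only [Fintype.sum_prod_type]

lemma ca_s5 (F : Fin n → Fin n → Fin n → Fin n → Fin n → ℝ) : ∑ i, ∑ j, ∑ k, ∑ a, ∑ b, F i j k a b =
    ∑ q : Fin n × Fin n × Fin n × Fin n × Fin n, F q.1 q.2.1 q.2.2.1 q.2.2.2.1 q.2.2.2.2 := by
  simp only [Fintype.sum_prod_type]

lemma ca_s6 (F : Fin n → Fin n → Fin n → Fin n → Fin n → Fin n → ℝ) :
    ∑ i, ∑ j, ∑ k, ∑ a, ∑ b, ∑ c, F i j k a b c =
    ∑ q : Fin n × Fin n × Fin n × Fin n × Fin n × Fin n,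
      F q.1 q.2.1 q.2.2.1 q.2.2.2.1 q.2.2.2.2.1 q.2.2.2.2.2 := by
  simp only [Fintype.sum_prod_type]

lemma ca_congr6 (F G : Fin n → Fin n → Fin n → Fin n → Fin n → Fin n → ℝ)
    (h : ∀ i j k a b c, F i j k a b c = G i j k a b c) :
    ∑ i, ∑ j, ∑ k, ∑ a, ∑ b, ∑ c, F i j k a b c = ∑ i, ∑ j, ∑ k, ∑ a, ∑ b, ∑ c, G i j k a b c := by
  simp only [h]

lemma ca_add6 (F G : Fin n → Fin n → Fin n → Fin n → Fin n → Fin n → ℝ) :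
    ∑ i, ∑ j, ∑ k, ∑ a, ∑ b, ∑ c, (F i j k a b c + G i j k a b c) =
      ∑ i, ∑ j, ∑ k, ∑ a, ∑ b, ∑ c, F i j k a b c + ∑ i, ∑ j, ∑ k, ∑ a, ∑ b, ∑ c, G i j k a b c := by
  simp only [Finset.sum_add_distrib]

lemma ca_mul6 (r : ℝ) (F : Fin n → Fin n → Fin n → Fin n → Fin n → Fin n → ℝ) :
    ∑ i, ∑ j, ∑ k, ∑ a, ∑ b, ∑ c, r * F i j k a b c =
      r * ∑ i, ∑ j, ∑ k, ∑ a, ∑ b, ∑ c, F i j k a b c := by
  simp only [Finset.mul_sum]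

section
variable (F : Fin n → Fin n → Fin n → Fin n → Fin n → Fin n → ℝ)

lemma ca_bc : ∑ i, ∑ j, ∑ k, ∑ a, ∑ b, ∑ c, kd j b * kd k c * F i j k a b c =
    ∑ i, ∑ j, ∑ k, ∑ a, F i j k a j k := by simp [kd]
lemma ca_ac : ∑ i, ∑ j, ∑ k, ∑ a, ∑ b, ∑ c, kd i a * kd k c * F i j k a b c =
    ∑ i, ∑ j, ∑ k, ∑ b, F i j k i b k := by simp [kd]
lemma ca_ab : ∑ i, ∑ j, ∑ k, ∑ a, ∑ b, ∑ c, kd i a * kd j b * F i j k a b c =
    ∑ i, ∑ j, ∑ k, ∑ c, F i j k i j c := by simp [kd]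
lemma ca_abc : ∑ i, ∑ j, ∑ k, ∑ a, ∑ b, ∑ c, kd i a * kd j b * kd k c * F i j k a b c =
    ∑ i, ∑ j, ∑ k, F i j k i j k := by simp [kd]
lemma ca_c : ∑ i, ∑ j, ∑ k, ∑ a, ∑ b, ∑ c, kd k c * F i j k a b c =
    ∑ i, ∑ j, ∑ k, ∑ a, ∑ b, F i j k a b k := by simp [kd]
lemma ca_b : ∑ i, ∑ j, ∑ k, ∑ a, ∑ b, ∑ c, kd j b * F i j k a b c =
    ∑ i, ∑ j, ∑ k, ∑ a, ∑ c, F i j k a j c := by simp [kd]
lemma ca_a : ∑ i, ∑ j, ∑ k, ∑ a, ∑ b, ∑ c, kd i a * F i j k a b c =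
    ∑ i, ∑ j, ∑ k, ∑ b, ∑ c, F i j k i b c := by simp [kd]
end

set_option maxHeartbeats 1000000 in
lemma ca_arr (Lt : A2 n) (Z LZ dt : A3 n) (dZ : Fin n → A3 n)
    (z12 : ∀ i j k, Z i j k = Z j i k) (z23 : ∀ i j k, Z i j k = Z i k j)
    (d12 : ∀ p i j k, dZ p i j k = dZ p j i k) (d23 : ∀ p i j k, dZ p i j k = dZ p i k j)
    (ts : ∀ p i a, dt p i a = dt p a i) :
    ∑ i, ∑ j, ∑ k, ∑ a, ∑ b, ∑ c,
      (Lt i a * kd j b * kd k c * Z i j k * Z a b c + kd i a * Lt j b * kd k c * Z i j k * Z a b c +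
      kd i a * kd j b * Lt k c * Z i j k * Z a b c + kd i a * kd j b * kd k c * LZ i j k * Z a b c +
      kd i a * kd j b * kd k c * Z i j k * LZ a b c +
      2 * ((∑ p, dt p i a * dt p j b) * kd k c * Z i j k * Z a b c +
        (∑ p, dt p i a * dt p k c) * kd j b * Z i j k * Z a b c +
        (∑ p, dt p j b * dt p k c) * kd i a * Z i j k * Z a b c +
        (∑ p, dt p i a * dZ p i j k) * kd j b * kd k c * Z a b c +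
        (∑ p, dt p j b * dZ p i j k) * kd i a * kd k c * Z a b c +
        (∑ p, dt p k c * dZ p i j k) * kd i a * kd j b * Z a b c +
        (∑ p, dt p i a * dZ p a b c) * kd j b * kd k c * Z i j k +
        (∑ p, dt p j b * dZ p a b c) * kd i a * kd k c * Z i j k +
        (∑ p, dt p k c * dZ p a b c) * kd i a * kd j b * Z i j k +
        (∑ p, dZ p i j k * dZ p a b c) * kd i a * kd j b * kd k c)) =
      2 * ∑ i, ∑ j, ∑ k, Z i j k * LZ i j k +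
      3 * ∑ i, ∑ a, Lt i a * ∑ j, ∑ k, Z i j k * Z a j k +
      2 * ∑ p, ∑ i, ∑ j, ∑ k, dZ p i j k ^ 2 +
      12 * ∑ p, ∑ i, ∑ j, ∑ k, ∑ a, dZ p i j k * dt p i a * Z a j k +
      6 * ∑ p, ∑ i, ∑ j, ∑ a, ∑ b, ∑ k, dt p i a * dt p j b * Z i j k * Z a b k := by
  have zc : ∀ i j k, Z i j k = Z k i j := fun i j k => by rw [z23, z12]
  have zc' : ∀ i j k, Z i j k = Z j k i := fun i j k => by rw [z12, z23]
  have dc : ∀ p i j k, dZ p i j k = dZ p k i j := fun p i j k => by rw [d23, d12]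
  set A := ∑ i, ∑ a, Lt i a * ∑ j, ∑ k, Z i j k * Z a j k with hA
  set W := ∑ p, ∑ i, ∑ j, ∑ k, ∑ a, dZ p i j k * dt p i a * Z a j k with hW
  set Y := ∑ p, ∑ i, ∑ j, ∑ a, ∑ b, ∑ k, dt p i a * dt p j b * Z i j k * Z a b k with hY
  have hA' : A = ∑ i, ∑ a, ∑ j, ∑ k, Lt i a * (Z i j k * Z a j k) := by
    simp only [hA, Finset.mul_sum]
  have t1 : ∑ i, ∑ j, ∑ k, ∑ a, ∑ b, ∑ c, Lt i a * kd j b * kd k c * Z i j k * Z a b c = A := by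
    rw [show (∑ i, ∑ j, ∑ k, ∑ a, ∑ b, ∑ c, Lt i a * kd j b * kd k c * Z i j k * Z a b c) =
      ∑ i, ∑ j, ∑ k, ∑ a, ∑ b, ∑ c, kd j b * kd k c * (Lt i a * Z i j k * Z a b c) by
        exact ca_congr6 _ _ fun _ _ _ _ _ _ => by ring, ca_bc, hA', ca_s4, ca_s4]
    exact Fintype.sum_equiv ⟨fun q => (q.1, q.2.2.2, q.2.1, q.2.2.1),
      fun q => (q.1, q.2.2.1, q.2.2.2, q.2.1), fun _ => rfl, fun _ => rfl⟩ _ _
      fun ⟨i, j, k, a⟩ => by simp only [Equiv.coe_fn_mk]; ring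
  have t2 : ∑ i, ∑ j, ∑ k, ∑ a, ∑ b, ∑ c, kd i a * Lt j b * kd k c * Z i j k * Z a b c = A := by
    rw [show (∑ i, ∑ j, ∑ k, ∑ a, ∑ b, ∑ c, kd i a * Lt j b * kd k c * Z i j k * Z a b c) =
      ∑ i, ∑ j, ∑ k, ∑ a, ∑ b, ∑ c, kd i a * kd k c * (Lt j b * Z i j k * Z a b c) by
        exact ca_congr6 _ _ fun _ _ _ _ _ _ => by ring, ca_ac, hA', ca_s4, ca_s4]
    exact Fintype.sum_equiv ⟨fun q => (q.2.1, q.2.2.2, q.1, q.2.2.1),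
      fun q => (q.2.2.1, q.1, q.2.2.2, q.2.1), fun _ => rfl, fun _ => rfl⟩ _ _
      fun ⟨i, j, k, b⟩ => by simp only [Equiv.coe_fn_mk]; rw [z12 i j k, z12 i b k]; ring
  have t3 : ∑ i, ∑ j, ∑ k, ∑ a, ∑ b, ∑ c, kd i a * kd j b * Lt k c * Z i j k * Z a b c = A := by
    rw [show (∑ i, ∑ j, ∑ k, ∑ a, ∑ b, ∑ c, kd i a * kd j b * Lt k c * Z i j k * Z a b c) =
      ∑ i, ∑ j, ∑ k, ∑ a, ∑ b, ∑ c, kd i a * kd j b * (Lt k c * Z i j k * Z a b c) by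
        exact ca_congr6 _ _ fun _ _ _ _ _ _ => by ring, ca_ab, hA', ca_s4, ca_s4]
    exact Fintype.sum_equiv ⟨fun q => (q.2.2.1, q.2.2.2, q.1, q.2.1),
      fun q => (q.2.2.1, q.2.2.2, q.1, q.2.1), fun _ => rfl, fun _ => rfl⟩ _ _
      fun ⟨i, j, k, c⟩ => by simp only [Equiv.coe_fn_mk]; rw [zc i j k, zc i j c]; ring
  have t4 : ∑ i, ∑ j, ∑ k, ∑ a, ∑ b, ∑ c, kd i a * kd j b * kd k c * LZ i j k * Z a b c =
      ∑ i, ∑ j, ∑ k, Z i j k * LZ i j k := by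
    rw [show (∑ i, ∑ j, ∑ k, ∑ a, ∑ b, ∑ c, kd i a * kd j b * kd k c * LZ i j k * Z a b c) =
      ∑ i, ∑ j, ∑ k, ∑ a, ∑ b, ∑ c, kd i a * kd j b * kd k c * (Z a b c * LZ i j k) by
        exact ca_congr6 _ _ fun _ _ _ _ _ _ => by ring, ca_abc]
  have t5 : ∑ i, ∑ j, ∑ k, ∑ a, ∑ b, ∑ c, kd i a * kd j b * kd k c * Z i j k * LZ a b c =
      ∑ i, ∑ j, ∑ k, Z i j k * LZ i j k := by
    rw [show (∑ i, ∑ j, ∑ k, ∑ a, ∑ b, ∑ c, kd i a * kd j b * kd k c * Z i j k * LZ a b c) =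
      ∑ i, ∑ j, ∑ k, ∑ a, ∑ b, ∑ c, kd i a * kd j b * kd k c * (Z i j k * LZ a b c) by
        exact ca_congr6 _ _ fun _ _ _ _ _ _ => by ring, ca_abc]
  have g12 : ∑ i, ∑ j, ∑ k, ∑ a, ∑ b, ∑ c,
      (∑ p, dt p i a * dt p j b) * kd k c * Z i j k * Z a b c = Y := by
    rw [show (∑ i, ∑ j, ∑ k, ∑ a, ∑ b, ∑ c, (∑ p, dt p i a * dt p j b) * kd k c * Z i j k * Z a b c) =
      ∑ i, ∑ j, ∑ k, ∑ a, ∑ b, ∑ c, kd k c * (∑ p, dt p i a * dt p j b * Z i j k * Z a b c) by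
        exact ca_congr6 _ _ fun _ _ _ _ _ _ => by simp only [← Finset.sum_mul]; ring,
      ca_c, hY, ca_s6, ca_s6]
    exact Fintype.sum_equiv
      ⟨fun q => (q.2.2.2.2.2, q.1, q.2.1, q.2.2.2.1, q.2.2.2.2.1, q.2.2.1),
      fun q => (q.2.1, q.2.2.1, q.2.2.2.2.2, q.2.2.2.1, q.2.2.2.2.1, q.1), fun _ => rfl, fun _ => rfl⟩ _ _
      fun ⟨i, j, k, a, b, p⟩ => by simp only [Equiv.coe_fn_mk]
  have g13 : ∑ i, ∑ j, ∑ k, ∑ a, ∑ b, ∑ c,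
      (∑ p, dt p i a * dt p k c) * kd j b * Z i j k * Z a b c = Y := by
    rw [show (∑ i, ∑ j, ∑ k, ∑ a, ∑ b, ∑ c, (∑ p, dt p i a * dt p k c) * kd j b * Z i j k * Z a b c) =
      ∑ i, ∑ j, ∑ k, ∑ a, ∑ b, ∑ c, kd j b * (∑ p, dt p i a * dt p k c * Z i j k * Z a b c) by
        exact ca_congr6 _ _ fun _ _ _ _ _ _ => by simp only [← Finset.sum_mul]; ring,
      ca_b, hY, ca_s6, ca_s6]
    exact Fintype.sum_equiv
      ⟨fun q => (q.2.2.2.2.2, q.1, q.2.2.1, q.2.2.2.1, q.2.2.2.2.1, q.2.1),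
      fun q => (q.2.1, q.2.2.2.2.2, q.2.2.1, q.2.2.2.1, q.2.2.2.2.1, q.1), fun _ => rfl, fun _ => rfl⟩ _ _
      fun ⟨i, j, k, a, c, p⟩ => by simp only [Equiv.coe_fn_mk]; rw [z23 i j k, z23 a j c]
  have g23 : ∑ i, ∑ j, ∑ k, ∑ a, ∑ b, ∑ c,
      (∑ p, dt p j b * dt p k c) * kd i a * Z i j k * Z a b c = Y := by
    rw [show (∑ i, ∑ j, ∑ k, ∑ a, ∑ b, ∑ c, (∑ p, dt p j b * dt p k c) * kd i a * Z i j k * Z a b c) =
      ∑ i, ∑ j, ∑ k, ∑ a, ∑ b, ∑ c, kd i a * (∑ p, dt p j b * dt p k c * Z i j k * Z a b c) by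
        exact ca_congr6 _ _ fun _ _ _ _ _ _ => by simp only [← Finset.sum_mul]; ring,
      ca_a, hY, ca_s6, ca_s6]
    exact Fintype.sum_equiv
      ⟨fun q => (q.2.2.2.2.2, q.2.1, q.2.2.1, q.2.2.2.1, q.2.2.2.2.1, q.1),
      fun q => (q.2.2.2.2.2, q.2.1, q.2.2.1, q.2.2.2.1, q.2.2.2.2.1, q.1), fun _ => rfl, fun _ => rfl⟩ _ _
      fun ⟨i, j, k, b, c, p⟩ => by simp only [Equiv.coe_fn_mk]; rw [zc' i j k, zc' i b c]
  have g14 : ∑ i, ∑ j, ∑ k, ∑ a, ∑ b, ∑ c,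
      (∑ p, dt p i a * dZ p i j k) * kd j b * kd k c * Z a b c = W := by
    rw [show (∑ i, ∑ j, ∑ k, ∑ a, ∑ b, ∑ c, (∑ p, dt p i a * dZ p i j k) * kd j b * kd k c * Z a b c) =
      ∑ i, ∑ j, ∑ k, ∑ a, ∑ b, ∑ c, kd j b * kd k c * (∑ p, dt p i a * dZ p i j k * Z a b c) by
        exact ca_congr6 _ _ fun _ _ _ _ _ _ => by simp only [← Finset.sum_mul]; ring,
      ca_bc, hW, ca_s5, ca_s5]
    exact Fintype.sum_equiv
      ⟨fun q => (q.2.2.2.2, q.1, q.2.1, q.2.2.1, q.2.2.2.1),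
      fun q => (q.2.1, q.2.2.1, q.2.2.2.1, q.2.2.2.2, q.1), fun _ => rfl, fun _ => rfl⟩ _ _
      fun ⟨i, j, k, a, p⟩ => by simp only [Equiv.coe_fn_mk]; ring
  have g24 : ∑ i, ∑ j, ∑ k, ∑ a, ∑ b, ∑ c,
      (∑ p, dt p j b * dZ p i j k) * kd i a * kd k c * Z a b c = W := by
    rw [show (∑ i, ∑ j, ∑ k, ∑ a, ∑ b, ∑ c, (∑ p, dt p j b * dZ p i j k) * kd i a * kd k c * Z a b c) =
      ∑ i, ∑ j, ∑ k, ∑ a, ∑ b, ∑ c, kd i a * kd k c * (∑ p, dt p j b * dZ p i j k * Z a b c) by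
        exact ca_congr6 _ _ fun _ _ _ _ _ _ => by simp only [← Finset.sum_mul]; ring,
      ca_ac, hW, ca_s5, ca_s5]
    exact Fintype.sum_equiv
      ⟨fun q => (q.2.2.2.2, q.2.1, q.1, q.2.2.1, q.2.2.2.1),
      fun q => (q.2.2.1, q.2.1, q.2.2.2.1, q.2.2.2.2, q.1), fun _ => rfl, fun _ => rfl⟩ _ _
      fun ⟨i, j, k, b, p⟩ => by simp only [Equiv.coe_fn_mk]; rw [d12 p i j k, z12 i b k]; ring
  have g34 : ∑ i, ∑ j, ∑ k, ∑ a, ∑ b, ∑ c,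
      (∑ p, dt p k c * dZ p i j k) * kd i a * kd j b * Z a b c = W := by
    rw [show (∑ i, ∑ j, ∑ k, ∑ a, ∑ b, ∑ c, (∑ p, dt p k c * dZ p i j k) * kd i a * kd j b * Z a b c) =
      ∑ i, ∑ j, ∑ k, ∑ a, ∑ b, ∑ c, kd i a * kd j b * (∑ p, dt p k c * dZ p i j k * Z a b c) by
        exact ca_congr6 _ _ fun _ _ _ _ _ _ => by simp only [← Finset.sum_mul]; ring,
      ca_ab, hW, ca_s5, ca_s5]
    exact Fintype.sum_equiv
      ⟨fun q => (q.2.2.2.2, q.2.2.1, q.1, q.2.1, q.2.2.2.1),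
      fun q => (q.2.2.1, q.2.2.2.1, q.2.1, q.2.2.2.2, q.1), fun _ => rfl, fun _ => rfl⟩ _ _
      fun ⟨i, j, k, c, p⟩ => by simp only [Equiv.coe_fn_mk]; rw [dc p i j k, zc i j c]; ring
  have g15 : ∑ i, ∑ j, ∑ k, ∑ a, ∑ b, ∑ c,
      (∑ p, dt p i a * dZ p a b c) * kd j b * kd k c * Z i j k = W := by
    rw [show (∑ i, ∑ j, ∑ k, ∑ a, ∑ b, ∑ c, (∑ p, dt p i a * dZ p a b c) * kd j b * kd k c * Z i j k) =
      ∑ i, ∑ j, ∑ k, ∑ a, ∑ b, ∑ c, kd j b * kd k c * (∑ p, dt p i a * dZ p a b c * Z i j k) by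
        exact ca_congr6 _ _ fun _ _ _ _ _ _ => by simp only [← Finset.sum_mul]; ring,
      ca_bc, hW, ca_s5, ca_s5]
    exact Fintype.sum_equiv
      ⟨fun q => (q.2.2.2.2, q.2.2.2.1, q.2.1, q.2.2.1, q.1),
      fun q => (q.2.2.2.2, q.2.2.1, q.2.2.2.1, q.2.1, q.1), fun _ => rfl, fun _ => rfl⟩ _ _
      fun ⟨i, j, k, a, p⟩ => by simp only [Equiv.coe_fn_mk]; rw [ts p i a]; ring
  have g25 : ∑ i, ∑ j, ∑ k, ∑ a, ∑ b, ∑ c,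
      (∑ p, dt p j b * dZ p a b c) * kd i a * kd k c * Z i j k = W := by
    rw [show (∑ i, ∑ j, ∑ k, ∑ a, ∑ b, ∑ c, (∑ p, dt p j b * dZ p a b c) * kd i a * kd k c * Z i j k) =
      ∑ i, ∑ j, ∑ k, ∑ a, ∑ b, ∑ c, kd i a * kd k c * (∑ p, dt p j b * dZ p a b c * Z i j k) by
        exact ca_congr6 _ _ fun _ _ _ _ _ _ => by simp only [← Finset.sum_mul]; ring,
      ca_ac, hW, ca_s5, ca_s5]
    exact Fintype.sum_equiv
      ⟨fun q => (q.2.2.2.2, q.2.2.2.1, q.1, q.2.2.1, q.2.1),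
      fun q => (q.2.2.1, q.2.2.2.2, q.2.2.2.1, q.2.1, q.1), fun _ => rfl, fun _ => rfl⟩ _ _
      fun ⟨i, j, k, b, p⟩ => by
        simp only [Equiv.coe_fn_mk]; rw [ts p j b, d12 p i b k, z12 i j k]; ring
  have g35 : ∑ i, ∑ j, ∑ k, ∑ a, ∑ b, ∑ c,
      (∑ p, dt p k c * dZ p a b c) * kd i a * kd j b * Z i j k = W := by
    rw [show (∑ i, ∑ j, ∑ k, ∑ a, ∑ b, ∑ c, (∑ p, dt p k c * dZ p a b c) * kd i a * kd j b * Z i j k) =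
      ∑ i, ∑ j, ∑ k, ∑ a, ∑ b, ∑ c, kd i a * kd j b * (∑ p, dt p k c * dZ p a b c * Z i j k) by
        exact ca_congr6 _ _ fun _ _ _ _ _ _ => by simp only [← Finset.sum_mul]; ring,
      ca_ab, hW, ca_s5, ca_s5]
    exact Fintype.sum_equiv
      ⟨fun q => (q.2.2.2.2, q.2.2.2.1, q.1, q.2.1, q.2.2.1),
      fun q => (q.2.2.1, q.2.2.2.1, q.2.2.2.2, q.2.1, q.1), fun _ => rfl, fun _ => rfl⟩ _ _
      fun ⟨i, j, k, c, p⟩ => by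
        simp only [Equiv.coe_fn_mk]; rw [ts p k c, dc p i j c, zc i j k]; ring
  have g45 : ∑ i, ∑ j, ∑ k, ∑ a, ∑ b, ∑ c,
      (∑ p, dZ p i j k * dZ p a b c) * kd i a * kd j b * kd k c =
      ∑ p, ∑ i, ∑ j, ∑ k, dZ p i j k ^ 2 := by
    rw [show (∑ i, ∑ j, ∑ k, ∑ a, ∑ b, ∑ c, (∑ p, dZ p i j k * dZ p a b c) * kd i a * kd j b * kd k c) =
      ∑ i, ∑ j, ∑ k, ∑ a, ∑ b, ∑ c, kd i a * kd j b * kd k c * (∑ p, dZ p i j k * dZ p a b c) by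
        exact ca_congr6 _ _ fun _ _ _ _ _ _ => by ring, ca_abc, ca_s4, ca_s4]
    exact Fintype.sum_equiv ⟨fun q => (q.2.2.2, q.1, q.2.1, q.2.2.1),
      fun q => (q.2.1, q.2.2.1, q.2.2.2, q.1), fun _ => rfl, fun _ => rfl⟩ _ _
      fun ⟨i, j, k, p⟩ => by simp only [Equiv.coe_fn_mk]; ring
  rw [ca_add6, ca_add6, ca_add6, ca_add6, ca_add6, ca_mul6, ca_add6, ca_add6, ca_add6, ca_add6, ca_add6,
    ca_add6, ca_add6, ca_add6, ca_add6]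
  rw [t1, t2, t3, t4, t5, g12, g13, g23, g14, g24, g34, g15, g25, g35, g45]
  ring

end Crest.Agent.R238
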