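import Crest.Agent.R238.Geo
import Crest.Agent.R238.Calabi0Ax

/-!
# Row 238 (S0369): Calabi0
Calabi's identity at a point where `τ = 1`.
For re-indexing nested sums it is convenient to rewrite them as sums over product types
(`Fintype.sum_prod_type'`, `Finset.sum_product'`) and use `Fintype.sum_equiv` / `Finset.sum_nbij'`.
-/

set_option autoImplicit false
set_option linter.unusedVariables false

open MeasureTheory Filter Topology Matrix
open Crest.Agent.R285 (bas pd gibbs WPot PolyB SConv)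

noncomputable section

namespace Crest.Agent.R238

variable {n : ℕ}

/-- fully symmetric arrays -/
structure Sym3 (U : A3 n) : Prop where
  s12 : ∀ i j k, U i j k = U j i k
  s23 : ∀ i j k, U i j k = U i k j

structure Sym4 (W : Fin n → A3 n) : Prop where
  s12 : ∀ i j k l, W i j k l = W j i k l
  s23 : ∀ i j k l, W i j k l = W i k j l
  s34 : ∀ i j k l, W i j k l = W i j l k

def cQ (U : A3 n) : A2 n := fun i j => ∑ a, ∑ b, U i a b * U j a b
def cWZ (W : Fin n → A3 n) (U : A3 n) : ℝ := ∑ p, ∑ i, ∑ j, ∑ k, ∑ a, W p i j k * U p i a * U a j k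
def cY (U : A3 n) : ℝ := ∑ p, ∑ i, ∑ j, ∑ a, ∑ b, ∑ k, U p i a * U p j b * U i j k * U a b k

lemma calabi0b_s23 (f : Fin n → A3 n) :
    ∑ p, ∑ i, ∑ j, ∑ k, f p j i k = ∑ p, ∑ i, ∑ j, ∑ k, f p i j k :=
  Finset.sum_congr rfl fun _ _ => Finset.sum_comm

lemma calabi0b_s34 (f : Fin n → A3 n) :
    ∑ p, ∑ i, ∑ j, ∑ k, f p i k j = ∑ p, ∑ i, ∑ j, ∑ k, f p i j k :=
  Finset.sum_congr rfl fun _ _ => Finset.sum_congr rfl fun _ _ => Finset.sum_comm

lemma calabi0b_perm (f : Fin n → A3 n) :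
    ∑ j, ∑ k, ∑ a, ∑ b, f j k a b = ∑ j, ∑ a, ∑ b, ∑ k, f b k a j := by
  have h := Fintype.sum_equiv (M := ℝ)
    (⟨fun x => (x.2.2.2, x.2.2.1, x.1, x.2.1), fun x => (x.2.2.1, x.2.2.2, x.2.1, x.1),
      fun _ => rfl, fun _ => rfl⟩ : (Fin n × Fin n × Fin n × Fin n) ≃ (Fin n × Fin n × Fin n × Fin n))
    (fun x => f x.1 x.2.1 x.2.2.1 x.2.2.2) (fun x => f x.2.2.1 x.2.2.2 x.2.1 x.1) fun _ => rfl
  simpa only [Fintype.sum_prod_type] using h

lemma calabi0b_Q {U : A3 n} (hU : Sym3 U) :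
    ∑ p, ∑ i, ∑ j, ∑ k, (∑ a, U p i a * U a j k) * (∑ a, U p i a * U a j k) =
      ∑ i, ∑ j, cQ U i j ^ 2 := by
  have h := Finset.sum_comm (s := Finset.univ) (t := Finset.univ)
    (f := fun (x : (Fin n × Fin n) × (Fin n × Fin n)) (y : Fin n × Fin n) =>
      U y.1 x.1.1 x.1.2 * U y.2 x.1.1 x.1.2 * (U y.1 x.2.1 x.2.2 * U y.2 x.2.1 x.2.2))
  simp only [Fintype.sum_prod_type] at h
  refine Eq.trans ?_ (h.trans ?_)
  · refine Finset.sum_congr rfl fun p _ => Finset.sum_congr rfl fun i _ =>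
      Finset.sum_congr rfl fun j _ => Finset.sum_congr rfl fun k _ => ?_
    rw [Finset.sum_mul_sum]
    refine Finset.sum_congr rfl fun a _ => Finset.sum_congr rfl fun b _ => ?_
    rw [hU.s23 p i a, hU.s12 p a i, hU.s23 p i b, hU.s12 p b i]
    ring
  · refine Finset.sum_congr rfl fun a _ => Finset.sum_congr rfl fun b _ => ?_
    simp only [cQ, sq, ← Finset.mul_sum, ← Finset.sum_mul]

/-- With `Z¹_{ijkl} = ∑_m U_{mli} U_{mjk}`, `Z²_{ijkl} = ∑_m U_{mlj} U_{mik}`, `Z³_{ijkl} = ∑_m U_{mlk} U_{mij}`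
the expression is `∑ (W - Z¹ - Z²)² + ∑ (W - Z³)²`: `⟨W, Z^s⟩ = cWZ`, `|Z^s|² = ∑ cQ²`, `⟨Z¹, Z²⟩ = cY`. -/
theorem calabi_alg {U : A3 n} {W : Fin n → A3 n} (hU : Sym3 U) (hW : Sym4 W) :
    0 ≤ 2 * ∑ p, ∑ i, ∑ j, ∑ k, W p i j k ^ 2 - 6 * cWZ W U + 3 * ∑ i, ∑ j, cQ U i j ^ 2 + 2 * cY U := by
  obtain ⟨Z, hZ⟩ : ∃ Z : Fin n → A3 n, Z = fun p i j k => ∑ a, U p i a * U a j k := ⟨_, rfl⟩
  have w1 : ∑ p, ∑ i, ∑ j, ∑ k, W p i j k * Z p i j k = cWZ W U := by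
    simp only [hZ, cWZ, Finset.mul_sum, mul_assoc]
  have w2 : ∑ p, ∑ i, ∑ j, ∑ k, W p i j k * Z p j i k = cWZ W U := by
    rw [← w1, ← calabi0b_s23 fun p i j k => W p i j k * Z p i j k]
    exact Finset.sum_congr rfl fun p _ => Finset.sum_congr rfl fun i _ =>
      Finset.sum_congr rfl fun j _ => Finset.sum_congr rfl fun k _ => by rw [hW.s23 p i j k]
  have w3 : ∑ p, ∑ i, ∑ j, ∑ k, W p i j k * Z p k i j = cWZ W U := by
    rw [← w2, ← calabi0b_s34 fun p i j k => W p i j k * Z p j i k]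
    exact Finset.sum_congr rfl fun p _ => Finset.sum_congr rfl fun i _ =>
      Finset.sum_congr rfl fun j _ => Finset.sum_congr rfl fun k _ => by rw [hW.s34 p i j k]
  have q1 : ∑ p, ∑ i, ∑ j, ∑ k, Z p i j k * Z p i j k = ∑ i, ∑ j, cQ U i j ^ 2 := by
    rw [hZ]
    exact calabi0b_Q hU
  have q2 : ∑ p, ∑ i, ∑ j, ∑ k, Z p j i k * Z p j i k = ∑ i, ∑ j, cQ U i j ^ 2 := by
    rw [← q1, ← calabi0b_s23 fun p i j k => Z p i j k * Z p i j k]
  have q3 : ∑ p, ∑ i, ∑ j, ∑ k, Z p k i j * Z p k i j = ∑ i, ∑ j, cQ U i j ^ 2 := by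
    rw [← q2, ← calabi0b_s34 fun p i j k => Z p j i k * Z p j i k]
  have y1 : ∑ p, ∑ i, ∑ j, ∑ k, Z p i j k * Z p j i k = cY U := by
    refine Finset.sum_congr rfl fun p _ => Finset.sum_congr rfl fun i _ => ?_
    simp only [hZ, Finset.sum_mul_sum]
    rw [calabi0b_perm]
    refine Finset.sum_congr rfl fun j _ => Finset.sum_congr rfl fun a _ =>
      Finset.sum_congr rfl fun b _ => Finset.sum_congr rfl fun k _ => ?_
    rw [hU.s23 p b j, hU.s12 j i k]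
    ring
  have h : 0 ≤ ∑ p, ∑ i, ∑ j, ∑ k, ((W p i j k - Z p i j k - Z p j i k) ^ 2 +
      (W p i j k - Z p k i j) ^ 2) :=
    Finset.sum_nonneg fun _ _ => Finset.sum_nonneg fun _ _ => Finset.sum_nonneg fun _ _ =>
      Finset.sum_nonneg fun _ _ => by positivity
  have e : ∀ w a b c : ℝ, (w - a - b) ^ 2 + (w - c) ^ 2 =
      2 * w ^ 2 - 2 * (w * a) - 2 * (w * b) - 2 * (w * c) + a * a + b * b + c * c + 2 * (a * b) :=
    fun _ _ _ _ => by ring
  simp only [e, Finset.sum_add_distrib, Finset.sum_sub_distrib, ← Finset.mul_sum] at h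
  linarith

/-- product rule for five factors (`Lop_mul`, `Gam_mul_left`, `Gam_mul_right`) -/
lemma Lop_mul5 {τ : MF n} (hs : ∀ a b x, τ a b x = τ b a x) {f₁ f₂ f₃ f₄ f₅ : Fn n}
    (h₁ : ContDiff ℝ 2 f₁) (h₂ : ContDiff ℝ 2 f₂) (h₃ : ContDiff ℝ 2 f₃) (h₄ : ContDiff ℝ 2 f₄)
    (h₅ : ContDiff ℝ 2 f₅) (x : X n) :
    Lop τ (fun y => f₁ y * f₂ y * f₃ y * f₄ y * f₅ y) x =
      Lop τ f₁ x * f₂ x * f₃ x * f₄ x * f₅ x + f₁ x * Lop τ f₂ x * f₃ x * f₄ x * f₅ x +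
      f₁ x * f₂ x * Lop τ f₃ x * f₄ x * f₅ x + f₁ x * f₂ x * f₃ x * Lop τ f₄ x * f₅ x +
      f₁ x * f₂ x * f₃ x * f₄ x * Lop τ f₅ x +
      2 * (Gam τ f₁ f₂ x * f₃ x * f₄ x * f₅ x + Gam τ f₁ f₃ x * f₂ x * f₄ x * f₅ x +
        Gam τ f₂ f₃ x * f₁ x * f₄ x * f₅ x + Gam τ f₁ f₄ x * f₂ x * f₃ x * f₅ x +
        Gam τ f₂ f₄ x * f₁ x * f₃ x * f₅ x + Gam τ f₃ f₄ x * f₁ x * f₂ x * f₅ x +
        Gam τ f₁ f₅ x * f₂ x * f₃ x * f₄ x + Gam τ f₂ f₅ x * f₁ x * f₃ x * f₄ x +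
        Gam τ f₃ f₅ x * f₁ x * f₂ x * f₄ x + Gam τ f₄ f₅ x * f₁ x * f₂ x * f₃ x) := by
  have d₁ := h₁.differentiable (by norm_num)
  have d₂ := h₂.differentiable (by norm_num)
  have d₃ := h₃.differentiable (by norm_num)
  have d₄ := h₄.differentiable (by norm_num)
  have g3 : ∀ g : Fn n, Gam τ (fun y => f₁ y * f₂ y * f₃ y) g x =
      f₁ x * f₂ x * Gam τ f₃ g x + f₃ x * (f₁ x * Gam τ f₂ g x + f₂ x * Gam τ f₁ g x) := fun g => by
    rw [Gam_mul_left τ g (g := fun y => f₁ y * f₂ y) (d₁.mul d₂) d₃, Gam_mul_left τ g d₁ d₂]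
  rw [Lop_mul hs (f := fun y => f₁ y * f₂ y * f₃ y * f₄ y) (((h₁.mul h₂).mul h₃).mul h₄) h₅,
    Lop_mul hs (f := fun y => f₁ y * f₂ y * f₃ y) ((h₁.mul h₂).mul h₃) h₄,
    Lop_mul hs (f := fun y => f₁ y * f₂ y) (h₁.mul h₂) h₃, Lop_mul hs h₁ h₂,
    Gam_mul_left τ f₅ (g := fun y => f₁ y * f₂ y * f₃ y) ((d₁.mul d₂).mul d₃) d₄, g3, g3,
    Gam_mul_left τ f₃ d₁ d₂]
  ring

/-- `L` of `ip3 τ z z` at a point with `τ = 1`, for a fully symmetric family `z`: `Lop_sum` six times,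
`Lop_mul5`, collapse the Kronecker deltas (`Finset.sum_ite_eq`), `Gam τ f g x = ∑_p ∂_p f ∂_p g`, and
identify the three (resp. six, three) similar terms by the symmetry of `z`, `∂_p z` and `τ`. -/
theorem calabi_prod {τ : MF n} (hs : ∀ a b x, τ a b x = τ b a x) (hτ : ∀ a b, ContDiff ℝ 2 (τ a b))
    {z : Fin n → Fin n → Fin n → Fn n} (hz : ∀ i j k, ContDiff ℝ 2 (z i j k))
    (h12 : ∀ i j k, z i j k = z j i k) (h23 : ∀ i j k, z i j k = z i k j) {x : X n}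
    (h1 : ∀ a b, τ a b x = if a = b then 1 else 0) :
    Lop τ (fun y => ip3 (fun a b => τ a b y) (fun i j k => z i j k y) fun i j k => z i j k y) x =
      2 * ∑ i, ∑ j, ∑ k, z i j k x * Lop τ (z i j k) x +
      3 * ∑ i, ∑ a, Lop τ (τ i a) x * ∑ j, ∑ k, z i j k x * z a j k x +
      2 * ∑ p, ∑ i, ∑ j, ∑ k, pd p (z i j k) x ^ 2 +
      12 * ∑ p, ∑ i, ∑ j, ∑ k, ∑ a, pd p (z i j k) x * pd p (τ i a) x * z a j k x +
      6 * ∑ p, ∑ i, ∑ j, ∑ a, ∑ b, ∑ k, pd p (τ i a) x * pd p (τ j b) x * z i j k x * z a b k x := by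
  have hG : ∀ f g : Fn n, Gam τ f g x = ∑ p, pd p f x * pd p g x := fun f g => by
    simp [Gam, h1]
  have h5 : ∀ i j k a b c, ContDiff ℝ 2
      fun y => τ i a y * τ j b y * τ k c y * z i j k y * z a b c y := fun i j k a b c =>
    ((((hτ i a).mul (hτ j b)).mul (hτ k c)).mul (hz i j k)).mul (hz a b c)
  have hτs : ∀ a b, τ a b = τ b a := fun a b => funext (hs a b)
  unfold ip3
  rw [Lop_sum τ fun i => ContDiff.sum fun j _ => ContDiff.sum fun k _ => ContDiff.sum fun a _ =>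
    ContDiff.sum fun b _ => ContDiff.sum fun c _ => h5 i j k a b c]
  rw [← ca_arr (fun i a => Lop τ (τ i a) x) (fun i j k => z i j k x) (fun i j k => Lop τ (z i j k) x)
    (fun p i a => pd p (τ i a) x) (fun p i j k => pd p (z i j k) x)
    (fun i j k => by rw [h12]) (fun i j k => by rw [h23]) (fun p i j k => by rw [h12])
    (fun p i j k => by rw [h23]) (fun p i a => by rw [hτs])]
  refine Finset.sum_congr rfl fun i _ => ?_
  rw [Lop_sum τ fun j => ContDiff.sum fun k _ => ContDiff.sum fun a _ =>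
    ContDiff.sum fun b _ => ContDiff.sum fun c _ => h5 i j k a b c]
  refine Finset.sum_congr rfl fun j _ => ?_
  rw [Lop_sum τ fun k => ContDiff.sum fun a _ =>
    ContDiff.sum fun b _ => ContDiff.sum fun c _ => h5 i j k a b c]
  refine Finset.sum_congr rfl fun k _ => ?_
  rw [Lop_sum τ fun a => ContDiff.sum fun b _ => ContDiff.sum fun c _ => h5 i j k a b c]
  refine Finset.sum_congr rfl fun a _ => ?_
  rw [Lop_sum τ fun b => ContDiff.sum fun c _ => h5 i j k a b c]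
  refine Finset.sum_congr rfl fun b _ => ?_
  rw [Lop_sum τ fun c => h5 i j k a b c]
  refine Finset.sum_congr rfl fun c _ => ?_
  rw [Lop_mul5 hs (hτ i a) (hτ j b) (hτ k c) (hz i j k) (hz a b c)]
  simp only [hG, h1, kd]

variable {V u : Fn n} {τ : MF n}

lemma calabi0c_s3 (h : Geo V u τ) (x : X n) : Sym3 fun i j k => d3 u i j k x :=
  ⟨fun i j k => congrFun (d3_swap12 (h.u5.of_le (by norm_num)) i j k) x,
    fun i j k => congrFun (d3_swap23 (h.u5.of_le (by norm_num)) i j k) x⟩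

lemma calabi0c_s4 (h : Geo V u τ) (x : X n) : Sym4 fun i j k l => d4 u i j k l x :=
  ⟨fun i j k l => congrFun (d4_swap12 (h.u5.of_le (by norm_num)) i j k l) x,
    fun i j k l => congrFun (d4_swap23 (h.u5.of_le (by norm_num)) i j k l) x,
    fun i j k l => congrFun (d4_swap34 (h.u5.of_le (by norm_num)) i j k l) x⟩

lemma calabi0c_rot (f : A3 n) : ∑ a, ∑ b, ∑ c, f a b c = ∑ b, ∑ c, ∑ a, f a b c := by
  rw [Finset.sum_comm]
  exact Finset.sum_congr rfl fun _ _ => Finset.sum_comm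

lemma calabi0c_dτ (h : Geo V u τ) {x : X n} (h1 : ∀ a b, τ a b x = if a = b then 1 else 0)
    (k i j : Fin n) : pd k (τ i j) x = -d3 u k i j x := by
  rw [h.dτ]
  simp [h1]

lemma calabi0c_mul4 (k : Fin n) {f₁ f₂ f₃ f₄ : Fn n} (h₁ : Differentiable ℝ f₁)
    (h₂ : Differentiable ℝ f₂) (h₃ : Differentiable ℝ f₃) (h₄ : Differentiable ℝ f₄) (x : X n) :
    pd k (fun y => f₁ y * f₂ y * f₃ y * f₄ y) x =
      pd k f₁ x * f₂ x * f₃ x * f₄ x + f₁ x * pd k f₂ x * f₃ x * f₄ x +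
        f₁ x * f₂ x * pd k f₃ x * f₄ x + f₁ x * f₂ x * f₃ x * pd k f₄ x := by
  rw [R285.pd_mul k ((h₁.fun_mul h₂).fun_mul h₃) h₄, R285.pd_mul k (h₁.fun_mul h₂) h₃,
    R285.pd_mul k h₁ h₂]
  ring

lemma calabi0c_dQ (h : Geo V u τ) {x : X n} (h1 : ∀ a b, τ a b x = if a = b then 1 else 0)
    (k i j : Fin n) : pd k (Qf u τ i j) x =
      -∑ a, ∑ c, ∑ b, d3 u k a b x * d3 u i a c x * d3 u j b c x -
        ∑ a, ∑ c, ∑ d, d3 u k c d x * d3 u i a c x * d3 u j a d x +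
        ∑ a, ∑ c, d4 u k i a c x * d3 u j a c x + ∑ a, ∑ c, d3 u i a c x * d4 u k j a c x := by
  have hU : ∀ i j k, Differentiable ℝ (d3 u i j k) := fun i j k =>
    (h.U2 i j k).differentiable (by norm_num)
  have hd : ∀ a c b d, Differentiable ℝ fun y => τ a b y * τ c d y * d3 u i a c y * d3 u j b d y :=
    fun a c b d => (((h.τdiff a b).fun_mul (h.τdiff c d)).fun_mul (hU i a c)).fun_mul (hU j b d)
  have h3 := fun a c b => Differentiable.fun_sum (u := Finset.univ) fun d _ => hd a c b d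
  have h2 := fun a c => Differentiable.fun_sum (u := Finset.univ) fun b _ => h3 a c b
  have h0 := fun a => Differentiable.fun_sum (u := Finset.univ) fun c _ => h2 a c
  have e : Qf u τ i j = fun y => ∑ a, ∑ c, ∑ b, ∑ d,
    τ a b y * τ c d y * d3 u i a c y * d3 u j b d y := rfl
  rw [e, pd_usum k h0]
  simp only [pd_usum k (h2 _), pd_usum k (h3 _ _), pd_usum k (hd _ _ _),
    calabi0c_mul4 k (h.τdiff _ _) (h.τdiff _ _) (hU _ _ _) (hU _ _ _), calabi0c_dτ h h1, h1,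
    Finset.sum_add_distrib]
  simp [sub_eq_add_neg]

/-- `Geo.LU` at a point with `τ = 1`: `∂_k τ_{ab} = -U_{kab}` and
`∂_k Q_{ij} = W_{kiac} U_{jac} + U_{iac} W_{kjac} - 2 U_{kab} U_{iac} U_{jbc}` -/
theorem calabi_LU (h : Geo V u τ) {x : X n} (h1 : ∀ a b, τ a b x = if a = b then 1 else 0)
    (k i j : Fin n) :
    Lop τ (d3 u k i j) x = 2 * d3 u k i j x - d3 V k i j x +
      ∑ a, ∑ b, (d3 u k a b x * d4 u a b i j x + d3 u j a b x * d4 u a b i k x +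
        d3 u i a b x * d4 u a b j k x) -
      2 * ∑ a, ∑ b, ∑ c, d3 u k a b x * d3 u i a c x * d3 u j b c x := by
  have hU := calabi0c_s3 h x
  have hW := calabi0c_s4 h x
  have e1 : ∑ a, ∑ c, ∑ d, d3 u k c d x * d3 u i a c x * d3 u j a d x =
      ∑ a, ∑ b, ∑ c, d3 u k a b x * d3 u i a c x * d3 u j b c x := by
    rw [calabi0c_rot]
    refine Finset.sum_congr rfl fun a _ => Finset.sum_congr rfl fun b _ =>
      Finset.sum_congr rfl fun c _ => ?_
    rw [hU.s23 i c a, hU.s23 j c b]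
  have e2 : ∑ a, ∑ c, ∑ b, d3 u k a b x * d3 u i a c x * d3 u j b c x =
      ∑ a, ∑ b, ∑ c, d3 u k a b x * d3 u i a c x * d3 u j b c x :=
    Finset.sum_congr rfl fun a _ => Finset.sum_comm
  have e3 : ∀ i a b, d4 u k i a b x = d4 u a b i k x := fun i a b => by
    rw [hW.s12 k i a b, hW.s23 i k a b, hW.s34 i a k b, hW.s12 i a b k, hW.s23 a i b k]
  rw [h.LU, calabi0c_dQ h h1, e1, e2]
  simp only [calabi0c_dτ h h1, e3, neg_mul, Finset.sum_neg_distrib, Finset.sum_add_distrib,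
    mul_comm (d4 u _ _ _ _ x)]
  ring

lemma calabi0c_ULU {U : A3 n} (hU : Sym3 U) (W : Fin n → A3 n) (V₃ : A3 n) :
    ∑ k, ∑ i, ∑ j, U k i j * (2 * U k i j - V₃ k i j +
      ∑ a, ∑ b, (U k a b * W a b i j + U j a b * W a b i k + U i a b * W a b j k) -
      2 * ∑ a, ∑ b, ∑ c, U k a b * U i a c * U j b c) =
    2 * ∑ k, ∑ i, ∑ j, U k i j * U k i j - ∑ k, ∑ i, ∑ j, U k i j * V₃ k i j + 3 * cWZ W U -
      2 * cY U := by
  have t1 : ∑ k, ∑ i, ∑ j, U k i j * ∑ a, ∑ b, U k a b * W a b i j = cWZ W U := by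
    have := Finset.sum_comm (s := (Finset.univ : Finset (Fin n × Fin n × Fin n)))
      (t := (Finset.univ : Finset (Fin n × Fin n)))
      (f := fun I A => U I.1 I.2.1 I.2.2 * (U I.1 A.1 A.2 * W A.1 A.2 I.2.1 I.2.2))
    simp only [Fintype.sum_prod_type] at this
    simp only [Finset.mul_sum]
    rw [this]
    refine Finset.sum_congr rfl fun a _ => Finset.sum_congr rfl fun b _ => ?_
    rw [calabi0c_rot]
    refine Finset.sum_congr rfl fun i _ => Finset.sum_congr rfl fun j _ =>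
      Finset.sum_congr rfl fun k _ => ?_
    rw [hU.s12 k a b, hU.s23 a k b]
    ring
  have t3 : ∑ k, ∑ i, ∑ j, U k i j * ∑ a, ∑ b, U i a b * W a b j k = cWZ W U := by
    rw [← t1, calabi0c_rot]
    refine Finset.sum_congr rfl fun i _ => Finset.sum_congr rfl fun j _ =>
      Finset.sum_congr rfl fun k _ => ?_
    rw [hU.s12 k i j, hU.s23 i k j]
  have t2 : ∑ k, ∑ i, ∑ j, U k i j * ∑ a, ∑ b, U j a b * W a b i k = cWZ W U := by
    rw [← t1, calabi0c_rot, Finset.sum_comm]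
    refine Finset.sum_congr rfl fun j _ => Finset.sum_congr rfl fun i _ =>
      Finset.sum_congr rfl fun k _ => ?_
    rw [hU.s12 k i j, hU.s23 i k j, hU.s12 i j k]
  have t4 : ∑ k, ∑ i, ∑ j, U k i j * ∑ a, ∑ b, ∑ c, U k a b * U i a c * U j b c = cY U := by
    simp only [Finset.mul_sum]
    refine Finset.sum_congr rfl fun k _ => Finset.sum_congr rfl fun i _ => ?_
    rw [Finset.sum_comm]
    refine Finset.sum_congr rfl fun a _ => Finset.sum_congr rfl fun j _ =>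
      Finset.sum_congr rfl fun b _ => Finset.sum_congr rfl fun c _ => ?_
    ring
  have e : ∀ x v p q r y : ℝ, x * (2 * x - v + (p + q + r) - 2 * y) =
      2 * (x * x) - x * v + x * p + x * q + x * r - 2 * (x * y) := fun _ _ _ _ _ _ => by ring
  simp only [Finset.sum_add_distrib, e, Finset.sum_sub_distrib]
  rw [t1, t2, t3]
  simp only [← Finset.mul_sum (a := (2 : ℝ))]
  rw [t4]
  ring

lemma calabi0c_LQ (U : A3 n) {V₂ : A2 n} (hV : ∀ ξ, 0 ≤ qf V₂ ξ) :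
    -∑ i, ∑ j, ∑ k, U i j k * U i j k + ∑ i, ∑ j, cQ U i j ^ 2 ≤
      ∑ i, ∑ a, (-(if i = a then 1 else 0) + (cQ U i a + V₂ i a)) * ∑ j, ∑ k, U i j k * U a j k := by
  have h0 : 0 ≤ ∑ i, ∑ a, V₂ i a * ∑ j, ∑ k, U i j k * U a j k := by
    have := Finset.sum_comm (s := (Finset.univ : Finset (Fin n × Fin n)))
      (t := (Finset.univ : Finset (Fin n × Fin n)))
      (f := fun I A => V₂ I.1 I.2 * U I.1 A.1 A.2 * U I.2 A.1 A.2)
    simp only [Fintype.sum_prod_type] at this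
    simp only [Finset.mul_sum, ← mul_assoc]
    rw [this]
    exact Finset.sum_nonneg fun j _ => Finset.sum_nonneg fun k _ => hV fun i => U i j k
  simp only [add_mul, Finset.sum_add_distrib, neg_mul, Finset.sum_neg_distrib, ite_mul, one_mul,
    zero_mul, Finset.sum_ite_eq, Finset.mem_univ, if_true, sq, cQ]
  linarith

/-- Insert `calabi_LU`, `Geo.Lτ`, `Geo.dτ` in `calabi_prod`: with `S = ∑ U²`,
`2 U·LU = 4 S - 2 U·V₃ + 6 cWZ - 4 cY`, `3 Lτ : cQ = -3 S + 3 ∑ cQ² + 3 V₂ : cQ`, the `12`-term is `-12 cWZ`,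
the `6`-term is `6 cY`.  Then `calabi_alg`, and `V₂ : cQ = ∑_{a b} qf V₂ (U · a b) ≥ 0`. -/
theorem calabi_normal (h : Geo V u τ) {x : X n} (h1 : ∀ a b, τ a b x = if a = b then 1 else 0)
    (hV : ∀ ξ, 0 ≤ qf (fun i j => d2 V i j x) ξ) :
    Sf u τ x - 2 * ip3 (fun a b => τ a b x) (fun i j k => d3 u i j k x) (fun i j k => d3 V i j k x) ≤
      Lop τ (Sf u τ) x := by
  have hU := calabi0c_s3 h x
  have hW := calabi0c_s4 h x
  have hp : Lop τ (Sf u τ) x = _ := calabi_prod h.symm (fun a b => (h.τ3 a b).of_le (by norm_num))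
    h.U2 (d3_swap12 (h.u5.of_le (by norm_num))) (d3_swap23 (h.u5.of_le (by norm_num))) h1
  have hQ : ∀ a b, Qf u τ a b x = cQ (fun i j k => d3 u i j k x) a b := fun a b => by
    simp [Qf, ip2, cQ, h1]
  have hL : ∀ i a, Lop τ (τ i a) x =
      -(if i = a then 1 else 0) + (cQ (fun i j k => d3 u i j k x) i a + d2 V i a x) := fun i a => by
    rw [h.Lτ]
    simp [h1, hQ]
  have e1 : Sf u τ x = ∑ i, ∑ j, ∑ k, d3 u i j k x * d3 u i j k x := by
    simp [Sf, ip3, h1]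
  have e2 : ip3 (fun a b => τ a b x) (fun i j k => d3 u i j k x) (fun i j k => d3 V i j k x) =
      ∑ i, ∑ j, ∑ k, d3 u i j k x * d3 V i j k x := by
    simp [ip3, h1]
  have a1 := calabi0c_ULU hU (fun i j k l => d4 u i j k l x) fun i j k => d3 V i j k x
  have a2 := calabi0c_LQ (fun i j k => d3 u i j k x) hV
  have a3 := calabi_alg hU hW
  simp only [← calabi_LU h h1] at a1
  simp only [← hL] at a2
  rw [hp, e1, e2, a1]
  simp only [calabi0c_dτ h h1, mul_neg, neg_mul, neg_neg, Finset.sum_neg_distrib]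
  simp only [cWZ, cY] at a3 ⊢
  simp only [cQ] at a2 a3
  linarith

end Crest.Agent.R238
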