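import Crest.Agent.R238.Defs

/-!
# Row 238 (S0369): Calc
Pointwise calculus for `pd`.  The lemmas `pd_const pd_add pd_sub pd_neg pd_mul pd_sum pd_comm
fderiv_apply_eq_sum_pd pd_comp_clm gradient_coord norm_sq_eq_sum abs_coord_le norm_bas` are in
`Crest.Agent.R285` (files `TG`, `Basic`); use them as `R285.pd_add` etc.
-/

set_option autoImplicit false
set_option linter.unusedVariables false

open MeasureTheory Filter Topology Matrix
open Crest.Agent.R285 (bas pd gibbs WPot PolyB SConv)

noncomputable section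

namespace Crest.Agent.R238

variable {n : ℕ}

lemma bas_apply (a i : Fin n) : (bas a : X n) i = if i = a then 1 else 0 := by
  rw [R285.bas_coord]; congr

lemma pd_crd (a i : Fin n) : pd a (fun x : X n => x i) = fun _ => if i = a then 1 else 0 := by
  funext x
  have : HasFDerivAt (fun x : X n => x i) (EuclideanSpace.proj i : X n →L[ℝ] ℝ) x :=
    (EuclideanSpace.proj i : X n →L[ℝ] ℝ).hasFDerivAt
  simp only [pd, this.fderiv]
  exact bas_apply a i

lemma contDiff_crd (i : Fin n) (m : WithTop ℕ∞) : ContDiff ℝ m fun x : X n => x i :=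
  (EuclideanSpace.proj i : X n →L[ℝ] ℝ).contDiff

lemma differentiable_crd (i : Fin n) : Differentiable ℝ fun x : X n => x i :=
  (EuclideanSpace.proj i : X n →L[ℝ] ℝ).differentiable

lemma pd_cmul (a : Fin n) (c : ℝ) {f : Fn n} (hf : Differentiable ℝ f) :
    pd a (fun x => c * f x) = fun x => c * pd a f x :=
  R285.pd_const_smul a c hf

lemma pd_usum (a : Fin n) {I : Type} [Fintype I] {f : I → Fn n} (hf : ∀ i, Differentiable ℝ (f i)) :
    pd a (fun x => ∑ i, f i x) = fun x => ∑ i, pd a (f i) x :=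
  R285.pd_sum a Finset.univ fun i _ => hf i

lemma contDiff_normsq (m : WithTop ℕ∞) : ContDiff ℝ m fun x : X n => ‖x‖ ^ 2 :=
  contDiff_norm_sq ℝ

lemma pd_normsq (a : Fin n) : pd a (fun x : X n => ‖x‖ ^ 2) = fun x => 2 * x a := by
  funext x
  simp only [pd, (hasStrictFDerivAt_norm_sq x).hasFDerivAt.fderiv]
  simp [R285.inner_bas_right]

/-- chain rule with a scalar outer function -/
lemma pd_comp_real (a : Fin n) {φ : ℝ → ℝ} {φ' : ℝ} {f : Fn n} {x : X n}
    (hφ : HasDerivAt φ φ' (f x)) (hf : DifferentiableAt ℝ f x) :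
    pd a (fun y => φ (f y)) x = φ' * pd a f x := by
  have := (hφ.comp_hasFDerivAt x hf.hasFDerivAt).fderiv
  simp only [pd]
  rw [show (fun y => φ (f y)) = φ ∘ f from rfl, this]
  simp

lemma contDiff_pd {m : ℕ} {f : Fn n} (hf : ContDiff ℝ (m + 1 : ℕ) f) (i : Fin n) :
    ContDiff ℝ m (pd i f) := by
  have : ContDiff ℝ m (fderiv ℝ f) := hf.fderiv_right (by norm_cast)
  exact this.clm_apply contDiff_const

lemma contDiff_succ_of_pd {m : ℕ} {f : Fn n} (hf : Differentiable ℝ f)
    (h : ∀ i, ContDiff ℝ m (pd i f)) : ContDiff ℝ (m + 1 : ℕ) f := by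
  refine R285.contDiff_of_gradient hf ?_
  rw [contDiff_euclidean]
  intro i
  simpa only [R285.gradient_coord] using h i

lemma differentiable_pd {f : Fn n} (hf : ContDiff ℝ 2 f) (i : Fin n) : Differentiable ℝ (pd i f) :=
  (contDiff_pd (m := 1) hf i).differentiable one_ne_zero

lemma hasDerivAt_line {f : Fn n} (hf : Differentiable ℝ f) (x v : X n) (t : ℝ) :
    HasDerivAt (fun s : ℝ => f (x + s • v)) (∑ a, v a * pd a f (x + t • v)) t := by
  have h1 : HasDerivAt (fun s : ℝ => x + s • v) v t := by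
    simpa using ((hasDerivAt_id t).smul_const v).const_add x
  have := (hf (x + t • v)).hasFDerivAt.comp_hasDerivAt t h1
  rw [R285.fderiv_apply_eq_sum_pd] at this
  exact this

lemma hasDerivAt_bas {f : Fn n} (hf : Differentiable ℝ f) (x : X n) (i : Fin n) (t : ℝ) :
    HasDerivAt (fun s : ℝ => f (x + s • bas i)) (pd i f (x + t • bas i)) t := by
  have := hasDerivAt_line hf x (bas i) t
  simpa [bas_apply] using this

/-- mean value inequality on a convex set -/
lemma abs_sub_le_of_pd_on {f : Fn n} (hf : Differentiable ℝ f) {s : Set (X n)} (hs : Convex ℝ s)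
    {M : ℝ} (h : ∀ z ∈ s, ∀ a, |pd a f z| ≤ M) {x y : X n} (hx : x ∈ s) (hy : y ∈ s) :
    |f x - f y| ≤ n * M * ‖x - y‖ := by
  refine hs.norm_image_sub_le_of_norm_fderiv_le (𝕜 := ℝ) (fun z _ => hf z) (fun z hz => ?_) hy hx
  refine ContinuousLinearMap.opNorm_le_bound _ ?_ fun v => ?_
  · rcases Nat.eq_zero_or_pos n with rfl | hn
    · simp
    · have := (abs_nonneg _).trans (h z hz ⟨0, hn⟩)
      positivity
  · rw [R285.fderiv_apply_eq_sum_pd]
    refine (norm_sum_le _ _).trans ?_
    calc ∑ a, ‖v a • pd a f z‖ ≤ ∑ _a : Fin n, M * ‖v‖ := Finset.sum_le_sum fun a _ => by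
          rw [norm_smul, mul_comm]
          exact mul_le_mul (h z hz a) (R285.abs_coord_le v a) (norm_nonneg _)
            ((abs_nonneg _).trans (h z hz a))
      _ = n * M * ‖v‖ := by simp [mul_assoc]

lemma abs_sub_le_of_pd {f : Fn n} (hf : Differentiable ℝ f) {M : ℝ} (h : ∀ a z, |pd a f z| ≤ M)
    (x y : X n) : |f x - f y| ≤ n * M * ‖x - y‖ :=
  abs_sub_le_of_pd_on hf convex_univ (fun z _ a => h a z) trivial trivial

lemma pd_affine (a : Fin n) {f : Fn n} (hf : Differentiable ℝ f) (c : ℝ) (z : X n) :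
    pd a (fun x => f (c • x + z)) = fun x => c * pd a f (c • x + z) := by
  funext x
  have h1 : HasFDerivAt (fun x : X n => c • x + z) (c • ContinuousLinearMap.id ℝ (X n)) x :=
    ((hasFDerivAt_id x).const_smul c).add_const z
  have := ((hf (c • x + z)).hasFDerivAt.comp x h1).fderiv
  simp only [pd]
  rw [show (fun x => f (c • x + z)) = f ∘ fun x => c • x + z from rfl, this]
  simp

lemma pd_neg_arg (a : Fin n) {f : Fn n} (hf : Differentiable ℝ f) :
    pd a (fun x => f (-x)) = fun x => -pd a f (-x) := by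
  have := pd_affine a hf (-1) 0
  simpa using this

lemma Ev.pd {f : Fn n} (h : Ev f) (hf : Differentiable ℝ f) (a : Fin n) : Od (pd a f) := by
  intro x
  have e : (fun x => f (-x)) = f := funext h
  have := congrFun (pd_neg_arg a hf) x
  rw [e] at this
  linarith

lemma Od.pd {f : Fn n} (h : Od f) (hf : Differentiable ℝ f) (a : Fin n) : Ev (pd a f) := by
  intro x
  have e : (fun x => f (-x)) = fun x => -f x := funext h
  have := congrFun (pd_neg_arg a hf) x
  rw [e, R285.pd_neg] at this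
  simp only at this
  linarith

lemma d2_comm {f : Fn n} (hf : ContDiff ℝ 2 f) (i j : Fin n) : d2 f i j = d2 f j i :=
  R285.pd_comm hf i j

lemma d3_swap12 {f : Fn n} (hf : ContDiff ℝ 3 f) (i j k : Fin n) : d3 f i j k = d3 f j i k :=
  R285.pd_comm (contDiff_pd (m := 2) hf k) i j

lemma d3_swap23 {f : Fn n} (hf : ContDiff ℝ 3 f) (i j k : Fin n) : d3 f i j k = d3 f i k j := by
  simp only [d3]; rw [R285.pd_comm (hf.of_le (by norm_num)) j k]

lemma d4_swap12 {f : Fn n} (hf : ContDiff ℝ 4 f) (i j k l : Fin n) : d4 f i j k l = d4 f j i k l :=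
  R285.pd_comm (contDiff_pd (m := 2) (contDiff_pd (m := 3) hf l) k) i j

lemma d4_swap23 {f : Fn n} (hf : ContDiff ℝ 4 f) (i j k l : Fin n) : d4 f i j k l = d4 f i k j l := by
  simp only [d4]; rw [R285.pd_comm (contDiff_pd (m := 2) (hf.of_le (by norm_num)) l) j k]

lemma d4_swap34 {f : Fn n} (hf : ContDiff ℝ 4 f) (i j k l : Fin n) : d4 f i j k l = d4 f i j l k := by
  simp only [d4]; rw [R285.pd_comm (hf.of_le (by norm_num)) k l]

lemma ssq_coe (x : X n) : ssq (fun a => x a) = ‖x‖ ^ 2 := (R285.norm_sq_eq_sum x).symm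

lemma ssq_nonneg (ξ : Fin n → ℝ) : 0 ≤ ssq ξ := Finset.sum_nonneg fun _ _ => sq_nonneg _

/-- two functions that agree near `x` have the same partial derivatives near `x` -/
lemma pd_congr_ev (a : Fin n) {f g : Fn n} {x : X n} (h : f =ᶠ[𝓝 x] g) : pd a f =ᶠ[𝓝 x] pd a g :=
  (h.fderiv (𝕜 := ℝ)).mono fun y hy => by simp only [pd, hy]

end Crest.Agent.R238
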