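import Crest.Agent.R238.VarIneq

/-!
# Row 238 (S0369): Conc
Concavity of `t ↦ log ∫ exp (-slab ε v (e^{-t a_i} c_i))`.
-/

set_option autoImplicit false
set_option linter.unusedVariables false

open MeasureTheory Filter Topology Matrix
open Crest.Agent.R285 (bas pd gibbs WPot PolyB SConv)

noncomputable section

namespace Crest.Agent.R238

variable {n : ℕ}

variable {N : ℕ} {v : ℝ → ℝ} {B ε : ℝ}

/-- the moving linear forms -/
def ct (a : Fin N → ℝ) (c : Fin N → Fin n → ℝ) (t : ℝ) : Fin N → Fin n → ℝ :=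
  fun i k => Real.exp (-(t * a i)) * c i k

/-- partition function -/
def Zt (ε : ℝ) (v : ℝ → ℝ) (a : Fin N → ℝ) (c : Fin N → Fin n → ℝ) (t : ℝ) : ℝ :=
  ∫ x : X n, Real.exp (-slab ε v (ct a c t) x)

lemma lf_ct (a : Fin N → ℝ) (c : Fin N → Fin n → ℝ) (t : ℝ) (i : Fin N) (x : X n) :
    lf (ct a c t i) x = Real.exp (-(t * a i)) * lf (c i) x := by
  simp only [lf, ct, Finset.mul_sum, mul_assoc]

lemma conca_s (a : Fin N → ℝ) (c : Fin N → Fin n → ℝ) (x : X n) (t : ℝ) (i : Fin N) :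
    HasDerivAt (fun t => lf (ct a c t i) x) (-a i * lf (ct a c t i) x) t := by
  simp only [lf_ct]
  exact (((hasDerivAt_mul_const (a i)).fun_neg.exp).mul_const (lf (c i) x)).congr_deriv (by ring)

lemma hasDerivAt_slab_t (h : Prof v B) (a : Fin N → ℝ) (c : Fin N → Fin n → ℝ) (x : X n) (t : ℝ) :
    HasDerivAt (fun t => slab ε v (ct a c t) x) (sf a v (ct a c t) x) t := by
  have hv : Differentiable ℝ v := (h.smooth 1).differentiable (by simp)
  have := (HasDerivAt.fun_sum (u := Finset.univ) fun i _ =>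
    (hv _).hasDerivAt.comp t (conca_s a c x t i)).const_add (ε / 2 * ‖x‖ ^ 2)
  refine this.congr_deriv ?_
  rw [sf, ← Finset.sum_neg_distrib]
  exact Finset.sum_congr rfl fun i _ => by ring

lemma hasDerivAt_sf_t (h : Prof v B) (a : Fin N → ℝ) (c : Fin N → Fin n → ℝ) (x : X n) (t : ℝ) :
    HasDerivAt (fun t => sf a v (ct a c t) x) (sk a v (ct a c t) x) t := by
  have hv : Differentiable ℝ (deriv v) := (h.smooth1 1).differentiable (by simp)
  have := (HasDerivAt.fun_sum (u := Finset.univ) fun i _ =>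
    ((conca_s a c x t i).const_mul (a i)).fun_mul
      ((hv _).hasDerivAt.comp t (conca_s a c x t i))).fun_neg
  refine this.congr_deriv ?_
  rw [sk, ← Finset.sum_neg_distrib]
  exact Finset.sum_congr rfl fun i _ => by simp only [Function.comp_apply]; ring

/-- bounds locally uniform in `t` -/
lemma ct_bounds (h : Prof v B) (a : Fin N → ℝ) (c : Fin N → Fin n → ℝ) (T : ℝ) : ∃ K : ℝ, ∀ t x,
    |t| ≤ T → |sf a v (ct a c t) x| ≤ K * (1 + ‖x‖) ∧ |sk a v (ct a c t) x| ≤ K * (1 + ‖x‖) ^ 2 := by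
  have hB : 0 ≤ B := (abs_nonneg _).trans (h.d1 0)
  obtain ⟨M, hM⟩ : ∃ M : Fin N → ℝ, ∀ i, M i = Real.exp (T * |a i|) * ∑ k, |c i k| := ⟨_, fun _ => rfl⟩
  have hM0 : ∀ i, 0 ≤ M i := fun i => by rw [hM]; positivity
  refine ⟨∑ i, (|a i| * M i * B + a i ^ 2 * ((M i + M i ^ 2) * B)), fun t x ht => ?_⟩
  have hx := norm_nonneg x
  have hs : ∀ i, |lf (ct a c t i) x| ≤ M i * (1 + ‖x‖) := fun i => by
    rw [lf_ct, abs_mul, Real.abs_exp, hM, mul_assoc]
    refine mul_le_mul (Real.exp_le_exp.2 ((neg_le_abs _).trans ?_)) ((abs_lf_le _ _).trans ?_)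
      (abs_nonneg _) (Real.exp_nonneg _)
    · rw [abs_mul]
      gcongr
    · gcongr
      linarith
  rw [sf, sk, abs_neg, Finset.sum_mul, Finset.sum_mul]
  refine ⟨(Finset.abs_sum_le_sum_abs _ _).trans (Finset.sum_le_sum fun i _ => ?_),
    (Finset.abs_sum_le_sum_abs _ _).trans (Finset.sum_le_sum fun i _ => ?_)⟩
  · have := hM0 i
    rw [abs_mul, abs_mul]
    calc _ ≤ |a i| * (M i * (1 + ‖x‖)) * B := by
          gcongr
          exacts [hs i, h.d1 _]
      _ ≤ _ := by
          have : 0 ≤ a i ^ 2 * ((M i + M i ^ 2) * B) * (1 + ‖x‖) := by positivity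
          linarith
  · have := hM0 i
    have h1 : |lf (ct a c t i) x * deriv v (lf (ct a c t i) x)| ≤ M i * (1 + ‖x‖) ^ 2 * B := by
      rw [abs_mul]
      refine mul_le_mul ((hs i).trans ?_) (h.d1 _) (abs_nonneg _) (by positivity)
      gcongr
      nlinarith
    have h2 : |lf (ct a c t i) x ^ 2 * deriv (deriv v) (lf (ct a c t i) x)| ≤
        (M i * (1 + ‖x‖)) ^ 2 * B := by
      rw [abs_mul, abs_pow, abs_of_nonneg (h.d2lo _)]
      gcongr
      exacts [h.d2lo _, hs i, h.d2hi _]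
    rw [abs_mul, abs_sq]
    calc _ ≤ a i ^ 2 * (M i * (1 + ‖x‖) ^ 2 * B + (M i * (1 + ‖x‖)) ^ 2 * B) :=
          mul_le_mul_of_nonneg_left ((abs_add_le _ _).trans (add_le_add h1 h2)) (sq_nonneg _)
      _ ≤ _ := by
          have : 0 ≤ |a i| * M i * B * (1 + ‖x‖) ^ 2 := by positivity
          linarith

lemma concb_int (hε : 0 < ε) (K : ℝ) (k : ℕ) :
    Integrable fun x : X n => K * (1 + ‖x‖) ^ k * Real.exp (-(ε / 2 * ‖x‖ ^ 2)) := by
  have h1 : PolyB fun x : X n => K * (1 + ‖x‖) ^ k := ⟨k, |K|, fun x => by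
    rw [Real.norm_eq_abs, abs_mul, abs_of_nonneg (by positivity : (0 : ℝ) ≤ (1 + ‖x‖) ^ k)]⟩
  have h2 := (intb_wpot0 (n := n) hε).integrable_weight h1
    (Continuous.aestronglyMeasurable (by fun_prop))
  refine h2.congr (Eventually.of_forall fun x => ?_)
  simp only [smul_eq_mul]; ring

lemma concb_le (h : Prof v B) (c : Fin N → Fin n → ℝ) (x : X n) {y K : ℝ} {k : ℕ}
    (hy : |y| ≤ K * (1 + ‖x‖) ^ k) :
    ‖y * Real.exp (-slab ε v c x)‖ ≤ K * (1 + ‖x‖) ^ k * Real.exp (-(ε / 2 * ‖x‖ ^ 2)) := by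
  rw [Real.norm_eq_abs, abs_mul, abs_of_pos (Real.exp_pos _)]
  exact mul_le_mul hy (Real.exp_le_exp.2 (neg_le_neg (le_slab h ε c x))) (Real.exp_pos _).le
    ((abs_nonneg _).trans hy)

lemma concb_gen (h : Prof v B) (hε : 0 < ε) (a : Fin N → ℝ) (c : Fin N → Fin n → ℝ) (t : ℝ)
    {G G' : ℝ → Fn n} (hG : ∀ s, Continuous (G s)) (hG' : ∀ s, Continuous (G' s)) {K K' : ℝ}
    {k k' : ℕ} (hb : ∀ x, |G t x| ≤ K * (1 + ‖x‖) ^ k)
    (hb' : ∀ s x, |s| ≤ |t| + 1 → |G' s x| ≤ K' * (1 + ‖x‖) ^ k')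
    (hd : ∀ s x, HasDerivAt (fun s => G s x * Real.exp (-slab ε v (ct a c s) x))
      (G' s x * Real.exp (-slab ε v (ct a c s) x)) s) :
    HasDerivAt (fun s => ∫ x : X n, G s x * Real.exp (-slab ε v (ct a c s) x))
      (∫ x : X n, G' t x * Real.exp (-slab ε v (ct a c t) x)) t := by
  have hc : ∀ s, Continuous fun x : X n => Real.exp (-slab ε v (ct a c s) x) := fun s =>
    Real.continuous_exp.comp (contDiff_slab h ε (ct a c s) 0).continuous.neg
  refine (hasDerivAt_integral_of_dominated_loc_of_deriv_le (μ := volume)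
    (F := fun s x => G s x * Real.exp (-slab ε v (ct a c s) x))
    (F' := fun s x => G' s x * Real.exp (-slab ε v (ct a c s) x))
    (bound := fun x => K' * (1 + ‖x‖) ^ k' * Real.exp (-(ε / 2 * ‖x‖ ^ 2)))
    (Metric.ball_mem_nhds t one_pos)
    (Eventually.of_forall fun s => ((hG s).mul (hc s)).aestronglyMeasurable) ?_
    ((hG' t).mul (hc t)).aestronglyMeasurable (Eventually.of_forall fun x s hs => ?_)
    (concb_int hε K' k') (Eventually.of_forall fun x s _ => hd s x)).2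
  · exact (concb_int hε K k).mono' ((hG t).mul (hc t)).aestronglyMeasurable
      (Eventually.of_forall fun x => concb_le h _ x (hb x))
  · refine concb_le h _ x (hb' s x ?_)
    have h1 : |s - t| < 1 := by simpa [Real.dist_eq] using hs
    have h2 := abs_sub_abs_le_abs_sub s t
    linarith

/-- `hasDerivAt_integral_of_dominated_loc_of_deriv_le` with bound `K (1+‖x‖) exp (-ε|x|²/2)`
(`WPot.integrable_weight` for `wpot_slab` with `N = 0`, or any quadratic potential) -/
theorem hasDerivAt_Zt (h : Prof v B) (hε : 0 < ε) (a : Fin N → ℝ) (c : Fin N → Fin n → ℝ) (t : ℝ) :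
    HasDerivAt (Zt ε v a c)
      (∫ x : X n, -sf a v (ct a c t) x * Real.exp (-slab ε v (ct a c t) x)) t := by
  obtain ⟨K, hK⟩ := ct_bounds h a c (|t| + 1)
  have := concb_gen h hε a c t (G := fun _ _ => 1) (G' := fun s x => -sf a v (ct a c s) x)
    (fun _ => continuous_const) (fun s => (contDiff_sf h a (ct a c s) 0).continuous.neg)
    (K := 1) (k := 0) (K' := K) (k' := 1) (fun x => by simp)
    (fun s x hs => by simpa using (hK s x hs).1) (fun s x => by
      have h1 := (hasDerivAt_slab_t (ε := ε) h a c x s).fun_neg.exp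
      simp only [one_mul]
      exact h1.congr_deriv (mul_comm _ _))
  simp only [one_mul] at this
  exact this

theorem hasDerivAt_Zt1 (h : Prof v B) (hε : 0 < ε) (a : Fin N → ℝ) (c : Fin N → Fin n → ℝ) (t : ℝ) :
    HasDerivAt (fun t => ∫ x : X n, -sf a v (ct a c t) x * Real.exp (-slab ε v (ct a c t) x))
      (∫ x : X n, (sf a v (ct a c t) x ^ 2 - sk a v (ct a c t) x) *
        Real.exp (-slab ε v (ct a c t) x)) t := by
  obtain ⟨K, hK⟩ := ct_bounds h a c (|t| + 1)
  refine concb_gen h hε a c t (G := fun s x => -sf a v (ct a c s) x)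
    (G' := fun s x => sf a v (ct a c s) x ^ 2 - sk a v (ct a c s) x)
    (fun s => (contDiff_sf h a (ct a c s) 0).continuous.neg)
    (fun s => ((contDiff_sf h a (ct a c s) 0).continuous.pow 2).sub (continuous_sk h a _))
    (K := K) (k := 1) (K' := K ^ 2 + K) (k' := 2)
    (fun x => by simpa using (hK t x (by linarith)).1) (fun s x hs => ?_) (fun s x => ?_)
  · obtain ⟨h1, h2⟩ := hK s x hs
    have h3 : sf a v (ct a c s) x ^ 2 ≤ (K * (1 + ‖x‖)) ^ 2 := by
      rw [← sq_abs]; exact pow_le_pow_left₀ (abs_nonneg _) h1 2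
    have h4 := abs_sub (sf a v (ct a c s) x ^ 2) (sk a v (ct a c s) x)
    rw [abs_of_nonneg (sq_nonneg (sf a v (ct a c s) x))] at h4
    calc _ ≤ _ := h4
      _ ≤ (K * (1 + ‖x‖)) ^ 2 + K * (1 + ‖x‖) ^ 2 := add_le_add h3 h2
      _ = _ := by ring
  · have h1 := (hasDerivAt_sf_t h a c x s).fun_neg.fun_mul
      (hasDerivAt_slab_t (ε := ε) h a c x s).fun_neg.exp
    exact h1.congr_deriv (by ring)

/-- `(log Z)'' = Z''/Z - (Z'/Z)² ≤ 0` by `var_ineq` (`integral_gibbs`); `Z'/Z` is antitone, so `log Z` is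
concave (`AntitoneOn.concaveOn_of_deriv` or `concaveOn_of_deriv2_nonpos`) -/
theorem Zt_conc (h : Prof v B) (hε : 0 < ε) (a : Fin N → ℝ) (c : Fin N → Fin n → ℝ) {t : ℝ}
    (ht0 : 0 ≤ t) (ht1 : t ≤ 1) : Zt ε v a c 0 ^ (1 - t) * Zt ε v a c 1 ^ t ≤ Zt ε v a c t := by
  have hZ : ∀ t, 0 < Zt ε v a c t := fun t => (wpot_slab h hε _).partition_pos
  have d1 := fun t => (hasDerivAt_Zt h hε a c t).log (hZ t).ne'
  have d2 := fun t => (hasDerivAt_Zt1 h hε a c t).fun_div (hasDerivAt_Zt h hε a c t) (hZ t).ne'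
  have hc : ConcaveOn ℝ Set.univ fun t => Real.log (Zt ε v a c t) := by
    refine Antitone.concaveOn_univ_of_deriv (fun t => (d1 t).differentiableAt) ?_
    rw [funext fun t => (d1 t).deriv]
    refine antitone_of_hasDerivAt_nonpos d2 fun t => div_nonpos_of_nonpos_of_nonneg ?_ (sq_nonneg _)
    have hW := wpot_slab h hε (ct a c t)
    obtain ⟨K, hK0, hK⟩ := slab_bounds h a (ct a c t)
    have i1 := hW.integrable_weight (f := fun x => sf a v (ct a c t) x ^ 2)
      ⟨2, K ^ 2, fun x => by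
        rw [← mul_pow, norm_pow]
        exact pow_le_pow_left₀ (norm_nonneg _) (hK x).1 2⟩
      ((contDiff_sf h a _ 0).continuous.pow 2).aestronglyMeasurable
    have i2 := hW.integrable_weight (f := sk a v (ct a c t)) ⟨2, K, fun x => (hK x).2.2.2.2⟩
      (continuous_sk h a _).aestronglyMeasurable
    have hv := var_ineq h hε a (ct a c t)
    simp only [R285.integral_gibbs] at hv
    have e1 : ∫ x : X n, -sf a v (ct a c t) x * Real.exp (-slab ε v (ct a c t) x) =
        -∫ x : X n, Real.exp (-slab ε v (ct a c t) x) • sf a v (ct a c t) x := by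
      rw [← integral_neg]
      exact integral_congr_ae (ae_of_all _ fun x => by simp only [smul_eq_mul]; ring)
    have e2 : ∫ x : X n, (sf a v (ct a c t) x ^ 2 - sk a v (ct a c t) x) *
        Real.exp (-slab ε v (ct a c t) x) =
        (∫ x : X n, Real.exp (-slab ε v (ct a c t) x) • sf a v (ct a c t) x ^ 2) -
          ∫ x : X n, Real.exp (-slab ε v (ct a c t) x) • sk a v (ct a c t) x := by
      rw [← integral_sub i1 i2]
      exact integral_congr_ae (ae_of_all _ fun x => by simp only [smul_eq_mul]; ring)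
    rw [e1, e2]
    have hz := hZ t
    change (Zt ε v a c t)⁻¹ • _ - ((Zt ε v a c t)⁻¹ • _) ^ 2 ≤ (Zt ε v a c t)⁻¹ • _ at hv
    generalize Zt ε v a c t = z at hv hz ⊢
    simp only [smul_eq_mul] at hv ⊢
    have := mul_le_mul_of_nonneg_left hv (sq_nonneg z)
    field_simp at this
    linarith
  have := hc.2 (Set.mem_univ 0) (Set.mem_univ 1) (sub_nonneg.2 ht1) ht0 (sub_add_cancel 1 t)
  simp only [smul_eq_mul, mul_zero, mul_one, zero_add] at this
  rw [Real.rpow_def_of_pos (hZ 0), Real.rpow_def_of_pos (hZ 1), ← Real.exp_add,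
    ← Real.le_log_iff_exp_le (hZ t)]
  linarith

end Crest.Agent.R238
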