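import Crest.Agent.R238.Defs

/-!
# Row 238 (S0369): Cont
Two abstract functional-analytic lemmas.
-/

set_option autoImplicit false
set_option linter.unusedVariables false

open MeasureTheory Filter Topology Matrix
open Crest.Agent.R285 (bas pd gibbs WPot PolyB SConv)

noncomputable section

namespace Crest.Agent.R238

variable {n : ℕ}

theorem conta_step {Y : Type} [NormedAddCommGroup Y] [NormedSpace ℝ Y] [CompleteSpace Y]
    (K : Y →L[ℝ] Y) {C s s' : ℝ} (h : ∀ y, ‖y‖ ≤ C * ‖y - s • K y‖)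
    (hs : ∀ z, ∃ y, y - s • K y = z) (hd : |s' - s| ≤ 1 / (2 * (|C| * ‖K‖ + 1))) (z : Y) :
    ∃ y, y - s' • K y = z := by
  choose R hR using hs
  have hL : ∀ a b, ‖R a - R b‖ ≤ |C| * ‖a - b‖ := fun a b => by
    have h1 := h (R a - R b)
    rw [map_sub, smul_sub, sub_sub_sub_comm, hR, hR] at h1
    exact h1.trans (mul_le_mul_of_nonneg_right (le_abs_self C) (norm_nonneg _))
  have h1 : |s' - s| * (|C| * ‖K‖) ≤ 1 / 2 := by
    rw [le_div_iff₀ (by positivity)] at hd
    linarith [abs_nonneg (s' - s)]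
  have hc : ContractingWith (1 / 2) fun y => R (z + (s' - s) • K y) := by
    refine ⟨by norm_num, LipschitzWith.of_dist_le_mul fun a b => ?_⟩
    rw [dist_eq_norm, dist_eq_norm]
    refine (hL _ _).trans ?_
    rw [add_sub_add_left_eq_sub, ← smul_sub, ← map_sub, norm_smul, Real.norm_eq_abs]
    calc _ ≤ |C| * (|s' - s| * (‖K‖ * ‖a - b‖)) := by gcongr; exact K.le_opNorm _
      _ = |s' - s| * (|C| * ‖K‖) * ‖a - b‖ := by ring
      _ ≤ _ := mul_le_mul_of_nonneg_right (by simpa using h1) (norm_nonneg _)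
  obtain ⟨y, hy⟩ : ∃ y, R (z + (s' - s) • K y) = y := ⟨_, hc.fixedPoint_isFixedPt⟩
  have h2 := hR (z + (s' - s) • K y)
  rw [hy] at h2
  exact ⟨y, by linear_combination (norm := module) h2⟩

/-- Method of continuity.  If `1 - s K` is onto, it is a continuous linear equivalence with inverse of
norm `≤ C`, and `1 - s' K = (1 - (s'-s) K (1 - sK)⁻¹)(1 - sK)` is onto for `|s' - s| ‖K‖ C < 1`
(Neumann series `Units.oneSub`, or a contraction).  Induct in steps of fixed length. -/
theorem cont_method {Y : Type} [NormedAddCommGroup Y] [NormedSpace ℝ Y] [CompleteSpace Y]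
    (K : Y →L[ℝ] Y) {C s₁ : ℝ} (h : ∀ s ∈ Set.Icc 0 s₁, ∀ y, ‖y‖ ≤ C * ‖y - s • K y‖) :
    ∀ s ∈ Set.Icc 0 s₁, ∀ z, ∃ y, y - s • K y = z := by
  obtain ⟨δ, hδ⟩ : ∃ δ : ℝ, δ = 1 / (2 * (|C| * ‖K‖ + 1)) := ⟨_, rfl⟩
  have hδ0 : 0 < δ := by rw [hδ]; positivity
  have key : ∀ m : ℕ, ∀ s ∈ Set.Icc 0 s₁, s ≤ m * δ → ∀ z, ∃ y, y - s • K y = z := fun m => by
    induction m with
    | zero =>
      intro s hs h0 z
      rw [le_antisymm (by simpa using h0) hs.1]
      exact ⟨z, by simp⟩
    | succ m ih =>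
      intro s hs h0
      have hm : max 0 (s - δ) ∈ Set.Icc 0 s₁ :=
        ⟨le_max_left _ _, max_le (hs.1.trans hs.2) (by linarith [hs.2])⟩
      push_cast at h0
      refine conta_step K (h _ hm) (ih _ hm (max_le (by positivity) (by linarith))) ?_
      rw [← hδ, abs_le]
      exact ⟨by linarith [max_le hs.1 (show s - δ ≤ s by linarith)],
        by linarith [le_max_right 0 (s - δ)]⟩
  intro s hs
  obtain ⟨m, hm⟩ := exists_nat_ge (s / δ)
  exact key m s hs ((div_le_iff₀ hδ0).1 hm)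

section
variable {A : Type} [NormedCommRing A] [NormedAlgebra ℝ A] [CompleteSpace A]

/-- the entry `(i, j)` as a continuous linear map -/
def contbE (A : Type) [NormedCommRing A] [NormedAlgebra ℝ A] (n : ℕ) (i j : Fin n) :
    A × (Fin n → Fin n → A) →L[ℝ] A :=
  (ContinuousLinearMap.proj j).comp
    ((ContinuousLinearMap.proj i).comp (ContinuousLinearMap.snd ℝ A (Fin n → Fin n → A)))

omit [CompleteSpace A] in
theorem contbE_apply (n : ℕ) (i j : Fin n) (z : A × (Fin n → Fin n → A)) :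
    contbE A n i j z = z.2 i j := rfl

omit [CompleteSpace A] in
theorem contb_det (n : ℕ) : HasStrictFDerivAt
    (fun z : A × (Fin n → Fin n → A) => (1 + Matrix.of z.2).det) (∑ i, contbE A n i i) 0 := by
  have he : ∀ i j : Fin n, HasStrictFDerivAt
      (fun z : A × (Fin n → Fin n → A) => (1 + Matrix.of z.2) i j) (contbE A n i j) 0 :=
    fun i j => (contbE A n i j).hasStrictFDerivAt.const_add ((1 : Matrix (Fin n) (Fin n) A) i j)
  simp only [Matrix.det_apply']
  have h := HasStrictFDerivAt.fun_sum (u := (Finset.univ : Finset (Equiv.Perm (Fin n))))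
    fun σ _ => (HasStrictFDerivAt.finsetProd (u := Finset.univ) fun i _ => he (σ i) i).const_mul
      (((Equiv.Perm.sign σ : ℤ) : A))
  refine h.congr_fderiv ?_
  rw [Finset.sum_eq_single 1]
  · simp
  · intro σ _ hσ
    have : ∀ i : Fin n, ∏ j ∈ Finset.univ.erase i,
        (1 + Matrix.of (0 : A × (Fin n → Fin n → A)).2) (σ j) j = 0 := by
      intro i
      have hex : ∃ j, j ≠ i ∧ σ j ≠ j := by
        by_contra hc
        push Not at hc
        refine hσ (Equiv.ext fun j => ?_)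
        by_cases hj : j = i
        · by_contra hne
          have h1 : σ j ≠ i := fun h => hne (by simpa [hj] using h)
          exact hne (σ.injective (hc _ h1))
        · exact hc j hj
      obtain ⟨j, hji, hj⟩ := hex
      exact Finset.prod_eq_zero (Finset.mem_erase.2 ⟨hji, Finset.mem_univ j⟩) (by simp [hj])
    simp only [this]
    refine ContinuousLinearMap.ext fun z => ?_
    simp
  · intro h1
    exact absurd (Finset.mem_univ _) h1

/-- `Φ (g, P) = det (1 + P) exp (g - tr P)` has strict derivative `fst` at `0`.  `det (1 + P)` is a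
polynomial in the entries (`Matrix.det_apply'`, `ContDiff`/`HasStrictFDerivAt.finset_prod`), with
derivative `tr` at `0` (`Matrix.det_one_add_smul`, or induction-free: only the identity permutation
contributes to first order); `hasStrictFDerivAt_exp_zero`. -/
theorem strict_Phi (n : ℕ) : HasStrictFDerivAt
    (fun z : A × (Fin n → Fin n → A) =>
      (1 + Matrix.of z.2).det * NormedSpace.exp (z.1 - ∑ i, z.2 i i))
    (ContinuousLinearMap.fst ℝ A (Fin n → Fin n → A)) 0 := by
  have hL : HasStrictFDerivAt (fun z : A × (Fin n → Fin n → A) => z.1 - ∑ i, z.2 i i)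
      (ContinuousLinearMap.fst ℝ A (Fin n → Fin n → A) - ∑ i, contbE A n i i) 0 :=
    hasStrictFDerivAt_fst.fun_sub
      (HasStrictFDerivAt.fun_sum fun i _ => (contbE A n i i).hasStrictFDerivAt)
  have hx : HasStrictFDerivAt (NormedSpace.exp : A → A) (1 : A →L[ℝ] A)
      ((fun z : A × (Fin n → Fin n → A) => z.1 - ∑ i, z.2 i i) 0) := by
    simpa using hasStrictFDerivAt_exp_zero (𝕂 := ℝ) (𝔸 := A)
  refine ((contb_det n).fun_mul (hx.comp 0 hL)).congr_fderiv ?_
  ext z <;> simp [contbE_apply]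

/-- `G g = Φ (g, P g)` approximates the identity on a ball whose radius depends only on `C`
(`HasStrictFDerivAt.approximates_deriv_on_nhds` / the little-o definition with `c = 1/(2 (1 + C))`), so
`ApproximatesLinearOn.surjOn_closedBall_of_nonlinearRightInverse` applies; `G 0 = 1`; `exp` is
continuous at `0`. -/
theorem nonlin_step (n : ℕ) {C η : ℝ} (hC : 0 ≤ C) (hη : 0 < η) : ∃ δ : ℝ, 0 < δ ∧
    ∀ P : A → Fin n → Fin n → A, (∀ g i j, ‖P g i j‖ ≤ C * ‖g‖) →
    (∀ g g' i j, ‖P g i j - P g' i j‖ ≤ C * ‖g - g'‖) → ∀ d : A, ‖d‖ ≤ δ →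
    ∃ g : A, ‖g‖ ≤ η ∧
      (1 + Matrix.of (P g)).det * NormedSpace.exp (g - ∑ i, P g i i) = NormedSpace.exp (-d) := by
  obtain ⟨S, hS, hap⟩ := (strict_Phi (A := A) n).approximates_deriv_on_nhds
    (c := ⟨1 / (2 * (1 + C)), by positivity⟩)
    (Or.inr (show (0 : ℝ) < 1 / (2 * (1 + C)) by positivity))
  obtain ⟨r, hr, hrS⟩ := Metric.nhds_basis_closedBall.mem_iff.1 hS
  obtain ⟨ρ, hρ⟩ : ∃ ρ : ℝ, ρ = min η (r / (1 + C)) := ⟨_, rfl⟩
  have hρ0 : 0 < ρ := by rw [hρ]; positivity
  have hρ1 : ρ ≤ η := hρ ▸ min_le_left _ _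
  have hρ2 : (1 + C) * ρ ≤ r := by
    rw [mul_comm, ← le_div_iff₀ (by positivity), hρ]
    exact min_le_right _ _
  obtain ⟨δ, hδ, hexp⟩ := Metric.continuousAt_iff.1
    (hasStrictFDerivAt_exp_zero (𝕂 := ℝ) (𝔸 := A)).continuousAt (ρ / 2) (half_pos hρ0)
  refine ⟨δ / 2, half_pos hδ, fun P h1 h2 d hd => ?_⟩
  have hn : ∀ (g : A) (Q : Fin n → Fin n → A), (∀ i j, ‖Q i j‖ ≤ C * ‖g‖) →
      ‖(g, Q)‖ ≤ (1 + C) * ‖g‖ := fun g Q hQ => by
    have h0 : 0 ≤ C * ‖g‖ := by positivity
    have h3 : ‖Q‖ ≤ C * ‖g‖ := (pi_norm_le_iff_of_nonneg h0).2 fun i =>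
      (pi_norm_le_iff_of_nonneg h0).2 fun j => hQ i j
    rw [Prod.norm_mk]
    exact max_le (by linarith) (by linarith [norm_nonneg g])
  have hm : ∀ g ∈ Metric.closedBall (0 : A) ρ, (g, P g) ∈ S := fun g hg => hrS (by
    rw [mem_closedBall_zero_iff] at hg ⊢
    exact (hn g _ (h1 g)).trans ((mul_le_mul_of_nonneg_left hg (by positivity)).trans hρ2))
  have hG : ApproximatesLinearOn
      (fun g : A => (1 + Matrix.of (P g)).det * NormedSpace.exp (g - ∑ i, P g i i))
      (ContinuousLinearMap.id ℝ A) (Metric.closedBall 0 ρ) (1 / 2) := fun g hg g' hg' => by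
    refine (hap _ (hm g hg) _ (hm g' hg')).trans ?_
    calc _ ≤ 1 / (2 * (1 + C)) * ((1 + C) * ‖g - g'‖) :=
          mul_le_mul_of_nonneg_left (hn (g - g') (P g - P g') (h2 g g')) (by positivity)
      _ = _ := by
        push_cast
        field_simp
  have hP0 : P 0 = 0 := by
    funext i j
    simpa using h1 0 i j
  obtain ⟨g, hg, e⟩ := hG.surjOn_closedBall_of_nonlinearRightInverse
    ⟨id, 1, fun y => by simp, fun _ => rfl⟩ hρ0.le subset_rfl (a := NormedSpace.exp (-d)) (by
      have := hexp (x := -d) (by rw [dist_zero_right, norm_neg]; linarith)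
      rw [Metric.mem_closedBall, hP0]
      simp only [Pi.zero_apply, Finset.sum_const_zero, sub_zero, Matrix.of_zero, add_zero,
        Matrix.det_one, one_mul]
      refine this.le.trans (le_of_eq ?_)
      push_cast
      ring)
  exact ⟨g, (mem_closedBall_zero_iff.1 hg).trans hρ1, e⟩

end

end Crest.Agent.R238
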