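import Crest.Agent.R238.Gap

/-!
# Row 238 (S0369): CorePsi
The Bochner identity for `L ψ = f - E f + λ ψ`, the cross term, and resolvent bounds.
-/

set_option autoImplicit false
set_option linter.unusedVariables false

open MeasureTheory Filter Topology Matrix
open Crest.Agent.R285 (bas pd gibbs WPot PolyB SConv)

noncomputable section

namespace Crest.Agent.R238

variable {n : ℕ}

variable {ε C₁ : ℝ} {V u ψ : Fn n} {τ : MF n} {lam : ℝ}

lemma pg_xi {k : ℕ} (hτ : ∀ a b, PG k (τ a b)) (hψ : PG (k + 1) ψ) (i : Fin n) : PG k (xi τ ψ i) :=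
  PG.sum fun j => (hτ i j).mul (hψ.pd j)

lemma pg_tt (h : Nice ε C₁ V u τ) (hψ : PG 3 ψ) (i a : Fin n) : PG 1 (tt u τ ψ i a) :=
  (hψ.d2 i a).sub (PG.sum fun m => ((h.Upg i a m).mono (by norm_num)).mul
    (pg_xi (fun a b => (h.τpg a b).mono (by norm_num)) (hψ.mono (by norm_num)) m))

lemma corepsia_pd (h : Geo V u τ) (hψ : ContDiff ℝ 2 ψ) (a i : Fin n) (x : X n) :
    pd a (xi τ ψ i) x = ∑ j, (pd a (τ i j) x * pd j ψ x + τ i j x * d2 ψ a j x) := by
  unfold xi
  rw [pd_usum a (f := fun j x => τ i j x * pd j ψ x) fun j => (h.τdiff i j).mul (differentiable_pd hψ j)]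
  refine Finset.sum_congr rfl fun j _ => ?_
  exact congrFun (R285.pd_mul a (h.τdiff i j) (differentiable_pd hψ j)) x

lemma corepsia_u3 (h : Geo V u τ) : ContDiff ℝ 3 u := h.u5.of_le (by norm_num)

/-- `divτ` -/
lemma Geo.div_xi (h : Geo V u τ) (hψ : ContDiff ℝ 2 ψ) (x : X n) :
    ∑ a, (pd a (xi τ ψ a) x - pd a V x * xi τ ψ a x) = Lop τ ψ x := by
  have e : ∀ a, pd a (xi τ ψ a) x - pd a V x * xi τ ψ a x =
      ∑ j, τ a j x * d2 ψ a j x + ∑ j, (pd a (τ j a) x - pd a V x * τ j a x) * pd j ψ x := by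
    intro a
    rw [corepsia_pd h hψ, xi, Finset.mul_sum, ← Finset.sum_sub_distrib, ← Finset.sum_add_distrib]
    refine Finset.sum_congr rfl fun j _ => ?_
    rw [show τ j a = τ a j from funext (h.symm j a)]
    ring
  rw [Finset.sum_congr rfl fun a _ => e a, Finset.sum_add_distrib, Lop, sub_eq_add_neg,
    ← Finset.sum_neg_distrib]
  congr 1
  rw [Finset.sum_comm]
  refine Finset.sum_congr rfl fun j _ => ?_
  rw [← Finset.sum_mul, h.divτ, neg_mul]

/-- `dτ` -/
lemma Geo.pd_xi (h : Geo V u τ) (hψ : ContDiff ℝ 2 ψ) (a i : Fin n) (x : X n) :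
    pd a (xi τ ψ i) x = ∑ j, τ i j x * tt u τ ψ j a x := by
  rw [corepsia_pd h hψ, Finset.sum_add_distrib, add_comm]
  simp only [tt, mul_sub, Finset.sum_sub_distrib, h.dτ, xi, d2_comm hψ a, neg_mul,
    Finset.sum_neg_distrib, ← sub_eq_add_neg, Finset.mul_sum, Finset.sum_mul]
  congr 1
  rw [Finset.sum_comm]
  refine Finset.sum_congr rfl fun p _ => ?_
  rw [Finset.sum_comm]
  refine Finset.sum_congr rfl fun q _ => Finset.sum_congr rfl fun j _ => ?_
  rw [d3_swap12 (corepsia_u3 h) a p q]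
  ring

lemma Geo.tt_symm (h : Geo V u τ) (hψ : ContDiff ℝ 2 ψ) (i a : Fin n) (x : X n) :
    tt u τ ψ i a x = tt u τ ψ a i x := by
  simp only [tt, d2_comm hψ i a, d3_swap12 (corepsia_u3 h) i a]

lemma corepsia_ip (h : Geo V u τ) (hψ : ContDiff ℝ 2 ψ) (x : X n) :
    ∑ a, ∑ b, pd a (xi τ ψ b) x * pd b (xi τ ψ a) x =
      ip2 (fun a b => τ a b x) (fun a b => tt u τ ψ a b x) (fun a b => tt u τ ψ a b x) := by
  simp only [h.pd_xi hψ, Finset.sum_mul_sum, ip2]
  calc _ = ∑ a, ∑ j, ∑ b, ∑ k, τ b j x * tt u τ ψ j a x * (τ a k x * tt u τ ψ k b x) :=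
        Finset.sum_congr rfl fun a _ => Finset.sum_comm
    _ = ∑ j, ∑ a, ∑ b, ∑ k, τ b j x * tt u τ ψ j a x * (τ a k x * tt u τ ψ k b x) := Finset.sum_comm
    _ = _ := by
      refine Finset.sum_congr rfl fun j _ => Finset.sum_congr rfl fun a _ =>
        Finset.sum_congr rfl fun b _ => Finset.sum_congr rfl fun k _ => ?_
      rw [h.symm b j, h.tt_symm hψ k b]
      ring

/-- `E (Lψ)² = E ip2 τ t t + E V₂ ξξ` (`bochner_div`, `div_xi`, `pd_xi`), `E (f - m) Lψ = -E ∇f·ξ`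
(`green`); expand both with `Lψ = (f - m) + λ ψ`. -/
theorem psi_id (h : Nice ε C₁ V u τ) (hψ : PG 3 ψ) {f : Fn n} (hf : PG 1 f)
    (he : ∀ x, Lop τ ψ x = (f x - ∫ y, f y ∂gibbs V) + lam * ψ x) :
    ∫ x, f x ^ 2 ∂gibbs V - (∫ x, f x ∂gibbs V) ^ 2 =
      lam ^ 2 * ∫ x, ψ x ^ 2 ∂gibbs V - 2 * ∫ x, ∑ a, pd a f x * xi τ ψ a x ∂gibbs V -
      ∫ x, ip2 (fun a b => τ a b x) (fun a b => tt u τ ψ a b x) (fun a b => tt u τ ψ a b x) ∂gibbs V -
      ∫ x, qf (fun i j => d2 V i j x) (fun i => xi τ ψ i x) ∂gibbs V := by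
  have hV := h.wpot
  have := hV.prob
  have hψ2 : PG 2 ψ := hψ.mono (by norm_num)
  have hc : ContDiff ℝ 2 ψ := hψ2.contDiff
  set m := ∫ y, f y ∂gibbs V with hm
  have hg : PG 1 fun x => f x - m := hf.sub (PG.const 1 m)
  have h1 := bochner_div hV (h.Vpg.mono (by norm_num)) (ξ := xi τ ψ)
    fun i => pg_xi (fun a b => (h.τpg a b).mono (by norm_num)) hψ i
  simp only [h.geo.div_xi hc, corepsia_ip h.geo hc, he] at h1
  have h2 := h.green hg hψ2
  have e2 : ∀ x, Gam τ (fun x => f x - m) ψ x = ∑ a, pd a f x * xi τ ψ a x := by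
    intro x
    refine Finset.sum_congr rfl fun a _ => ?_
    rw [R285.pd_sub a hf.diff (differentiable_const m), R285.pd_const, xi, Finset.mul_sum]
    refine Finset.sum_congr rfl fun b _ => ?_
    ring
  simp only [e2, he] at h2
  have i1 := hg.sq.integrable hV
  have i2 := (hg.zero.mul hψ.zero).integrable hV
  have i3 := hψ.sq.integrable hV
  have i4 := hf.sq.integrable hV
  have i5 := hf.integrable hV
  have e3 : (fun x => (f x - m + lam * ψ x) ^ 2) =
      fun x => ((f x - m) ^ 2 + (2 * lam) * ((f x - m) * ψ x)) + lam ^ 2 * ψ x ^ 2 := by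
    funext x; ring
  have e4 : (fun x => (f x - m) * (f x - m + lam * ψ x)) =
      fun x => (f x - m) ^ 2 + lam * ((f x - m) * ψ x) := by
    funext x; ring
  have e5 : ∫ x, (f x - m) ^ 2 ∂gibbs V = ∫ x, f x ^ 2 ∂gibbs V - m ^ 2 := by
    have : (fun x => (f x - m) ^ 2) = fun x => (f x ^ 2 - (2 * m) * f x) + m ^ 2 := by
      funext x; ring
    rw [this, integral_add (f := fun x => f x ^ 2 - (2 * m) * f x) (i4.sub (i5.const_mul _))
      (integrable_const _), integral_sub i4 (i5.const_mul _), integral_const_mul]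
    simp only [integral_const, probReal_univ, smul_eq_mul, one_mul, ← hm]
    ring
  rw [e3, integral_add (f := fun x => (f x - m) ^ 2 + (2 * lam) * ((f x - m) * ψ x))
    (i1.add (i2.const_mul _)) (i3.const_mul _), integral_add i1 (i2.const_mul _),
    integral_const_mul, integral_const_mul, e5] at h1
  rw [e4, integral_add i1 (i2.const_mul _), integral_const_mul, e5] at h2
  linarith

lemma corepsib_pt {T t : A2 n} (D : A2 n) (hT : ∀ a b, T a b = T b a) (ht : ∀ a b, t a b = t b a) :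
    ∑ k, ∑ a, ∑ b, T a b * (∑ j, T k j * t j a) * D k b =
      ip2 T t fun k l => (D k l + D l k) / 2 := by
  have h1 : ip2 T t (fun k l => D l k) = ip2 T t D := by
    unfold ip2
    rw [Finset.sum_comm]
    refine Finset.sum_congr rfl fun i _ => Finset.sum_congr rfl fun j _ => ?_
    rw [Finset.sum_comm]
    refine Finset.sum_congr rfl fun a _ => Finset.sum_congr rfl fun b _ => ?_
    rw [ht j i]
    ring
  have h2 : (ip2 T t fun k l => (D k l + D l k) / 2) =
      (ip2 T t D + ip2 T t fun k l => D l k) / 2 := by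
    simp only [ip2, ← Finset.sum_add_distrib, Finset.sum_div]
    refine Finset.sum_congr rfl fun i _ => Finset.sum_congr rfl fun j _ =>
      Finset.sum_congr rfl fun a _ => Finset.sum_congr rfl fun b _ => by ring
  rw [h2, h1, add_self_div_two]
  refine Eq.trans ?_ (ip2_eq_sum (Matrix.of T) (Matrix.of t) (Matrix.of D) hT).symm
  refine Finset.sum_congr rfl fun k _ => ?_
  rw [Finset.sum_comm]
  refine Finset.sum_congr rfl fun b _ => ?_
  simp only [Matrix.mul_apply, Matrix.of_apply]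
  rw [Finset.sum_mul]
  exact Finset.sum_congr rfl fun a _ => by ring

/-- `E ξ_k L W_k = -E Γ(ξ_k, W_k) = -E ip2 τ t e` (`green`, `pd_xi`, `tt_symm`), `two_ip2_le` -/
theorem cross_le (h : Nice ε C₁ V u τ) (hψ : PG 3 ψ) {W r : Fin n → Fn n} (hW : ∀ k, PG 3 (W k))
    (hr : ∀ k, PG 1 (r k)) (he : ∀ k x, Lop τ (W k) x = r k x + lam * W k x) :
    -2 * ∫ x, ∑ k, r k x * xi τ ψ k x ∂gibbs V ≤
      ∫ x, ip2 (fun a b => τ a b x) (fun a b => sD W a b x) (fun a b => sD W a b x) ∂gibbs V +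
      ∫ x, ip2 (fun a b => τ a b x) (fun a b => tt u τ ψ a b x) (fun a b => tt u τ ψ a b x) ∂gibbs V +
      2 * lam * ∫ x, ∑ k, W k x * xi τ ψ k x ∂gibbs V := by
  have hV := h.wpot
  have hτ : ∀ {k : ℕ}, k ≤ 3 → ∀ a b, PG k (τ a b) := fun hk a b => (h.τpg a b).mono hk
  have hξ : ∀ k, PG 1 (xi τ ψ k) := pg_xi (hτ (by norm_num)) (hψ.mono (by norm_num))
  have hψ2 : ContDiff ℝ 2 ψ := (hψ.mono (by norm_num : 2 ≤ 3)).contDiff
  have he0 : ∀ a b, PG 0 (sD W a b) := fun a b =>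
    ((((hW a).pd b).add ((hW b).pd a)).div_const 2).zero
  have ht0 : ∀ a b, PG 0 (tt u τ ψ a b) := fun a b => (pg_tt h hψ a b).zero
  have hG : ∀ k, PG 0 (Gam τ (xi τ ψ k) (W k)) := fun k =>
    PG.Gam (hτ (by norm_num)) (hξ k) ((hW k).mono (by norm_num))
  have h1 : ∀ k, PG 0 fun x => r k x * xi τ ψ k x := fun k => (hr k).zero.mul (hξ k).zero
  have h2 : ∀ k, PG 0 fun x => W k x * xi τ ψ k x := fun k => (hW k).zero.mul (hξ k).zero
  have h3 : ∀ k, ∫ x, r k x * xi τ ψ k x ∂gibbs V + lam * ∫ x, W k x * xi τ ψ k x ∂gibbs V =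
      -∫ x, Gam τ (xi τ ψ k) (W k) x ∂gibbs V := fun k => by
    rw [← h.green (hξ k) ((hW k).mono (by norm_num)), ← integral_const_mul,
      ← integral_add ((h1 k).integrable hV) (((h2 k).cmul lam).integrable hV)]
    exact integral_congr_ae (Eventually.of_forall fun x => by simp only [he]; ring)
  have h4 : 2 * ∫ x, ∑ k, Gam τ (xi τ ψ k) (W k) x ∂gibbs V ≤
      ∫ x, ip2 (fun a b => τ a b x) (fun a b => sD W a b x) (fun a b => sD W a b x) ∂gibbs V +
      ∫ x, ip2 (fun a b => τ a b x) (fun a b => tt u τ ψ a b x) (fun a b => tt u τ ψ a b x)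
        ∂gibbs V := by
    have i1 := (PG.ip2 (hτ (Nat.zero_le _)) he0 he0).integrable hV
    have i2 := (PG.ip2 (hτ (Nat.zero_le _)) ht0 ht0).integrable hV
    rw [← integral_const_mul, ← integral_add i1 i2]
    refine integral_mono (((PG.sum hG).cmul 2).integrable hV) (i1.add i2) fun x => ?_
    have e := corepsib_pt (T := fun a b => τ a b x) (t := fun a b => tt u τ ψ a b x)
      (fun k l => pd l (W k) x) (fun a b => h.geo.symm a b x) fun a b => h.geo.tt_symm hψ2 a b x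
    have e2 := two_ip2_le (T := fun a b => τ a b x) (fun a b => h.geo.symm a b x) (h.geo.psd x)
      (fun a b => tt u τ ψ a b x) fun a b => sD W a b x
    simp only [Gam, h.geo.pd_xi hψ2]
    rw [e, add_comm]
    exact e2
  rw [integral_finsetSum _ fun k _ => (hG k).integrable hV] at h4
  rw [integral_finsetSum _ fun k _ => (h1 k).integrable hV,
    integral_finsetSum _ fun k _ => (h2 k).integrable hV]
  have h5 := Finset.sum_congr (rfl : (Finset.univ : Finset (Fin n)) = _) fun k _ => h3 k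
  rw [Finset.sum_add_distrib, ← Finset.mul_sum, Finset.sum_neg_distrib] at h5
  linarith

/-- `E ψ = 0` (`int_Lop`); `a = E ψ²`, `b = E Γ(ψ,ψ)`: `b + λ a = -E g ψ` (`green`), `a ≤ K b` (`poin`),
`(E gψ)² ≤ E g² · a`; so `b ≤ K E g²`, `a ≤ K² E g²`; `|ξ|² ≤ ε⁻¹ Γ(ψ,ψ)` (`ssq_mul_le`). -/
theorem res_bound (h : Nice ε C₁ V u τ) (hl : 0 < lam) (hψ : PG 2 ψ) {g : Fn n} (hg : PG 0 g)
    (h0 : ∫ x, g x ∂gibbs V = 0) (he : ∀ x, Lop τ ψ x = g x + lam * ψ x) :
    ∫ x, ψ x ^ 2 ∂gibbs V ≤ (C₁ / ε) ^ 2 * ∫ x, g x ^ 2 ∂gibbs V ∧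
      ∫ x, ∑ k, xi τ ψ k x ^ 2 ∂gibbs V ≤ ε⁻¹ * (C₁ / ε) * ∫ x, g x ^ 2 ∂gibbs V := by
  have hV := h.wpot
  have hε := h.ε_pos
  have hK : 0 < C₁ / ε := div_pos h.C₁_pos hε
  have hψ1 : PG 1 ψ := hψ.mono (by norm_num)
  have hτ : ∀ a b, PG 0 (τ a b) := fun a b => (h.τpg a b).zero
  have h1 : ∫ x, ψ x ∂gibbs V = 0 := by
    have e := h.int_Lop hψ
    simp only [he] at e
    rw [integral_add (hg.integrable hV) ((hψ.cmul lam).integrable hV), h0, integral_const_mul,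
      zero_add] at e
    exact (mul_eq_zero.1 e).resolve_left hl.ne'
  have h2 : ∫ x, g x * ψ x ∂gibbs V + lam * ∫ x, ψ x ^ 2 ∂gibbs V = -∫ x, Gam τ ψ ψ x ∂gibbs V := by
    rw [← h.green hψ1 hψ, ← integral_const_mul,
      ← integral_add ((hg.mul hψ.zero).integrable hV) ((hψ.sq.cmul lam).integrable hV)]
    exact integral_congr_ae (Eventually.of_forall fun x => by simp only [he]; ring)
  have h3 := h.poin hψ1 h1
  have h4 := sq_integral_mul_le hV hg hψ.zero
  have h5 : 0 ≤ ∫ x, Gam τ ψ ψ x ∂gibbs V := integral_nonneg fun x => h.geo.psd x _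
  have h6 : 0 ≤ ∫ x, ψ x ^ 2 ∂gibbs V := integral_nonneg fun x => sq_nonneg _
  have h7 : 0 ≤ ∫ x, g x ^ 2 ∂gibbs V := integral_nonneg fun x => sq_nonneg _
  have h8 : ∫ x, ∑ k, xi τ ψ k x ^ 2 ∂gibbs V ≤ ε⁻¹ * ∫ x, Gam τ ψ ψ x ∂gibbs V := by
    rw [← integral_const_mul]
    refine integral_mono ((PG.sum fun k => (pg_xi hτ hψ1 k).sq).integrable hV)
      (((PG.Gam hτ hψ1 hψ1).cmul _).integrable hV) fun x => ?_
    exact ssq_mul_le (T := fun a b => τ a b x) (fun a b => h.geo.symm a b x) (h.geo.psd x) (h.τhi x)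
      fun a => pd a ψ x
  generalize ∫ x, Gam τ ψ ψ x ∂gibbs V = b at *
  generalize ∫ x, ψ x ^ 2 ∂gibbs V = a at *
  generalize ∫ x, g x ^ 2 ∂gibbs V = G at *
  generalize ∫ x, g x * ψ x ∂gibbs V = c at *
  generalize C₁ / ε = K at *
  have h9 : b ≤ K * G := by
    rcases h5.eq_or_lt with hb | hb
    · rw [← hb]
      positivity
    · have s1 : b ≤ -c := by nlinarith [mul_nonneg hl.le h6]
      have s2 : b * b ≤ b * (K * G) := by nlinarith [mul_le_mul_of_nonneg_left h3 h7]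
      exact le_of_mul_le_mul_left s2 hb
  refine ⟨h3.trans ?_, h8.trans ?_⟩
  · rw [sq, mul_assoc]
    exact mul_le_mul_of_nonneg_left h9 hK.le
  · rw [mul_assoc]
    exact mul_le_mul_of_nonneg_left h9 (by positivity)

end Crest.Agent.R238
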