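import Crest.Agent.R238.Lim

/-!
# Row 238 (S0369): HC
The Hölder space `HC n k` as a commutative Banach algebra.
-/

set_option autoImplicit false
set_option linter.unusedVariables false

open MeasureTheory Filter Topology Matrix
open Crest.Agent.R285 (bas pd gibbs WPot PolyB SConv)

noncomputable section

namespace Crest.Agent.R238

variable {n : ℕ}

/-- the subalgebra of `C^{k,1/2}` functions -/
def hcSub (n k : ℕ) : Subalgebra ℝ (Fn n) where
  carrier := {f | Mem k f}
  mul_mem' := fun hf hg => Mem.mul hf hg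
  add_mem' := fun hf hg => Mem.add hf hg
  algebraMap_mem' := fun c => Mem.const k c

/-- the Hölder space -/
def HC (n k : ℕ) : Type := ↥(hcSub n k)

namespace HC

variable {k : ℕ}

instance : CommRing (HC n k) := inferInstanceAs (CommRing ↥(hcSub n k))
instance : Algebra ℝ (HC n k) := inferInstanceAs (Algebra ℝ ↥(hcSub n k))

/-- underlying function -/
def fn (f : HC n k) : Fn n := Subtype.val f
/-- constructor -/
def mk (f : Fn n) (hf : Mem k f) : HC n k := Subtype.mk f hf

lemma mem (f : HC n k) : Mem k f.fn := Subtype.property f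
@[simp] lemma fn_mk (f : Fn n) (hf : Mem k f) : (mk f hf).fn = f := rfl
lemma ext' {f g : HC n k} (h : ∀ x, f.fn x = g.fn x) : f = g := Subtype.ext (funext h)
@[simp] lemma fn_add (f g : HC n k) : (f + g).fn = fun x => f.fn x + g.fn x := rfl
@[simp] lemma fn_sub (f g : HC n k) : (f - g).fn = fun x => f.fn x - g.fn x := rfl
@[simp] lemma fn_neg (f : HC n k) : (-f).fn = fun x => -f.fn x := rfl
@[simp] lemma fn_mul (f g : HC n k) : (f * g).fn = fun x => f.fn x * g.fn x := rfl
@[simp] lemma fn_smul (c : ℝ) (f : HC n k) : (c • f).fn = fun x => c * f.fn x := rfl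
@[simp] lemma fn_zero : (0 : HC n k).fn = fun _ => 0 := rfl
@[simp] lemma fn_one : (1 : HC n k).fn = fun _ => 1 := rfl

/-- the norm -/
def nrm (n k : ℕ) : AddGroupNorm (HC n k) where
  toFun f := hn k f.fn
  map_zero' := le_antisymm (by simpa using (HB.const (n := n) k 0).2) (hn_nonneg _ _)
  add_le' f g := (f.mem.hb.add g.mem.hb).2
  neg' f := le_antisymm f.mem.hb.neg.2 (by simpa using (-f).mem.hb.neg.2)
  eq_zero_of_map_eq_zero' f h := ext' fun x => f.mem.eq_zero h.le x

instance : NormedCommRing (HC n k) :=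
  { (inferInstance : CommRing (HC n k)), (nrm n k).toNormedAddCommGroup with
    norm_mul_le := fun f g => (f.mem.hb.mul g.mem.hb).2 }

lemma norm_def (f : HC n k) : ‖f‖ = hn k f.fn := rfl
lemma hb (f : HC n k) : HB k f.fn ‖f‖ := f.mem.hb
lemma abs_le (f : HC n k) (x : X n) : |f.fn x| ≤ ‖f‖ := f.mem.abs_le x

instance : NormedAlgebra ℝ (HC n k) :=
  { (inferInstance : Algebra ℝ (HC n k)) with
    norm_smul_le := fun c f => (f.mem.hb.cmul c).2 }

/-- evaluation -/
def ev (x : X n) : HC n k →ₐ[ℝ] ℝ where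
  toFun f := f.fn x
  map_one' := rfl
  map_mul' _ _ := rfl
  map_zero' := rfl
  map_add' _ _ := rfl
  commutes' _ := rfl

@[simp] lemma ev_apply (x : X n) (f : HC n k) : ev x f = f.fn x := rfl

lemma continuous_ev (x : X n) : Continuous (ev x : HC n k → ℝ) :=
  AddMonoidHomClass.continuous_of_bound (ev x) 1 fun f => by simpa using f.abs_le x

lemma fn_sum {I : Type} (s : Finset I) (f : I → HC n k) (x : X n) :
    (∑ i ∈ s, f i).fn x = ∑ i ∈ s, (f i).fn x := map_sum (ev x) f s

/-- `Metric.complete_of_cauchySeq_tendsto`: a Cauchy sequence converges pointwise (`abs_le`), the limit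
lies in the space and `‖F m - f‖ ≤ C ε` by `lim_hb` applied to `l ↦ F m - F (l + m₀)`. -/
instance : CompleteSpace (HC n k) := by
  obtain ⟨C, hC, hlim⟩ := lim_hb n k
  refine Metric.complete_of_cauchySeq_tendsto fun F hF => ?_
  have hpt : ∀ x, CauchySeq fun m => (F m).fn x := fun x =>
    (AddMonoidHomClass.uniformContinuous_of_bound (ev x : HC n k →ₐ[ℝ] ℝ) 1
      fun f => by simpa using f.abs_le x).comp_cauchySeq hF
  choose f hf using fun x => cauchySeq_tendsto_of_complete (hpt x)
  obtain ⟨R, hR⟩ := hF.isBounded_range.exists_norm_le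
  have hmem : Mem k f :=
    (hlim (fun m => (F m).fn) f R (fun m => (F m).hb.weaken (hR _ ⟨m, rfl⟩)) hf).1
  refine ⟨mk f hmem, Metric.tendsto_atTop.2 fun ε hε => ?_⟩
  obtain ⟨N, hN⟩ := Metric.cauchySeq_iff.1 hF (ε / 2 / C) (by positivity)
  refine ⟨N, fun m hm => ?_⟩
  have h1 := hlim (fun l => (F m - F (l + N)).fn) (F m - mk f hmem).fn (ε / 2 / C)
    (fun l => (F m - F (l + N)).hb.weaken (by
      rw [← dist_eq_norm]; exact (hN m hm _ (Nat.le_add_left N l)).le))
    fun x => tendsto_const_nhds.sub ((hf x).comp (tendsto_add_atTop_nat N))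
  rw [dist_eq_norm, norm_def]
  refine h1.2.trans_lt ?_
  rw [mul_div_cancel₀ _ hC.ne']
  linarith

/-- `NormedSpace.map_exp_of_mem_ball (𝕂 := ℝ)` with `expSeries_radius_eq_top`, `Real.exp_eq_exp_ℝ` -/
lemma fn_exp (f : HC n k) (x : X n) : (NormedSpace.exp f).fn x = Real.exp (f.fn x) := by
  rw [Real.exp_eq_exp_ℝ]
  exact NormedSpace.map_exp_of_mem_ball (𝕂 := ℝ) (ev x : HC n k →ₐ[ℝ] ℝ) (continuous_ev x) f
    ((NormedSpace.expSeries_radius_eq_top ℝ (HC n k)).symm ▸ edist_lt_top _ _)

lemma fn_det (P : Matrix (Fin n) (Fin n) (HC n k)) (x : X n) :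
    (P.det).fn x = (Matrix.of fun i j => (P i j).fn x).det :=
  (ev x : HC n k →ₐ[ℝ] ℝ).map_det P

end HC

end Crest.Agent.R238
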