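import Crest.Agent.R238.Mehler
import Crest.Agent.R238.HC
import Crest.Agent.R238.Cont

/-!
# Row 238 (S0369): Lin
Solvability of `Op τ β c h = g` for `c ≤ -c₀ < 0`.
-/

set_option autoImplicit false
set_option linter.unusedVariables false

open MeasureTheory Filter Topology Matrix
open Crest.Agent.R285 (bas pd gibbs WPot PolyB SConv)

noncomputable section

namespace Crest.Agent.R238

variable {n : ℕ}

lemma lin_c2 {k : ℕ} {h : Fn n} (hh : Mem (k + 2) h) : ContDiff ℝ 2 h :=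
  (hh.mono (show 2 ≤ k + 2 by omega)).contDiff

/-- a solution map that is unique and bounded is a continuous linear map: choose solutions, linearity by
uniqueness (`apri_neg` for the difference, `Op_add`, `Op_cmul`, `Op_sub`, `Mem.eq_zero`),
`LinearMap.mkContinuous` -/
theorem exists_solOp {k : ℕ} {κ c₀ B : ℝ} (hκ : 0 < κ) (hc₀ : 0 < c₀) {τ : MF n} {β : Fin n → Fn n}
    {c : Fn n} (hτ : Coef k κ B τ) (hβ : ∀ a, HB k (β a) B) (hc : HB k c B) (hneg : ∀ x, c x ≤ -c₀)
    (hex : ∀ g : Fn n, Mem k g → ∃ h, Mem (k + 2) h ∧ ∀ x, Op τ β c h x = g x) :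
    ∃ T : HC n k →L[ℝ] HC n (k + 2), ∀ g x, Op τ β c (T g).fn x = g.fn x := by
  obtain ⟨C, hC, H⟩ := apri_neg n k hκ hc₀ B
  choose S hS1 hS2 using fun g : HC n k => hex g.fn g.mem
  have uniq : ∀ {f g : Fn n}, Mem (k + 2) f → Mem (k + 2) g →
      (∀ x, Op τ β c f x = Op τ β c g x) → ∀ x, f x = g x := by
    intro f g hf hg e x
    have := H τ β c _ _ hτ hβ hc hneg (hf.sub hg) ((HB.const k 0).congr fun x => by
      rw [Op_sub τ β c (lin_c2 hf) (lin_c2 hg), e, sub_self])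
    rw [abs_zero, mul_zero] at this
    exact sub_eq_zero.1 ((hf.sub hg).eq_zero this x)
  refine ⟨LinearMap.mkContinuous
    { toFun := fun g => HC.mk (S g) (hS1 g)
      map_add' := fun f g => HC.ext' (uniq (hS1 _) ((hS1 f).add (hS1 g)) fun x => ?_)
      map_smul' := fun s g => HC.ext' (uniq (hS1 _) ((hS1 g).cmul s) fun x => ?_) } C fun g => ?_, hS2⟩
  · simp only [HC.fn_mk, HC.fn_add, Op_add τ β c (lin_c2 (hS1 f)) (lin_c2 (hS1 g)), hS2]
  · simp only [HC.fn_mk, HC.fn_smul, Op_cmul τ β c _ (lin_c2 (hS1 g)), hS2, RingHom.id_apply]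
  · exact H τ β c _ _ hτ hβ hc hneg (hS1 g) (g.hb.congr fun x => (hS2 g x).symm)

/-- the lower-order-free difference of two operators is a bounded map `HC (k+2) → HC k` -/
theorem exists_diffOp {k : ℕ} {σ : MF n} {β : Fin n → Fn n} {c : Fn n} (hσ : ∀ a b, Mem k (σ a b))
    (hβ : ∀ a, Mem k (β a)) (hc : Mem k c) : ∃ D : HC n (k + 2) →L[ℝ] HC n k, ∀ h x,
      (D h).fn x = ∑ a, ∑ b, σ a b x * d2 h.fn a b x + ∑ a, β a x * pd a h.fn x + c x * h.fn x := by
  have hb : ∀ h : HC n (k + 2), HB k (fun x => ∑ a, ∑ b, σ a b x * d2 h.fn a b x +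
      ∑ a, β a x * pd a h.fn x + c x * h.fn x)
      ((∑ a, ∑ b, hn k (σ a b) + ∑ a, hn k (β a) + hn k c) * ‖h‖) := by
    intro h
    refine (((HB.sum fun a => HB.sum fun b => (hσ a b).hb.mul (h.hb.d2 a b)).add
      (HB.sum fun a => (hβ a).hb.mul ((h.hb.pd a).mono (Nat.le_succ k)))).add
      (hc.hb.mul (h.hb.mono (show k ≤ k + 2 by omega)))).weaken (le_of_eq ?_)
    simp only [add_mul, Finset.sum_mul]
  have e : ∀ (h : Fn n) x, ∑ a, ∑ b, σ a b x * d2 h a b x + ∑ a, β a x * pd a h x + c x * h x =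
      Op σ β c h x - Lop (fun _ _ _ => 0) h x := by
    intro h x
    simp only [Op, Lop, zero_mul, Finset.sum_const_zero]
    ring
  refine ⟨LinearMap.mkContinuous
    { toFun := fun h => HC.mk _ (hb h).mem
      map_add' := fun f g => HC.ext' fun x => ?_
      map_smul' := fun s g => HC.ext' fun x => ?_ } _ fun h => (hb h).le, fun h x => rfl⟩
  · simp only [HC.fn_mk, e]
    simp only [HC.fn_add, HC.fn_mk]
    rw [Op_add σ β c (lin_c2 f.mem) (lin_c2 g.mem), Lop_add _ (lin_c2 f.mem) (lin_c2 g.mem)]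
    ring
  · simp only [HC.fn_mk, e]
    simp only [HC.fn_smul, HC.fn_mk, RingHom.id_apply]
    rw [Op_cmul σ β c s (lin_c2 g.mem), Lop_cmul _ s (lin_c2 g.mem)]
    ring

/-- `T₀` from `base_exist` and `exists_solOp` (`τ = idM`, `β = 0`, `c = -1`), `D` from `exists_diffOp` with
`σ = τ - idM`, `β`, `c + 1`; `K = -D ∘ T₀`.  Then `y - s K y = Op τ_s (sβ) (s c - (1-s)) (T₀ y)` with
`τ_s = idM + s (τ - idM)`, which is `min 1 κ`-elliptic with uniformly bounded coefficients and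
`c_s ≤ -min 1 c₀`; `apri_neg` bounds `‖T₀ y‖`, and `y = (y - sKy) + sKy`.  `cont_method` with `s₁ = 1`. -/
theorem lin_exist {k : ℕ} {κ c₀ B : ℝ} (hκ : 0 < κ) (hc₀ : 0 < c₀) {τ : MF n} {β : Fin n → Fn n}
    {c : Fn n} (hτ : Coef k κ B τ) (hβ : ∀ a, HB k (β a) B) (hc : HB k c B) (hneg : ∀ x, c x ≤ -c₀)
    {g : Fn n} (hg : Mem k g) : ∃ h, Mem (k + 2) h ∧ ∀ x, Op τ β c h x = g x := by
  have hB := hc.nonneg
  have hI := coef_idM (n := n) k
  obtain ⟨T, hT⟩ := exists_solOp (k := k) (β := fun _ _ => 0) (c := fun _ => -1) one_pos one_pos hI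
    (fun _ => (HB.const k 0).weaken (by simp)) ((HB.const k (-1)).weaken (by simp)) (fun _ => le_rfl)
    fun g hg => by
      obtain ⟨χ, h1, h2⟩ := base_exist hg
      exact ⟨χ, h1, fun x => by rw [← h2 x]; simp [Op, sub_eq_add_neg]⟩
  obtain ⟨D, hD⟩ := exists_diffOp (k := k) (σ := fun a b x => τ a b x - idM a b x) (β := β)
    (c := fun x => c x + 1) (fun a b => (hτ.hb a b).mem.sub (hI.hb a b).mem) (fun a => (hβ a).mem)
    (hc.mem.add (Mem.const k 1))
  have key : ∀ (s : ℝ) (y : HC n k) x, (y - s • (-(D.comp T)) y).fn x =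
      Op (fun a b x => idM a b x + s * (τ a b x - idM a b x)) (fun a x => s * β a x)
        (fun x => -1 + s * (c x + 1)) (T y).fn x := by
    intro s y x
    have h1 := hT y x
    simp only [HC.fn_sub, HC.fn_smul, _root_.neg_apply, HC.fn_neg,
      ContinuousLinearMap.comp_apply, hD]
    simp only [Op, Lop, zero_mul, Finset.sum_const_zero, add_mul, Finset.sum_add_distrib, mul_assoc,
      ← Finset.mul_sum] at h1 ⊢
    linarith
  obtain ⟨C, hC, H⟩ := apri_neg n k (lt_min one_pos hκ) (lt_min one_pos hc₀) (B + 2)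
  obtain ⟨y, hy⟩ := cont_method (-(D.comp T)) (C := 1 + ‖D‖ * C) (s₁ := 1) (fun s hs y => by
    have hs1 : |s| ≤ 1 := abs_le.2 ⟨by linarith [hs.1], hs.2⟩
    have hsB : |s| * (B + 1) ≤ B + 1 := mul_le_of_le_one_left (by linarith) hs1
    have h1 : ‖T y‖ ≤ C * ‖y - s • (-(D.comp T)) y‖ := by
      refine H _ _ _ _ _ ⟨⟨fun a b x => by rw [hτ.ell.symm, hI.ell.symm], fun x ξ => ?_⟩,
        fun a b => ((hI.hb a b).add (((hτ.hb a b).sub (hI.hb a b)).cmul s)).weaken (by linarith)⟩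
        (fun a => ((hβ a).cmul s).weaken (by nlinarith [abs_nonneg s]))
        (((HB.const k (-1)).add ((hc.add (HB.const k 1)).cmul s)).weaken (by
          rw [abs_neg, abs_one]; linarith)) (fun x => ?_) (T y).mem ((HC.hb _).congr (key s y))
      · have a1 := hI.ell.lb x ξ
        have a2 := hτ.ell.lb x ξ
        have a3 := ssq_nonneg ξ
        have a4 := mul_le_mul_of_nonneg_right (min_le_left 1 κ) a3
        have a5 := mul_le_mul_of_nonneg_right (min_le_right 1 κ) a3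
        have e : qf (fun a b => idM a b x + s * (τ a b x - idM a b x)) ξ =
            (1 - s) * qf (fun a b => idM a b x) ξ + s * qf (fun a b => τ a b x) ξ := by
          simp only [qf, Finset.mul_sum, ← Finset.sum_add_distrib]
          exact Finset.sum_congr rfl fun a _ => Finset.sum_congr rfl fun b _ => by ring
        rw [e]
        nlinarith [mul_le_mul_of_nonneg_left (a4.trans a1) (sub_nonneg.2 hs.2),
          mul_le_mul_of_nonneg_left (a5.trans a2) hs.1]
      · nlinarith [mul_le_mul_of_nonneg_left (min_le_left 1 c₀) (sub_nonneg.2 hs.2),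
          mul_le_mul_of_nonneg_left (min_le_right 1 c₀) hs.1, mul_le_mul_of_nonneg_left (hneg x) hs.1]
    have h2 : ‖s • (-(D.comp T)) y‖ ≤ ‖D‖ * ‖T y‖ := by
      rw [norm_smul, _root_.neg_apply, norm_neg]
      exact (mul_le_of_le_one_left (norm_nonneg _) hs1).trans (D.le_opNorm _)
    have h3 := norm_add_le (y - s • (-(D.comp T)) y) (s • (-(D.comp T)) y)
    rw [sub_add_cancel] at h3
    nlinarith [mul_le_mul_of_nonneg_left h1 (norm_nonneg D)]) 1 ⟨zero_le_one, le_rfl⟩ (HC.mk g hg)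
  refine ⟨(T y).fn, (T y).mem, fun x => ?_⟩
  have := key 1 y x
  rw [hy] at this
  simpa using this.symm

/-- entrywise membership gives a common bound -/
lemma exists_coef {k : ℕ} {κ : ℝ} {τ : MF n} (he : Ell κ τ) (hm : ∀ a b, Mem k (τ a b)) :
    ∃ B, 0 ≤ B ∧ Coef k κ B τ := by
  refine ⟨∑ a, ∑ b, hn k (τ a b), Finset.sum_nonneg fun a _ => Finset.sum_nonneg fun b _ => hn_nonneg _ _,
    he, fun a b => (hm a b).hb.weaken ?_⟩
  exact (Finset.single_le_sum (f := fun b => hn k (τ a b)) (fun _ _ => hn_nonneg _ _)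
    (Finset.mem_univ b)).trans (Finset.single_le_sum (f := fun a => ∑ b, hn k (τ a b))
      (fun _ _ => Finset.sum_nonneg fun _ _ => hn_nonneg _ _) (Finset.mem_univ a))

/-- the resolvent equation -/
theorem res_exist {k : ℕ} {κ lam : ℝ} (hκ : 0 < κ) (hl : 0 < lam) {τ : MF n} (he : Ell κ τ)
    (hm : ∀ a b, Mem k (τ a b)) {g : Fn n} (hg : Mem k g) :
    ∃ h, Mem (k + 2) h ∧ ∀ x, Lop τ h x = g x + lam * h x := by
  obtain ⟨B, hB, hτ⟩ := exists_coef he hm
  obtain ⟨h, h1, h2⟩ := lin_exist (B := B + lam) (β := fun _ _ => 0) (c := fun _ => -lam) hκ hl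
    ⟨he, fun a b => (hτ.hb a b).weaken (by linarith)⟩
    (fun _ => (HB.const k 0).weaken (by rw [abs_zero]; linarith))
    ((HB.const k (-lam)).weaken (by rw [abs_neg, abs_of_pos hl]; linarith)) (fun _ => le_rfl) hg
  refine ⟨h, h1, fun x => ?_⟩
  rw [← h2 x]
  simp [Op]

end Crest.Agent.R238
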