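import Crest.Agent.R238.CoreW
import Crest.Agent.R238.CorePsi
import Crest.Agent.R238.Lin

/-!
# Row 238 (S0369): Core
The core variance inequality.
-/

set_option autoImplicit false
set_option linter.unusedVariables false

open MeasureTheory Filter Topology Matrix
open Crest.Agent.R285 (bas pd gibbs WPot PolyB SConv)

noncomputable section

namespace Crest.Agent.R238

variable {n : ℕ}

lemma core_lim {a b A B : ℝ} (h : ∀ l : ℝ, 0 < l → a ≤ b + l ^ 2 * A + l * B) : a ≤ b := by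
  have hc : Continuous fun l : ℝ => b + l ^ 2 * A + l * B := by fun_prop
  have ht : Tendsto (fun l : ℝ => b + l ^ 2 * A + l * B) (𝓝[>] 0) (𝓝 b) := by
    simpa using (hc.tendsto 0).mono_left (nhdsWithin_le_nhds (s := Set.Ioi 0))
  exact ge_of_tendsto ht (eventually_nhdsWithin_of_forall h)

/-- For `λ > 0` solve `L ψ = f - E f + λ ψ`, `L W_k = r_k + λ W_k` (`res_exist`, `k = 1`; `E r_k = 0` by
`integral_odd`).  `psi_id`, `cross_le`, `kstar` and `hα` with `ξ = xi τ ψ · x` give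
`Var f ≤ λ² E ψ² + E α + E β + 2 λ E W·ξ`, and `2 W·ξ ≤ |W|² + |ξ|²`; by `res_bound` the error is at most
`λ² A + λ A'` with `A`, `A'` independent of `λ`; let `λ → 0`. -/
theorem core_var {ε C₁ : ℝ} {V u : Fn n} {τ : MF n} (h : Nice ε C₁ V u τ) {f α β : Fn n}
    {r : Fin n → Fn n} (hf : Mem 1 f) (hr : ∀ k, Mem 1 (r k)) (hro : ∀ k, Od (r k)) (hα0 : PG 0 α)
    (hβ0 : PG 0 β)
    (hα : ∀ x (ξ : Fin n → ℝ),
      -2 * ∑ a, (pd a f x - r a x) * ξ a - qf (fun i j => d2 V i j x) ξ ≤ α x)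
    (hβ : ∀ x (e : Mx n), (∀ k l, e k l = e l k) →
      -2 * ∑ k, ∑ l, (mat τ x * e * mat τ x) k l * pd l (r k) x -
        ∑ i, ∑ j, d2 V i j x * (mat τ x * e * mat τ x * e * mat τ x) i j ≤ β x) :
    ∫ x, f x ^ 2 ∂gibbs V - (∫ x, f x ∂gibbs V) ^ 2 ≤ ∫ x, α x ∂gibbs V + ∫ x, β x ∂gibbs V := by
  have hV := h.wpot
  have := hV.prob
  have hC : 0 < C₁⁻¹ := inv_pos.2 h.C₁_pos
  have hτ1 : ∀ a b, Mem 1 (τ a b) := fun a b => (h.τ3 a b).mono (by norm_num)
  have hg : Mem 1 fun x => f x - ∫ y, f y ∂gibbs V := hf.sub (Mem.const _ _)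
  have hg0 : ∫ x, (f x - ∫ y, f y ∂gibbs V) ∂gibbs V = 0 := by
    rw [integral_sub (hf.pg.integrable hV) (integrable_const _)]
    simp
  refine core_lim (A := (C₁ / ε) ^ 2 * ∫ x, (f x - ∫ y, f y ∂gibbs V) ^ 2 ∂gibbs V)
    (B := ∑ k, (C₁ / ε) ^ 2 * ∫ x, r k x ^ 2 ∂gibbs V +
      ε⁻¹ * (C₁ / ε) * ∫ x, (f x - ∫ y, f y ∂gibbs V) ^ 2 ∂gibbs V) fun l hl => ?_
  obtain ⟨ψ, hψ, heψ⟩ := res_exist hC hl h.ell hτ1 hg
  choose W hW heW using fun k => res_exist hC hl h.ell hτ1 (hr k)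
  have pψ : PG 3 ψ := hψ.pg
  have pW : ∀ k, PG 3 (W k) := fun k => (hW k).pg
  have pr : ∀ k, PG 1 (r k) := fun k => (hr k).pg
  have pξ : ∀ k, PG 0 (xi τ ψ k) := fun k =>
    pg_xi (fun a b => (h.τpg a b).zero) (pψ.mono (by norm_num)) k
  have h1 := psi_id h pψ hf.pg heψ
  have h2 := cross_le h pψ pW pr heW
  have h3 := kstar h hl.le pW pr heW hβ0 hβ
  obtain ⟨h4, h5⟩ := res_bound h hl (pψ.mono (by norm_num)) hg.pg.zero hg0 heψ
  have h6 : ∀ k, ∫ x, W k x ^ 2 ∂gibbs V ≤ (C₁ / ε) ^ 2 * ∫ x, r k x ^ 2 ∂gibbs V := fun k =>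
    (res_bound h hl ((pW k).mono (by norm_num)) (pr k).zero (integral_odd h.Veven (hro k))
      (heW k)).1
  have i1 : Integrable (fun x => ∑ a, pd a f x * xi τ ψ a x) (gibbs V) :=
    (PG.sum fun a => (hf.pg.pd a).mul (pξ a)).integrable hV
  have i2 : Integrable (fun x => ∑ a, r a x * xi τ ψ a x) (gibbs V) :=
    (PG.sum fun a => (pr a).zero.mul (pξ a)).integrable hV
  have i3 : Integrable (fun x => qf (fun i j => d2 V i j x) fun i => xi τ ψ i x) (gibbs V) :=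
    (PG.sum fun a => PG.sum fun b =>
      (((h.Vpg.d2 (k := 1) a b).zero.mul (pξ a)).mul (pξ b))).integrable hV
  have i4 : Integrable (fun x => ∑ a, W a x * xi τ ψ a x) (gibbs V) :=
    (PG.sum fun a => (pW a).zero.mul (pξ a)).integrable hV
  have i5 : ∀ a, Integrable (fun x => W a x ^ 2) (gibbs V) := fun a => (pW a).sq.integrable hV
  have i6 : Integrable (fun x => ∑ a, xi τ ψ a x ^ 2) (gibbs V) :=
    (PG.sum fun a => (pξ a).sq).integrable hV
  have h7 : -2 * ∫ x, ∑ a, pd a f x * xi τ ψ a x ∂gibbs V +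
      2 * ∫ x, ∑ a, r a x * xi τ ψ a x ∂gibbs V -
      ∫ x, qf (fun i j => d2 V i j x) (fun i => xi τ ψ i x) ∂gibbs V ≤ ∫ x, α x ∂gibbs V := by
    have j1 : Integrable (fun x => -2 * ∑ a, pd a f x * xi τ ψ a x +
        2 * ∑ a, r a x * xi τ ψ a x) (gibbs V) := (i1.const_mul _).add (i2.const_mul _)
    rw [← integral_const_mul, ← integral_const_mul, ← integral_add (i1.const_mul _) (i2.const_mul _),
      ← integral_sub j1 i3]
    refine integral_mono (j1.sub i3) (hα0.integrable hV) fun x => ?_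
    have := hα x fun i => xi τ ψ i x
    simp only [sub_mul, Finset.sum_sub_distrib] at this
    dsimp only
    linarith
  have h8 : 2 * ∫ x, ∑ a, W a x * xi τ ψ a x ∂gibbs V ≤
      ∑ a, ∫ x, W a x ^ 2 ∂gibbs V + ∫ x, ∑ a, xi τ ψ a x ^ 2 ∂gibbs V := by
    have j1 : Integrable (fun x => ∑ a, W a x ^ 2) (gibbs V) :=
      integrable_finsetSum _ fun a _ => i5 a
    rw [← integral_const_mul, ← integral_finsetSum _ fun a _ => i5 a, ← integral_add j1 i6]
    refine integral_mono (i4.const_mul _) (j1.add i6) fun x => ?_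
    dsimp only
    rw [Finset.mul_sum, ← Finset.sum_add_distrib]
    exact Finset.sum_le_sum fun a _ => by nlinarith [sq_nonneg (W a x - xi τ ψ a x)]
  have h9 := mul_le_mul_of_nonneg_left
    (h8.trans (add_le_add (Finset.sum_le_sum fun k _ => h6 k) h5)) hl.le
  have h10 := mul_le_mul_of_nonneg_left h4 (sq_nonneg l)
  linarith

end Crest.Agent.R238
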