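import Crest.Agent.R238.Tens

/-!
# Row 238 (S0369): KW
The pointwise algebra behind the inequality `(K*)`.  Data at a point: `T = τ`, `U p = ∂_p H`,
`D p k l = ∂_p ∂_l W_k`, `e = sym DW`.  Useful: for arrays `a k i p = A p k i`,
`ip3 T a b = ∑ p q, T p q * trace ((A p)ᵀ * T * B q * T)` (`ip3_slice3`), and the slicing along the first
index (`ip3_slice1`); then everything is cyclicity of the trace.
-/

set_option autoImplicit false
set_option linter.unusedVariables false

open MeasureTheory Filter Topology Matrix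
open Crest.Agent.R285 (bas pd gibbs WPot PolyB SConv)

noncomputable section

namespace Crest.Agent.R238

variable {n : ℕ}

abbrev Mx (n : ℕ) : Type := Matrix (Fin n) (Fin n) ℝ

def kdτ (T : Mx n) (U : Fin n → Mx n) (p : Fin n) : Mx n := -(T * U p * T)
def kde (D : Fin n → Mx n) (p : Fin n) : Mx n := (1 / 2 : ℝ) • (D p + (D p)ᵀ)
def kQ (T : Mx n) (U : Fin n → Mx n) : Mx n := Matrix.of fun i j => ip2 T (U i) (U j)
def kT1 (T : Mx n) (U D : Fin n → Mx n) (e : Mx n) : ℝ :=
  -∑ k, ∑ l, ∑ p, ∑ q, T p q * (kdτ T U p * e * T + T * kde D p * T + T * e * kdτ T U p) k l * D q k l +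
    ∑ k, ∑ l, (T * e * T) k l * ∑ a, ∑ b, kdτ T U l a b * D a k b
def kT2 (T : Mx n) (U D : Fin n → Mx n) (e : Mx n) : ℝ :=
  -∑ i, ∑ j, ∑ p, ∑ q,
      T p q * (kde D p * T * e + e * kdτ T U p * e + e * T * kde D p) i j * kdτ T U q i j -
    ∑ i, ∑ j, (e * T * e) i j * (T * kQ T U * T) i j
def kw (D : Fin n → Mx n) : A3 n := fun k i j => D j k i
def kρ (T : Mx n) (U : Fin n → Mx n) (e : Mx n) : A3 n := fun k i j => -(e * T * U j) k i

/-- the symmetry assumptions -/
structure KD (T : Mx n) (U D : Fin n → Mx n) (e : Mx n) : Prop where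
  T : ∀ a b, T a b = T b a
  U12 : ∀ p a b, U p a b = U a p b
  U23 : ∀ p a b, U p a b = U p b a
  D : ∀ p k l, D p k l = D l k p
  e : ∀ a b, e a b = e b a
lemma kwa_s3 (f : Fin n → Fin n → Fin n → ℝ) :
    ∑ j, ∑ k, ∑ a, f j k a = ∑ a, ∑ j, ∑ k, f j k a := by
  rw [Finset.sum_congr rfl fun j _ => Finset.sum_comm]
  exact Finset.sum_comm

lemma kwa_tr (A B : Mx n) : (Aᵀ * B).trace = ∑ k, ∑ l, A k l * B k l := by
  simp only [Matrix.trace, Matrix.diag, Matrix.mul_apply, Matrix.transpose_apply]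
  exact Finset.sum_comm

lemma kwa_ip2 {T : Mx n} (hT : ∀ a b, T a b = T b a) (A B : Mx n) :
    (Aᵀ * T * B * T).trace = ∑ i, ∑ j, ∑ a, ∑ b, T i a * T j b * A i j * B a b := by
  rw [Matrix.mul_assoc, Matrix.mul_assoc, kwa_tr]
  refine Finset.sum_congr rfl fun i _ => Finset.sum_congr rfl fun j _ => ?_
  simp only [Matrix.mul_apply, Finset.mul_sum]
  refine Finset.sum_congr rfl fun a _ => Finset.sum_congr rfl fun b _ => ?_
  rw [hT b j]; ring


lemma ip3_slice3 {T : Mx n} (hT : ∀ a b, T a b = T b a) (A B : Fin n → Mx n) :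
    ip3 T (fun k i p => A p k i) (fun k i p => B p k i) =
      ∑ p, ∑ q, T p q * ((A p)ᵀ * T * B q * T).trace := by
  unfold ip3
  rw [kwa_s3]
  refine Finset.sum_congr rfl fun p _ => ?_
  rw [Finset.sum_congr rfl fun i _ => Finset.sum_congr rfl fun j _ => kwa_s3 _, kwa_s3]
  refine Finset.sum_congr rfl fun q _ => ?_
  simp only [kwa_ip2 hT, Finset.mul_sum]
  refine Finset.sum_congr rfl fun i _ => Finset.sum_congr rfl fun j _ =>
    Finset.sum_congr rfl fun a _ => Finset.sum_congr rfl fun b _ => ?_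
  ring

lemma ip3_slice1 {T : Mx n} (hT : ∀ a b, T a b = T b a) (A B : Fin n → Mx n) :
    ip3 T (fun k i p => A k i p) (fun k i p => B k i p) =
      ∑ k, ∑ l, T k l * ((A k)ᵀ * T * B l * T).trace := by
  unfold ip3
  refine Finset.sum_congr rfl fun p _ => ?_
  rw [kwa_s3]
  refine Finset.sum_congr rfl fun q _ => ?_
  simp only [kwa_ip2 hT, Finset.mul_sum]
  refine Finset.sum_congr rfl fun i _ => Finset.sum_congr rfl fun j _ =>
    Finset.sum_congr rfl fun a _ => Finset.sum_congr rfl fun b _ => ?_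
  ring

lemma ip3_sg {T : A2 n} (z w : A3 n) : ip3 T (sg z) w = ip3 T z (sg w) := by
  unfold ip3 sg
  rw [Finset.sum_comm]
  refine Finset.sum_congr rfl fun i _ => Finset.sum_congr rfl fun j _ =>
    Finset.sum_congr rfl fun k _ => ?_
  rw [Finset.sum_comm]
  refine Finset.sum_congr rfl fun a _ => Finset.sum_congr rfl fun b _ =>
    Finset.sum_congr rfl fun c _ => ?_
  ring

lemma kwa_t1 {T : Mx n} (hT : Tᵀ = T) (A B : Mx n) :
    ((T * A * T)ᵀ * B).trace = (Aᵀ * T * B * T).trace := by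
  rw [Matrix.transpose_mul, Matrix.transpose_mul, hT, Matrix.mul_assoc, Matrix.trace_mul_comm]

lemma kwa_t2 {T : Mx n} (hT : Tᵀ = T) (A B : Mx n) :
    (A * T * B * T).trace = (Aᵀ * T * Bᵀ * T).trace := by
  rw [← Matrix.trace_transpose (A * T * B * T)]
  simp only [Matrix.transpose_mul, hT]
  rw [← Matrix.mul_assoc, ← Matrix.mul_assoc, Matrix.mul_assoc (T * Bᵀ), Matrix.trace_mul_comm,
    ← Matrix.mul_assoc, Matrix.mul_assoc T, Matrix.mul_assoc T, Matrix.trace_mul_comm]

/-- With `R p = -(e T U p)`: the matrix in the first sum is `T (R p)ᵀ T + T (kde p) T + T (R p) T`, giving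
`-⟨σρ, w⟩ - ⟨ρ, w⟩ - (⟨w,w⟩ + ⟨σw,w⟩)/2` in some order; the second sum is `⟨ρ, w⟩` by `ip3_slice1`
(`ρ k = -∑_l (e T) k l • U l`, `w k = of fun a b => D a k b`). -/
theorem kT1_eq {T : Mx n} {U D : Fin n → Mx n} {e : Mx n} (h : KD T U D e) :
    kT1 T U D e = -(ip3 T (kw D) (kw D) / 2 + ip3 T (kw D) (sg (kw D)) / 2 +
      ip3 T (kρ T U e) (sg (kw D))) := by
  have hT : Tᵀ = T := Matrix.ext fun a b => h.T b a
  have he : eᵀ = e := Matrix.ext fun a b => h.e b a
  have hU : ∀ p, (U p)ᵀ = U p := fun p => Matrix.ext fun a b => h.U23 p b a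
  set R : Fin n → Mx n := fun p => -(e * T * U p) with hR
  have e1 : ip3 T (kw D) (kw D) = ∑ p, ∑ q, T p q * ((D p)ᵀ * T * D q * T).trace :=
    ip3_slice3 h.T D D
  have e2 : ip3 T (kw D) (sg (kw D)) = ∑ p, ∑ q, T p q * ((D p)ᵀ * T * (D q)ᵀ * T).trace :=
    ip3_slice3 h.T D fun q => (D q)ᵀ
  have e3 : ip3 T (kρ T U e) (sg (kw D)) = ∑ p, ∑ q, T p q * ((R p)ᵀ * T * (D q)ᵀ * T).trace :=
    ip3_slice3 h.T R fun q => (D q)ᵀ
  have e4 : ip3 T (kρ T U e) (kw D) = ∑ p, ∑ q, T p q * ((R p)ᵀ * T * D q * T).trace :=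
    ip3_slice3 h.T R D
  have f1 : ∑ k, ∑ l, ∑ p, ∑ q, T p q *
      (kdτ T U p * e * T + T * kde D p * T + T * e * kdτ T U p) k l * D q k l =
      ip3 T (kρ T U e) (sg (kw D)) + (ip3 T (kw D) (kw D) / 2 + ip3 T (kw D) (sg (kw D)) / 2) +
        ip3 T (kρ T U e) (kw D) := by
    rw [e1, e2, e3, e4, kwa_s3]
    simp only [Finset.sum_div, ← Finset.sum_add_distrib]
    refine Finset.sum_congr rfl fun p _ => ?_
    rw [kwa_s3]
    refine Finset.sum_congr rfl fun q _ => ?_
    have m1 : kdτ T U p * e * T = T * (R p)ᵀ * T := by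
      simp only [kdτ, hR, Matrix.transpose_neg, Matrix.transpose_mul, hT, he, hU, Matrix.neg_mul,
        Matrix.mul_neg, Matrix.mul_assoc]
    have m2 : T * e * kdτ T U p = T * R p * T := by
      simp only [kdτ, hR, Matrix.neg_mul, Matrix.mul_neg, Matrix.mul_assoc]
    have m3 : ∑ k, ∑ l, T p q * (kdτ T U p * e * T + T * kde D p * T + T * e * kdτ T U p) k l *
        D q k l = T p q * ((kdτ T U p * e * T + T * kde D p * T + T * e * kdτ T U p)ᵀ * D q).trace := by
      simp only [kwa_tr, Finset.mul_sum, mul_assoc]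
    rw [m3, m1, m2, Matrix.transpose_add, Matrix.transpose_add, Matrix.add_mul, Matrix.add_mul,
      Matrix.trace_add, Matrix.trace_add, kwa_t1 hT, kwa_t1 hT, kwa_t1 hT, Matrix.transpose_transpose,
      kwa_t2 hT (R p), kde, Matrix.transpose_smul, Matrix.transpose_add, Matrix.transpose_transpose]
    simp only [Matrix.smul_mul, Matrix.add_mul, Matrix.trace_smul, Matrix.trace_add, smul_eq_mul]
    rw [kwa_t2 hT (D p)]
    ring
  have f2 : ∑ k, ∑ l, (T * e * T) k l * ∑ a, ∑ b, kdτ T U l a b * D a k b =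
      ip3 T (kρ T U e) (kw D) := by
    have g1 : kρ T U e = fun k i j => (∑ m, (-(e * T) k m) • U m) i j := by
      funext k i j
      simp only [kρ, Matrix.mul_apply (M := e * T), Matrix.sum_apply, Matrix.smul_apply, smul_eq_mul,
        neg_mul, Finset.sum_neg_distrib]
      congr 1
      refine Finset.sum_congr rfl fun m _ => ?_
      rw [h.U12 j m i, h.U23 m j i]
    have g2 := ip3_slice1 h.T (fun k => ∑ m, (-(e * T) k m) • U m)
      fun k => Matrix.of fun i j => D j k i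
    have g3 : ∀ l k, ∑ a, ∑ b, kdτ T U l a b * D a k b =
        -((U l)ᵀ * T * (Matrix.of fun i j => D j k i) * T).trace := by
      intro l k
      rw [← kwa_t1 hT, kwa_tr, Finset.sum_comm]
      simp only [kdτ, Matrix.neg_apply, neg_mul, Finset.sum_neg_distrib, Matrix.of_apply]
      congr 1
      refine Finset.sum_congr rfl fun a _ => Finset.sum_congr rfl fun b _ => ?_
      congr 1
      have : (T * U l * T)ᵀ = T * U l * T := by
        simp only [Matrix.transpose_mul, hT, hU, Matrix.mul_assoc]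
      exact congrFun (congrFun this a) b
    rw [g1]
    refine Eq.trans ?_ g2.symm
    simp only [g3, Matrix.transpose_sum, Matrix.transpose_smul, Matrix.sum_mul, Matrix.smul_mul,
      Matrix.trace_sum, Matrix.trace_smul, smul_eq_mul, Finset.mul_sum]
    conv_rhs => rw [Finset.sum_comm]
    refine Finset.sum_congr rfl fun k _ => ?_
    conv_rhs => rw [Finset.sum_comm]
    refine Finset.sum_congr rfl fun l _ => ?_
    rw [Matrix.mul_assoc, Matrix.mul_apply, Finset.sum_mul]
    refine Finset.sum_congr rfl fun m _ => ?_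
    rw [h.T m k]; ring
  rw [kT1, f1, f2]
  ring

lemma kwb_sum (A B : Mx n) : ∑ i, ∑ j, A i j * B i j = (Aᵀ * B).trace := by
  simp only [Matrix.trace, Matrix.diag, Matrix.mul_apply, Matrix.transpose_apply]
  exact Finset.sum_comm

lemma kwb_Q {T : Mx n} (hT : ∀ a b, T a b = T b a) (A B : Mx n) :
    ip2 T A B = (Aᵀ * T * B * T).trace := by
  have e : Aᵀ * T * B * T = Aᵀ * (T * B * T) := by simp only [Matrix.mul_assoc]
  rw [e, ← kwb_sum]
  simp only [ip2, Matrix.mul_apply, Finset.sum_mul, Finset.mul_sum]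
  refine Finset.sum_congr rfl fun i _ => Finset.sum_congr rfl fun j _ => ?_
  rw [Finset.sum_comm]
  refine Finset.sum_congr rfl fun b _ => Finset.sum_congr rfl fun a _ => ?_
  rw [hT j b]
  ring

lemma kwb_last {T : Mx n} {U D : Fin n → Mx n} {e : Mx n} (h : KD T U D e) :
    ip3 T (kρ T U e) (kρ T U e) = ∑ i, ∑ j, (e * T * e) i j * (T * kQ T U * T) i j := by
  have hT : Tᵀ = T := Matrix.ext fun a b => h.T b a
  have he : eᵀ = e := Matrix.ext fun a b => h.e b a
  have e1 : kρ T U e = fun k i p => (-∑ m, (e * T) k m • U m) i p := by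
    funext k i p
    simp only [kρ, Matrix.neg_apply, Matrix.sum_apply, Matrix.smul_apply, smul_eq_mul]
    rw [Matrix.mul_apply]
    congr 1
    refine Finset.sum_congr rfl fun m _ => ?_
    rw [h.U12 p m i, h.U23 m p i]
  have e2 : ∀ k l, ((-∑ m, (e * T) k m • U m)ᵀ * T * (-∑ m, (e * T) l m • U m) * T).trace =
      (e * T * kQ T U * (e * T)ᵀ) k l := by
    intro k l
    generalize e * T = C
    rw [Matrix.transpose_neg, Matrix.neg_mul, Matrix.neg_mul, Matrix.mul_neg, neg_neg]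
    simp only [Matrix.transpose_sum, Matrix.transpose_smul, Matrix.sum_mul, Matrix.mul_sum, Matrix.smul_mul, Matrix.mul_smul,
      Matrix.trace_sum, Matrix.trace_smul, smul_eq_mul, ← kwb_Q h.T]
    simp only [Matrix.mul_apply, kQ, Matrix.of_apply, Matrix.transpose_apply, Finset.sum_mul,
      Finset.mul_sum]
    refine Finset.sum_congr rfl fun a _ => Finset.sum_congr rfl fun b _ => ?_
    ring
  rw [e1, ip3_slice1 h.T (fun k => -∑ m, (e * T) k m • U m) (fun k => -∑ m, (e * T) k m • U m)]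
  simp only [e2]
  rw [kwb_sum, kwb_sum]
  simp only [Matrix.transpose_mul, hT, he, ← Matrix.mul_assoc]
  rw [Matrix.trace_mul_comm]
  simp only [← Matrix.mul_assoc]

lemma kwb_tr {T A B : Mx n} (hT : Tᵀ = T) : (Aᵀ * T * B * T).trace = (Bᵀ * T * A * T).trace := by
  rw [← Matrix.trace_transpose]
  simp only [Matrix.transpose_mul, hT, Matrix.transpose_transpose, Matrix.mul_assoc]
  rw [Matrix.trace_mul_comm]
  simp only [Matrix.mul_assoc]

lemma kwb_swap {T : Mx n} (hT : ∀ a b, T a b = T b a) (F : Fin n → Fin n → ℝ) :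
    ∑ p, ∑ q, T p q * F p q = ∑ p, ∑ q, T p q * F q p := by
  rw [Finset.sum_comm]
  exact Finset.sum_congr rfl fun p _ => Finset.sum_congr rfl fun q _ => by rw [hT]

lemma kwb_pt {T e V W E : Mx n} (hT : Tᵀ = T) (he : eᵀ = e) (hV : Vᵀ = V) (hW : Wᵀ = W)
    (hE : Eᵀ = E) :
    ((E * T * e + e * -(T * V * T) * e + e * T * E)ᵀ * -(T * W * T)).trace =
      2 * (E * T * -(e * T * W) * T).trace + (-(e * T * V) * T * -(e * T * W) * T).trace := by
  have h1 : (e * T * E * (T * W * T)).trace = (E * T * (e * T * W) * T).trace := by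
    rw [← Matrix.trace_transpose]
    simp only [Matrix.transpose_mul, hT, he, hE, hW, ← Matrix.mul_assoc]
    rw [Matrix.mul_assoc _ T e, Matrix.mul_assoc _ E, Matrix.trace_mul_comm]
    simp only [← Matrix.mul_assoc]
  simp only [Matrix.transpose_add, Matrix.transpose_mul, Matrix.transpose_neg, hT, he, hV, hE,
    Matrix.add_mul, Matrix.mul_neg, Matrix.neg_mul, neg_neg, Matrix.trace_add, Matrix.trace_neg,
    ← Matrix.mul_assoc] at h1 ⊢
  rw [h1]
  ring

/-- the last sum is `|ρ|²` by `ip3_slice1`; the first one by `ip3_slice3` -/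
theorem kT2_eq {T : Mx n} {U D : Fin n → Mx n} {e : Mx n} (h : KD T U D e) :
    kT2 T U D e = -(ip3 T (kρ T U e) (sg (kw D)) + ip3 T (kρ T U e) (kw D) +
      ip3 T (kρ T U e) (sg (kρ T U e)) + ip3 T (kρ T U e) (kρ T U e)) := by
  have hT : Tᵀ = T := Matrix.ext fun a b => h.T b a
  have he : eᵀ = e := Matrix.ext fun a b => h.e b a
  have hU : ∀ p, (U p)ᵀ = U p := fun p => Matrix.ext fun a b => h.U23 p b a
  have hE : ∀ p, (kde D p)ᵀ = kde D p := fun p => by
    rw [kde, Matrix.transpose_smul, Matrix.transpose_add, Matrix.transpose_transpose, add_comm]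
  have a1 : ip3 T (kρ T U e) (sg (kw D)) =
      ∑ p, ∑ q, T p q * (D p * T * -(e * T * U q) * T).trace := by
    refine (ip3_slice3 h.T (fun p => -(e * T * U p)) fun p => (D p)ᵀ).trans ?_
    rw [kwb_swap h.T]
    simp only [kwb_tr (B := (D _)ᵀ) hT, Matrix.transpose_transpose]
  have a2 : ip3 T (kρ T U e) (kw D) =
      ∑ p, ∑ q, T p q * ((D p)ᵀ * T * -(e * T * U q) * T).trace := by
    refine (ip3_slice3 h.T (fun p => -(e * T * U p)) D).trans ?_
    rw [kwb_swap h.T]
    simp only [kwb_tr (B := D _) hT]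
  have a3 : ip3 T (kρ T U e) (sg (kρ T U e)) =
      ∑ p, ∑ q, T p q * (-(e * T * U p) * T * -(e * T * U q) * T).trace := by
    refine (ip3_slice3 h.T (fun p => -(e * T * U p)) fun p => (-(e * T * U p))ᵀ).trans ?_
    rw [kwb_swap h.T]
    refine Finset.sum_congr rfl fun p _ => Finset.sum_congr rfl fun q _ => ?_
    rw [kwb_tr hT, Matrix.transpose_transpose]
  have a4 : ∑ i, ∑ j, ∑ p, ∑ q,
      T p q * (kde D p * T * e + e * kdτ T U p * e + e * T * kde D p) i j * kdτ T U q i j =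
      ∑ p, ∑ q, T p q *
        ((kde D p * T * e + e * kdτ T U p * e + e * T * kde D p)ᵀ * kdτ T U q).trace := by
    simp only [← kwb_sum, Finset.mul_sum, mul_assoc]
    rw [Finset.sum_comm_cycle, Finset.sum_congr rfl fun _ _ => Finset.sum_comm_cycle]
  rw [kT2, ← kwb_last h, a1, a2, a3, a4, ← Finset.sum_add_distrib, ← Finset.sum_add_distrib, neg_add,
    sub_eq_add_neg]
  congr 2
  refine Finset.sum_congr rfl fun p _ => ?_
  rw [← Finset.sum_add_distrib, ← Finset.sum_add_distrib]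
  refine Finset.sum_congr rfl fun q _ => ?_
  rw [kdτ, kdτ, kwb_pt hT he (hU p) (hU q) (hE p), kde]
  simp only [Matrix.smul_mul, Matrix.add_mul, Matrix.trace_smul, Matrix.trace_add, smul_eq_mul]
  ring

theorem kw_alg {T : Mx n} {U D : Fin n → Mx n} {e : Mx n} (h : KD T U D e) (h0 : ∀ ξ, 0 ≤ qf T ξ) :
    2 * kT1 T U D e + kT2 T U D e ≤ 0 := by
  have hb := bracket_nonneg (T := T) h.T h0 (w := kw D) (ρ := kρ T U e)
    (fun k i j => h.D j k i) (fun k i j => by
      simp only [kρ, Matrix.mul_apply]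
      congr 1
      refine Finset.sum_congr rfl fun m _ => ?_
      rw [h.U12 j m i, h.U23 m j i, h.U12 m i j])
  rw [kT1_eq h, kT2_eq h]
  linarith

end Crest.Agent.R238
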