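import Crest.Agent.R238.Green
import Crest.Agent.R238.KW

/-!
# Row 238 (S0369): CoreW
The inequality `(K*)` for a vector field with `L W_k = r_k + λ W_k`.
-/

set_option autoImplicit false
set_option linter.unusedVariables false

open MeasureTheory Filter Topology Matrix
open Crest.Agent.R285 (bas pd gibbs WPot PolyB SConv)

noncomputable section

namespace Crest.Agent.R238

variable {n : ℕ}

/-- `∂_p H` at `x` -/
def fU (u : Fn n) (x : X n) : Fin n → Mx n := fun p => Matrix.of fun a b => d3 u p a b x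
/-- `∂_p ∂_l W_k` at `x` -/
def fD (W : Fin n → Fn n) (x : X n) : Fin n → Mx n := fun p => Matrix.of fun k l => d2 (W k) p l x

variable {ε C₁ : ℝ} {V u : Fn n} {τ : MF n} {W r : Fin n → Fn n} {lam : ℝ}

lemma kd_of_geo (h : Geo V u τ) (hW : ∀ k, ContDiff ℝ 2 (W k)) (x : X n) :
    KD (mat τ x) (fU u x) (fD W x) (mat (sD W) x) := by
  have h3 : ContDiff ℝ 3 u := h.u5.of_le (by norm_num)
  exact ⟨fun a b => h.symm a b x, fun p a b => congrFun (d3_swap12 h3 p a b) x,
    fun p a b => congrFun (d3_swap23 h3 p a b) x, fun p k l => congrFun (d2_comm (hW k) p l) x,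
    fun a b => by simp only [mat_apply, sD, add_comm]⟩

lemma mat_dm_τ (h : Geo V u τ) (p : Fin n) (x : X n) :
    mat (dm p τ) x = kdτ (mat τ x) (fU u x) p := by
  ext i j
  simp only [mat_apply, dm, h.dτ, kdτ, fU, Matrix.neg_apply, Matrix.mul_apply, Matrix.of_apply,
    Finset.sum_mul]
  rw [Finset.sum_comm]

lemma mat_dm_sD (hW : ∀ k, ContDiff ℝ 2 (W k)) (p : Fin n) (x : X n) :
    mat (dm p (sD W)) x = kde (fD W x) p := by
  ext k l
  have e : sD W k l = fun x => 1 / 2 * (pd l (W k) x + pd k (W l) x) := by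
    funext x; simp only [sD]; ring
  have d1 := differentiable_pd (hW k) l
  have d2 := differentiable_pd (hW l) k
  simp only [mat_apply, dm, e, pd_cmul p _ (d1.fun_add d2), R285.pd_add p d1 d2, kde, fD, Matrix.smul_apply,
    Matrix.add_apply, Matrix.transpose_apply, Matrix.of_apply, smul_eq_mul]

lemma pg_sD {k : ℕ} (hW : ∀ l, PG (k + 1) (W l)) (a b : Fin n) : PG k (sD W a b) :=
  (((hW a).pd b).add ((hW b).pd a)).div_const 2

/-- matrix valued functions with continuous entries of polynomial growth -/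
def corewa_PM (M : X n → Mx n) : Prop := ∀ i j, PG 0 fun x => M x i j

lemma corewa_mul {A B : X n → Mx n} (hA : corewa_PM A) (hB : corewa_PM B) :
    corewa_PM fun x => A x * B x := fun i j =>
  (PG.sum fun a => (hA i a).mul (hB a j)).congr fun x => (Matrix.mul_apply).symm

lemma corewa_add {A B : X n → Mx n} (hA : corewa_PM A) (hB : corewa_PM B) :
    corewa_PM fun x => A x + B x := fun i j => (hA i j).add (hB i j)

lemma corewa_τ (h : Nice ε C₁ V u τ) : corewa_PM (mat τ) := fun i j => (h.τpg i j).zero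

lemma corewa_U (h : Nice ε C₁ V u τ) (p : Fin n) : corewa_PM fun x => fU u x p :=
  fun i j => (h.Upg p i j).zero

lemma corewa_D (hW : ∀ k, PG 3 (W k)) (p : Fin n) : corewa_PM fun x => fD W x p :=
  fun i j => ((hW i).d2 (k := 1) p j).zero

lemma corewa_e (hW : ∀ k, PG 3 (W k)) : corewa_PM (mat (sD W)) := fun i j => (pg_sD (k := 2) hW i j).zero

lemma corewa_dτ (h : Nice ε C₁ V u τ) (p : Fin n) : corewa_PM fun x => kdτ (mat τ x) (fU u x) p :=
  fun i j => (corewa_mul (corewa_mul (corewa_τ h) (corewa_U h p)) (corewa_τ h) i j).neg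

lemma corewa_de (hW : ∀ k, PG 3 (W k)) (p : Fin n) : corewa_PM fun x => kde (fD W x) p :=
  fun i j => ((corewa_D hW p i j).add (corewa_D hW p j i)).cmul (1 / 2)

lemma corewa_Q (h : Nice ε C₁ V u τ) : corewa_PM fun x => kQ (mat τ x) (fU u x) :=
  fun i j => PG.ip2 (corewa_τ h) (corewa_U h i) (corewa_U h j)

/-- unfold to entries (`Matrix.mul_apply`, ...) and use the `PG` algebra; or rewrite with `mat_mm`,
`mat_dm_τ`, `mat_dm_sD` backwards -/
lemma pg_kT1 (h : Nice ε C₁ V u τ) (hW : ∀ k, PG 3 (W k)) :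
    PG 0 fun x => kT1 (mat τ x) (fU u x) (fD W x) (mat (sD W) x) := by
  have T := corewa_τ h
  have e := corewa_e hW
  exact (PG.sum fun k => PG.sum fun l => PG.sum fun p => PG.sum fun q => ((T p q).mul
    (corewa_add (corewa_add (corewa_mul (corewa_mul (corewa_dτ h p) e) T)
      (corewa_mul (corewa_mul T (corewa_de hW p)) T)) (corewa_mul (corewa_mul T e) (corewa_dτ h p)) k l)).mul
    (corewa_D hW q k l)).neg.add
    (PG.sum fun k => PG.sum fun l => (corewa_mul (corewa_mul T e) T k l).mul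
      (PG.sum fun a => PG.sum fun b => (corewa_dτ h l a b).mul (corewa_D hW a k b)))

lemma pg_kT2 (h : Nice ε C₁ V u τ) (hW : ∀ k, PG 3 (W k)) :
    PG 0 fun x => kT2 (mat τ x) (fU u x) (fD W x) (mat (sD W) x) := by
  have T := corewa_τ h
  have e := corewa_e hW
  exact (PG.sum fun i => PG.sum fun j => PG.sum fun p => PG.sum fun q => ((T p q).mul
    (corewa_add (corewa_add (corewa_mul (corewa_mul (corewa_de hW p) T) e)
      (corewa_mul (corewa_mul e (corewa_dτ h p)) e)) (corewa_mul (corewa_mul e T) (corewa_de hW p)) i j)).mul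
    (corewa_dτ h q i j)).neg.sub
    (PG.sum fun i => PG.sum fun j => (corewa_mul (corewa_mul e T) e i j).mul
      (corewa_mul (corewa_mul T (corewa_Q h)) T i j))

lemma corewb_ip2 (T e g : Mx n) (hT : ∀ a b, T a b = T b a)
    (he : ∀ k l, e k l = (g k l + g l k) / 2) :
    ip2 T e e = ∑ k, ∑ l, (T * e * T) k l * g k l := by
  have h1 : Tᵀ = T := by ext a b; exact hT b a
  have h2 : eᵀ = e := by ext a b; rw [transpose_apply, he, he, add_comm]
  have h3 : ∀ k l, (T * e * T) k l = (T * e * T) l k := fun k l => by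
    have : (T * e * T)ᵀ = T * e * T := by
      rw [transpose_mul, transpose_mul, h1, h2, Matrix.mul_assoc]
    exact (congrFun (congrFun this l) k)
  have h4 : ∑ k, ∑ l, (T * e * T) k l * g l k = ∑ k, ∑ l, (T * e * T) k l * g k l := by
    rw [Finset.sum_comm]
    exact Finset.sum_congr rfl fun k _ => Finset.sum_congr rfl fun l _ => by rw [h3 l k]
  rw [ip2_eq_sum T e e hT]
  have h5 : ∑ k, ∑ l, (T * e * T) k l * e k l =
      (∑ k, ∑ l, (T * e * T) k l * g k l + ∑ k, ∑ l, (T * e * T) k l * g l k) / 2 := by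
    rw [← Finset.sum_add_distrib, Finset.sum_div]
    refine Finset.sum_congr rfl fun k _ => ?_
    rw [← Finset.sum_add_distrib, Finset.sum_div]
    refine Finset.sum_congr rfl fun l _ => ?_
    generalize (T * e * T) k l = s
    rw [he]
    ring
  rw [h5, h4]
  ring

lemma corewb_eq (h : Nice ε C₁ V u τ) (hW : ∀ k, PG 3 (W k)) (hr : ∀ k, PG 1 (r k))
    (he : ∀ k x, Lop τ (W k) x = r k x + lam * W k x) (k l : Fin n) (x : X n) :
    (1 + lam) * pd l (W k) x = Lop τ (pd l (W k)) x +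
      ∑ a, ∑ b, pd l (τ a b) x * d2 (W k) a b x - pd l (r k) x := by
  have h1 := congrFun (pd_Lop h.geo.τdiff (hW k).contDiff l) x
  have h2 : Lop τ (W k) = fun x => r k x + lam * W k x := funext (he k)
  have hd : Differentiable ℝ (W k) := (hW k).diff
  rw [h2, R285.pd_add l (hr k).diff (hd.const_mul lam), pd_cmul l lam hd] at h1
  simp only at h1
  linarith

lemma corewb_kT1 (h : Nice ε C₁ V u τ) (hW : ∀ k, PG 3 (W k)) (x : X n) :
    kT1 (mat τ x) (fU u x) (fD W x) (mat (sD W) x) =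
      -∑ k, ∑ l, Gam τ (mm (mm τ (sD W)) τ k l) (pd l (W k)) x +
        ∑ k, ∑ l, mm (mm τ (sD W)) τ k l x * ∑ a, ∑ b, pd l (τ a b) x * d2 (W k) a b x := by
  have hW2 : ∀ k, ContDiff ℝ 2 (W k) := fun k => ((hW k).mono (by norm_num : 2 ≤ 3)).contDiff
  have he : ∀ a b, PG 1 (sD W a b) := pg_sD fun l => (hW l).mono (by norm_num)
  have hτ : ∀ a b, PG 1 (τ a b) := fun a b => (h.τpg a b).mono (by norm_num)
  have h1 : ∀ p k l, pd p (mm (mm τ (sD W)) τ k l) x =
      (kdτ (mat τ x) (fU u x) p * mat (sD W) x * mat τ x + mat τ x * kde (fD W x) p * mat τ x +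
        mat τ x * mat (sD W) x * kdτ (mat τ x) (fU u x) p) k l := by
    intro p k l
    have := mat_dm_mm (fun i j => (PG.mm hτ he i j).diff) (fun i j => (hτ i j).diff) p x
    rw [mat_dm_mm (fun i j => (hτ i j).diff) (fun i j => (he i j).diff), mat_mm,
      mat_dm_τ h.geo, mat_dm_sD hW2, Matrix.add_mul] at this
    exact congrFun (congrFun this k) l
  have h2 : ∀ k l, mm (mm τ (sD W)) τ k l x = (mat τ x * mat (sD W) x * mat τ x) k l := by
    intro k l
    rw [← mat_mm, ← mat_mm, mat_apply]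
  have h3 : ∀ l a b, pd l (τ a b) x = kdτ (mat τ x) (fU u x) l a b := fun l a b =>
    congrFun (congrFun (mat_dm_τ h.geo l x) a) b
  simp only [Gam, h1, h2, h3]
  rfl

/-- `S = mm (mm τ (sD W)) τ`.  Differentiate the equation (`pd_Lop`):
`∂_l r_k + λ ∂_l W_k = L (∂_l W_k) - ∂_l W_k + ∂_l τ : D² W_k`; multiply by `S k l`, integrate, `green` with
`F = S k l`, `G = ∂_l W_k`, `mat_dm_mm`; `∑ S k l ∂_l W_k = ip2 τ e e` (`ip2_eq_sum`, `S` symmetric). -/
theorem kI (h : Nice ε C₁ V u τ) (hW : ∀ k, PG 3 (W k)) (hr : ∀ k, PG 1 (r k))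
    (he : ∀ k x, Lop τ (W k) x = r k x + lam * W k x) :
    (1 + lam) * ∫ x, ip2 (fun a b => τ a b x) (fun a b => sD W a b x) (fun a b => sD W a b x) ∂gibbs V =
      ∫ x, kT1 (mat τ x) (fU u x) (fD W x) (mat (sD W) x) ∂gibbs V -
        ∫ x, ∑ k, ∑ l, (mat τ x * mat (sD W) x * mat τ x) k l * pd l (r k) x ∂gibbs V := by
  have he1 : ∀ a b, PG 1 (sD W a b) := pg_sD fun l => (hW l).mono (by norm_num)
  have hτ : ∀ a b, PG 1 (τ a b) := fun a b => (h.τpg a b).mono (by norm_num)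
  have hτ0 : ∀ a b, PG 0 (τ a b) := fun a b => (hτ a b).zero
  have hS : ∀ k l, PG 1 (mm (mm τ (sD W)) τ k l) := PG.mm (PG.mm hτ he1) hτ
  have h2 : ∀ x k l, (mat τ x * mat (sD W) x * mat τ x) k l = mm (mm τ (sD W)) τ k l x := by
    intro x k l
    rw [← mat_mm, ← mat_mm, mat_apply]
  have hA : ∀ k l, PG 0 fun x => mm (mm τ (sD W)) τ k l x * Lop τ (pd l (W k)) x := fun k l =>
    (hS k l).zero.mul (PG.Lop hτ0 ((hW k).pd l))
  have hB : ∀ k l, PG 0 (Gam τ (mm (mm τ (sD W)) τ k l) (pd l (W k))) := fun k l =>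
    PG.Gam hτ0 (hS k l) (((hW k).pd l).mono (by norm_num))
  have hZ : ∫ x, ∑ k, ∑ l, (mm (mm τ (sD W)) τ k l x * Lop τ (pd l (W k)) x +
      Gam τ (mm (mm τ (sD W)) τ k l) (pd l (W k)) x) ∂gibbs V = 0 := by
    rw [integral_finsetSum _ fun k _ =>
      (PG.sum fun l => (hA k l).add (hB k l)).integrable h.wpot]
    refine Finset.sum_eq_zero fun k _ => ?_
    rw [integral_finsetSum _ fun l _ => ((hA k l).add (hB k l)).integrable h.wpot]
    refine Finset.sum_eq_zero fun l _ => ?_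
    rw [integral_add ((hA k l).integrable h.wpot) ((hB k l).integrable h.wpot),
      h.green (hS k l) ((hW k).pd l), neg_add_cancel]
  have i1 := (pg_kT1 h hW).integrable h.wpot
  have i2 : Integrable (fun x => ∑ k, ∑ l, (mat τ x * mat (sD W) x * mat τ x) k l * pd l (r k) x)
      (gibbs V) := by
    simp only [h2]
    exact (PG.sum fun k => PG.sum fun l => (hS k l).zero.mul ((hr k).pd l)).integrable h.wpot
  have i3 := (PG.sum fun k => PG.sum fun l => (hA k l).add (hB k l)).integrable h.wpot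
  rw [← integral_const_mul, ← add_zero (_ - _), ← hZ, ← integral_sub i1 i2]
  refine Eq.trans ?_ (integral_add (i1.sub i2) i3)
  refine integral_congr_ae (Eventually.of_forall fun x => ?_)
  have e1 : ip2 (fun a b => τ a b x) (fun a b => sD W a b x) (fun a b => sD W a b x) =
      ∑ k, ∑ l, (mat τ x * mat (sD W) x * mat τ x) k l * pd l (W k) x :=
    corewb_ip2 (mat τ x) (mat (sD W) x) (Matrix.of fun k l => pd l (W k) x)
      (fun a b => h.geo.symm a b x) fun k l => rfl
  simp only [e1, corewb_kT1 h hW x, h2]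
  have e2 : ∀ k l, (1 + lam) * (mm (mm τ (sD W)) τ k l x * pd l (W k) x) =
      mm (mm τ (sD W)) τ k l x * Lop τ (pd l (W k)) x +
        mm (mm τ (sD W)) τ k l x * ∑ a, ∑ b, pd l (τ a b) x * d2 (W k) a b x -
        mm (mm τ (sD W)) τ k l x * pd l (r k) x := fun k l => by
    rw [mul_left_comm, corewb_eq h hW hr he k l x]
    ring
  rw [Finset.mul_sum]
  simp only [Finset.mul_sum _ _ (1 + lam), e2, Finset.sum_add_distrib, Finset.sum_sub_distrib]
  ring

lemma corewc_tr (A B : Mx n) : ∑ i, ∑ j, A i j * B i j = (A * Bᵀ).trace := by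
  simp [Matrix.trace, Matrix.mul_apply]

lemma corewc_one {T e : Mx n} (hT : ∀ a b, T a b = T b a) (he : ∀ a b, e a b = e b a) :
    ∑ i, ∑ j, (e * T * e) i j * T i j = ip2 T e e := by
  have h1 : Tᵀ = T := by ext a b; exact hT b a
  have h2 : eᵀ = e := by ext a b; exact he b a
  rw [ip2_eq_sum T e e hT, corewc_tr, corewc_tr, h1, h2, Matrix.trace_mul_comm]
  simp only [Matrix.mul_assoc]

lemma corewc_two {T : Mx n} (hT : ∀ a b, T a b = T b a) (e V : Mx n) :
    ∑ i, ∑ j, (e * T * e) i j * (T * V * T) i j = ∑ i, ∑ j, V i j * (T * e * T * e * T) i j := by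
  have h1 : Tᵀ = T := by ext a b; exact hT b a
  simp_rw [mul_comm (V _ _)]
  rw [corewc_tr, corewc_tr, Matrix.transpose_mul, Matrix.transpose_mul, h1,
    show e * T * e * (T * (Vᵀ * T)) = (e * T * e * T * Vᵀ) * T by simp only [Matrix.mul_assoc],
    Matrix.trace_mul_comm]
  simp only [Matrix.mul_assoc]

/-- `M = mm (mm e τ) e`; `green` with `F = M i j`, `G = τ i j`, and `Geo.Lτ`;
`∑ M i j τ i j = ip2 τ e e`, `∑ M i j (τ V₂ τ) i j = ∑ V₂ i j (τ e τ e τ) i j`. -/
theorem kII (h : Nice ε C₁ V u τ) (hW : ∀ k, PG 3 (W k)) :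
    ∫ x, kT2 (mat τ x) (fU u x) (fD W x) (mat (sD W) x) ∂gibbs V =
      -∫ x, ip2 (fun a b => τ a b x) (fun a b => sD W a b x) (fun a b => sD W a b x) ∂gibbs V +
        ∫ x, ∑ i, ∑ j, d2 V i j x *
          (mat τ x * mat (sD W) x * mat τ x * mat (sD W) x * mat τ x) i j ∂gibbs V := by
  have he2 : ∀ a b, PG 2 (sD W a b) := pg_sD hW
  have hτ2 : ∀ a b, PG 2 (τ a b) := fun a b => (h.τpg a b).mono (by norm_num)
  have hW2 : ∀ k, ContDiff ℝ 2 (W k) := fun k => ((hW k).mono (show 2 ≤ 3 by norm_num)).contDiff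
  have hM : ∀ i j, PG 2 (mm (mm (sD W) τ) (sD W) i j) := PG.mm (PG.mm he2 hτ2) he2
  have hM1 : ∀ i j, PG 1 (mm (mm (sD W) τ) (sD W) i j) := fun i j => (hM i j).mono (by norm_num)
  have hτ0 : ∀ a b, PG 0 (τ a b) := fun a b => (hτ2 a b).zero
  have he0 : ∀ a b, PG 0 (sD W a b) := fun a b => (he2 a b).zero
  have hL : ∀ i j, PG 0 fun x => mm (mm (sD W) τ) (sD W) i j x * Lop τ (τ i j) x := fun i j =>
    (hM i j).zero.mul (PG.Lop hτ0 (hτ2 i j))
  have hG : ∀ i j, PG 0 (Gam τ (mm (mm (sD W) τ) (sD W) i j) (τ i j)) := fun i j =>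
    PG.Gam hτ0 (hM1 i j) ((hτ2 i j).mono (by norm_num))
  have hZ : ∫ x, ∑ i, ∑ j, (mm (mm (sD W) τ) (sD W) i j x * Lop τ (τ i j) x +
      Gam τ (mm (mm (sD W) τ) (sD W) i j) (τ i j) x) ∂gibbs V = 0 := by
    rw [integral_finsetSum _ fun i _ => (PG.sum fun j => (hL i j).add (hG i j)).integrable h.wpot]
    refine Finset.sum_eq_zero fun i _ => ?_
    rw [integral_finsetSum _ fun j _ => ((hL i j).add (hG i j)).integrable h.wpot]
    refine Finset.sum_eq_zero fun j _ => ?_
    rw [integral_add ((hL i j).integrable h.wpot) ((hG i j).integrable h.wpot),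
      h.green (hM1 i j) (hτ2 i j), neg_add_cancel]
  have hZi := (PG.sum fun i => PG.sum fun j => (hL i j).add (hG i j)).integrable h.wpot
  have hI := (PG.ip2 hτ0 he0 he0).integrable h.wpot
  have hB : Integrable (fun x => ∑ i, ∑ j, d2 V i j x *
      (mat τ x * mat (sD W) x * mat τ x * mat (sD W) x * mat τ x) i j) (gibbs V) := by
    have hV0 : ∀ i j, PG 0 (d2 V i j) := fun i j => (h.Vpg.mono (show 0 + 2 ≤ 3 by norm_num)).d2 i j
    refine (PG.congr (PG.sum fun i => PG.sum fun j => (hV0 i j).mul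
      (PG.mm (PG.mm (PG.mm (PG.mm hτ0 he0) hτ0) he0) hτ0 i j)) fun x => ?_).integrable h.wpot
    simp only [← mat_mm, mat_apply]
  suffices hpt : ∀ x, kT2 (mat τ x) (fU u x) (fD W x) (mat (sD W) x) =
      (∑ i, ∑ j, d2 V i j x * (mat τ x * mat (sD W) x * mat τ x * mat (sD W) x * mat τ x) i j -
        ip2 (fun a b => τ a b x) (fun a b => sD W a b x) (fun a b => sD W a b x)) -
      ∑ i, ∑ j, (mm (mm (sD W) τ) (sD W) i j x * Lop τ (τ i j) x +
        Gam τ (mm (mm (sD W) τ) (sD W) i j) (τ i j) x) by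
    simp only [hpt]
    have hBI : Integrable (fun x => ∑ i, ∑ j, d2 V i j x *
        (mat τ x * mat (sD W) x * mat τ x * mat (sD W) x * mat τ x) i j -
        ip2 (fun a b => τ a b x) (fun a b => sD W a b x) (fun a b => sD W a b x)) (gibbs V) :=
      hB.sub hI
    rw [integral_sub hBI hZi, integral_sub hB hI, hZ]
    ring
  intro x
  have hd : ∀ p i j, pd p (mm (mm (sD W) τ) (sD W) i j) x =
      (kde (fD W x) p * mat τ x * mat (sD W) x + mat (sD W) x * kdτ (mat τ x) (fU u x) p * mat (sD W) x +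
        mat (sD W) x * mat τ x * kde (fD W x) p) i j := by
    intro p i j
    have h1 := mat_dm_mm (fun a b => (PG.mm he2 hτ2 a b).diff) (fun a b => (he2 a b).diff) p x
    rw [mat_dm_mm (fun a b => (he2 a b).diff) (fun a b => (hτ2 a b).diff), mat_dm_τ h.geo,
      mat_dm_sD hW2, mat_mm, add_mul] at h1
    exact congrFun (congrFun h1 i) j
  have hdτ : ∀ q i j, pd q (τ i j) x = kdτ (mat τ x) (fU u x) q i j := fun q i j =>
    congrFun (congrFun (mat_dm_τ h.geo q x) i) j
  have hLτ : ∀ i j, Lop τ (τ i j) x = -mat τ x i j +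
      (mat τ x * kQ (mat τ x) (fU u x) * mat τ x) i j + (mat τ x * mat (d2 V) x * mat τ x) i j := by
    intro i j
    rw [h.geo.Lτ, add_assoc, ← Matrix.add_apply, ← add_mul, ← mul_add]
    simp only [Matrix.mul_apply, Finset.sum_mul]
    rw [Finset.sum_comm]
    rfl
  have hMx : ∀ i j, mm (mm (sD W) τ) (sD W) i j x = (mat (sD W) x * mat τ x * mat (sD W) x) i j := by
    intro i j
    rw [← mat_mm, ← mat_mm, mat_apply]
  have hk := kd_of_geo h.geo hW2 x
  have a1 := corewc_one hk.T hk.e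
  have a2 := corewc_two hk.T (mat (sD W) x) (mat (d2 V) x)
  simp only [Gam, hd, hdτ, hLτ, hMx, kT2, mul_add, mul_neg, Finset.sum_add_distrib,
    Finset.sum_neg_distrib, a1, a2]
  simp only [mat_apply]
  have a3 : ip2 (mat τ x) (mat (sD W) x) (mat (sD W) x) =
      ip2 (fun a b => τ a b x) (fun a b => sD W a b x) fun a b => sD W a b x := rfl
  rw [a3]
  ring

lemma corewa_int {μ : Measure (X n)} {f₁ f₂ f₃ f₄ g : Fn n} (i1 : Integrable f₁ μ) (i2 : Integrable f₂ μ)
    (i3 : Integrable f₃ μ) (i4 : Integrable f₄ μ) (ig : Integrable g μ)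
    (h : ∀ x, 2 * f₁ x + f₂ x - 2 * f₃ x - f₄ x ≤ g x) :
    2 * ∫ x, f₁ x ∂μ + ∫ x, f₂ x ∂μ - 2 * ∫ x, f₃ x ∂μ - ∫ x, f₄ x ∂μ ≤ ∫ x, g x ∂μ := by
  have j1 : Integrable (fun x => 2 * f₁ x + f₂ x) μ := (i1.const_mul 2).add i2
  have j2 : Integrable (fun x => 2 * f₁ x + f₂ x - 2 * f₃ x) μ := j1.sub (i3.const_mul 2)
  rw [← integral_const_mul, ← integral_const_mul, ← integral_add (i1.const_mul 2) i2,
    ← integral_sub j1 (i3.const_mul 2), ← integral_sub j2 i4]
  exact integral_mono (j2.sub i4) ig h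

/-- `2 kI + kII`, `kw_alg`, `ip2_nonneg`, then `hβ` with `e = mat (sD W) x` (`integral_mono`) -/
theorem kstar (h : Nice ε C₁ V u τ) (hl : 0 ≤ lam) (hW : ∀ k, PG 3 (W k)) (hr : ∀ k, PG 1 (r k))
    (he : ∀ k x, Lop τ (W k) x = r k x + lam * W k x) {β : Fn n} (hβ0 : PG 0 β)
    (hβ : ∀ x (e : Mx n), (∀ k l, e k l = e l k) →
      -2 * ∑ k, ∑ l, (mat τ x * e * mat τ x) k l * pd l (r k) x -
        ∑ i, ∑ j, d2 V i j x * (mat τ x * e * mat τ x * e * mat τ x) i j ≤ β x) :
    ∫ x, ip2 (fun a b => τ a b x) (fun a b => sD W a b x) (fun a b => sD W a b x) ∂gibbs V ≤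
      ∫ x, β x ∂gibbs V := by
  have T := corewa_τ h
  have e := corewa_e hW
  have hW2 : ∀ k, ContDiff ℝ 2 (W k) := fun k => ((hW k).mono (k := 2) (by norm_num)).contDiff
  have i1 := (pg_kT1 h hW).integrable h.wpot
  have i2 := (pg_kT2 h hW).integrable h.wpot
  have i3 := (PG.sum fun k => PG.sum fun l => (corewa_mul (corewa_mul T e) T k l).mul
    ((hr k).pd l)).integrable h.wpot
  have i4 := (PG.sum fun i => PG.sum fun j => (h.Vpg.d2 (k := 1) i j).zero.mul
    (corewa_mul (corewa_mul (corewa_mul (corewa_mul T e) T) e) T i j)).integrable h.wpot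
  have h0 : 0 ≤ ∫ x, ip2 (fun a b => τ a b x) (fun a b => sD W a b x) (fun a b => sD W a b x) ∂gibbs V :=
    integral_nonneg fun x => ip2_nonneg (fun a b => h.geo.symm a b x) (h.geo.psd x) _
  have key := corewa_int i1 i2 i3 i4 (hβ0.integrable h.wpot) fun x => by
    have k := kd_of_geo h.geo hW2 x
    have a1 := kw_alg k (h.geo.psd x)
    have a2 := hβ x _ k.e
    linarith
  beta_reduce at key
  have k1 := kI h hW hr he
  have k2 := kII h hW
  have := mul_nonneg hl h0
  linarith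

end Crest.Agent.R238
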