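import Crest.Agent.R238.Slab
import Crest.Agent.R238.Bnd

/-!
# Row 238 (S0369): Cut
Cut-off functions and admissible potentials that agree with `slab` on a large ball.
-/

set_option autoImplicit false
set_option linter.unusedVariables false

open MeasureTheory Filter Topology Matrix
open Crest.Agent.R285 (bas pd gibbs WPot PolyB SConv)

noncomputable section

namespace Crest.Agent.R238

variable {n : ℕ}

/-- `ζ x = φ (R⁻¹ • x)` with `φ : ContDiffBump (0 : X n)`, `rIn = 2`, `rOut = 3` (`ContDiffBump.neg`,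
`pd_affine`; the derivatives of `φ` are bounded, e.g. by `mem_of_compact`) -/
theorem exists_cut (n : ℕ) : ∃ K : ℝ, 0 < K ∧ ∀ R : ℝ, 1 ≤ R → ∃ ζ : Fn n, (∀ m : ℕ, ContDiff ℝ m ζ) ∧
    Ev ζ ∧ (∀ x, 0 ≤ ζ x ∧ ζ x ≤ 1) ∧ (∀ x, ‖x‖ ≤ 2 * R → ζ x = 1) ∧ (∀ x, 3 * R ≤ ‖x‖ → ζ x = 0) ∧
    ∀ a x, |pd a ζ x| ≤ K := by
  let φ : ContDiffBump (0 : X n) := ⟨2, 3, by norm_num, by norm_num⟩
  have hφ : ∀ m : ℕ, ContDiff ℝ m (φ : X n → ℝ) := fun m => φ.contDiff
  have hd : Differentiable ℝ (φ : X n → ℝ) := (hφ 1).differentiable (by simp)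
  have hm : Mem 1 (φ : X n → ℝ) := mem_of_compact (hφ _) φ.hasCompactSupport
  choose A B hA hB using hm.2.2
  have hA0 : ∀ a, 0 ≤ A a := fun a => (abs_nonneg _).trans (hA a 0)
  refine ⟨∑ a, A a + 1, by linarith [Finset.sum_nonneg fun a (_ : a ∈ Finset.univ) => hA0 a],
    fun R hR => ?_⟩
  have hR0 : 0 < R := by linarith
  have hn : ∀ x : X n, ‖R⁻¹ • x + 0‖ = ‖x‖ / R := fun x => by
    rw [add_zero, norm_smul, Real.norm_eq_abs, abs_of_pos (inv_pos.2 hR0)]; ring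
  refine ⟨fun x => φ (R⁻¹ • x + 0), fun m => (hφ m).comp (by fun_prop), fun x => ?_,
    fun x => ⟨φ.nonneg, φ.le_one⟩, fun x hx => ?_, fun x hx => ?_, fun a x => ?_⟩
  · simp only [add_zero, smul_neg]
    exact φ.neg _
  · refine φ.one_of_mem_closedBall ?_
    rw [mem_closedBall_zero_iff, hn, div_le_iff₀ hR0]
    exact hx
  · refine φ.zero_of_le_dist ?_
    rw [dist_zero_right, hn, le_div_iff₀ hR0]
    exact hx
  · rw [pd_affine a hd]
    dsimp only
    rw [abs_mul, abs_of_pos (inv_pos.2 hR0)]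
    have h1 : R⁻¹ ≤ 1 := inv_le_one_of_one_le₀ hR
    have h2 : A a ≤ ∑ a, A a := Finset.single_le_sum (fun a _ => hA0 a) (Finset.mem_univ a)
    have h3 := mul_le_mul h1 (hA a (R⁻¹ • x + 0)) (abs_nonneg _) zero_le_one
    linarith

lemma mem_cut_mul {ζ f : Fn n} {R : ℝ} (hζ : ∀ m : ℕ, ContDiff ℝ m ζ) (h0 : ∀ x, R ≤ ‖x‖ → ζ x = 0)
    (hf : ∀ m : ℕ, ContDiff ℝ m f) (k : ℕ) : Mem k fun x => ζ x * f x := by
  refine mem_of_compact ((hζ _).mul (hf _)) ?_
  refine HasCompactSupport.intro (isCompact_closedBall (0 : X n) R) fun x hx => ?_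
  rw [mem_closedBall_zero_iff, not_le] at hx
  rw [h0 x hx.le, zero_mul]

/-- `G q = ∫₀^q g`, `g q = smoothTransition ((q - R²)/R²) / 2` (`Real.smoothTransition.monotone`) -/
theorem exists_G {R : ℝ} (hR : 0 < R) : ∃ (G g g' : ℝ → ℝ) (c : ℝ), (∀ m : ℕ, ContDiff ℝ m G) ∧
    (∀ q, HasDerivAt G (g q) q) ∧ (∀ q, HasDerivAt g (g' q) q) ∧ (∀ q, 0 ≤ g q) ∧ (∀ q, 0 ≤ g' q) ∧
    (∀ q, 0 ≤ G q) ∧ (∀ q, q ≤ R ^ 2 → G q = 0) ∧ (∀ q, 2 * R ^ 2 ≤ q → g q = 1 / 2) ∧
    ∀ q, 2 * R ^ 2 ≤ q → G q = q / 2 - c := by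
  have hR2 : 0 < R ^ 2 := by positivity
  set g : ℝ → ℝ := fun q => Real.smoothTransition ((q - R ^ 2) / R ^ 2) / 2 with hg
  have hgs : ∀ m : ℕ, ContDiff ℝ m g := fun m =>
    ((Real.smoothTransition.contDiff (n := m)).comp (by fun_prop)).div_const 2
  have hgc : Continuous g := (hgs 0).continuous
  have hgm : Monotone g := fun a b hab => by
    have : (a - R ^ 2) / R ^ 2 ≤ (b - R ^ 2) / R ^ 2 := by gcongr
    have := Real.smoothTransition.monotone this
    simp only [hg]; linarith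
  have hg0 : ∀ q, 0 ≤ g q := fun q => by
    have := Real.smoothTransition.nonneg ((q - R ^ 2) / R ^ 2)
    simp only [hg]; linarith
  have hgz : ∀ q, q ≤ R ^ 2 → g q = 0 := fun q hq => by
    simp only [hg]
    rw [Real.smoothTransition.zero_of_nonpos (div_nonpos_of_nonpos_of_nonneg (by linarith) hR2.le)]
    simp
  have hg1 : ∀ q, 2 * R ^ 2 ≤ q → g q = 1 / 2 := fun q hq => by
    simp only [hg]
    rw [Real.smoothTransition.one_of_one_le ((le_div_iff₀ hR2).2 (by linarith))]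
  set G : ℝ → ℝ := fun q => ∫ t in (0 : ℝ)..q, g t with hG
  have hGd : ∀ q, HasDerivAt G (g q) q := fun q => (hgc.integral_hasStrictDerivAt 0 q).hasDerivAt
  have hGz : ∀ q, q ≤ R ^ 2 → G q = 0 := fun q hq => by
    simp only [hG]
    rw [intervalIntegral.integral_congr (g := fun _ => 0) fun t ht =>
      hgz t (ht.2.trans (max_le hR2.le hq))]
    simp
  refine ⟨G, g, deriv g, R ^ 2 - G (2 * R ^ 2), fun m => ?_, hGd,
    fun q => (((hgs 1).differentiable (by simp)) q).hasDerivAt, hg0, fun q => hgm.deriv_nonneg,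
    fun q => ?_, hGz, hg1, fun q hq => ?_⟩
  · have e : deriv G = g := funext fun q => (hGd q).deriv
    have : ContDiff ℝ ((m : WithTop ℕ∞) + 1) G :=
      contDiff_succ_iff_deriv.2 ⟨fun q => (hGd q).differentiableAt, by simp, e ▸ hgs m⟩
    exact this.of_le (by simp)
  · rcases le_total q 0 with h | h
    · exact (hGz q (by linarith)).ge
    · exact intervalIntegral.integral_nonneg h fun t _ => hg0 t
  · have e := intervalIntegral.integral_add_adjacent_intervals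
      (hgc.intervalIntegrable (μ := volume) 0 (2 * R ^ 2)) (hgc.intervalIntegrable (2 * R ^ 2) q)
    rw [intervalIntegral.integral_congr (a := 2 * R ^ 2) (b := q) (g := fun _ => 1 / 2) fun t ht =>
      hg1 t ((le_min le_rfl hq).trans ht.1)] at e
    simp only [intervalIntegral.integral_const, smul_eq_mul] at e
    simp only [hG]
    linarith

/-- Hessian of a radial function -/
lemma qf_d2_radial {G g g' : ℝ → ℝ} (h1 : ∀ q, HasDerivAt G (g q) q) (h2 : ∀ q, HasDerivAt g (g' q) q)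
    (x : X n) (ξ : Fin n → ℝ) : qf (fun i j => d2 (fun y => G (‖y‖ ^ 2)) i j x) ξ =
      2 * g (‖x‖ ^ 2) * ssq ξ + 4 * g' (‖x‖ ^ 2) * (∑ k, x k * ξ k) ^ 2 := by
  have hn : Differentiable ℝ fun y : X n => ‖y‖ ^ 2 := (contDiff_normsq 1).differentiable (by simp)
  have hg : Differentiable ℝ fun y : X n => g (‖y‖ ^ 2) := fun y =>
    (h2 _).differentiableAt.comp y (hn y)
  have e1 : ∀ j, pd j (fun y : X n => G (‖y‖ ^ 2)) = fun y => g (‖y‖ ^ 2) * (2 * y j) := fun j => by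
    funext y
    rw [pd_comp_real j (f := fun y : X n => ‖y‖ ^ 2) (h1 _) (hn y), pd_normsq]
  have e2 : ∀ i j, d2 (fun y : X n => G (‖y‖ ^ 2)) i j x =
      4 * g' (‖x‖ ^ 2) * (x i * x j) + 2 * g (‖x‖ ^ 2) * (if j = i then 1 else 0) := fun i j => by
    unfold d2
    rw [e1, R285.pd_mul i hg ((differentiable_crd j).const_mul 2), pd_cmul i 2 (differentiable_crd j),
      pd_crd]
    dsimp only
    rw [pd_comp_real i (f := fun y : X n => ‖y‖ ^ 2) (h2 _) (hn x), pd_normsq]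
    ring
  simp only [qf, e2, ssq]
  rw [sq (∑ k, x k * ξ k), Finset.sum_mul_sum, Finset.mul_sum, Finset.mul_sum, ← Finset.sum_add_distrib]
  refine Finset.sum_congr rfl fun i _ => ?_
  simp only [add_mul, Finset.sum_add_distrib, mul_ite, ite_mul, mul_one, mul_zero, zero_mul,
    Finset.sum_ite_eq', Finset.mem_univ, if_true, Finset.mul_sum]
  rw [add_comm]
  congr 1
  · ring
  · exact Finset.sum_congr rfl fun j _ => by ring

lemma cutb_add {f g : Fn n} (hf : ContDiff ℝ 2 f) (hg : ContDiff ℝ 2 g) (M : ℝ) (x : X n)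
    (ξ : Fin n → ℝ) : qf (fun i j => d2 (fun y => f y + M * g y) i j x) ξ =
      qf (fun i j => d2 f i j x) ξ + M * qf (fun i j => d2 g i j x) ξ := by
  have hf1 := hf.differentiable two_ne_zero
  have hg1 := hg.differentiable two_ne_zero
  have e : ∀ i j, d2 (fun y => f y + M * g y) i j x = d2 f i j x + M * d2 g i j x := by
    intro i j
    simp only [d2]
    rw [R285.pd_add j hf1 (hg1.const_mul M), pd_cmul j M hg1,
      R285.pd_add i (differentiable_pd hf j) ((differentiable_pd hg j).const_mul M),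
      pd_cmul i M (differentiable_pd hg j)]
  simp only [qf, e, add_mul, Finset.sum_add_distrib, Finset.mul_sum, mul_assoc]

lemma cutb_quad (C : ℝ) {b : Fn n} (hb : ContDiff ℝ 2 b) (x : X n) (ξ : Fin n → ℝ) :
    qf (fun i j => d2 (quad C b) i j x) ξ = C * ssq ξ + qf (fun i j => d2 b i j x) ξ := by
  simp only [qf, d2_quad C hb, add_mul, Finset.sum_add_distrib, ite_mul, zero_mul, Finset.sum_ite_eq,
    Finset.mem_univ, if_true, ssq, Finset.mul_sum, sq, mul_assoc]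

/-- `V = ε |x|²/2 + ζ ∑ v(s_i) + M G(|x|²)`, `M ≥ n · sup |D²(ζ ∑ v)|`, `C = ε + M`,
`b = ζ ∑ v + M (G(|x|²) - |x|²/2)`, which is the constant `-M c` for `‖x‖ ≥ 3R` (so `b + M c` has compact
support, `mem_of_compact`).  Lower Hessian bound: for `‖x‖ < 2R`, `ζ = 1` near `x` (`pd_congr_ev`,
`qf_d2_slab`); for `‖x‖ ≥ 2R`, `M D²G(|x|²) ≥ M`.  `C₁ = C + n B`, `p.R = 3R + 1`. -/
theorem cut_pot {N : ℕ} {v : ℝ → ℝ} {B ε : ℝ} (h : Prof v B) (hε : 0 < ε) (c : Fin N → Fin n → ℝ)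
    {R : ℝ} (hR : 1 ≤ R) : ∃ (p : Par) (b : Fn n), p.ε = ε ∧ Pot p b ∧
      (∀ x, ‖x‖ ≤ R → quad p.C b x = slab ε v c x) ∧ ∀ x, ε / 2 * ‖x‖ ^ 2 ≤ quad p.C b x := by
  obtain ⟨K, -, hK⟩ := exists_cut n
  obtain ⟨ζ, hζ, hζe, hζ01, hζ1, hζ0, -⟩ := hK R hR
  have hR0 : 0 < R := by linarith
  obtain ⟨G, g, g', c₀, hG, hGd, hgd, hg0, hg'0, hG0, hGz, hgh, hGl⟩ := exists_G hR0
  set s : Fn n := fun x => ∑ i, v (lf (c i) x) with hs
  have hss : ∀ m : ℕ, ContDiff ℝ m s := fun m =>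
    ContDiff.sum fun i _ => (h.smooth m).comp (contDiff_lf (c i) m)
  set w : Fn n := fun x => ζ x * s x with hw
  have hws : ∀ m : ℕ, ContDiff ℝ m w := fun m => (hζ m).mul (hss m)
  have hwm : ∀ k, Mem k w := mem_cut_mul hζ hζ0 hss
  set M : ℝ := n * hn 2 w with hM
  have hM0 : 0 ≤ M := mul_nonneg (Nat.cast_nonneg _) (hn_nonneg _ _)
  have hGs : ∀ m : ℕ, ContDiff ℝ m fun x : X n => G (‖x‖ ^ 2) := fun m =>
    (hG m).comp (contDiff_normsq m)
  set u : Fn n := fun x => G (‖x‖ ^ 2) - ‖x‖ ^ 2 / 2 + c₀ with hu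
  have hus : ∀ m : ℕ, ContDiff ℝ m u := fun m =>
    ((hGs m).sub ((contDiff_normsq m).div_const 2)).add contDiff_const
  have hsq : ∀ x : X n, 2 * R ≤ ‖x‖ → 2 * R ^ 2 ≤ ‖x‖ ^ 2 := fun x hx => by nlinarith
  have hu0 : ∀ x, 2 * R ≤ ‖x‖ → u x = 0 := fun x hx => by
    simp only [hu, hGl _ (hsq x hx)]
    ring
  set b : Fn n := fun x => w x + u x * M - M * c₀ with hb
  have hbs : ∀ m : ℕ, ContDiff ℝ m b := fun m =>
    ((hws m).add ((hus m).mul contDiff_const)).sub contDiff_const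
  have hbm : Mem 3 b :=
    ((hwm 3).add (mem_cut_mul hus hu0 (fun _ => contDiff_const) 3)).sub (Mem.const 3 _)
  have hB0 : 0 ≤ n * hn 3 b := mul_nonneg (Nat.cast_nonneg _) (hn_nonneg _ _)
  have hV : quad (ε + M) b = fun x => quad ε w x + M * G (‖x‖ ^ 2) := by
    funext x
    simp only [quad, hb, hu]
    ring
  refine ⟨⟨ε, ε + M, ε + M + n * hn 3 b, 3 * R + 1, hn 3 b, hε, by linarith, by linarith⟩, b, rfl,
    ⟨fun x => ?_, hbm.hb, fun x ξ => ?_, fun x ξ => ?_, fun x hx i j k => ?_⟩, fun x hx => ?_,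
    fun x => ?_⟩
  · simp only [hb, hw, hu, hs, hζe x, lf_neg, h.even, norm_neg]
  · show ε * ssq ξ ≤ qf (fun i j => d2 (quad (ε + M) b) i j x) ξ
    rw [hV, cutb_add (contDiff_quad ε (hws 2)) (hGs 2), qf_d2_radial hGd hgd]
    have a0 := ssq_nonneg ξ
    have a1 : 0 ≤ 4 * g' (‖x‖ ^ 2) * (∑ k, x k * ξ k) ^ 2 :=
      mul_nonneg (mul_nonneg (by norm_num) (hg'0 _)) (sq_nonneg _)
    rcases lt_or_ge ‖x‖ (2 * R) with hx | hx
    · have hev : quad ε w =ᶠ[𝓝 x] slab ε v c := by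
        filter_upwards [(isOpen_lt continuous_norm continuous_const).mem_nhds hx] with y hy
        simp only [quad, slab, hw, hs, hζ1 y (le_of_lt hy), one_mul]
      have e : (fun i j => d2 (quad ε w) i j x) = fun i j => d2 (slab ε v c) i j x := by
        funext i j
        exact (pd_congr_ev i (pd_congr_ev j hev)).self_of_nhds
      rw [e, qf_d2_slab h]
      have a2 : 0 ≤ ∑ i, deriv (deriv v) (lf (c i) x) * (∑ k, c i k * ξ k) ^ 2 :=
        Finset.sum_nonneg fun i _ => mul_nonneg (h.d2lo _) (sq_nonneg _)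
      have a3 : 0 ≤ 2 * g (‖x‖ ^ 2) * ssq ξ := mul_nonneg (mul_nonneg zero_le_two (hg0 _)) a0
      have a4 := mul_nonneg hM0 (add_nonneg a3 a1)
      linarith
    · rw [cutb_quad ε (hws 2), hgh _ (hsq x hx)]
      have a2 := (abs_le.1 (abs_qf_le (fun i j => ((hwm (0 + 2)).hb.d2 i j).abs_le x) ξ)).1
      have a3 := mul_nonneg hM0 a1
      rw [← hM] at a2
      linarith
  · show qf (fun i j => d2 (quad (ε + M) b) i j x) ξ ≤ (ε + M + n * hn 3 b) * ssq ξ
    rw [cutb_quad _ (hbs 2)]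
    have a2 := (abs_le.1 (abs_qf_le (fun i j => (HB.d2 (k := 1) hbm.hb i j).abs_le x) ξ)).2
    linarith
  · have hx' : 3 * R < ‖x‖ := lt_of_lt_of_le (lt_add_one _) hx
    have hev : b =ᶠ[𝓝 x] fun _ => -(M * c₀) := by
      filter_upwards [(isOpen_lt continuous_const continuous_norm).mem_nhds hx'] with y hy
      have hy' : 3 * R < ‖y‖ := hy
      simp only [hb, hw, hζ0 y hy'.le, hu0 y (by linarith), zero_mul, add_zero, zero_sub]
    have := (pd_congr_ev i (pd_congr_ev j (pd_congr_ev k hev))).self_of_nhds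
    rw [R285.pd_const, R285.pd_const, R285.pd_const] at this
    exact this
  · show quad (ε + M) b x = _
    rw [hV]
    simp only [quad, slab, hw, hs, hζ1 x (by linarith),
      hGz _ (pow_le_pow_left₀ (norm_nonneg x) hx 2), one_mul, mul_zero, add_zero]
  · show _ ≤ quad (ε + M) b x
    rw [hV]
    have a1 : 0 ≤ w x := mul_nonneg (hζ01 x).1 (Finset.sum_nonneg fun i _ => h.nonneg _)
    have a2 := mul_nonneg hM0 (hG0 (‖x‖ ^ 2))
    simp only [quad]
    linarith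

end Crest.Agent.R238
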