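import Crest.Agent.R285.Poinc

/-!
# Row 238 (S0369, log-Brunn–Minkowski): definitions.  FROZEN (owner helper90).
The proof plan is in `R238/Blueprint.lean`.  We reuse `bas`, `pd`, `gibbs`, `WPot`, `PolyB`, `SConv`, `γ`
and the `pd_*` lemmas of `Crest.Agent.R285` (files `Basic`, `TG`, `Gauss`, `IBP`, `Poinc`).
-/

set_option autoImplicit false

open MeasureTheory Filter Topology
open Crest.Agent.R285 (bas pd gibbs WPot PolyB SConv)

noncomputable section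

namespace Crest.Agent.R238

/-- Euclidean space -/
abbrev X (n : ℕ) : Type := EuclideanSpace ℝ (Fin n)
/-- scalar functions -/
abbrev Fn (n : ℕ) : Type := X n → ℝ
/-- matrix fields (entrywise) -/
abbrev MF (n : ℕ) : Type := Fin n → Fin n → Fn n
/-- arrays with two and three indices -/
abbrev A2 (n : ℕ) : Type := Fin n → Fin n → ℝ
abbrev A3 (n : ℕ) : Type := Fin n → Fin n → Fin n → ℝ

variable {n : ℕ}

abbrev d2 (f : Fn n) (i j : Fin n) : Fn n := pd i (pd j f)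
abbrev d3 (f : Fn n) (i j k : Fin n) : Fn n := pd i (pd j (pd k f))
abbrev d4 (f : Fn n) (i j k l : Fin n) : Fn n := pd i (pd j (pd k (pd l f)))

/-- even function -/
def Ev (f : Fn n) : Prop := ∀ x, f (-x) = f x
/-- odd function -/
def Od (f : Fn n) : Prop := ∀ x, f (-x) = -f x

/-- quadratic form of an array -/
def qf (A : A2 n) (ξ : Fin n → ℝ) : ℝ := ∑ a, ∑ b, A a b * ξ a * ξ b
/-- squared length -/
def ssq (ξ : Fin n → ℝ) : ℝ := ∑ a, ξ a ^ 2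

/-! ## The Hölder scale `C^{k,1/2}` -/

/-- `C^k` with bounded, `1/2`-Hölder derivatives up to order `k` -/
def Mem : ℕ → Fn n → Prop
  | 0, f => ∃ A B : ℝ, (∀ x, |f x| ≤ A) ∧ ∀ x y, |f x - f y| ≤ B * √‖x - y‖
  | k + 1, f => Mem k f ∧ Differentiable ℝ f ∧ ∀ i, Mem k (pd i f)

def supN (f : Fn n) : ℝ := ⨆ x, |f x|
def holN (f : Fn n) : ℝ := ⨆ p : X n × X n, |f p.1 - f p.2| / √‖p.1 - p.2‖

/-- the (submultiplicative) norm of `C^{k,1/2}` -/
def hn : ℕ → Fn n → ℝ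
  | 0, f => supN f + holN f
  | k + 1, f => hn k f + ∑ i, hn k (pd i f)

/-- membership with a bound -/
def HB (k : ℕ) (f : Fn n) (M : ℝ) : Prop := Mem k f ∧ hn k f ≤ M

/-- `C^k` with derivatives of polynomial growth -/
def PG : ℕ → Fn n → Prop
  | 0, f => Continuous f ∧ PolyB f
  | k + 1, f => PG k f ∧ Differentiable ℝ f ∧ ∀ i, PG k (pd i f)

/-! ## Operators -/

/-- symmetric and `κ`-elliptic -/
structure Ell (κ : ℝ) (τ : MF n) : Prop where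
  symm : ∀ a b x, τ a b x = τ b a x
  lb : ∀ x ξ, κ * ssq ξ ≤ qf (fun a b => τ a b x) ξ

/-- elliptic coefficients bounded in `C^{k,1/2}` -/
structure Coef (k : ℕ) (κ B : ℝ) (τ : MF n) : Prop where
  ell : Ell κ τ
  hb : ∀ a b, HB k (τ a b) B

/-- the identity matrix field -/
def idM : MF n := fun a b _ => if a = b then 1 else 0

/-- `L h = τ : D²h - x · ∇h` -/
def Lop (τ : MF n) (h : Fn n) : Fn n := fun x =>
  ∑ a, ∑ b, τ a b x * d2 h a b x - ∑ a, x a * pd a h x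

/-- carré du champ `τ ∇f · ∇g` -/
def Gam (τ : MF n) (f g : Fn n) : Fn n := fun x => ∑ a, ∑ b, τ a b x * pd a f x * pd b g x

/-- `L h + β · ∇h + c h` -/
def Op (τ : MF n) (β : Fin n → Fn n) (c h : Fn n) : Fn n := fun x =>
  Lop τ h x + ∑ a, β a x * pd a h x + c x * h x

/-- the weight `1 + |x|²` -/
def om : Fn n := fun x => 1 + ‖x‖ ^ 2
/-- `1 / (1 + δ |x|²)` -/
def rho (δ : ℝ) : Fn n := fun x => (1 + δ * ‖x‖ ^ 2)⁻¹
/-- `om * h` -/
def omul (h : Fn n) : Fn n := fun x => om x * h x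
/-- coefficients of the conjugated operator `om⁻¹ L om` -/
def cβ (τ : MF n) (a : Fin n) : Fn n := fun x => 4 * ∑ b, τ a b x * (x b * rho 1 x)
def cc (τ : MF n) (θ : ℝ) : Fn n := fun x => (2 * ∑ a, τ a a x - 2 * ‖x‖ ^ 2) * rho 1 x + θ

/-! ## Tensor contractions -/

def ip2 (T e f : A2 n) : ℝ := ∑ i, ∑ j, ∑ a, ∑ b, T i a * T j b * e i j * f a b
def ip3 (T : A2 n) (z w : A3 n) : ℝ :=
  ∑ i, ∑ j, ∑ k, ∑ a, ∑ b, ∑ c, T i a * T j b * T k c * z i j k * w a b c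
/-- transposition of the first two indices -/
def sg (z : A3 n) : A3 n := fun k i j => z i k j

/-- value of a matrix field at a point, as a matrix -/
def mat (τ : MF n) (x : X n) : Matrix (Fin n) (Fin n) ℝ := Matrix.of fun a b => τ a b x

/-! ## Moment potentials -/

/-- `Q_{ij} = τ_{ab} τ_{cd} u_{iac} u_{jbd}` -/
def Qf (u : Fn n) (τ : MF n) : MF n := fun i j x =>
  ip2 (fun a b => τ a b x) (fun a c => d3 u i a c x) (fun b d => d3 u j b d x)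

/-- Calabi's quantity `|D³u|²_τ` -/
def Sf (u : Fn n) (τ : MF n) : Fn n := fun x =>
  ip3 (fun a b => τ a b x) (fun i j k => d3 u i j k x) (fun i j k => d3 u i j k x)

/-- the once differentiated moment equation (local, affine invariant data) -/
structure Geo (V u : Fn n) (τ : MF n) : Prop where
  u5 : ContDiff ℝ 5 u
  V3 : ContDiff ℝ 3 V
  τ3 : ∀ a b, ContDiff ℝ 3 (τ a b)
  symm : ∀ a b x, τ a b x = τ b a x
  psd : ∀ x ξ, 0 ≤ qf (fun a b => τ a b x) ξ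
  inv : ∀ x i j, ∑ a, τ i a x * d2 u a j x = if i = j then 1 else 0
  eq1 : ∀ i x, Lop τ (pd i u) x = -pd i V x

/-- solution of `log det D²u = x·∇u - u - V` with `τ = (D²u)⁻¹` -/
structure Mom (V u : Fn n) (τ : MF n) : Prop where
  u2 : ContDiff ℝ 2 u
  H3 : ∀ i j, Mem 3 (d2 u i j)
  τ3 : ∀ i j, Mem 3 (τ i j)
  ell : ∃ κ, 0 < κ ∧ Ell κ τ
  inv : ∀ x i j, ∑ a, τ i a x * d2 u a j x = if i = j then 1 else 0
  even : Ev u
  eq : ∀ x, Real.log (mat (d2 u) x).det = ∑ a, x a * pd a u x - u x - V x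

/-- the constants of an admissible potential -/
structure Par where
  ε : ℝ
  C : ℝ
  C₁ : ℝ
  R : ℝ
  B : ℝ
  ε_pos : 0 < ε
  ε_le : ε ≤ C
  le_C₁ : C ≤ C₁

/-- `C |x|²/2 + b` -/
def quad (C : ℝ) (b : Fn n) : Fn n := fun x => C / 2 * ‖x‖ ^ 2 + b x

/-- admissible potentials `V = quad p.C b` -/
structure Pot (p : Par) (b : Fn n) : Prop where
  even : Ev b
  hb : HB 3 b p.B
  lo : ∀ x ξ, p.ε * ssq ξ ≤ qf (fun i j => d2 (quad p.C b) i j x) ξ
  hi : ∀ x ξ, qf (fun i j => d2 (quad p.C b) i j x) ξ ≤ p.C₁ * ssq ξ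
  out : ∀ x, p.R ≤ ‖x‖ → ∀ i j k, d3 b i j k x = 0

/-- everything the integral identities use -/
structure Nice (ε C₁ : ℝ) (V u : Fn n) (τ : MF n) : Prop where
  ε_pos : 0 < ε
  C₁_pos : 0 < C₁
  geo : Geo V u τ
  wpot : WPot V
  sconv : SConv V ε
  Vpg : PG 3 V
  Veven : Ev V
  τeven : ∀ a b, Ev (τ a b)
  τ3 : ∀ a b, Mem 3 (τ a b)
  H3 : ∀ i j, Mem 3 (d2 u i j)
  lo : ∀ x ξ, ε * ssq ξ ≤ qf (fun i j => d2 V i j x) ξ
  ell : Ell C₁⁻¹ τ
  τhi : ∀ x ξ, qf (fun a b => τ a b x) ξ ≤ ε⁻¹ * ssq ξ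

/-! ## Fields of the core inequality -/

/-- symmetrised gradient of a vector field -/
def sD (W : Fin n → Fn n) : MF n := fun k l x => (pd l (W k) x + pd k (W l) x) / 2
/-- `ξ = τ ∇ψ` -/
def xi (τ : MF n) (ψ : Fn n) (i : Fin n) : Fn n := fun x => ∑ j, τ i j x * pd j ψ x
/-- `t_{ia} = ψ_{ia} - u_{iam} ξ_m` -/
def tt (u : Fn n) (τ : MF n) (ψ : Fn n) : MF n := fun i a x =>
  d2 ψ i a x - ∑ m, d3 u i a m x * xi τ ψ m x

/-! ## The application -/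

/-- admissible one-dimensional profile -/
structure Prof (v : ℝ → ℝ) (B : ℝ) : Prop where
  smooth : ∀ m : ℕ, ContDiff ℝ m v
  even : ∀ s, v (-s) = v s
  nonneg : ∀ s, 0 ≤ v s
  d1 : ∀ s, |deriv v s| ≤ B
  d2lo : ∀ s, 0 ≤ deriv (deriv v) s
  d2hi : ∀ s, deriv (deriv v) s ≤ B

/-- linear form `x ↦ ∑ c_a x_a` -/
def lf (c : Fin n → ℝ) : Fn n := fun x => ∑ a, c a * x a

/-- `ε |x|²/2 + ∑ v (⟨c_i, x⟩)` -/
def slab {N : ℕ} (ε : ℝ) (v : ℝ → ℝ) (c : Fin N → Fin n → ℝ) : Fn n := fun x =>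
  ε / 2 * ‖x‖ ^ 2 + ∑ i, v (lf (c i) x)

/-- Gaussian-weighted volume -/
def gm (ε : ℝ) (P : Set (X n)) : ℝ := ∫ x in P, Real.exp (-(ε / 2 * ‖x‖ ^ 2))

end Crest.Agent.R238
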