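import Crest.Agent.R238.Slabs

/-!
# Row 238 (S0369): Final
From finitely many slabs to the Wulff body, and from Gaussian-weighted volume to volume.
-/

set_option autoImplicit false
set_option linter.unusedVariables false

open MeasureTheory Filter Topology Matrix
open Crest.Agent.R285 (bas pd gibbs WPot PolyB SConv)

noncomputable section

namespace Crest.Agent.R238

variable {n : ℕ}

/-- support function -/
def hK (K : Set (X n)) (u : X n) : ℝ := sSup ((fun y => inner ℝ y u) '' K)

/-- symmetric convex body -/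
structure Body (K : Set (X n)) : Prop where
  c : IsCompact K
  v : Convex ℝ K
  i : (interior K).Nonempty
  s : ∀ x ∈ K, -x ∈ K

/-- the Wulff body of the geometric mean -/
def wulff (K L : Set (X n)) (t : ℝ) : Set (X n) :=
  ⋂ u ∈ Metric.sphere (0 : X n) 1, {x : X n | inner ℝ x u ≤ hK K u ^ (1 - t) * hK L u ^ t}

lemma Body.abs_le {K : Set (X n)} (h : Body K) {x : X n} (hx : x ∈ K) (u : X n) :
    |inner ℝ x u| ≤ hK K u := by
  have hb : BddAbove ((fun y => inner ℝ y u) '' K) :=
    (h.c.image (continuous_id.inner continuous_const)).bddAbove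
  refine _root_.abs_le.2 ⟨?_, le_csSup hb ⟨x, hx, rfl⟩⟩
  have := le_csSup hb ⟨-x, h.s x hx, rfl⟩
  simp only [inner_neg_left] at this
  exact neg_le.1 this

/-- a ball `B(x, r) ⊆ K` gives `r u = ((x + r u) + (-(x - r u)))/2 ∈ K` -/
lemma Body.hK_pos {K : Set (X n)} (h : Body K) {u : X n} (hu : ‖u‖ = 1) : 0 < hK K u := by
  obtain ⟨x, hx⟩ := h.i
  obtain ⟨r, hr, hb⟩ := Metric.mem_nhds_iff.1 (mem_interior_iff_mem_nhds.1 hx)
  have key : ∀ s : ℝ, |s| < r → |inner ℝ x u + s| ≤ hK K u := by
    intro s hs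
    have h1 : x + s • u ∈ K := hb (by
      rw [mem_ball_iff_norm, add_sub_cancel_left, norm_smul, hu, mul_one]; exact hs)
    have := h.abs_le h1 u
    rwa [inner_add_left, real_inner_smul_left, real_inner_self_eq_norm_sq, hu, one_pow, mul_one] at this
  have h1 := _root_.abs_le.1 (key (r / 2) (by rw [abs_of_pos (by linarith)]; linarith))
  have h2 := _root_.abs_le.1 (key (-(r / 2)) (by rw [abs_neg, abs_of_pos (by linarith)]; linarith))
  linarith [h1.2, h2.1]

/-- `hK K u ≤ hK K u' + R ‖u - u'‖` -/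
lemma Body.continuous_hK {K : Set (X n)} (h : Body K) : Continuous (hK K) := by
  exact h.c.continuous_sSup (f := fun (u : X n) (y : X n) => inner ℝ y u)
    (continuous_snd.inner continuous_fst)

lemma integrable_gauss {ε : ℝ} (hε : 0 < ε) :
    Integrable fun x : X n => Real.exp (-(ε / 2 * ‖x‖ ^ 2)) := by
  have h := (GaussianFourier.integrable_cexp_neg_mul_sq_norm_add (V := X n) (b := ((ε / 2 : ℝ) : ℂ))
    (by rw [Complex.ofReal_re]; positivity) 0 0).norm
  refine h.congr (Eventually.of_forall fun x => ?_)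
  simp only [zero_mul, add_zero, Complex.norm_exp]
  congr 1
  rw [← Complex.ofReal_pow, ← Complex.ofReal_neg, ← Complex.ofReal_mul, Complex.ofReal_re, neg_mul]

lemma gm_mono {ε : ℝ} (hε : 0 < ε) {P Q : Set (X n)} (h : P ⊆ Q) : gm ε P ≤ gm ε Q := by
  exact setIntegral_mono_set (integrable_gauss hε).integrableOn
    (Eventually.of_forall fun x => (Real.exp_pos _).le) h.eventuallyLE

lemma gm_nonneg (ε : ℝ) (P : Set (X n)) : 0 ≤ gm ε P := by
  exact integral_nonneg fun x => (Real.exp_pos _).le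

/-- `u : ℕ → sphere` a dense sequence (`TopologicalSpace.denseSeq`), `P N` the intersection of the first `N`
slabs; `gauss_slabs`, `gm_mono`; `tendsto_setIntegral_of_antitone`; `⋂ P N ⊆ wulff` by continuity. -/
theorem gauss_wulff (hn : 1 ≤ n) {K L : Set (X n)} (hK' : Body K) (hL : Body L) {ε : ℝ} (hε : 0 < ε)
    {t : ℝ} (ht0 : 0 ≤ t) (ht1 : t ≤ 1) : gm ε K ^ (1 - t) * gm ε L ^ t ≤ gm ε (wulff K L t) := by
  haveI : Nonempty (Metric.sphere (0 : X n) 1) :=
    ⟨⟨bas ⟨0, hn⟩, by simp⟩⟩
  set u : ℕ → Metric.sphere (0 : X n) 1 := TopologicalSpace.denseSeq _ with hu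
  have hd : DenseRange u := TopologicalSpace.denseRange_denseSeq _
  have hn1 : ∀ j, ‖(u j : X n)‖ = 1 := fun j => by simpa using (u j).2
  set H : X n → ℝ := fun w => hK K w ^ (1 - t) * hK L w ^ t with hH
  have hHc : Continuous H :=
    (hK'.continuous_hK.rpow_const fun _ => Or.inr (by linarith)).mul
      (hL.continuous_hK.rpow_const fun _ => Or.inr ht0)
  set P : ℕ → Set (X n) := fun N => {x | ∀ i : Fin N, |inner ℝ x (u i : X n)| ≤ H (u i)} with hP
  have hPm : ∀ N, MeasurableSet (P N) := fun N => by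
    have : P N = ⋂ i : Fin N, {x : X n | |inner ℝ x (u i : X n)| ≤ H (u i)} := by
      ext x; simp [hP]
    rw [this]
    exact MeasurableSet.iInter fun i => (isClosed_le (by fun_prop) continuous_const).measurableSet
  have hanti : Antitone P := fun N M hNM x hx i => hx ⟨i, lt_of_lt_of_le i.2 hNM⟩
  have hle : ∀ N, gm ε K ^ (1 - t) * gm ε L ^ t ≤ gm ε (P N) := fun N => by
    refine le_trans ?_ (gauss_slabs hε (fun i : Fin N => (u i : X n)) (h0 := fun i => hK K (u i))
      (h1 := fun i => hK L (u i)) (fun i => hK'.hK_pos (hn1 i)) (fun i => hL.hK_pos (hn1 i)) ht0 ht1)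
    refine mul_le_mul (Real.rpow_le_rpow (gm_nonneg _ _) (gm_mono hε fun x hx i => hK'.abs_le hx _)
      (by linarith)) (Real.rpow_le_rpow (gm_nonneg _ _) (gm_mono hε fun x hx i => hL.abs_le hx _) ht0)
      (Real.rpow_nonneg (gm_nonneg _ _) _) (Real.rpow_nonneg (gm_nonneg _ _) _)
  have hlim : Tendsto (fun N => gm ε (P N)) atTop (𝓝 (gm ε (⋂ N, P N))) :=
    tendsto_setIntegral_of_antitone hPm hanti ⟨0, (integrable_gauss hε).integrableOn⟩
  refine (ge_of_tendsto' hlim hle).trans (gm_mono hε fun x hx => ?_)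
  simp only [wulff, Set.mem_iInter, Set.mem_setOf_eq]
  intro w hw
  have hcl : IsClosed {q : Metric.sphere (0 : X n) 1 | inner ℝ x (q : X n) ≤ H q} :=
    isClosed_le (by fun_prop) (hHc.comp continuous_subtype_val)
  exact hd.induction_on (p := fun q => inner ℝ x (q : X n) ≤ H q) ⟨w, hw⟩ hcl fun j =>
    (le_abs_self _).trans (Set.mem_iInter.1 hx (j + 1) ⟨j, Nat.lt_succ_self j⟩)

lemma finala_le {ε : ℝ} (hε : 0 < ε) {W : Set (X n)} (hW : volume W ≠ ⊤) : gm ε W ≤ volume.real W := by
  have : IsFiniteMeasure (volume.restrict W) := isFiniteMeasure_restrict.2 hW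
  calc gm ε W ≤ ∫ _ in W, (1 : ℝ) :=
        integral_mono (integrable_gauss hε).integrableOn (integrable_const _) fun x =>
          Real.exp_le_one_iff.2 (neg_nonpos.2 (by positivity))
    _ = _ := by simp

lemma finala_cont {K : Set (X n)} (h : IsCompact K) : Continuous fun ε => gm ε K :=
  continuous_parametric_integral_of_continuous
    (f := fun (ε : ℝ) (x : X n) => Real.exp (-(ε / 2 * ‖x‖ ^ 2))) (by fun_prop) h

lemma finala_zero (K : Set (X n)) : gm 0 K = volume.real K := by simp [gm]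

/-- if the right side is finite, `gm ε W ≤ volume.real W`, and `gm ε K → volume.real K` as `ε → 0` since
`exp (-ε R²/2) volume.real K ≤ gm ε K ≤ volume.real K`; convert with `ENNReal.ofReal_rpow_of_nonneg` -/
theorem log_bm (hn : 1 ≤ n) {K L : Set (X n)} (hK' : Body K) (hL : Body L) {t : ℝ} (ht0 : 0 ≤ t)
    (ht1 : t ≤ 1) : volume K ^ (1 - t) * volume L ^ t ≤ volume (wulff K L t) := by
  by_cases hW : volume (wulff K L t) = ⊤
  · rw [hW]; exact le_top
  have ht : 0 ≤ 1 - t := by linarith
  have hc : Continuous fun ε => gm ε K ^ (1 - t) * gm ε L ^ t :=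
    ((finala_cont hK'.c).rpow_const fun _ => Or.inr ht).mul
      ((finala_cont hL.c).rpow_const fun _ => Or.inr ht0)
  have h1 : gm 0 K ^ (1 - t) * gm 0 L ^ t ≤ volume.real (wulff K L t) := by
    refine le_of_tendsto ((hc.tendsto 0).mono_left (nhdsWithin_le_nhds (s := Set.Ioi 0))) ?_
    filter_upwards [self_mem_nhdsWithin] with ε hε
    exact (gauss_wulff hn hK' hL hε ht0 ht1).trans (finala_le hε hW)
  rw [finala_zero, finala_zero] at h1
  rw [← ofReal_measureReal hK'.c.measure_ne_top, ← ofReal_measureReal hL.c.measure_ne_top,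
    ← ofReal_measureReal hW, ENNReal.ofReal_rpow_of_nonneg measureReal_nonneg ht,
    ENNReal.ofReal_rpow_of_nonneg measureReal_nonneg ht0,
    ← ENNReal.ofReal_mul (Real.rpow_nonneg measureReal_nonneg _)]
  exact ENNReal.ofReal_le_ofReal h1

end Crest.Agent.R238
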