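import Crest.Agent.R238.Green

/-!
# Row 238 (S0369): Gap
The `L²` estimate for `L + θ`, `θ ≤ 1`, on even functions of mean zero.
-/

set_option autoImplicit false
set_option linter.unusedVariables false

open MeasureTheory Filter Topology Matrix
open Crest.Agent.R285 (bas pd gibbs WPot PolyB SConv)

noncomputable section

namespace Crest.Agent.R238

variable {n : ℕ}

variable {ε C₁ : ℝ} {V u : Fn n} {τ : MF n}

theorem gapa_key (h : Geo V u τ) {χ : Fn n} (hχ : ContDiff ℝ 3 χ) (x : X n) :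
    Gam τ (Lop τ χ) χ x = ∑ a, (xi τ χ a x * Lop τ (pd a χ) x + Gam τ (xi τ χ a) (pd a χ) x) -
      (Gam τ χ χ x + ip2 (fun a b => τ a b x) (fun a b => d2 χ a b x) fun a b => d2 χ a b x) := by
  have hd : ∀ j, Differentiable ℝ (pd j χ) := differentiable_pd (hχ.of_le (by norm_num))
  have hξ : ∀ p a, pd p (xi τ χ a) x = ∑ j, (pd p (τ a j) x * pd j χ x + τ a j x * d2 χ p j x) := by
    intro p a
    unfold xi
    rw [pd_usum p fun j => (h.τdiff a j).fun_mul (hd j)]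
    exact Finset.sum_congr rfl fun j _ => congrFun (R285.pd_mul p (h.τdiff a j) (hd j)) x
  have e1 : Gam τ (Lop τ χ) χ x = ∑ a, xi τ χ a x * Lop τ (pd a χ) x - Gam τ χ χ x +
      ∑ j, ∑ c, ∑ d, (∑ p, τ p j x * pd p (τ c d) x) * pd j χ x * d2 χ c d x := by
    have e2 : ∑ j, ∑ c, ∑ d, (∑ p, τ p j x * pd p (τ c d) x) * pd j χ x * d2 χ c d x =
        ∑ a, ∑ j, τ a j x * (∑ c, ∑ d, pd a (τ c d) x * d2 χ c d x) * pd j χ x := by
      rw [Finset.sum_comm (f := fun a j => τ a j x * (∑ c, ∑ d, pd a (τ c d) x * d2 χ c d x) * pd j χ x)]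
      refine Finset.sum_congr rfl fun j _ => ?_
      simp only [Finset.sum_mul, Finset.mul_sum]
      rw [Finset.sum_comm (γ := Fin n) (s := Finset.univ) (t := Finset.univ)
        (f := fun a c => ∑ d, τ a j x * (pd a (τ c d) x * d2 χ c d x) * pd j χ x)]
      refine Finset.sum_congr rfl fun c _ => ?_
      rw [Finset.sum_comm]
      exact Finset.sum_congr rfl fun d _ => Finset.sum_congr rfl fun p _ => by ring
    rw [e2]
    simp only [Gam, xi, pd_Lop h.τdiff hχ, Finset.sum_mul, ← Finset.sum_sub_distrib, ← Finset.sum_add_distrib]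
    exact Finset.sum_congr rfl fun a _ => Finset.sum_congr rfl fun b _ => by ring
  have e3 : ∑ a, Gam τ (xi τ χ a) (pd a χ) x =
      ∑ j, ∑ c, ∑ d, (∑ p, τ p j x * pd p (τ c d) x) * pd j χ x * d2 χ c d x +
        ip2 (fun a b => τ a b x) (fun a b => d2 χ a b x) fun a b => d2 χ a b x := by
    have e4 : ∀ j c d, ∑ p, τ p j x * pd p (τ c d) x = ∑ p, τ p c x * pd p (τ d j) x := fun j c d => by
      rw [h.up_symm j c d, show τ j d = τ d j from funext (h.symm j d)]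
    have e5 : ∑ j, ∑ c, ∑ d, (∑ p, τ p j x * pd p (τ c d) x) * pd j χ x * d2 χ c d x =
        ∑ j, ∑ c, ∑ d, (∑ p, τ p c x * pd p (τ d j) x) * pd j χ x * d2 χ c d x :=
      Finset.sum_congr rfl fun j _ => Finset.sum_congr rfl fun c _ => Finset.sum_congr rfl fun d _ => by
        rw [e4 j c d]
    rw [e5]
    simp only [Gam, hξ, ip2, Finset.mul_sum, Finset.sum_mul, mul_add, add_mul, Finset.sum_add_distrib]
    congr 1
    · calc _ = ∑ a, ∑ q, ∑ j, ∑ p, τ p q x * (pd p (τ a j) x * pd j χ x) * pd q (pd a χ) x :=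
            Finset.sum_congr rfl fun a _ => Finset.sum_comm.trans
              (Finset.sum_congr rfl fun q _ => Finset.sum_comm)
        _ = ∑ q, ∑ a, ∑ j, ∑ p, τ p q x * (pd p (τ a j) x * pd j χ x) * pd q (pd a χ) x := Finset.sum_comm
        _ = ∑ q, ∑ j, ∑ a, ∑ p, τ p q x * (pd p (τ a j) x * pd j χ x) * pd q (pd a χ) x :=
            Finset.sum_congr rfl fun q _ => Finset.sum_comm
        _ = ∑ j, ∑ q, ∑ a, ∑ p, τ p q x * (pd p (τ a j) x * pd j χ x) * pd q (pd a χ) x := Finset.sum_comm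
        _ = _ := Finset.sum_congr rfl fun j _ => Finset.sum_congr rfl fun q _ =>
            Finset.sum_congr rfl fun a _ => Finset.sum_congr rfl fun p _ => by ring
    · calc _ = ∑ p, ∑ a, ∑ q, ∑ j, τ p q x * (τ a j x * d2 χ p j x) * pd q (pd a χ) x := Finset.sum_comm
        _ = ∑ p, ∑ q, ∑ a, ∑ j, τ p q x * (τ a j x * d2 χ p j x) * pd q (pd a χ) x :=
            Finset.sum_congr rfl fun p _ => Finset.sum_comm
        _ = ∑ p, ∑ q, ∑ j, ∑ a, τ p q x * (τ a j x * d2 χ p j x) * pd q (pd a χ) x :=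
            Finset.sum_congr rfl fun p _ => Finset.sum_congr rfl fun q _ => Finset.sum_comm
        _ = ∑ p, ∑ j, ∑ q, ∑ a, τ p q x * (τ a j x * d2 χ p j x) * pd q (pd a χ) x :=
            Finset.sum_congr rfl fun p _ => Finset.sum_comm
        _ = _ := Finset.sum_congr rfl fun p _ => Finset.sum_congr rfl fun j _ =>
            Finset.sum_congr rfl fun q _ => Finset.sum_congr rfl fun a _ => by
              rw [h.symm a j]
              ring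
  rw [Finset.sum_add_distrib, e1, e3]
  ring

/-- `E (Lχ)² = -E Γ(Lχ, χ)` (`green`), `∂_a (Lχ) = L χ_a - χ_a + ∂_a τ : D²χ` (`pd_Lop`), `green` for
`F = xi τ χ a`, `G = χ_a`; the two terms with `∂τ` cancel pointwise by `up_symm` (and symmetry of `τ`,
`D²χ`). -/
theorem Nice.bochner0 (h : Nice ε C₁ V u τ) {χ : Fn n} (hχ : PG 3 χ) :
    ∫ x, Lop τ χ x ^ 2 ∂gibbs V = ∫ x, Gam τ χ χ x ∂gibbs V +
      ∫ x, ip2 (fun a b => τ a b x) (fun a b => d2 χ a b x) (fun a b => d2 χ a b x) ∂gibbs V := by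
  have hτ : ∀ k, k ≤ 3 → ∀ a b, PG k (τ a b) := fun k hk a b => (h.τpg a b).mono hk
  have hξ : ∀ a, PG 1 (xi τ χ a) := fun a =>
    PG.sum fun j => (hτ 1 (by norm_num) a j).mul ((hχ.pd j).mono (by norm_num))
  have h1 : ∀ a, PG 0 fun x => xi τ χ a x * Lop τ (pd a χ) x := fun a =>
    (hξ a).zero.mul (PG.Lop (hτ 0 (by norm_num)) (hχ.pd a))
  have h2 : ∀ a, PG 0 (Gam τ (xi τ χ a) (pd a χ)) := fun a =>
    PG.Gam (hτ 0 (by norm_num)) (hξ a) ((hχ.pd a).mono (by norm_num))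
  have h3 : PG 0 (Gam τ χ χ) := PG.Gam (hτ 0 (by norm_num)) (hχ.mono (by norm_num)) (hχ.mono (by norm_num))
  have h4 := PG.ip2 (hτ 0 (by norm_num)) (e := d2 χ) (f := d2 χ) (fun a b => (PG.d2 (k := 1) hχ a b).zero)
    fun a b => (PG.d2 (k := 1) hχ a b).zero
  have h5 := h.green (PG.Lop (k := 1) (hτ 1 (by norm_num)) hχ) (hχ.mono (by norm_num))
  simp only [sq]
  rw [h5]
  simp only [gapa_key h.geo hχ.contDiff]
  rw [integral_sub ((PG.sum fun a => (h1 a).add (h2 a)).integrable h.wpot) ((h3.add h4).integrable h.wpot),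
    integral_add (h3.integrable h.wpot) (h4.integrable h.wpot),
    integral_finsetSum _ fun a _ => ((h1 a).add (h2 a)).integrable h.wpot, Finset.sum_eq_zero fun a _ => ?_]
  · ring
  · rw [integral_add ((h1 a).integrable h.wpot) ((h2 a).integrable h.wpot), h.green (hξ a) (hχ.pd a),
      neg_add_cancel]

/-- `poincare`, `|∇f|² ≤ C₁ Γ(f,f)` -/
theorem Nice.poin (h : Nice ε C₁ V u τ) {f : Fn n} (hf : PG 1 f) (h0 : ∫ x, f x ∂gibbs V = 0) :
    ∫ x, f x ^ 2 ∂gibbs V ≤ C₁ / ε * ∫ x, Gam τ f f x ∂gibbs V := by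
  have hε := h.ε_pos
  have hC := h.C₁_pos
  have hf0 : ∀ i, PG 0 (pd i f) := fun i => hf.pd i
  have h1 := poincare h.wpot hε h.sconv hf h0
  have h2 : ∫ x, ∑ i, pd i f x ^ 2 ∂gibbs V ≤ C₁ * ∫ x, Gam τ f f x ∂gibbs V := by
    rw [← integral_const_mul]
    refine integral_mono ((PG.sum fun i => (hf0 i).sq).integrable h.wpot)
      (((PG.Gam (fun a b => (h.τpg a b).zero) hf hf).cmul C₁).integrable h.wpot) fun x => ?_
    have h3 : C₁⁻¹ * ∑ i, pd i f x ^ 2 ≤ Gam τ f f x := h.ell.lb x fun a => pd a f x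
    rwa [inv_mul_le_iff₀ hC] at h3
  calc _ ≤ _ := h1
    _ ≤ (C₁ * ∫ x, Gam τ f f x ∂gibbs V) / ε := div_le_div_of_nonneg_right h2 hε.le
    _ = _ := by ring

/-- `χ_i` is odd, so has mean zero: `E ip2 ≥ C₁⁻² E |D²χ|² ≥ ε C₁⁻² E |∇χ|² ≥ ε² C₁⁻² E Γ`
(`ip2_lower`, `poincare`, `τhi`) -/
theorem Nice.gap (h : Nice ε C₁ V u τ) {χ : Fn n} (hχ : PG 3 χ) (he : Ev χ) :
    (1 + ε ^ 2 / C₁ ^ 2) * ∫ x, Gam τ χ χ x ∂gibbs V ≤ ∫ x, Lop τ χ x ^ 2 ∂gibbs V := by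
  have hε := h.ε_pos
  have hC := h.C₁_pos
  have hτ : ∀ a b, PG 0 (τ a b) := fun a b => (h.τpg a b).zero
  have hχ1 : PG 1 χ := hχ.mono (by norm_num)
  have hp : ∀ j, PG 1 (pd j χ) := fun j => (hχ.pd j).mono (by norm_num)
  have hd : ∀ i j, PG 0 (d2 χ i j) := fun i j => (hp j).pd i
  have h1 : ε * ∫ x, Gam τ χ χ x ∂gibbs V ≤ ∑ j, ∫ x, pd j χ x ^ 2 ∂gibbs V := by
    rw [← integral_const_mul, ← integral_finsetSum _ fun j _ => (hp j).sq.integrable h.wpot]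
    refine integral_mono (((PG.Gam hτ hχ1 hχ1).cmul ε).integrable h.wpot)
      ((PG.sum fun j => (hp j).sq).integrable h.wpot) fun x => ?_
    have h3 : Gam τ χ χ x ≤ ε⁻¹ * ∑ j, pd j χ x ^ 2 := h.τhi x fun a => pd a χ x
    rwa [le_inv_mul_iff₀ hε] at h3
  have h2 : ε * ∑ j, ∫ x, pd j χ x ^ 2 ∂gibbs V ≤ ∫ x, ∑ i, ∑ j, d2 χ i j x ^ 2 ∂gibbs V := by
    have e : ∫ x, ∑ i, ∑ j, d2 χ i j x ^ 2 ∂gibbs V = ∑ j, ∫ x, ∑ i, d2 χ i j x ^ 2 ∂gibbs V := by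
      rw [← integral_finsetSum _ fun j _ => (PG.sum fun i => (hd i j).sq).integrable h.wpot]
      exact integral_congr_ae (Eventually.of_forall fun x => Finset.sum_comm)
    rw [e, Finset.mul_sum]
    refine Finset.sum_le_sum fun j _ => ?_
    have h3 := poincare h.wpot hε h.sconv (hp j) (integral_odd h.Veven (he.pd hχ1.diff j))
    rwa [le_div_iff₀' hε] at h3
  have h3 : C₁⁻¹ ^ 2 * ∫ x, ∑ i, ∑ j, d2 χ i j x ^ 2 ∂gibbs V ≤
      ∫ x, ip2 (fun a b => τ a b x) (fun a b => d2 χ a b x) (fun a b => d2 χ a b x) ∂gibbs V := by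
    rw [← integral_const_mul]
    exact integral_mono (((PG.sum fun i => PG.sum fun j => (hd i j).sq).cmul _).integrable h.wpot)
      ((PG.ip2 hτ hd hd).integrable h.wpot) fun x =>
        ip2_lower (inv_nonneg.2 hC.le) (fun a b => h.ell.symm a b x) (h.ell.lb x) _
  have h4 : ε ^ 2 * ∫ x, Gam τ χ χ x ∂gibbs V ≤ ∫ x, ∑ i, ∑ j, d2 χ i j x ^ 2 ∂gibbs V := by
    have := mul_le_mul_of_nonneg_left h1 hε.le
    calc _ = ε * (ε * ∫ x, Gam τ χ χ x ∂gibbs V) := by ring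
      _ ≤ _ := this.trans h2
  have h5 := (mul_le_mul_of_nonneg_left h4 (sq_nonneg C₁⁻¹)).trans h3
  rw [h.bochner0 hχ]
  have e : (1 + ε ^ 2 / C₁ ^ 2) * ∫ x, Gam τ χ χ x ∂gibbs V =
      ∫ x, Gam τ χ χ x ∂gibbs V + C₁⁻¹ ^ 2 * (ε ^ 2 * ∫ x, Gam τ χ χ x ∂gibbs V) := by
    rw [inv_pow, div_eq_mul_inv]; ring
  rw [e]
  linarith

lemma gapb_num {κ b d g θ : ℝ} (hκ : 0 < κ) (hb : 0 ≤ b) (hd : 0 ≤ d) (hg : 0 ≤ g) (hθ : θ ≤ 1)
    (h1 : (1 + κ) * b ≤ d) (h2 : (d - θ * b) ^ 2 ≤ g * d) : b ≤ ((1 + κ) / κ) ^ 2 * g := by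
  have h3 : κ / (1 + κ) * d ≤ d - θ * b := by
    rw [div_mul_eq_mul_div, div_le_iff₀ (by positivity)]
    have : θ * b ≤ b := by nlinarith
    nlinarith
  have h4 : (κ / (1 + κ) * d) ^ 2 ≤ g * d :=
    (pow_le_pow_left₀ (by positivity) h3 2).trans h2
  have h5 : (κ / (1 + κ)) ^ 2 * d ≤ g := by
    rcases hd.eq_or_lt with h0 | h0
    · rw [← h0, mul_zero]; exact hg
    · refine le_of_mul_le_mul_right ?_ h0
      calc _ = (κ / (1 + κ) * d) ^ 2 := by ring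
        _ ≤ _ := h4
  have h6 : d ≤ ((1 + κ) / κ) ^ 2 * g := by
    calc d = ((1 + κ) / κ) ^ 2 * ((κ / (1 + κ)) ^ 2 * d) := by field_simp
      _ ≤ _ := mul_le_mul_of_nonneg_left h5 (by positivity)
  nlinarith

/-- `d = E (Lχ)²`, `b = E Γ(χ,χ) ≥ 0`, `κ' = ε²/C₁²`.  Pair the equation with `Lχ`:
`d - θ b = E G Lχ ≤ √(E G² · d)`, and `θ b ≤ b ≤ d/(1+κ')`; so `d ≤ (1 + 1/κ')² E G²`; `E χ² ≤ (C₁/ε) b`. -/
theorem l2_est (n : ℕ) {ε C₁ : ℝ} (hε : 0 < ε) (hC : 0 < C₁) : ∃ K : ℝ, 0 < K ∧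
    ∀ (V u : Fn n) (τ : MF n) (χ G : Fn n) (θ : ℝ), Nice ε C₁ V u τ → PG 3 χ → Ev χ →
    ∫ x, χ x ∂gibbs V = 0 → θ ≤ 1 → (∀ x, Lop τ χ x + θ * χ x = G x) →
    ∫ x, χ x ^ 2 ∂gibbs V ≤ K * ∫ x, G x ^ 2 ∂gibbs V := by
  obtain ⟨κ, hκ⟩ : ∃ κ, κ = ε ^ 2 / C₁ ^ 2 := ⟨_, rfl⟩
  have hκ0 : 0 < κ := by rw [hκ]; positivity
  refine ⟨C₁ / ε * ((1 + κ) / κ) ^ 2, by positivity, fun V u τ χ G θ h hχ he h0 hθ hG => ?_⟩
  have hτ : ∀ a b, PG 0 (τ a b) := fun a b => (h.τpg a b).zero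
  have hχ1 : PG 1 χ := hχ.mono (by norm_num)
  have hχ2 : PG 2 χ := hχ.mono (by norm_num)
  have hL : PG 0 (Lop τ χ) := PG.Lop hτ hχ2
  have hGp : PG 0 G := (hL.add (hχ.zero.cmul θ)).congr hG
  have hb : 0 ≤ ∫ x, Gam τ χ χ x ∂gibbs V :=
    integral_nonneg fun x => h.geo.psd x fun a => pd a χ x
  have hd : 0 ≤ ∫ x, Lop τ χ x ^ 2 ∂gibbs V := integral_nonneg fun x => sq_nonneg _
  have hg : 0 ≤ ∫ x, G x ^ 2 ∂gibbs V := integral_nonneg fun x => sq_nonneg _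
  have h1 := h.gap hχ he
  rw [← hκ] at h1
  have h2 : ∫ x, G x * Lop τ χ x ∂gibbs V =
      ∫ x, Lop τ χ x ^ 2 ∂gibbs V - θ * ∫ x, Gam τ χ χ x ∂gibbs V := by
    have h3 := h.green hχ1 hχ2
    rw [sub_eq_add_neg, ← mul_neg, ← h3, ← integral_const_mul, ← integral_add (hL.sq.integrable h.wpot)
      (((hχ.zero.mul hL).cmul θ).integrable h.wpot)]
    refine integral_congr_ae (Eventually.of_forall fun x => ?_)
    simp only [← hG x]
    ring
  have h3 := sq_integral_mul_le h.wpot hGp hL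
  rw [h2] at h3
  have h4 := h.poin hχ1 h0
  generalize ∫ x, Gam τ χ χ x ∂gibbs V = b at *
  generalize ∫ x, Lop τ χ x ^ 2 ∂gibbs V = d at *
  generalize ∫ x, G x ^ 2 ∂gibbs V = g at *
  exact h4.trans (by
    rw [mul_assoc]
    exact mul_le_mul_of_nonneg_left (gapb_num hκ0 hb hd hg hθ h1 h3) (by positivity))

end Crest.Agent.R238
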