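import Crest.Agent.R238.Ops
import Crest.Agent.R238.Rat

/-!
# Row 238 (S0369): Geo
Pointwise identities for a moment potential.  `U_{ijk} = d3 u i j k` is fully symmetric (`d3_swap12`,
`d3_swap23`).  For re-indexing multiple sums use `Finset.sum_comm`, or pass to matrices
(`mat`, `Matrix.mul_apply`, `Matrix.trace`).
-/

set_option autoImplicit false
set_option linter.unusedVariables false

open MeasureTheory Filter Topology Matrix
open Crest.Agent.R285 (bas pd gibbs WPot PolyB SConv)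

noncomputable section

namespace Crest.Agent.R238

variable {n : ℕ}

variable {V u : Fn n} {τ : MF n}

lemma Geo.τdiff (h : Geo V u τ) (a b : Fin n) : Differentiable ℝ (τ a b) :=
  (h.τ3 a b).differentiable (by norm_num)

lemma Geo.H3 (h : Geo V u τ) (i j : Fin n) : ContDiff ℝ 3 (d2 u i j) :=
  contDiff_pd (m := 3) (contDiff_pd (m := 4) h.u5 j) i

lemma Geo.U2 (h : Geo V u τ) (i j k : Fin n) : ContDiff ℝ 2 (d3 u i j k) :=
  contDiff_pd (m := 2) (h.H3 j k) i

lemma Geo.dτ (h : Geo V u τ) (k i j : Fin n) :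
    pd k (τ i j) = fun x => -∑ a, ∑ b, τ i a x * d3 u k a b x * τ b j x :=
  pd_inv h.τdiff (fun a b => (h.H3 a b).differentiable (by norm_num)) h.inv k i j

lemma Geo.geoa_u3 (h : Geo V u τ) : ContDiff ℝ 3 u := h.u5.of_le (by norm_num)

lemma Geo.geoa_p3 (h : Geo V u τ) (j : Fin n) : ContDiff ℝ 3 (pd j u) :=
  (contDiff_pd (m := 4) h.u5 j).of_le (by norm_num)

/-- `τ_{pq} ∂_p τ_{ab} = -τ_{qp} τ_{ac} τ_{bd} U_{pcd}` is symmetric in `(q, a)` -/
lemma Geo.up_symm (h : Geo V u τ) (q a b : Fin n) (x : X n) :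
    ∑ p, τ p q x * pd p (τ a b) x = ∑ p, τ p a x * pd p (τ q b) x := by
  simp only [h.dτ, mul_neg, Finset.sum_neg_distrib, Finset.mul_sum]
  congr 1
  rw [Finset.sum_comm]
  refine Finset.sum_congr rfl fun p _ => Finset.sum_congr rfl fun c _ =>
    Finset.sum_congr rfl fun d _ => ?_
  rw [d3_swap12 h.geoa_u3 c p d, h.symm c q, h.symm a p]
  ring

/-- `∑_a ∂_a τ_{ia} = -τ_{ic} (τ : U_c)`, `eq1` gives `τ : U_c + V_c = x_b H_{bc}`, and `τ H = 1` -/
lemma Geo.divτ (h : Geo V u τ) (i : Fin n) (x : X n) :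
    ∑ a, (pd a (τ i a) x - pd a V x * τ i a x) = -x i := by
  have h1 : ∀ c, pd c V x = ∑ a, x a * d2 u a c x - ∑ a, ∑ b, τ a b x * d3 u a b c x := fun c => by
    have := h.eq1 c x
    unfold Lop at this
    linarith
  have h2 : ∑ c, (∑ a, x a * d2 u a c x) * τ i c x = x i := by
    simp only [Finset.sum_mul]
    rw [Finset.sum_comm]
    calc ∑ a, ∑ c, x a * d2 u a c x * τ i c x = ∑ a, x a * if i = a then 1 else 0 := by
          refine Finset.sum_congr rfl fun a _ => ?_
          rw [← h.inv x i a, Finset.mul_sum]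
          refine Finset.sum_congr rfl fun c _ => ?_
          rw [d2_comm (h.u5.of_le (by norm_num)) a c]
          ring
      _ = x i := by simp
  have h3 : ∑ a, ∑ c, ∑ d, τ i c x * d3 u a c d x * τ d a x =
      ∑ c, (∑ a, ∑ b, τ a b x * d3 u a b c x) * τ i c x := by
    simp only [Finset.sum_mul]
    rw [Finset.sum_comm]
    refine Finset.sum_congr rfl fun c _ => Finset.sum_congr rfl fun a _ =>
      Finset.sum_congr rfl fun d _ => ?_
    rw [d3_swap23 h.geoa_u3 a c d, h.symm d a]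
    ring
  simp only [h.dτ, h1, sub_mul, Finset.sum_sub_distrib, Finset.sum_neg_distrib]
  rw [h2, h3]
  ring

/-- differentiate `eq1 j` in direction `i` (`pd_Lop`, `dτ`) -/
lemma Geo.LH (h : Geo V u τ) (i j : Fin n) (x : X n) :
    Lop τ (d2 u i j) x = d2 u i j x + Qf u τ i j x - d2 V i j x := by
  have h1 := congrFun (pd_Lop h.τdiff (h.geoa_p3 j) i) x
  rw [show Lop τ (pd j u) = fun y => -pd j V y from funext (h.eq1 j), R285.pd_neg] at h1
  have h2 : ∑ a, ∑ b, pd i (τ a b) x * d2 (pd j u) a b x = -Qf u τ i j x := by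
    rw [Qf, ip2_symm (fun a b => h.symm a b x), ip2]
    simp only [h.dτ, neg_mul, Finset.sum_neg_distrib, Finset.sum_mul]
    congr 1
    refine Finset.sum_congr rfl fun a _ => Finset.sum_congr rfl fun b _ =>
      Finset.sum_congr rfl fun c _ => Finset.sum_congr rfl fun d _ => ?_
    rw [d3_swap12 h.geoa_u3 j a b, d3_swap23 h.geoa_u3 a j b, h.symm d b]
    ring
  rw [h2] at h1
  linarith

lemma geob_perm (F : Fin n → Fin n → Fin n → Fin n → Fin n → ℝ) :
    ∑ a, ∑ p, ∑ q, ∑ c, ∑ d, F a p q c d = ∑ c, ∑ p, ∑ d, ∑ q, ∑ a, F a p q c d := by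
  have := Fintype.sum_equiv (ι := Fin n × Fin n × Fin n × Fin n × Fin n)
    (κ := Fin n × Fin n × Fin n × Fin n × Fin n)
    ⟨fun t => (t.2.2.2.1, t.2.1, t.2.2.2.2, t.2.2.1, t.1),
      fun t => (t.2.2.2.2, t.2.1, t.2.2.2.1, t.1, t.2.2.1), fun _ => rfl, fun _ => rfl⟩
    (fun t => F t.1 t.2.1 t.2.2.1 t.2.2.2.1 t.2.2.2.2)
    (fun t => F t.2.2.2.2 t.2.1 t.2.2.2.1 t.1 t.2.2.1) fun _ => rfl
  simpa only [Fintype.sum_prod_type] using this

lemma geob_gam (h : Geo V u τ) (i k : Fin n) (x : X n) :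
    ∑ a, Gam τ (τ i a) (d2 u a k) x = -∑ c, τ i c x * Qf u τ c k x := by
  have h3 : ContDiff ℝ 3 u := h.u5.of_le (by norm_num)
  simp only [Gam, h.dτ, Qf, ip2, mul_neg, neg_mul, Finset.sum_neg_distrib, Finset.mul_sum,
    Finset.sum_mul, neg_inj]
  rw [geob_perm]
  refine Finset.sum_congr rfl fun c _ => Finset.sum_congr rfl fun p _ => Finset.sum_congr rfl fun d _ =>
    Finset.sum_congr rfl fun q _ => Finset.sum_congr rfl fun a _ => ?_
  rw [d3_swap12 h3 c p d, d3_swap12 h3 k q a, d3_swap23 h3 q k a]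
  simp only [d3, d2]
  ring

lemma geob_alg {T H Q W L : Matrix (Fin n) (Fin n) ℝ} (h1 : T * H = 1)
    (e : T * (H + Q - W) + L * H - (T * Q + T * Q) = 0) : L = -T + T * (Q + W) * T := by
  have h2 : H * T = 1 := mul_eq_one_comm.1 h1
  have e' := congrArg (· * T) e
  simp only [mul_sub, mul_add, sub_mul, add_mul, mul_assoc, h2, mul_one, zero_mul] at e' ⊢
  rw [← sub_eq_zero, ← e']
  abel

/-- apply `Lop τ` to `∑_a τ_{ia} H_{ak} = δ` (`Lop_sum`, `Lop_mul`, `Lop_const`), multiply by `τ_{kj}`: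
`Lτ = -τ (LH) τ - 2 τ_{pq} ∂_pτ U_q τ` and `τ_{pq} U_p τ U_q = Q` -/
lemma Geo.Lτ (h : Geo V u τ) (i j : Fin n) (x : X n) :
    Lop τ (τ i j) x =
      -τ i j x + ∑ a, ∑ b, τ i a x * (Qf u τ a b x + d2 V a b x) * τ b j x := by
  have t2 : ∀ a b, ContDiff ℝ 2 (τ a b) := fun a b => (h.τ3 a b).of_le (by norm_num)
  have H2 : ∀ a b, ContDiff ℝ 2 (d2 u a b) := fun a b => (h.H3 a b).of_le (by norm_num)
  have e := geob_alg (T := mat τ x) (H := mat (d2 u) x) (Q := mat (Qf u τ) x) (W := mat (d2 V) x)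
    (L := Matrix.of fun i j => Lop τ (τ i j) x) ?_ ?_
  · have e' := congrFun (congrFun e i) j
    simp only [mat, Matrix.of_apply, Matrix.add_apply, Matrix.neg_apply, Matrix.mul_apply,
      Finset.sum_mul] at e'
    rw [e', Finset.sum_comm]
  · ext i j
    simpa only [mat, Matrix.mul_apply, Matrix.of_apply, Matrix.one_apply] using h.inv x i j
  · ext i k
    have h0 := Lop_sum τ (fun a => (t2 i a).mul (H2 a k)) x
    simp only [h.inv, Lop_const, Lop_mul h.symm (t2 _ _) (H2 _ _), Finset.sum_add_distrib,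
      ← Finset.mul_sum, geob_gam h, h.LH] at h0
    simp only [mat, Matrix.of_apply, Matrix.add_apply, Matrix.sub_apply, Matrix.mul_apply,
      Matrix.zero_apply, mul_comm (Lop τ _ x)]
    linarith

/-- `Q ξξ = ip2 τ M M` with `M_{ac} = ∑_i ξ_i U_{iac}` -/
lemma Geo.Q_psd (h : Geo V u τ) (x : X n) (ξ : Fin n → ℝ) : 0 ≤ qf (fun i j => Qf u τ i j x) ξ := by
  obtain ⟨b, hb⟩ := exists_sqrt (fun a b => h.symm a b x) (h.psd x)
  have h1 := tensb_gen (fun i (P : Fin n × Fin n) => ∑ a, ∑ c, b a P.1 * b c P.2 * d3 u i a c x) ξ ξ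
  refine le_of_le_of_eq (Finset.sum_nonneg fun P _ => mul_self_nonneg _) (h1.symm.trans ?_)
  refine Finset.sum_congr rfl fun i _ => Finset.sum_congr rfl fun j _ => ?_
  simp only [Qf, ip2_eq_sqrt hb, Fintype.sum_prod_type]

lemma Geo.geoa_Q (h : Geo V u τ) (i j : Fin n) : Differentiable ℝ (Qf u τ i j) := by
  have hU : ∀ i j k, Differentiable ℝ (d3 u i j k) := fun i j k =>
    (h.U2 i j k).differentiable (by norm_num)
  change Differentiable ℝ fun x => ∑ a, ∑ b, ∑ c, ∑ d,
    τ a c x * τ b d x * d3 u i a b x * d3 u j c d x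
  refine Differentiable.fun_sum fun a _ => ?_
  refine Differentiable.fun_sum fun b _ => ?_
  refine Differentiable.fun_sum fun c _ => ?_
  refine Differentiable.fun_sum fun d _ => ?_
  exact (((h.τdiff a c).mul (h.τdiff b d)).mul (hU i a b)).mul (hU j c d)

/-- differentiate `LH` -/
lemma Geo.LU (h : Geo V u τ) (k i j : Fin n) (x : X n) :
    Lop τ (d3 u k i j) x = 2 * d3 u k i j x + pd k (Qf u τ i j) x - d3 V k i j x -
      ∑ a, ∑ b, pd k (τ a b) x * d4 u a b i j x := by
  have hH : Differentiable ℝ (d2 u i j) := (h.H3 i j).differentiable (by norm_num)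
  have hV : Differentiable ℝ (d2 V i j) := differentiable_pd (contDiff_pd (m := 2) h.V3 j) i
  have h1 := congrFun (pd_Lop h.τdiff (h.H3 i j) k) x
  rw [show Lop τ (d2 u i j) = fun y => d2 u i j y + Qf u τ i j y - d2 V i j y from funext (h.LH i j),
    R285.pd_sub k (f := fun y => d2 u i j y + Qf u τ i j y) (hH.add (h.geoa_Q i j)) hV, R285.pd_add k hH (h.geoa_Q i j)] at h1
  linarith

lemma geoc_fderiv_det {M : X n → Matrix (Fin n) (Fin n) ℝ} {x : X n}
    (hM : ∀ i j, DifferentiableAt ℝ (fun y => M y i j) x) (v : X n) :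
    fderiv ℝ (fun y => (M y).det) x v
      = ∑ i, ∑ k, (M x).adjugate i k * fderiv ℝ (fun y => M y k i) x v := by
  have h1 := HasFDerivAt.fun_sum (u := Finset.univ) fun (σ : Equiv.Perm (Fin n)) _ =>
    (HasFDerivAt.finsetProd (u := Finset.univ) (g := fun i y => M y (σ i) i)
      fun i _ => (hM (σ i) i).hasFDerivAt).const_mul ((Equiv.Perm.sign σ : ℤ) : ℝ)
  simp only [Matrix.det_apply']
  rw [h1.fderiv]
  have h2 : ∀ i, ∑ k, (M x).adjugate i k * fderiv ℝ (fun y => M y k i) x v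
      = ((M x).updateCol i fun k => fderiv ℝ (fun y => M y k i) x v).det := fun i => by
    rw [← Matrix.cramer_apply, Matrix.cramer_eq_adjugate_mulVec]
    rfl
  simp only [h2, Matrix.det_apply', _root_.sum_apply, _root_.smul_apply, smul_eq_mul,
    Finset.mul_sum]
  rw [Finset.sum_comm]
  refine Finset.sum_congr rfl fun i _ => Finset.sum_congr rfl fun σ _ => ?_
  rw [← Finset.prod_erase_mul _ _ (Finset.mem_univ i), Matrix.updateCol_self]
  congr 2
  exact Finset.prod_congr rfl fun j hj => (Matrix.updateCol_ne (Finset.ne_of_mem_erase hj)).symm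

/-- Jacobi's formula.  E.g. `Matrix.det_apply'` and `HasDerivAt.finset_prod` along the line `x + t e_k`, then
`∑_σ sign σ ∑_j H'_{σ j, j} ∏_{i ≠ j} H_{σ i, i} = ∑_j det (updateCol H j H'_j) = tr (adjugate H * H')`
(`Matrix.cramer_apply`, `Matrix.cramer_eq_adjugate_mulVec`); or write `H y = H x (1 + τ x (H y - H x))` and
use the derivative of `det` at `1`.  `Real.log` is differentiable at `det ≠ 0`. -/
theorem pd_logdet {H : MF n} (hH : ∀ a b, Differentiable ℝ (H a b)) {T : A2 n} {x : X n}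
    (h : ∀ i j, ∑ a, T i a * H a j x = if i = j then 1 else 0) (k : Fin n) :
    pd k (fun y => Real.log (mat H y).det) x = ∑ a, ∑ b, T a b * pd k (H b a) x := by
  have h1 : Matrix.of T * mat H x = 1 := by
    ext i j
    rw [Matrix.mul_apply, Matrix.one_apply]
    exact h i j
  have h2 : (mat H x).det ≠ 0 := by
    have := congrArg Matrix.det h1
    rw [Matrix.det_mul, Matrix.det_one] at this
    exact right_ne_zero_of_mul_eq_one this
  have h3 : (mat H x).adjugate = (mat H x).det • Matrix.of T := by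
    calc (mat H x).adjugate = Matrix.of T * mat H x * (mat H x).adjugate := by rw [h1, Matrix.one_mul]
      _ = _ := by rw [Matrix.mul_assoc, Matrix.mul_adjugate, Matrix.mul_smul, Matrix.mul_one]
  rw [pd_comp_real k (f := fun y => (mat H y).det) (Real.hasDerivAt_log h2)
    (ratb_det (M := mat H) hH x)]
  have h4 := geoc_fderiv_det (M := mat H) (x := x) (fun i j => hH i j x) (bas k)
  rw [pd, h4, h3, Finset.mul_sum]
  refine Finset.sum_congr rfl fun a _ => ?_
  rw [Finset.mul_sum]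
  refine Finset.sum_congr rfl fun b _ => ?_
  rw [Matrix.smul_apply, smul_eq_mul, Matrix.of_apply, ← mul_assoc, ← mul_assoc,
    inv_mul_cancel₀ h2, one_mul]
  rfl

/-- `u ∈ C⁵` by `contDiff_succ_of_pd` twice; differentiate `eq` with `pd_logdet` -/
theorem Mom.geo (h : Mom V u τ) (hV : ContDiff ℝ 3 V) : Geo V u τ := by
  have hu1 : Differentiable ℝ u := h.u2.differentiable (by norm_num)
  have hp : ∀ j, Differentiable ℝ (pd j u) := differentiable_pd h.u2
  have u5 : ContDiff ℝ 5 u :=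
    contDiff_succ_of_pd (m := 4) hu1 fun j =>
      contDiff_succ_of_pd (m := 3) (hp j) fun i => (h.H3 i j).contDiff
  have u3 : ContDiff ℝ 3 u := u5.of_le (by norm_num)
  obtain ⟨κ, hκ, hE⟩ := h.ell
  refine ⟨u5, hV, fun a b => (h.τ3 a b).contDiff, hE.symm,
    fun x ξ => (mul_nonneg hκ.le (ssq_nonneg ξ)).trans (hE.lb x ξ), h.inv, fun i x => ?_⟩
  have e1 := pd_logdet (H := d2 u) (fun a b => (h.H3 a b).diff) (T := fun a b => τ a b x)
    (h.inv x) i
  have hd : ∀ a, Differentiable ℝ fun y : X n => y a * pd a u y := fun a =>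
    (differentiable_crd a).mul (hp a)
  have hs : Differentiable ℝ fun y : X n => ∑ a, y a * pd a u y :=
    Differentiable.fun_sum fun a _ => hd a
  rw [funext h.eq, R285.pd_sub i (hs.fun_sub hu1) (hV.differentiable (by norm_num)),
    R285.pd_sub i hs hu1, pd_usum i hd] at e1
  simp only [R285.pd_mul i (differentiable_crd _) (hp _), pd_crd, Finset.sum_add_distrib, ite_mul,
    one_mul, zero_mul, Finset.sum_ite_eq', Finset.mem_univ, if_true] at e1
  have e2 : ∀ a b, pd i (d2 u b a) = d2 (pd i u) a b := fun a b =>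
    ((d3_swap12 u3 i b a).trans (d3_swap23 u3 b i a)).trans (d3_swap12 u3 b a i)
  have e3 : ∀ a, pd i (pd a u) = pd a (pd i u) := fun a => d2_comm h.u2 i a
  simp only [e2, e3] at e1
  simp only [Lop]
  linarith

/-- `τ (-x)` and `τ x` are both inverse to the matrix `H x = H (-x)` -/
theorem Mom.τeven (h : Mom V u τ) (a b : Fin n) : Ev (τ a b) := by
  intro x
  have hH : ∀ i j, d2 u i j (-x) = d2 u i j x := fun i j =>
    (h.even.pd (h.u2.differentiable (by norm_num)) j).pd (differentiable_pd h.u2 j) i x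
  have h1 : ∀ y, mat τ y * mat (d2 u) y = 1 := fun y => by
    ext i j
    simpa only [mat, Matrix.mul_apply, Matrix.of_apply, Matrix.one_apply] using h.inv y i j
  have h2 : mat (d2 u) (-x) = mat (d2 u) x := by
    ext i j
    exact hH i j
  have h3 := h1 (-x)
  rw [h2] at h3
  exact congrFun (congrFun (left_inv_eq_left_inv h3 (h1 x)) a) b

end Crest.Agent.R238
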