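import Crest.Agent.R238.Geo
import Crest.Agent.R238.Int

/-!
# Row 238 (S0369): Green
Stein and Green identities for `gibbs V`; products of matrix fields.
-/

set_option autoImplicit false
set_option linter.unusedVariables false

open MeasureTheory Filter Topology Matrix
open Crest.Agent.R285 (bas pd gibbs WPot PolyB SConv)

noncomputable section

namespace Crest.Agent.R238

variable {n : ℕ}

variable {ε C₁ : ℝ} {V u : Fn n} {τ : MF n}

lemma Nice.τpg (h : Nice ε C₁ V u τ) (a b : Fin n) : PG 3 (τ a b) := (h.τ3 a b).pg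
lemma Nice.Upg (h : Nice ε C₁ V u τ) (i j k : Fin n) : PG 2 (d3 u i j k) := ((h.H3 j k).pd i).pg

lemma green_eq (hV : WPot V) (hV1 : PG 1 V) {η : Fin n → Fn n} (hη : ∀ a, PG 1 (η a)) {A B : Fn n}
    (hA : PG 0 A) (hB : PG 0 B) (h : ∀ x, ∑ a, (pd a (η a) x - pd a V x * η a x) = A x - B x) :
    ∫ x, A x ∂gibbs V = ∫ x, B x ∂gibbs V := by
  rw [← sub_eq_zero, ← integral_sub (hA.integrable hV) (hB.integrable hV)]
  simp only [← h]
  rw [integral_finsetSum _ fun a _ =>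
    (((hη a).pd a).sub ((hV1.pd a).mul (hη a).zero)).integrable hV]
  refine Finset.sum_eq_zero fun a _ => ?_
  rw [integral_sub (((hη a).pd a).integrable hV) (((hV1.pd a).mul (hη a).zero).integrable hV),
    ibp hV (hη a), sub_self]

/-- `ibp` for `τ_{ia} F`, sum over `a`, `divτ` -/
theorem Nice.stein (h : Nice ε C₁ V u τ) {F : Fn n} (hF : PG 1 F) (i : Fin n) :
    ∫ x, x i * F x ∂gibbs V = ∫ x, ∑ a, τ i a x * pd a F x ∂gibbs V := by
  symm
  refine green_eq h.wpot (h.Vpg.mono (by norm_num)) (η := fun a x => τ i a x * F x)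
    (fun a => ((h.τpg i a).mono (by norm_num)).mul hF)
    (PG.sum fun a => (h.τpg i a).zero.mul (hF.pd a)) ((PG.crd 0 i).mul hF.zero) fun x => ?_
  have e := congrArg (· * F x) (h.geo.divτ i x)
  simp only [R285.pd_mul _ (h.geo.τdiff _ _) hF.diff]
  simp only [Finset.sum_mul] at e
  rw [sub_eq_add_neg (∑ a, τ i a x * pd a F x), ← neg_mul, ← e, ← Finset.sum_add_distrib]
  exact Finset.sum_congr rfl fun a _ => by ring

/-- `stein` for `F ∂_i G`, sum over `i` -/
theorem Nice.green (h : Nice ε C₁ V u τ) {F G : Fn n} (hF : PG 1 F) (hG : PG 2 G) :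
    ∫ x, F x * Lop τ G x ∂gibbs V = -∫ x, Gam τ F G x ∂gibbs V := by
  have hτ : ∀ a b, PG 0 (τ a b) := fun a b => (h.τpg a b).zero
  have h1 : ∀ i, ∫ x, (∑ a, τ i a x * (pd a F x * pd i G x + F x * d2 G a i x) -
      x i * (F x * pd i G x)) ∂gibbs V = 0 := fun i => by
    have e := h.stein (hF.mul (hG.pd i)) i
    simp only [R285.pd_mul _ hF.diff (hG.pd i).diff] at e
    rw [integral_sub ((PG.sum fun a => (hτ i a).mul (((hF.pd a).mul (hG.pd i).zero).add
      (hF.zero.mul (hG.d2 a i)))).integrable h.wpot)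
      (((PG.crd 0 i).mul (hF.zero.mul (hG.pd i).zero)).integrable h.wpot), e, sub_self]
  rw [eq_neg_iff_add_eq_zero, ← integral_add ((hF.zero.mul (PG.Lop hτ hG)).integrable h.wpot)
    ((PG.Gam hτ hF (hG.mono (by norm_num))).integrable h.wpot)]
  have h2 := Finset.sum_eq_zero (s := Finset.univ) fun i _ => h1 i
  rw [← integral_finsetSum _ fun i _ => ((PG.sum fun a => (hτ i a).mul
    (((hF.pd a).mul (hG.pd i).zero).add (hF.zero.mul (hG.d2 a i)))).sub
      ((PG.crd 0 i).mul (hF.zero.mul (hG.pd i).zero))).integrable h.wpot] at h2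
  rw [← h2]
  congr 1
  funext x
  rw [Finset.sum_sub_distrib, Finset.sum_comm]
  simp only [Lop, Gam, mul_sub, Finset.mul_sum]
  rw [sub_add_eq_add_sub, ← Finset.sum_add_distrib]
  congr 1
  · refine Finset.sum_congr rfl fun a _ => ?_
    rw [← Finset.sum_add_distrib]
    refine Finset.sum_congr rfl fun b _ => ?_
    rw [h.geo.symm b a]
    ring
  · exact Finset.sum_congr rfl fun a _ => by ring

theorem Nice.int_Lop (h : Nice ε C₁ V u τ) {G : Fn n} (hG : PG 2 G) :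
    ∫ x, Lop τ G x ∂gibbs V = 0 := by
  simpa [Gam, R285.pd_const] using h.green (PG.const 1 1) hG

/-- with `δ = ∑ (∂_a ξ_a - V_a ξ_a)`: `ibp` for `δ ξ_a` gives `E δ² = -E ξ_a ∂_a δ`, and `ibp` for
`ξ_a ∂_a ξ_b` in direction `b` gives `-E ξ_a (∂_b ∂_a ξ_b - V_b ∂_a ξ_b) = E ∂_b ξ_a ∂_a ξ_b` -/
theorem bochner_div (hV : WPot V) (hV2 : PG 2 V) {ξ : Fin n → Fn n} (hξ : ∀ i, PG 2 (ξ i)) :
    ∫ x, (∑ a, (pd a (ξ a) x - pd a V x * ξ a x)) ^ 2 ∂gibbs V =
      ∫ x, ∑ a, ∑ b, pd a (ξ b) x * pd b (ξ a) x ∂gibbs V +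
        ∫ x, qf (fun i j => d2 V i j x) (fun i => ξ i x) ∂gibbs V := by
  have hξ1 : ∀ i, PG 1 (ξ i) := fun i => (hξ i).mono (by norm_num)
  have hδ : PG 1 fun x => ∑ a, (pd a (ξ a) x - pd a V x * ξ a x) :=
    PG.sum fun a => ((hξ a).pd a).sub ((hV2.pd a).mul (hξ1 a))
  have hA : PG 0 fun x => ∑ a, ∑ b, pd a (ξ b) x * pd b (ξ a) x :=
    PG.sum fun a => PG.sum fun b => ((hξ1 b).pd a).mul ((hξ1 a).pd b)
  have hB : PG 0 fun x => qf (fun i j => d2 V i j x) (fun i => ξ i x) :=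
    PG.sum fun a => PG.sum fun b => ((hV2.d2 a b).mul (hξ a).zero).mul (hξ b).zero
  have hS : ∀ a, PG 1 fun x => ∑ b, ξ b x * pd b (ξ a) x := fun a =>
    PG.sum fun b => (hξ1 b).mul ((hξ a).pd b)
  have hdδ : ∀ a, pd a (fun x => ∑ b, (pd b (ξ b) x - pd b V x * ξ b x)) = fun x =>
      ∑ b, (d2 (ξ b) b a x - (d2 V a b x * ξ b x + pd b V x * pd a (ξ b) x)) := fun a => by
    rw [pd_usum a fun b => (((hξ b).pd b).sub ((hV2.pd b).mul (hξ1 b))).diff]
    funext x
    refine Finset.sum_congr rfl fun b _ => ?_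
    rw [R285.pd_sub a ((hξ b).pd b).diff ((hV2.pd b).mul (hξ1 b)).diff,
      R285.pd_mul a (hV2.pd b).diff (hξ1 b).diff, d2_comm (hξ b).contDiff b a]
  rw [← integral_add (hA.integrable hV) (hB.integrable hV)]
  refine green_eq hV (hV2.mono (by norm_num))
    (η := fun a x => (∑ b, (pd b (ξ b) x - pd b V x * ξ b x)) * ξ a x - ∑ b, ξ b x * pd b (ξ a) x)
    (fun a => (hδ.mul (hξ1 a)).sub (hS a)) hδ.zero.sq (hA.add hB) fun x => ?_
  have e : ∀ a, pd a (fun x => (∑ b, (pd b (ξ b) x - pd b V x * ξ b x)) * ξ a x -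
      ∑ b, ξ b x * pd b (ξ a) x) x =
      (∑ b, (d2 (ξ b) b a x - (d2 V a b x * ξ b x + pd b V x * pd a (ξ b) x))) * ξ a x +
        (∑ b, (pd b (ξ b) x - pd b V x * ξ b x)) * pd a (ξ a) x -
        ∑ b, (pd a (ξ b) x * pd b (ξ a) x + ξ b x * d2 (ξ a) a b x) := fun a => by
    rw [R285.pd_sub a (hδ.mul (hξ1 a)).diff (hS a).diff, R285.pd_mul a hδ.diff (hξ1 a).diff, hdδ,
      pd_usum a fun b => ((hξ1 b).mul ((hξ a).pd b)).diff]
    simp only [R285.pd_mul a (hξ1 _).diff ((hξ a).pd _).diff]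
  simp only [e]
  rw [sq, Finset.mul_sum (a := ∑ b, (pd b (ξ b) x - pd b V x * ξ b x))]
  generalize ∑ b, (pd b (ξ b) x - pd b V x * ξ b x) = δ
  have e1 : ∑ a, ∑ b, (d2 (ξ b) b a x - pd b V x * pd a (ξ b) x) * ξ a x =
      ∑ a, ∑ b, (d2 (ξ a) a b x - pd a V x * pd b (ξ a) x) * ξ b x := Finset.sum_comm
  rw [← sub_eq_zero] at e1
  rw [← sub_eq_zero, ← e1]
  simp only [qf, Finset.sum_mul, mul_sub, Finset.mul_sum, ← Finset.sum_add_distrib,
    ← Finset.sum_sub_distrib]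
  refine Finset.sum_congr rfl fun a _ => ?_
  simp only [sub_mul, add_mul, Finset.sum_add_distrib, Finset.sum_sub_distrib]
  have e2 : ∑ b, d2 V a b x * ξ a x * ξ b x = ∑ b, d2 V a b x * ξ b x * ξ a x :=
    Finset.sum_congr rfl fun b _ => by ring
  have e3 : ∑ b, ξ b x * d2 (ξ a) a b x = ∑ b, d2 (ξ a) a b x * ξ b x :=
    Finset.sum_congr rfl fun b _ => by ring
  have e4 : ∑ b, pd a V x * (ξ b x * pd b (ξ a) x) = ∑ b, pd a V x * pd b (ξ a) x * ξ b x :=
    Finset.sum_congr rfl fun b _ => by ring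
  rw [e2, e3, e4]
  ring

/-- product of matrix fields -/
def mm (A B : MF n) : MF n := fun i j x => ∑ a, A i a x * B a j x
/-- entrywise derivative -/
def dm (p : Fin n) (A : MF n) : MF n := fun i j => pd p (A i j)

lemma mat_apply (A : MF n) (x : X n) (i j : Fin n) : mat A x i j = A i j x := rfl
lemma mat_mm (A B : MF n) (x : X n) : mat (mm A B) x = mat A x * mat B x := by
  ext i j; simp [mat, mm, Matrix.mul_apply]
lemma PG.mm {k : ℕ} {A B : MF n} (hA : ∀ i j, PG k (A i j)) (hB : ∀ i j, PG k (B i j)) (i j : Fin n) :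
    PG k (mm A B i j) := PG.sum fun a => (hA i a).mul (hB a j)
lemma mat_dm_mm {A B : MF n} (hA : ∀ i j, Differentiable ℝ (A i j))
    (hB : ∀ i j, Differentiable ℝ (B i j)) (p : Fin n) (x : X n) :
    mat (dm p (mm A B)) x = mat (dm p A) x * mat B x + mat A x * mat (dm p B) x := by
  ext i j
  have e : dm p (mm A B) i j = pd p fun x => ∑ a, A i a x * B a j x := rfl
  rw [mat_apply, e, pd_usum p fun a => (hA i a).fun_mul (hB a j)]
  simp only [R285.pd_mul p (hA _ _) (hB _ _), Finset.sum_add_distrib, Matrix.add_apply,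
    Matrix.mul_apply, mat_apply, dm]

end Crest.Agent.R238
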