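import Crest.Agent.R238.Hol

/-!
# Row 238 (S0369): Lim
Pointwise limits of bounded sequences in the Hölder scale, and interpolation inequalities.
-/

set_option autoImplicit false
set_option linter.unusedVariables false

open MeasureTheory Filter Topology Matrix
open Crest.Agent.R285 (bas pd gibbs WPot PolyB SConv)

noncomputable section

namespace Crest.Agent.R238

variable {n : ℕ}

/-- Taylor remainder along a coordinate: by the mean value theorem (`exists_hasDerivAt_eq_slope` with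
`hasDerivAt_bas`) `f (x + t e_i) - f x = t ∂_i f (x + s e_i)`, `0 < s < t`. -/
lemma taylor_bas {f : Fn n} {M : ℝ} (hf : HB 1 f M) (x : X n) (i : Fin n) {t : ℝ} (ht : 0 < t) :
    |f (x + t • bas i) - f x - t * pd i f x| ≤ M * (t * √t) := by
  obtain ⟨s, hs, e⟩ := exists_hasDerivAt_eq_slope (fun s : ℝ => f (x + s • bas i))
    (fun s => pd i f (x + s • bas i)) ht
    (fun s _ => (hasDerivAt_bas hf.mem.diff x i s).continuousAt.continuousWithinAt)
    (fun s _ => hasDerivAt_bas hf.mem.diff x i s)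
  simp only [zero_smul, add_zero, sub_zero] at e
  rw [eq_div_iff ht.ne'] at e
  have h1 := (hf.pd i).hol_le (x + s • bas i) x
  rw [add_sub_cancel_left, norm_smul, R285.norm_bas, mul_one, Real.norm_eq_abs,
    abs_of_pos hs.1] at h1
  have h2 : M * √s ≤ M * √t := mul_le_mul_of_nonneg_left (Real.sqrt_le_sqrt hs.2.le) hf.nonneg
  rw [← e, show pd i f (x + s • bas i) * t - t * pd i f x =
    t * (pd i f (x + s • bas i) - pd i f x) by ring, abs_mul, abs_of_pos ht]
  calc _ ≤ t * (M * √t) := mul_le_mul_of_nonneg_left (h1.trans h2) ht.le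
    _ = _ := by ring

/-- full Taylor remainder: apply the mean value theorem to `s ↦ f (x + s h)` (`hasDerivAt_line`) -/
lemma taylor_full {f : Fn n} {M : ℝ} (hf : HB 1 f M) (x h : X n) :
    |f (x + h) - f x - ∑ a, h a * pd a f x| ≤ n * M * (‖h‖ * √‖h‖) := by
  obtain ⟨s, hs, e⟩ := exists_hasDerivAt_eq_slope (fun s : ℝ => f (x + s • h))
    (fun s => ∑ a, h a * pd a f (x + s • h)) zero_lt_one
    (fun s _ => (hasDerivAt_line hf.mem.diff x h s).continuousAt.continuousWithinAt)
    (fun s _ => hasDerivAt_line hf.mem.diff x h s)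
  simp only [zero_smul, add_zero, sub_zero, one_smul, div_one] at e
  rw [← e, ← Finset.sum_sub_distrib]
  refine (Finset.abs_sum_le_sum_abs _ _).trans ?_
  have hn : ‖s • h‖ ≤ ‖h‖ := by
    rw [norm_smul, Real.norm_eq_abs, abs_of_pos hs.1]
    exact mul_le_of_le_one_left (norm_nonneg _) hs.2.le
  calc _ ≤ ∑ _a : Fin n, ‖h‖ * (M * √‖h‖) := Finset.sum_le_sum fun a _ => by
        have h1 := (hf.pd a).hol_le (x + s • h) x
        rw [add_sub_cancel_left] at h1
        rw [← mul_sub, abs_mul]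
        exact mul_le_mul (R285.abs_coord_le h a)
          (h1.trans (mul_le_mul_of_nonneg_left (Real.sqrt_le_sqrt hn) hf.nonneg)) (abs_nonneg _)
          (norm_nonneg _)
    _ = _ := by
        rw [Finset.sum_const, Finset.card_univ, Fintype.card_fin, nsmul_eq_mul]
        ring

/-- local interpolation, from `taylor_bas` -/
lemma interp_loc {f : Fn n} {M : ℝ} (hf : HB 1 f M) {x : X n} {t s : ℝ} (ht : 0 < t)
    (hs : ∀ y, ‖y - x‖ ≤ t → |f y| ≤ s) (i : Fin n) : |pd i f x| ≤ M * √t + 2 * s / t := by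
  have h1 := taylor_bas hf x i ht
  have h2 := hs (x + t • bas i) (by
    rw [add_sub_cancel_left, norm_smul, R285.norm_bas, mul_one, Real.norm_eq_abs, abs_of_pos ht])
  have h3 := hs x (by rw [sub_self, norm_zero]; exact ht.le)
  have h4 : t * |pd i f x| ≤ M * (t * √t) + 2 * s := by
    rw [← abs_of_pos ht, ← abs_mul, abs_of_pos ht]
    rw [abs_le] at h1 h2 h3 ⊢
    constructor <;> linarith [h1.1, h1.2, h2.1, h2.2, h3.1, h3.2]
  have e : M * √t + 2 * s / t = (M * (t * √t) + 2 * s) / t := by field_simp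
  rw [e, le_div_iff₀ ht]
  linarith

lemma limb_cauchy {F : ℕ → Fn n} {f : Fn n} {M : ℝ} (hF : ∀ m, HB 1 (F m) M)
    (hl : ∀ x, Tendsto (fun m => F m x) atTop (𝓝 (f x))) (i : Fin n) (x : X n) :
    CauchySeq fun m => pd i (F m) x := by
  have hM : 0 ≤ M := (hF 0).nonneg
  rw [Metric.cauchySeq_iff]
  intro ε hε
  obtain ⟨s, hs, hsM⟩ : ∃ s : ℝ, 0 < s ∧ M * s ≤ ε / 4 := by
    refine ⟨ε / 4 / (M + 1), by positivity, ?_⟩
    rw [← mul_div_assoc, div_le_iff₀ (by positivity)]
    nlinarith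
  have ht : 0 < s ^ 2 := by positivity
  have hc : CauchySeq fun m => F m (x + s ^ 2 • bas i) - F m x :=
    ((hl _).sub (hl x)).cauchySeq
  rw [Metric.cauchySeq_iff] at hc
  obtain ⟨N, hN⟩ := hc (ε / 4 * s ^ 2) (by positivity)
  refine ⟨N, fun m hm l hl' => ?_⟩
  have h1 := taylor_bas (hF m) x i ht
  have h2 := taylor_bas (hF l) x i ht
  have h3 := hN m hm l hl'
  rw [Real.sqrt_sq hs.le] at h1 h2
  rw [Real.dist_eq] at h3 ⊢
  have h4 : M * (s ^ 2 * s) ≤ ε / 4 * s ^ 2 := by nlinarith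
  have h5 : s ^ 2 * |pd i (F m) x - pd i (F l) x| < s ^ 2 * ε := by
    rw [← abs_of_pos ht, ← abs_mul, abs_of_pos ht, abs_lt]
    rw [abs_le] at h1 h2
    rw [abs_lt] at h3
    constructor <;> nlinarith [h1.1, h1.2, h2.1, h2.2, h3.1, h3.2, mul_pos ht hε]
  exact lt_of_mul_lt_mul_left h5 ht.le

/-- derivatives converge: by `taylor_bas` the sequence `pd i (F m) x` is Cauchy
(`|∂F_m - ∂F_l| ≤ 2 M √t + o(1)/t`); call the limits `g i`; pass to the limit in `taylor_full` to see
that `f` has derivative `h ↦ ∑ h_a g_a x` (`hasFDerivAt_iff_isLittleO_nhds_zero`). -/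
theorem lim_pd {F : ℕ → Fn n} {f : Fn n} {M : ℝ} (hF : ∀ m, HB 1 (F m) M)
    (hl : ∀ x, Tendsto (fun m => F m x) atTop (𝓝 (f x))) :
    Differentiable ℝ f ∧ ∀ i x, Tendsto (fun m => pd i (F m) x) atTop (𝓝 (pd i f x)) := by
  choose g hg using fun i x => cauchySeq_tendsto_of_complete (limb_cauchy hF hl i x)
  have hD : ∀ x, HasFDerivAt f
      (∑ a, g a x • (EuclideanSpace.proj a : X n →L[ℝ] ℝ)) x := fun x => by
    have hb : ∀ h : X n, |f (x + h) - f x - ∑ a, h a * g a x| ≤ n * M * (‖h‖ * √‖h‖) := fun h =>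
      le_of_tendsto' ((((hl (x + h)).sub (hl x)).sub
        (tendsto_finsetSum _ fun a _ => (hg a x).const_mul (h a))).abs)
        fun m => taylor_full (hF m) x h
    rw [hasFDerivAt_iff_isLittleO_nhds_zero, Asymptotics.isLittleO_iff]
    intro c hc
    have h0 : Tendsto (fun h : X n => (n : ℝ) * M * √‖h‖) (𝓝 0) (𝓝 0) := by
      have : Continuous fun h : X n => (n : ℝ) * M * √‖h‖ := by fun_prop
      simpa using this.tendsto 0
    filter_upwards [h0.eventually (gt_mem_nhds hc)] with h hh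
    have e : (∑ a, g a x • (EuclideanSpace.proj a : X n →L[ℝ] ℝ)) h = ∑ a, h a * g a x := by
      simp [mul_comm]
    rw [e, Real.norm_eq_abs]
    refine (hb h).trans ?_
    nlinarith [norm_nonneg h]
  refine ⟨fun x => (hD x).differentiableAt, fun i x => ?_⟩
  have e : pd i f x = g i x := by
    simp only [pd, (hD x).fderiv]
    simp [bas_apply]
  rw [e]
  exact hg i x

/-- induction on `k`: `C 0 = 2`, `C (k+1) = (1 + n) C k` -/
theorem lim_hb (n k : ℕ) : ∃ C : ℝ, 0 < C ∧ ∀ (F : ℕ → Fn n) (f : Fn n) (M : ℝ),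
    (∀ m, HB k (F m) M) → (∀ x, Tendsto (fun m => F m x) atTop (𝓝 (f x))) → HB k f (C * M) := by
  induction k with
  | zero =>
    refine ⟨2, two_pos, fun F f M hF hl => ?_⟩
    rw [two_mul]
    exact hb_zero (hF 0).nonneg (fun x => le_of_tendsto' (hl x).abs fun m => (hF m).abs_le x)
      fun x y => le_of_tendsto' ((hl x).sub (hl y)).abs fun m => (hF m).hol_le x y
  | succ k ih =>
    obtain ⟨C, hC, ih⟩ := ih
    refine ⟨(1 + n) * C, by positivity, fun F f M hF hl => ?_⟩
    obtain ⟨hd, hp⟩ := lim_pd (fun m => (hF m).mono (Nat.le_add_left 1 k)) hl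
    have := hb_succ (ih F f M (fun m => (hF m).mono (Nat.le_succ k)) hl) hd
      fun i => ih (fun m => pd i (F m)) (pd i f) M (fun m => (hF m).pd i) (hp i)
    exact this.weaken (le_of_eq (by ring))

/-- `L` passes to the limit (`lim_pd` twice) -/
theorem lim_Lop (τ : MF n) {F : ℕ → Fn n} {f : Fn n} {M : ℝ} (hF : ∀ m, HB 2 (F m) M)
    (hl : ∀ x, Tendsto (fun m => F m x) atTop (𝓝 (f x))) (x : X n) :
    Tendsto (fun m => Lop τ (F m) x) atTop (𝓝 (Lop τ f x)) := by
  have h1 := (lim_pd (fun m => (hF m).mono one_le_two) hl).2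
  have h2 := fun b => (lim_pd (fun m => HB.pd (k := 1) (hF m) b) (h1 b)).2
  exact (tendsto_finsetSum _ fun a _ => tendsto_finsetSum _ fun b _ =>
    (h2 b a x).const_mul _).sub (tendsto_finsetSum _ fun a _ => (h1 a x).const_mul _)

/-- interpolation.  `k = 0`: `[f] ≤ n M √d₀ + 2 S/√d₀` (small distances by `abs_sub_le_of_pd`).  Step:
`hn (k+1) f = hn k f + ∑ hn k (∂_i f)`, induction hypothesis for `f` and for `∂_i f`, whose sup is
`≤ hn (k+2) f √t + 2 S / t` by `interp_loc`. -/
theorem interp (n k : ℕ) {η : ℝ} (hη : 0 < η) : ∃ C : ℝ, 0 < C ∧ ∀ (f : Fn n) (S : ℝ),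
    Mem (k + 1) f → (∀ x, |f x| ≤ S) → hn k f ≤ η * hn (k + 1) f + C * S := by
  induction k generalizing η with
  | zero =>
    have hδ : 0 < η / (n + 1) := by positivity
    refine ⟨1 + 2 / (η / (n + 1)), by positivity, fun f S hf hS => ?_⟩
    set δ := η / (n + 1) with hδdef
    have hS0 : 0 ≤ S := (abs_nonneg _).trans (hS 0)
    have hN := hn_nonneg (0 + 1) f
    set N := hn (0 + 1) f with hNdef
    have hpd : ∀ a z, |pd a f z| ≤ N := fun a z => (hf.hb.pd a).abs_le z
    have h1 : holN f ≤ n * N * δ + 2 * S / δ := by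
      refine holN_le (by positivity) fun x y => ?_
      have hd := Real.sqrt_nonneg ‖x - y‖
      rcases le_total √‖x - y‖ δ with h | h
      · have h2 := abs_sub_le_of_pd hf.diff hpd x y
        calc _ ≤ n * N * (√‖x - y‖ * √‖x - y‖) := by
              rw [Real.mul_self_sqrt (norm_nonneg _)]; exact h2
          _ ≤ n * N * (δ * √‖x - y‖) := by gcongr
          _ ≤ n * N * (δ * √‖x - y‖) + 2 * S / δ * √‖x - y‖ := le_add_of_nonneg_right (by positivity)
          _ = _ := by ring
      · calc _ ≤ |f x| + |f y| := abs_sub _ _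
          _ ≤ 2 * S / δ * δ := by
              rw [div_mul_cancel₀ _ hδ.ne']; linarith [hS x, hS y]
          _ ≤ 2 * S / δ * √‖x - y‖ := by gcongr
          _ ≤ n * N * δ * √‖x - y‖ + 2 * S / δ * √‖x - y‖ := le_add_of_nonneg_left (by positivity)
          _ = _ := by ring
    have h2 : n * δ ≤ η := by
      rw [hδdef, mul_div_assoc', div_le_iff₀ (by positivity)]
      linarith
    have h3 := supN_le hS
    have h4 := mul_le_mul_of_nonneg_right h2 hN
    rw [hn_zero]
    have e : (1 + 2 / δ) * S = S + 2 * S / δ := by ring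
    rw [e]
    linarith
  | succ k ih =>
    have hη₁ : 0 < η / (2 * (n + 1)) := by positivity
    obtain ⟨C₁, hC₁, h₁⟩ := ih hη₁
    set η₁ := η / (2 * (n + 1)) with hη₁def
    have hr : 0 < η₁ / C₁ := by positivity
    set r := η₁ / C₁ with hrdef
    refine ⟨C₁ + n * (C₁ * (2 / r ^ 2)), by positivity, fun f S hf hS => ?_⟩
    have hN := hn_nonneg (k + 1 + 1) f
    set N := hn (k + 1 + 1) f with hNdef
    have hf1 : HB 1 f N := hf.hb.mono (by omega)
    have ha : hn k f ≤ η₁ * N + C₁ * S :=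
      (h₁ f S (hf.mono (by omega)) hS).trans (by gcongr; exact hn_mono f (by omega))
    have hb : ∀ i, hn k (pd i f) ≤ 2 * η₁ * N + C₁ * (2 / r ^ 2) * S := by
      intro i
      have h2 := h₁ (pd i f) (N * r + 2 * S / r ^ 2) (hf.pd i) fun x => by
        have := interp_loc hf1 (x := x) (pow_pos hr 2) (fun y _ => hS y) i
        rwa [Real.sqrt_sq hr.le] at this
      have h3 : η₁ * hn (k + 1) (pd i f) ≤ η₁ * N :=
        mul_le_mul_of_nonneg_left (hn_pd_le (k + 1) f i) hη₁.le
      have e : C₁ * (N * r + 2 * S / r ^ 2) = η₁ * N + C₁ * (2 / r ^ 2) * S := by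
        have : C₁ * r = η₁ := by rw [hrdef]; field_simp
        rw [← this]; ring
      linarith
    have hc := Finset.sum_le_sum fun i (_ : i ∈ Finset.univ) => hb i
    rw [Finset.sum_const, Finset.card_univ, Fintype.card_fin, nsmul_eq_mul] at hc
    have e : η = 2 * (n + 1) * η₁ := by rw [hη₁def]; field_simp
    rw [hn_succ, e]
    nlinarith [mul_nonneg hη₁.le hN]

end Crest.Agent.R238
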