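import Crest.Agent.R238.Avg
import Crest.Agent.R238.Int
import Crest.Agent.R238.Apri

/-!
# Row 238 (S0369): Mehler
Solvability of `L₀ χ - χ = g` for the Ornstein–Uhlenbeck operator `L₀ = Lop idM` by Mehler's formula.
-/

set_option autoImplicit false
set_option linter.unusedVariables false

open MeasureTheory Filter Topology Matrix
open Crest.Agent.R285 (bas pd gibbs WPot PolyB SConv)

noncomputable section

namespace Crest.Agent.R238

variable {n : ℕ}

/-- the measure `dθ ⊗ γ` on `(0, π/2] × ℝⁿ` -/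
def mν (n : ℕ) : Measure (ℝ × X n) :=
  (volume.restrict (Set.Ioc 0 (Real.pi / 2))).prod (R285.γ (Fin n))

instance : IsFiniteMeasure (mν n) := by unfold mν; infer_instance

/-- `∫₀^{π/2} sin θ E g (cos θ x + sin θ Z) dθ` -/
def meh (g : Fn n) : Fn n :=
  avg (mν n) (fun p => Real.sin p.1) (fun p => Real.cos p.1) (fun p => Real.sin p.1 • p.2) g

/-- Gaussian average at angle `θ` -/
def mΦ (g : Fn n) (x : X n) (θ : ℝ) : ℝ := ∫ z, g (Real.cos θ • x + Real.sin θ • z) ∂(R285.γ (Fin n))

lemma mehlera_int {k : ℕ} {f : Fn n} (hf : PG k f) : Integrable f (R285.γ (Fin n)) := by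
  rw [R285.γ_eq_gibbs]
  exact hf.integrable R285.nicePot_hsq.wpot

lemma mehlera_mem {k : ℕ} {f : Fn n} (hf : Mem k f) (y : X n) {s : ℝ} (hs : |s| ≤ 1) :
    Mem k fun z => f (y + s • z) :=
  (hf.hb.affine hs y).mem.congr fun z => by rw [add_comm]

/-- Stein's identity for `γ = gibbs hsq` (`γ_eq_gibbs`, `nicePot_hsq.wpot`, `gradient_hsq`, `ibp` with
`F z = f (y + s • z)`, `pd_affine`; `F` is `PG 1` since `f` is bounded with bounded derivatives) -/
lemma stein_γ {f : Fn n} (hf : Mem 1 f) (y : X n) {s : ℝ} (hs : |s| ≤ 1) (a : Fin n) :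
    ∫ z, z a * f (y + s • z) ∂(R285.γ (Fin n)) = s * ∫ z, pd a f (y + s • z) ∂(R285.γ (Fin n)) := by
  have h1 := ibp (R285.nicePot_hsq (ι := Fin n)).wpot (hf.hb.affine hs y).mem.pg a
  rw [pd_affine a hf.diff s y, ← R285.γ_eq_gibbs, integral_const_mul] at h1
  simp only [← R285.gradient_coord, R285.gradient_hsq] at h1
  simp only [add_comm y, ← R285.gradient_coord]
  exact h1.symm

lemma mehlera_deriv {g : Fn n} (hg : Differentiable ℝ g) (x z : X n) (θ : ℝ) :
    HasDerivAt (fun θ => g (Real.cos θ • x + Real.sin θ • z))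
      (∑ a, (-Real.sin θ * x a + Real.cos θ * z a) * pd a g (Real.cos θ • x + Real.sin θ • z)) θ := by
  have h1 : HasDerivAt (fun θ => Real.cos θ • x + Real.sin θ • z)
      ((-Real.sin θ) • x + Real.cos θ • z) θ :=
    ((Real.hasDerivAt_cos θ).smul_const x).add ((Real.hasDerivAt_sin θ).smul_const z)
  have h2 := (hg (Real.cos θ • x + Real.sin θ • z)).hasFDerivAt.comp_hasDerivAt θ h1
  rw [R285.fderiv_apply_eq_sum_pd] at h2
  refine h2.congr_deriv ?_
  simp

/-- differentiate under the integral (`hasDerivAt_integral_of_dominated_loc_of_deriv_le`, bound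
`n * hn 2 g * (‖x‖ + ‖z‖)`), then `stein_γ` for `f = pd a g` -/
lemma hasDerivAt_mΦ {g : Fn n} (hg : Mem 2 g) (x : X n) (θ : ℝ) :
    HasDerivAt (mΦ g x) (-Real.sin θ * ∑ a, x a * mΦ (pd a g) x θ +
      Real.cos θ * Real.sin θ * ∑ a, mΦ (d2 g a a) x θ) θ := by
  have hd : Differentiable ℝ g := Mem.diff (k := 1) hg
  have hp : ∀ a, Mem 1 (pd a g) := fun a => Mem.pd (k := 1) hg a
  have hm : ∀ (t : ℝ) (a : Fin n), PG 1 fun z => pd a g (Real.cos t • x + Real.sin t • z) :=
    fun t a => (mehlera_mem (hp a) _ (Real.abs_sin_le_one t)).pg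
  have hF' : ∀ t : ℝ, PG 1 fun z : X n => ∑ a, (-Real.sin t * x a + Real.cos t * z a) *
      pd a g (Real.cos t • x + Real.sin t • z) := fun t =>
    PG.sum fun a => ((PG.const 1 _).add ((PG.crd 1 a).cmul _)).mul (hm t a)
  have key := hasDerivAt_integral_of_dominated_loc_of_deriv_le (μ := R285.γ (Fin n))
    (F := fun t z => g (Real.cos t • x + Real.sin t • z))
    (F' := fun t z => ∑ a, (-Real.sin t * x a + Real.cos t * z a) *
      pd a g (Real.cos t • x + Real.sin t • z)) (x₀ := θ) (s := Set.univ)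
    (bound := fun z => ∑ a, (|x a| + |z a|) * hn 1 (pd a g)) Filter.univ_mem
    (Eventually.of_forall fun t =>
      (mehlera_int (mehlera_mem hg _ (Real.abs_sin_le_one t)).pg).aestronglyMeasurable)
    (mehlera_int (mehlera_mem hg _ (Real.abs_sin_le_one θ)).pg)
    (mehlera_int (hF' θ)).aestronglyMeasurable
    (Eventually.of_forall fun z t _ => ?_)
    (integrable_finsetSum _ fun a _ =>
      ((integrable_const _).add (mehlera_int (PG.crd 0 a)).abs).mul_const _)
    (Eventually.of_forall fun z t _ => mehlera_deriv hd x z t)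
  · refine key.2.congr_deriv (Eq.symm ?_)
    rw [integral_finsetSum _ fun a _ =>
      mehlera_int (((PG.const 1 _).add ((PG.crd 1 a).cmul _)).mul (hm θ a)),
      Finset.mul_sum, Finset.mul_sum, ← Finset.sum_add_distrib]
    refine Finset.sum_congr rfl fun a _ => ?_
    have h1 := stein_γ (hp a) (Real.cos θ • x) (Real.abs_sin_le_one θ) a
    have h2 : (fun z : X n => (-Real.sin θ * x a + Real.cos θ * z a) *
        pd a g (Real.cos θ • x + Real.sin θ • z)) = fun z : X n =>
        (-Real.sin θ * x a) * pd a g (Real.cos θ • x + Real.sin θ • z) +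
          Real.cos θ * (z a * pd a g (Real.cos θ • x + Real.sin θ • z)) := by
      funext z; ring
    rw [h2, integral_add ((mehlera_int (hm θ a)).const_mul _)
      ((mehlera_int ((PG.crd 1 a).mul (hm θ a))).const_mul _), integral_const_mul,
      integral_const_mul, h1]
    simp only [mΦ]
    ring
  · refine (norm_sum_le _ _).trans (Finset.sum_le_sum fun a _ => ?_)
    rw [Real.norm_eq_abs, abs_mul]
    refine mul_le_mul ((abs_add_le _ _).trans (add_le_add ?_ ?_)) ((hp a).abs_le _) (abs_nonneg _)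
      (by positivity)
    · rw [abs_mul, abs_neg]
      exact mul_le_of_le_one_left (abs_nonneg _) (Real.abs_sin_le_one t)
    · rw [abs_mul]
      exact mul_le_of_le_one_left (abs_nonneg _) (Real.abs_cos_le_one t)

lemma continuous_mΦ {g : Fn n} (hg : Mem 0 g) (x : X n) : Continuous (mΦ g x) := by
  have hc := hg.continuous
  refine continuous_of_dominated (bound := fun _ => hn 0 g) (fun t => ?_)
    (fun t => Eventually.of_forall fun z => hg.abs_le _) (integrable_const _)
    (Eventually.of_forall fun z => ?_)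
  · exact (hc.comp (by fun_prop)).aestronglyMeasurable
  · exact hc.comp (by fun_prop)

lemma mehlerb_int {w : ℝ → ℝ} (hw : Continuous w) : Integrable (fun p : ℝ × X n => w p.1) (mν n) :=
  Integrable.comp_fst (f := w) hw.integrableOn_Ioc _

/-- Fubini (`integral_prod`) -/
lemma avg_mν {g : Fn n} (hg : Mem 0 g) {w : ℝ → ℝ} (hw : Continuous w) (x : X n) :
    avg (mν n) (fun p => w p.1) (fun p => Real.cos p.1) (fun p => Real.sin p.1 • p.2) g x =
      ∫ θ in (0 : ℝ)..(Real.pi / 2), w θ * mΦ g x θ := by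
  have hc : Continuous fun p : ℝ × X n => g (Real.cos p.1 • x + Real.sin p.1 • p.2) :=
    hg.continuous.comp (by fun_prop)
  have hi : Integrable (fun p : ℝ × X n => w p.1 * g (Real.cos p.1 • x + Real.sin p.1 • p.2))
      (mν n) :=
    (mehlerb_int hw).mul_bdd (c := hn 0 g) hc.aestronglyMeasurable
      (Eventually.of_forall fun p => hg.abs_le _)
  rw [intervalIntegral.integral_of_le (by positivity)]
  unfold avg
  rw [mν] at hi ⊢
  rw [integral_prod _ hi]
  simp only [integral_const_mul, mΦ]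

lemma mehlerb_ma : Measurable fun p : ℝ × X n => Real.cos p.1 := by fun_prop
lemma mehlerb_a1 (p : ℝ × X n) : |Real.cos p.1| ≤ 1 := Real.abs_cos_le_one _
lemma mehlerb_mz : Measurable fun p : ℝ × X n => Real.sin p.1 • p.2 :=
  (by fun_prop : Continuous fun p : ℝ × X n => Real.sin p.1 • p.2).measurable

lemma mehlerb_Lop (h : Fn n) (x : X n) :
    Lop idM h x = ∑ a, d2 h a a x - ∑ a, x a * pd a h x := by
  simp [Lop, idM]

/-- By `avg_pd` twice and `avg_mν`, `L₀ (meh g) x - meh g x` is the integral over `[0, π/2]` of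
`sin θ (cos² θ ∑ mΦ (d2 g a a) - cos θ ∑ x_a mΦ (∂_a g) - mΦ g) = d/dθ (cos θ * mΦ g x θ)`;
fundamental theorem of calculus, `mΦ g x 0 = g x`. -/
theorem meh_eq {g : Fn n} (hg : Mem 2 g) (x : X n) : Lop idM (meh g) x - meh g x = -g x := by
  have hs : Continuous Real.sin := Real.continuous_sin
  have hsc : Continuous fun θ => Real.sin θ * Real.cos θ := by fun_prop
  have hscc : Continuous fun θ => Real.sin θ * Real.cos θ * Real.cos θ := by fun_prop
  have h0 : Mem 0 g := hg.mono (by norm_num)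
  have h1 : ∀ a, Mem 0 (pd a g) := fun a => (hg.pd a).mono (by norm_num)
  have h2 : ∀ a, Mem 0 (d2 g a a) := fun a => hg.d2 (k := 0) a a
  have p1 : ∀ a, pd a (meh g) = avg (mν n) (fun p => Real.sin p.1 * Real.cos p.1)
      (fun p => Real.cos p.1) (fun p => Real.sin p.1 • p.2) (pd a g) := fun a =>
    (avg_pd (mehlerb_int hs) mehlerb_ma mehlerb_a1 mehlerb_mz (hg.mono (by norm_num))).2 a
  have p2 : ∀ a, d2 (meh g) a a = avg (mν n) (fun p => Real.sin p.1 * Real.cos p.1 * Real.cos p.1)
      (fun p => Real.cos p.1) (fun p => Real.sin p.1 • p.2) (d2 g a a) := fun a => by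
    simp only [d2]
    rw [p1 a]
    exact (avg_pd (mehlerb_int hsc) mehlerb_ma mehlerb_a1 mehlerb_mz (hg.pd a)).2 a
  have e0 := avg_mν h0 hs x
  have e1 := fun a => avg_mν (h1 a) hsc x
  have e2 := fun a => avg_mν (h2 a) hscc x
  have c0 : Continuous fun θ => Real.sin θ * mΦ g x θ := hs.mul (continuous_mΦ h0 x)
  have c1 : ∀ a, Continuous fun θ => x a * (Real.sin θ * Real.cos θ * mΦ (pd a g) x θ) :=
    fun a => continuous_const.mul (hsc.mul (continuous_mΦ (h1 a) x))
  have c2 : ∀ a, Continuous fun θ => Real.sin θ * Real.cos θ * Real.cos θ * mΦ (d2 g a a) x θ :=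
    fun a => hscc.mul (continuous_mΦ (h2 a) x)
  have c1' := continuous_finsetSum Finset.univ fun a _ => c1 a
  have c2' := continuous_finsetSum Finset.univ fun a _ => c2 a
  have ftc := intervalIntegral.integral_eq_sub_of_hasDerivAt (a := 0) (b := Real.pi / 2)
    (f := fun θ => Real.cos θ * mΦ g x θ)
    (f' := fun θ => ∑ a, Real.sin θ * Real.cos θ * Real.cos θ * mΦ (d2 g a a) x θ -
      ∑ a, x a * (Real.sin θ * Real.cos θ * mΦ (pd a g) x θ) - Real.sin θ * mΦ g x θ)
    (fun θ _ => by
      refine ((Real.hasDerivAt_cos θ).mul (hasDerivAt_mΦ hg x θ)).congr_deriv ?_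
      have : ∑ a, x a * (Real.sin θ * Real.cos θ * mΦ (pd a g) x θ) =
          Real.sin θ * Real.cos θ * ∑ a, x a * mΦ (pd a g) x θ := by
        rw [Finset.mul_sum]; exact Finset.sum_congr rfl fun a _ => by ring
      rw [this, ← Finset.mul_sum]
      ring)
    (((c2'.sub c1').sub c0).intervalIntegrable _ _)
  rw [intervalIntegral.integral_sub ((c2'.fun_sub c1').intervalIntegrable _ _)
      (c0.intervalIntegrable _ _),
    intervalIntegral.integral_sub (c2'.intervalIntegrable _ _) (c1'.intervalIntegrable _ _),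
    intervalIntegral.integral_finsetSum fun a _ => (c2 a).intervalIntegrable _ _,
    intervalIntegral.integral_finsetSum fun a _ => (c1 a).intervalIntegrable _ _] at ftc
  simp only [intervalIntegral.integral_const_mul] at ftc
  have hz : mΦ g x 0 = g x := by simp [mΦ]
  rw [Real.cos_pi_div_two, Real.cos_zero, hz, zero_mul, one_mul, zero_sub] at ftc
  rw [← ftc, mehlerb_Lop]
  simp only [p1, p2, e1, e2]
  rw [meh, e0]

/-- mollify (`moll`): `χ_m = -meh (G m)` lies in `Mem (k+2)` (`avg_hb`), is bounded there by `apri_neg`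
(`β = 0`, `c = -1`, `coef_idM`), converges pointwise (`avg_lim`); `lim_hb`, `lim_Lop`. -/
theorem base_exist {k : ℕ} {g : Fn n} (hg : Mem k g) :
    ∃ χ : Fn n, Mem (k + 2) χ ∧ ∀ x, Lop idM χ x - χ x = g x := by
  obtain ⟨G, hG, hl⟩ := moll hg.hb
  obtain ⟨C, -, hC⟩ := apri_neg n k one_pos one_pos 1
  obtain ⟨C', -, hC'⟩ := lim_hb n (k + 2)
  have hs := mehlerb_int (n := n) Real.continuous_sin
  have hm : ∀ m, Mem (k + 2) (meh fun x => -G m x) := fun m =>
    (avg_hb hs mehlerb_ma mehlerb_a1 mehlerb_mz (hG m).1.neg.hb).1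
  have he : ∀ m x, Lop idM (meh fun x => -G m x) x - meh (fun x => -G m x) x = G m x := fun m x => by
    rw [meh_eq ((hG m).1.neg.mono (by omega)), neg_neg]
  have hb : ∀ m, HB (k + 2) (meh fun x => -G m x) (C * hn k g) := fun m =>
    ⟨hm m, hC idM (fun _ _ => 0) (fun _ => -1) _ _ (coef_idM k)
      (fun _ => (HB.const k 0).weaken (by simp)) ((HB.const k (-1)).weaken (by simp))
      (fun _ => le_rfl) (hm m) ((hG m).2.congr fun x => by rw [← he m x]; simp [Op]; ring)⟩
  have hlim : ∀ x, Tendsto (fun m => meh (fun x => -G m x) x) atTop (𝓝 (meh (fun x => -g x) x)) :=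
    avg_lim hs mehlerb_ma mehlerb_mz (fun m => (hG m).2.neg.mono (Nat.zero_le k))
      fun x => (hl x).neg
  refine ⟨meh fun x => -g x, (hC' _ _ _ hb hlim).1, fun x => ?_⟩
  have := (lim_Lop idM (fun m => (hb m).mono (by omega)) hlim x).sub (hlim x)
  simp only [he] at this
  exact tendsto_nhds_unique this (hl x)

end Crest.Agent.R238
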