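import Crest.Agent.R238.Brandt
import Crest.Agent.R238.Lim

/-!
# Row 238 (S0369): Schauder
The Schauder a priori estimate in `C^{2,1/2}`, from `brandt` applied to second difference quotients.
-/

set_option autoImplicit false
set_option linter.unusedVariables false

open MeasureTheory Filter Topology Matrix
open Crest.Agent.R285 (bas pd gibbs WPot PolyB SConv)

noncomputable section

namespace Crest.Agent.R238

variable {n : ℕ}

/-- second difference quotient -/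
def dq (h : Fn n) (i j : Fin n) (ε : ℝ) : Fn n := fun x =>
  (h (x + ε • bas i + ε • bas j) - h (x + ε • bas i) - h (x + ε • bas j) + h x) / ε ^ 2

lemma contDiff_dq {h : Fn n} (hh : ContDiff ℝ 2 h) (i j : Fin n) (ε : ℝ) :
    ContDiff ℝ 2 (dq h i j ε) := by
  unfold dq
  have t : ∀ w : X n, ContDiff ℝ 2 fun x => h (x + w) := fun w => hh.comp (contDiff_id.add contDiff_const)
  simp only [add_assoc]
  exact ((((t _).sub (t _)).sub (t _)).add hh).div_const _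

lemma schaudera_mvt {f : Fn n} (hf : Differentiable ℝ f) (x : X n) (i : Fin n) {ε : ℝ} (hε : 0 < ε) :
    ∃ r ∈ Set.Ioo 0 ε, f (x + ε • bas i) - f x = ε * pd i f (x + r • bas i) := by
  obtain ⟨r, hr, e⟩ := exists_hasDerivAt_eq_slope (fun s : ℝ => f (x + s • bas i))
    (fun s => pd i f (x + s • bas i)) hε
    (fun s _ => (hasDerivAt_bas hf x i s).continuousAt.continuousWithinAt)
    (fun s _ => hasDerivAt_bas hf x i s)
  refine ⟨r, hr, ?_⟩
  rw [e, zero_smul, add_zero, sub_zero, mul_div_cancel₀ _ hε.ne']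

lemma schaudera_pd_tr (a : Fin n) (f : Fn n) (w : X n) :
    pd a (fun x => f (x + w)) = fun x => pd a f (x + w) := by
  funext x
  simp only [pd, fderiv_comp_add_right]

lemma schaudera_diff_tr {f : Fn n} (hf : Differentiable ℝ f) (w : X n) :
    Differentiable ℝ fun x => f (x + w) := hf.comp (differentiable_id.add_const w)

/-- mean value theorem twice (`hasDerivAt_bas`): first for `s ↦ h (x + s e_j + ε e_i) - h (x + s e_j)`,
then for `r ↦ ∂_j h (x + s e_j + r e_i)` -/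
lemma dq_eq {h : Fn n} (hh : ContDiff ℝ 2 h) (i j : Fin n) {ε : ℝ} (hε : 0 < ε) (x : X n) :
    ∃ y, ‖y - x‖ ≤ 2 * ε ∧ dq h i j ε x = d2 h i j y := by
  have h1 : Differentiable ℝ h := hh.differentiable (by norm_num)
  obtain ⟨s, hs, e1⟩ := schaudera_mvt ((schaudera_diff_tr h1 (ε • bas i)).fun_sub h1) x j hε
  rw [R285.pd_sub j (schaudera_diff_tr h1 _) h1, schaudera_pd_tr] at e1
  obtain ⟨r, hr, e2⟩ := schaudera_mvt (differentiable_pd hh j) (x + s • bas j) i hε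
  refine ⟨x + s • bas j + r • bas i, ?_, ?_⟩
  · rw [add_assoc, add_sub_cancel_left]
    refine (norm_add_le _ _).trans ?_
    rw [norm_smul, norm_smul, R285.norm_bas, R285.norm_bas, Real.norm_of_nonneg hs.1.le,
      Real.norm_of_nonneg hr.1.le]
    linarith [hs.2, hr.2]
  · beta_reduce at e1
    rw [e2] at e1
    unfold dq
    rw [div_eq_iff (by positivity), add_right_comm x (ε • bas i)]
    simp only [d2]
    linarith

lemma schaudera_pd_dq {h : Fn n} (h1 : Differentiable ℝ h) (c i j : Fin n) (ε : ℝ) :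
    pd c (dq h i j ε) = dq (pd c h) i j ε := by
  have t := schaudera_diff_tr h1
  have e : dq h i j ε = fun x => (ε ^ 2)⁻¹ * (h (x + (ε • bas i + ε • bas j)) - h (x + ε • bas i) -
      h (x + ε • bas j) + h x) := by
    funext x; simp only [dq, add_assoc]; ring
  rw [e, pd_cmul c _ ((((t _).fun_sub (t _)).fun_sub (t _)).fun_add h1),
    R285.pd_add c (((t _).fun_sub (t _)).fun_sub (t _)) h1, R285.pd_sub c ((t _).fun_sub (t _)) (t _),
    R285.pd_sub c (t _) (t _), schaudera_pd_tr, schaudera_pd_tr, schaudera_pd_tr]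
  funext x; simp only [dq, add_assoc]; ring

lemma schaudera_sum_bas (ε : ℝ) (i : Fin n) (g : Fin n → ℝ) :
    ∑ c, (ε • bas i : X n) c * g c = ε * g i := by
  simp [bas_apply]

/-- The frozen operator applied to `dq`.  With `G y = Lop a h y` (constant coefficients `a`),
`Lop a (h (· + w)) y = G (y + w) + w · ∇h (y + w)`; the constants `g₀` cancel in the second difference;
the `w·∇h` terms give `(ε (∂_i h (y+εe_i+εe_j) - ∂_i h (y+εe_i)) + ε (∂_j h (..) - ∂_j h (y+εe_j)))/ε²`,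
each bounded by `S₂` by the mean value theorem along a coordinate. -/
lemma Lop_dq_le {h : Fn n} (hh : ContDiff ℝ 2 h) (a : A2 n) (i j : Fin n) {ε S₂ o g₀ : ℝ} (hε : 0 < ε)
    (hS : ∀ p q x, |d2 h p q x| ≤ S₂) {y : X n}
    (ho : ∀ y', ‖y' - y‖ ≤ 2 * ε → |Lop (fun p q _ => a p q) h y' - g₀| ≤ o) :
    |Lop (fun p q _ => a p q) (dq h i j ε) y| ≤ 4 * o / ε ^ 2 + 2 * S₂ := by
  have h1 : Differentiable ℝ h := hh.differentiable (by norm_num)
  obtain ⟨E, hE⟩ : ∃ E : X n → ℝ, ∀ w, E w = ∑ p, ∑ q, a p q * d2 h p q (y + w) -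
      ∑ c, y c * pd c h (y + w) := ⟨_, fun _ => rfl⟩
  have e1 : Lop (fun p q _ => a p q) (dq h i j ε) y =
      (E (ε • bas i + ε • bas j) - E (ε • bas i) - E (ε • bas j) + E 0) / ε ^ 2 := by
    simp only [Lop, d2, schaudera_pd_dq h1, schaudera_pd_dq (differentiable_pd hh _), hE, add_zero]
    simp only [dq, add_assoc, ← mul_div_assoc, ← Finset.sum_div, mul_add, mul_sub, Finset.sum_add_distrib,
      Finset.sum_sub_distrib]
    ring
  have e2 : ∀ w, E w = Lop (fun p q _ => a p q) h (y + w) + ∑ c, w c * pd c h (y + w) := fun w => by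
    simp only [hE, Lop, PiLp.add_apply, add_mul, Finset.sum_add_distrib]
    ring
  have nb : ∀ c : Fin n, ‖(ε • bas c : X n)‖ = ε := fun c => by
    rw [norm_smul, R285.norm_bas, Real.norm_of_nonneg hε.le, mul_one]
  have o1 := ho (y + (ε • bas i + ε • bas j)) (by
    rw [add_sub_cancel_left]; refine (norm_add_le _ _).trans ?_; rw [nb, nb]; linarith)
  have o2 := ho (y + ε • bas i) (by rw [add_sub_cancel_left, nb]; linarith)
  have o3 := ho (y + ε • bas j) (by rw [add_sub_cancel_left, nb]; linarith)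
  have o4 := ho y (by rw [sub_self, norm_zero]; linarith)
  obtain ⟨r, -, m1⟩ := schaudera_mvt (differentiable_pd hh i) (y + ε • bas i) j hε
  obtain ⟨s, -, m2⟩ := schaudera_mvt (differentiable_pd hh j) (y + ε • bas j) i hε
  rw [add_assoc] at m1
  rw [add_assoc, add_comm (ε • bas j)] at m2
  have s1 := hS j i (y + ε • bas i + r • bas j)
  have s2 := hS i j (y + ε • bas j + s • bas i)
  rw [e1, e2, e2, e2, e2]
  simp only [PiLp.add_apply, add_mul, Finset.sum_add_distrib, schaudera_sum_bas, PiLp.zero_apply, zero_mul,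
    Finset.sum_const_zero, add_zero]
  simp only [d2] at s1 s2
  generalize Lop (fun p q _ => a p q) h (y + (ε • bas i + ε • bas j)) = g1 at *
  generalize Lop (fun p q _ => a p q) h (y + ε • bas i) = g2 at *
  generalize Lop (fun p q _ => a p q) h (y + ε • bas j) = g3 at *
  generalize Lop (fun p q _ => a p q) h y = g4 at *
  generalize pd j (pd i h) (y + ε • bas i + r • bas j) = u1 at *
  generalize pd i (pd j h) (y + ε • bas j + s • bas i) = u2 at *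
  have hε2 : 0 < ε ^ 2 := by positivity
  have e3 : g1 + (ε * pd i h (y + (ε • bas i + ε • bas j)) + ε * pd j h (y + (ε • bas i + ε • bas j))) -
      (g2 + ε * pd i h (y + ε • bas i)) - (g3 + ε * pd j h (y + ε • bas j)) + g4 =
      ((g1 - g₀) - (g2 - g₀) - (g3 - g₀) + (g4 - g₀)) + (u1 + u2) * ε ^ 2 := by
    linear_combination ε * m1 + ε * m2
  rw [e3, add_div, mul_div_cancel_right₀ _ hε2.ne']
  refine (abs_add_le _ _).trans (add_le_add ?_ ?_)
  · rw [abs_div, abs_of_pos hε2]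
    refine div_le_div_of_nonneg_right ?_ hε2.le
    rw [abs_le] at *
    constructor <;> linarith [o1.1, o1.2, o2.1, o2.2, o3.1, o3.2, o4.1, o4.2]
  · linarith [abs_add_le u1 u2]

lemma schauderb_sqrt_le {r c : ℝ} (hc : 0 ≤ c) (h : r ≤ c ^ 2) : √r ≤ c :=
  Real.sqrt_le_iff.2 ⟨hc, h⟩

/-- freezing the coefficients at `c` -/
lemma schauderb_frozen {κ B : ℝ} {τ : MF n} (hτ : Coef 0 κ B τ) {h : Fn n} {G S₂ : ℝ} (hG0 : 0 ≤ G)
    (hS0 : 0 ≤ S₂) (hG : ∀ x y, |Lop τ h x - Lop τ h y| ≤ G * √‖x - y‖)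
    (hS : ∀ p q x, |d2 h p q x| ≤ S₂) (c y : X n) {ρ : ℝ} (hρ : √‖y - c‖ ≤ ρ) :
    |Lop (fun p q _ => τ p q c) h y - Lop τ h c| ≤ (G + n ^ 2 * |B| * S₂) * ρ := by
  have hρ0 : 0 ≤ ρ := (Real.sqrt_nonneg _).trans hρ
  have e : Lop (fun p q _ => τ p q c) h y - Lop τ h c
      = (Lop τ h y - Lop τ h c) + ∑ p, ∑ q, (τ p q c - τ p q y) * d2 h p q y := by
    simp only [Lop, sub_mul, Finset.sum_sub_distrib]
    ring
  have h1 : |Lop τ h y - Lop τ h c| ≤ G * ρ := (hG y c).trans (mul_le_mul_of_nonneg_left hρ hG0)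
  have h2 : ∀ p q, |(τ p q c - τ p q y) * d2 h p q y| ≤ |B| * ρ * S₂ := by
    intro p q
    rw [abs_mul]
    refine mul_le_mul ?_ (hS p q y) (abs_nonneg _) (by positivity)
    refine ((hτ.hb p q).hol_le c y).trans ?_
    rw [norm_sub_rev]
    exact mul_le_mul (le_abs_self B) hρ (Real.sqrt_nonneg _) (abs_nonneg _)
  have h3 : |∑ p, ∑ q, (τ p q c - τ p q y) * d2 h p q y| ≤ n * (n * (|B| * ρ * S₂)) := by
    refine (Finset.abs_sum_le_sum_abs _ _).trans ?_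
    refine (Finset.sum_le_sum fun p _ => (Finset.abs_sum_le_sum_abs _ _).trans
      (Finset.sum_le_sum fun q _ => h2 p q)).trans ?_
    simp
  rw [e]
  refine (abs_add_le _ _).trans ?_
  nlinarith

lemma schauderb_near {h : Fn n} (hh : ContDiff ℝ 2 h) {Θ : ℝ} (hΘ0 : 0 ≤ Θ) (i j : Fin n)
    (hΘ : ∀ x y, |d2 h i j x - d2 h i j y| ≤ Θ * √‖x - y‖) {ε ρ : ℝ} (hε : 0 < ε) (hρ0 : 0 ≤ ρ)
    (hρ : 2 * ε ≤ ρ ^ 2) (x : X n) : |d2 h i j x - dq h i j ε x| ≤ Θ * ρ := by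
  obtain ⟨y, hy, e⟩ := dq_eq hh i j hε x
  rw [e]
  refine (hΘ x y).trans (mul_le_mul_of_nonneg_left (schauderb_sqrt_le hρ0 ?_) hΘ0)
  rw [norm_sub_rev]
  exact hy.trans hρ

lemma schauderb_osc {h : Fn n} (hh : ContDiff ℝ 2 h) {Θ : ℝ} (hΘ0 : 0 ≤ Θ) (i j : Fin n)
    (hΘ : ∀ x y, |d2 h i j x - d2 h i j y| ≤ Θ * √‖x - y‖) {ε R ρ : ℝ} (hε : 0 < ε) (hρ0 : 0 ≤ ρ)
    (hρ : 2 * R + 4 * ε ≤ ρ ^ 2) (x x' : X n) (hx : ‖x - x'‖ ≤ 2 * R) :
    |dq h i j ε x - dq h i j ε x'| ≤ Θ * ρ := by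
  obtain ⟨y, hy, e⟩ := dq_eq hh i j hε x
  obtain ⟨y', hy', e'⟩ := dq_eq hh i j hε x'
  rw [e, e']
  refine (hΘ y y').trans (mul_le_mul_of_nonneg_left (schauderb_sqrt_le hρ0 ?_) hΘ0)
  have h1 : y - y' = (y - x) + (x - x') - (y' - x') := by abel
  have h2 : ‖y - y'‖ ≤ ‖y - x‖ + ‖x - x'‖ + ‖y' - x'‖ := by
    rw [h1]
    exact (norm_sub_le _ _).trans (add_le_add (norm_add_le _ _) le_rfl)
  linarith

/-- One application of `brandt`: `v = dq h i j ε`, `a s = τ (ctr x₀ s)`, `ε = η t`, `R = N t`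
(`N ≥ 1 ≥ η` fixed first so that `2√(2η) + C√(6N)/N ≤ ϑ`), `ω = Θ √(2R + 4ε)` by `dq_eq`,
`g₀ = Lop τ h (ctr x₀ s)`, `Lop a h y' = Lop τ h y' + (a - τ y') : D²h y'`,
`o = (G + n² B S₂) √(2R + 2ε)`.  Take `t₀ = 1/N` so that `R ≤ 1`, `R² ≤ √R`. -/
lemma schauder_dir (n : ℕ) {κ : ℝ} (hκ : 0 < κ) (B : ℝ) {ϑ : ℝ} (hϑ : 0 < ϑ) :
    ∃ t₀ C : ℝ, 0 < t₀ ∧ 0 < C ∧ ∀ (τ : MF n) (h : Fn n) (G S₂ Θ : ℝ), Coef 0 κ B τ → ContDiff ℝ 2 h →
    0 ≤ G → 0 ≤ S₂ → 0 ≤ Θ → (∀ x y, |Lop τ h x - Lop τ h y| ≤ G * √‖x - y‖) →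
    (∀ p q x, |d2 h p q x| ≤ S₂) → (∀ p q x y, |d2 h p q x - d2 h p q y| ≤ Θ * √‖x - y‖) →
    ∀ i j l x₀ t, 0 < t → t ≤ t₀ →
      |d2 h i j (x₀ + t • bas l) - d2 h i j (x₀ - t • bas l)| ≤ (ϑ * Θ + C * (G + S₂)) * √t := by
  obtain ⟨C₀, hC₀, hbr⟩ := brandt n hκ B
  obtain ⟨e, he0, he1, heϑ⟩ : ∃ e : ℝ, 0 < e ∧ e ≤ 1 ∧ 8 * e ≤ ϑ :=
    ⟨min 1 (ϑ / 8), lt_min one_pos (by positivity), min_le_left _ _, by
      have := min_le_right 1 (ϑ / 8); linarith⟩
  obtain ⟨m, hm1, hmϑ⟩ : ∃ m : ℝ, 1 ≤ m ∧ 6 * C₀ ≤ ϑ * m :=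
    ⟨max 1 (6 * C₀ / ϑ), le_max_left _ _, by
      have := le_max_right 1 (6 * C₀ / ϑ)
      rw [div_le_iff₀ hϑ] at this
      linarith⟩
  have hm0 : 0 < m := by linarith
  refine ⟨1 / m ^ 2, C₀ * (8 * m ^ 3 / e ^ 4) * (1 + n ^ 2 * |B|) + 2 * C₀, by positivity,
    by positivity, ?_⟩
  intro τ h G S₂ Θ hτ hh hG0 hS0 hΘ0 hG hS hΘ i j l x₀ t ht htm
  obtain ⟨u, hu0, rfl⟩ : ∃ u : ℝ, 0 < u ∧ t = u ^ 2 :=
    ⟨√t, Real.sqrt_pos.2 ht, (Real.sq_sqrt ht.le).symm⟩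
  rw [Real.sqrt_sq hu0.le]
  have hmu0 : 0 < m * u := by positivity
  have hmu2 : (m * u) ^ 2 ≤ 1 := by
    rw [le_div_iff₀ (by positivity)] at htm
    rw [mul_pow, mul_comm]
    exact htm
  have hmu : m * u ≤ 1 := (pow_le_one_iff_of_nonneg hmu0.le two_ne_zero).1 hmu2
  have hum : u ≤ m * u := le_mul_of_one_le_left hu0.le hm1
  have q2 : (2 * (m * u)) ^ 2 = 4 * (m * u) ^ 2 := by ring
  have q3 : (3 * (m * u)) ^ 2 = 9 * (m * u) ^ 2 := by ring
  have q4 : (2 * (e * u)) ^ 2 = 4 * (e * u) ^ 2 := by ring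
  have heu0 : 0 < e * u := by positivity
  have hem : (e * u) ^ 2 ≤ (m * u) ^ 2 :=
    pow_le_pow_left₀ heu0.le (mul_le_mul_of_nonneg_right (he1.trans hm1) hu0.le) 2
  have hε : 0 < (e * u) ^ 2 := by positivity
  set K : ℝ := G + n ^ 2 * |B| * S₂ with hK
  have hK0 : 0 ≤ K := by positivity
  have key := hbr (dq h i j ((e * u) ^ 2)) (fun s p q => τ p q (ctr x₀ s)) x₀ l ((m * u) ^ 2)
    (4 * (K * (2 * (m * u))) / ((e * u) ^ 2) ^ 2 + 2 * S₂) (Θ * (3 * (m * u)))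
    (contDiff_dq hh i j _) (fun s p q => hτ.ell.symm p q _) (fun s ξ => hτ.ell.lb _ ξ)
    (fun s p q => (hτ.hb p q).abs_le _) (by positivity) (by positivity) (by positivity)
    (fun s _ y hy => by
      refine Lop_dq_le hh (fun p q => τ p q (ctr x₀ s)) i j (g₀ := Lop τ h (ctr x₀ s)) hε hS ?_
      intro y' hy'
      refine schauderb_frozen hτ hG0 hS0 hG hS _ _ (schauderb_sqrt_le (by positivity) ?_)
      have h1 : y' - ctr x₀ s = (y' - y) + (y - ctr x₀ s) := by abel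
      have h2 : ‖y' - ctr x₀ s‖ ≤ ‖y' - y‖ + ‖y - ctr x₀ s‖ := by
        rw [h1]; exact norm_add_le _ _
      linarith)
    (fun y y' hy => schauderb_osc hh hΘ0 i j (hΘ i j) hε (by positivity) (by linarith) y y' hy)
    (u ^ 2) ⟨by positivity, pow_le_pow_left₀ hu0.le hum 2⟩
  have n1 := schauderb_near hh hΘ0 i j (hΘ i j) hε (ρ := 2 * (e * u)) (by positivity) (by linarith)
    (x₀ + u ^ 2 • bas l)
  have n2 := schauderb_near hh hΘ0 i j (hΘ i j) hε (ρ := 2 * (e * u)) (by positivity) (by linarith)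
    (x₀ - u ^ 2 • bas l)
  have e1 : u ^ 2 / (m * u) ^ 2 * (C₀ * (Θ * (3 * (m * u)) +
      (4 * (K * (2 * (m * u))) / ((e * u) ^ 2) ^ 2 + 2 * S₂) * ((m * u) ^ 2) ^ 2))
      = 3 * C₀ / m * Θ * u + C₀ * (8 * m ^ 3 / e ^ 4) * K * u + 2 * C₀ * S₂ * ((m * u) ^ 2 * u ^ 2) := by
    field_simp
    ring
  rw [e1] at key
  have b1 : 3 * C₀ / m ≤ ϑ / 2 := by
    rw [div_le_iff₀ hm0]; linarith
  have b2 : (m * u) ^ 2 * u ^ 2 ≤ u := by
    have h1 : u ≤ 1 := hum.trans hmu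
    have h2 : u ^ 2 ≤ u := by rw [sq]; exact mul_le_of_le_one_left hu0.le h1
    exact (mul_le_of_le_one_left (by positivity) hmu2).trans h2
  have b3 : K ≤ (1 + n ^ 2 * |B|) * (G + S₂) := by
    have : 0 ≤ (n : ℝ) ^ 2 * |B| * G := by positivity
    have e2 : (1 + n ^ 2 * |B|) * (G + S₂) = G + n ^ 2 * |B| * S₂ + (S₂ + n ^ 2 * |B| * G) := by ring
    rw [hK, e2]; linarith
  have c1 : 3 * C₀ / m * Θ * u ≤ ϑ / 2 * Θ * u := by gcongr
  have c2 : C₀ * (8 * m ^ 3 / e ^ 4) * K * u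
      ≤ C₀ * (8 * m ^ 3 / e ^ 4) * ((1 + n ^ 2 * |B|) * (G + S₂)) * u := by gcongr
  have c3 : 2 * C₀ * S₂ * ((m * u) ^ 2 * u ^ 2) ≤ 2 * C₀ * (G + S₂) * u := by
    gcongr
    linarith
  have c4 : Θ * (2 * (e * u)) ≤ ϑ / 4 * Θ * u := by
    have h1 : 0 ≤ Θ * u := by positivity
    have h2 := mul_le_mul_of_nonneg_right heϑ h1
    linarith
  have tri : |d2 h i j (x₀ + u ^ 2 • bas l) - d2 h i j (x₀ - u ^ 2 • bas l)|
      ≤ |d2 h i j (x₀ + u ^ 2 • bas l) - dq h i j ((e * u) ^ 2) (x₀ + u ^ 2 • bas l)|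
        + |dq h i j ((e * u) ^ 2) (x₀ + u ^ 2 • bas l) - dq h i j ((e * u) ^ 2) (x₀ - u ^ 2 • bas l)|
        + |d2 h i j (x₀ - u ^ 2 • bas l) - dq h i j ((e * u) ^ 2) (x₀ - u ^ 2 • bas l)| := by
    rw [abs_sub_comm (d2 h i j (x₀ - u ^ 2 • bas l))]
    exact (abs_sub_le _ _ _).trans (add_le_add (abs_sub_le _ _ _) le_rfl)
  linarith

lemma schaudera_one {f : Fn n} {D : ℝ} (hD : 0 ≤ D)
    (h : ∀ x l t, 0 < t → |f (x + t • bas l) - f (x - t • bas l)| ≤ D * √t) (x : X n) (l : Fin n) (δ : ℝ) :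
    |f (x + δ • bas l) - f x| ≤ D * √|δ| := by
  have hs : ∀ t : ℝ, t ≤ |δ| → D * √t ≤ D * √|δ| := fun t ht =>
    mul_le_mul_of_nonneg_left (Real.sqrt_le_sqrt ht) hD
  rcases lt_trichotomy δ 0 with hδ | rfl | hδ
  · have := h (x + (δ / 2) • bas l) l (-δ / 2) (by linarith)
    rw [add_assoc, add_sub_assoc, ← add_smul, ← sub_smul, show δ / 2 + -δ / 2 = 0 by ring,
      show δ / 2 - -δ / 2 = δ by ring, zero_smul, add_zero, abs_sub_comm] at this
    exact this.trans (hs _ (by rw [abs_of_neg hδ]; linarith))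
  · simp
  · have := h (x + (δ / 2) • bas l) l (δ / 2) (by linarith)
    rw [add_assoc, add_sub_assoc, ← add_smul, sub_self, add_zero, add_halves] at this
    exact this.trans (hs _ (by rw [abs_of_pos hδ]; linarith))

/-- from coordinate directions to all pairs: change one coordinate at a time -/
lemma hol_of_dir {f : Fn n} {D : ℝ} (hD : 0 ≤ D)
    (h : ∀ x l t, 0 < t → |f (x + t • bas l) - f (x - t • bas l)| ≤ D * √t) (x y : X n) :
    |f x - f y| ≤ n * D * √‖x - y‖ := by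
  have key : ∀ (r : ℝ) (s : Finset (Fin n)) (x : X n), (∀ l, l ∉ s → x l = y l) → (∀ l, |y l - x l| ≤ r) →
      |f x - f y| ≤ s.card * (D * √r) := by
    intro r s
    induction s using Finset.induction_on with
    | empty =>
      intro x hx _
      have : x = y := by ext l; exact hx l (Finset.notMem_empty l)
      simp [this]
    | insert l s hl ih =>
      intro x hx hr
      have h1 := schaudera_one hD h x l (y l - x l)
      have h2 := ih (x + (y l - x l) • bas l) (fun m hm => by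
        by_cases hml : m = l
        · subst hml; simp [bas_apply]
        · simp [bas_apply, hml, hx m (by simp [hml, hm])]) (fun m => by
        by_cases hml : m = l
        · subst hml; simpa [bas_apply] using (abs_nonneg _).trans (hr m)
        · simpa [bas_apply, hml] using hr m)
      have h3 : D * √|y l - x l| ≤ D * √r := mul_le_mul_of_nonneg_left (Real.sqrt_le_sqrt (hr l)) hD
      rw [Finset.card_insert_of_notMem hl]
      push_cast
      have h4 := abs_sub_le (f x) (f (x + (y l - x l) • bas l)) (f y)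
      rw [abs_sub_comm] at h1
      linarith
  have := key ‖x - y‖ Finset.univ x (fun l hl => absurd (Finset.mem_univ l) hl) fun l => by
    rw [abs_sub_comm]; exact R285.abs_coord_le (x - y) l
  rwa [Finset.card_univ, Fintype.card_fin, ← mul_assoc] at this

/-- Absorption.  `Θ = ∑_{p,q} holN (d2 h p q)`; for `t ≥ t₀` use `2 S₂ ≤ (2 S₂/√t₀) √t`; `hol_of_dir` and
`holN_le` give `Θ ≤ n³ (ϑ Θ + C' (G + S₂))`; take `ϑ = 1/(2 n³ + 2)`. -/
lemma schauder_hol (n : ℕ) {κ : ℝ} (hκ : 0 < κ) (B : ℝ) : ∃ C : ℝ, 0 < C ∧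
    ∀ (τ : MF n) (h : Fn n) (G S₂ : ℝ), Coef 0 κ B τ → Mem 2 h → HB 0 (Lop τ h) G → 0 ≤ S₂ →
    (∀ p q x, |d2 h p q x| ≤ S₂) → ∀ i j, holN (d2 h i j) ≤ C * (G + S₂) := by
  have hϑ : (0 : ℝ) < 1 / (2 * (n : ℝ) ^ 3 + 2) := by positivity
  obtain ⟨t₀, C₁, ht₀, hC₁, H⟩ := schauder_dir n hκ B hϑ
  set ϑ : ℝ := 1 / (2 * (n : ℝ) ^ 3 + 2) with hϑd
  have hs₀ : 0 < √t₀ := Real.sqrt_pos.2 ht₀
  set C' : ℝ := C₁ + 2 / √t₀ with hC'
  have hC'p : 0 < C' := by positivity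
  refine ⟨2 * (n : ℝ) ^ 3 * C' + 1, by positivity, ?_⟩
  intro τ h G S₂ hτ hh hG hS₂ hS i j
  have hG0 : 0 ≤ G := hG.nonneg
  set Θ : ℝ := ∑ p, ∑ q, holN (d2 h p q) with hΘ
  have hle : ∀ p q, holN (d2 h p q) ≤ Θ := fun p q =>
    (Finset.single_le_sum (f := fun q => holN (d2 h p q)) (fun _ _ => holN_nonneg _)
      (Finset.mem_univ q)).trans
      (Finset.single_le_sum (f := fun p => ∑ q, holN (d2 h p q))
        (fun _ _ => Finset.sum_nonneg fun _ _ => holN_nonneg _) (Finset.mem_univ p))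
  have hΘ0 : 0 ≤ Θ := (holN_nonneg _).trans (hle i j)
  have hhol : ∀ p q x y, |d2 h p q x - d2 h p q y| ≤ Θ * √‖x - y‖ := fun p q x y =>
    ((Mem.d2 (k := 0) hh p q).hol_le_holN x y).trans
      (mul_le_mul_of_nonneg_right (hle p q) (Real.sqrt_nonneg _))
  set D : ℝ := ϑ * Θ + C' * (G + S₂) with hD
  have hD0 : 0 ≤ D := by positivity
  have hdir : ∀ p q x l t, 0 < t →
      |d2 h p q (x + t • bas l) - d2 h p q (x - t • bas l)| ≤ D * √t := by
    intro p q x l t ht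
    rcases le_total t t₀ with htt | htt
    · refine (H τ h G S₂ Θ hτ (Mem.contDiff (k := 2) hh) hG0 hS₂ hΘ0 hG.hol_le hS hhol p q l x t ht
        htt).trans (mul_le_mul_of_nonneg_right ?_ (Real.sqrt_nonneg _))
      have : C₁ * (G + S₂) ≤ C' * (G + S₂) :=
        mul_le_mul_of_nonneg_right (le_add_of_nonneg_right (by positivity)) (by positivity)
      linarith
    · have h1 : |d2 h p q (x + t • bas l) - d2 h p q (x - t • bas l)| ≤ 2 * S₂ := by
        have := abs_sub (d2 h p q (x + t • bas l)) (d2 h p q (x - t • bas l))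
        linarith [hS p q (x + t • bas l), hS p q (x - t • bas l)]
      have h2 : √t₀ ≤ √t := Real.sqrt_le_sqrt htt
      have h3 : 2 / √t₀ * S₂ ≤ D := by
        have a1 : 2 / √t₀ * S₂ ≤ C' * (G + S₂) :=
          mul_le_mul (le_add_of_nonneg_left hC₁.le) (le_add_of_nonneg_left hG0) hS₂ hC'p.le
        have a2 : 0 ≤ ϑ * Θ := by positivity
        linarith
      calc _ ≤ 2 * S₂ := h1
        _ = 2 / √t₀ * S₂ * √t₀ := by field_simp
        _ ≤ D * √t := mul_le_mul h3 h2 hs₀.le hD0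
  have hb : ∀ p q, holN (d2 h p q) ≤ n * D := fun p q =>
    holN_le (by positivity) (hol_of_dir hD0 (hdir p q))
  have hΘle : Θ ≤ n * (n * (n * D)) := by
    calc Θ ≤ ∑ _p : Fin n, ∑ _q : Fin n, (n : ℝ) * D :=
          Finset.sum_le_sum fun p _ => Finset.sum_le_sum fun q _ => hb p q
      _ = n * (n * (n * D)) := by simp
  have hϑ2 : (n : ℝ) ^ 3 * ϑ ≤ 1 / 2 := by
    rw [hϑd, mul_one_div, div_le_iff₀ (by positivity)]
    linarith
  have h4 : (n : ℝ) ^ 3 * ϑ * Θ ≤ 1 / 2 * Θ := mul_le_mul_of_nonneg_right hϑ2 hΘ0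
  have h5 : (n : ℝ) * (n * (n * D)) = (n : ℝ) ^ 3 * ϑ * Θ + (n : ℝ) ^ 3 * C' * (G + S₂) := by
    rw [hD]; ring
  have h6 : 0 ≤ G + S₂ := by positivity
  have := hle i j
  nlinarith

/-- `hn 2 h = hn 1 h + ∑_i (hn 0 (∂_i h) + ∑_j hn 0 (d2 h j i))`; `hn 1 h ≤ η hn 2 h + C S` (`interp`),
`|d2 h p q| ≤ hn 2 h √t + 2 hn 1 h / t` (`interp_loc`); absorb. -/
theorem schauder0 (n : ℕ) {κ : ℝ} (hκ : 0 < κ) (B : ℝ) : ∃ C : ℝ, 0 < C ∧
    ∀ (τ : MF n) (h : Fn n) (G S : ℝ), Coef 0 κ B τ → Mem 2 h → HB 0 (Lop τ h) G →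
    (∀ x, |h x| ≤ S) → hn 2 h ≤ C * (G + S) := by
  obtain ⟨C₁, hC₁, H⟩ := schauder_hol n hκ B
  set a : ℝ := (n : ℝ) * n * (1 + C₁) + 1 with ha
  have ha0 : 0 < a := by positivity
  set t : ℝ := (1 / (4 * a)) ^ 2 with ht
  have ht0 : 0 < t := by positivity
  have hst : √t = 1 / (4 * a) := Real.sqrt_sq (by positivity)
  set K : ℝ := 1 + n + a * (2 / t) with hK
  have hK0 : 0 < K := by positivity
  obtain ⟨C₂, hC₂, I⟩ := interp n 1 (η := 1 / (4 * K)) (by positivity)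
  refine ⟨2 * (K * C₂ + n * n * C₁), by positivity, ?_⟩
  intro τ h G S hτ hh hG hS
  have hG0 : 0 ≤ G := hG.nonneg
  have hS0 : 0 ≤ S := (abs_nonneg _).trans (hS 0)
  set M : ℝ := hn 2 h with hM
  set M₁ : ℝ := hn 1 h with hM₁
  have hM0 : 0 ≤ M := hn_nonneg _ _
  have hM10 : 0 ≤ M₁ := hn_nonneg _ _
  set S₂ : ℝ := M * √t + 2 * M₁ / t with hS₂
  have hS₂0 : 0 ≤ S₂ := by positivity
  have h1 : Mem 1 h := hh.mono (by norm_num)
  have hd : ∀ p q x, |d2 h p q x| ≤ S₂ := fun p q x =>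
    interp_loc (HB.pd (k := 1) hh.hb q) ht0 (fun y _ => (HB.pd (k := 0) h1.hb q).abs_le y) p
  have hb : ∀ i j, hn 0 (pd j (pd i h)) ≤ S₂ + C₁ * (G + S₂) := fun i j =>
    add_le_add (supN_le (hd j i)) (H τ h G S₂ hτ hh hG hS₂0 hd j i)
  have hb1 : ∀ i, hn 1 (pd i h) ≤ M₁ + n * (S₂ + C₁ * (G + S₂)) := by
    intro i
    rw [hn_succ]
    refine add_le_add (hn_pd_le 0 h i) ?_
    calc _ ≤ ∑ _j : Fin n, (S₂ + C₁ * (G + S₂)) := Finset.sum_le_sum fun j _ => hb i j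
      _ = _ := by simp only [Finset.sum_const, Finset.card_univ, Fintype.card_fin, nsmul_eq_mul]
  have hMle : M ≤ M₁ + n * (M₁ + n * (S₂ + C₁ * (G + S₂))) := by
    rw [hM, hn_succ]
    refine add_le_add le_rfl ?_
    calc _ ≤ ∑ _j : Fin n, (M₁ + n * (S₂ + C₁ * (G + S₂))) := Finset.sum_le_sum fun i _ => hb1 i
      _ = _ := by simp only [Finset.sum_const, Finset.card_univ, Fintype.card_fin, nsmul_eq_mul]
  have hI : M₁ ≤ 1 / (4 * K) * M + C₂ * S := I h S hh hS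
  have e1 : a * S₂ = M / 4 + a * (2 / t) * M₁ := by
    rw [hS₂, hst]; field_simp
  have e2 : K * M₁ ≤ M / 4 + K * C₂ * S := by
    calc K * M₁ ≤ K * (1 / (4 * K) * M + C₂ * S) := mul_le_mul_of_nonneg_left hI hK0.le
      _ = _ := by field_simp
  have e3 : M₁ + n * (M₁ + n * (S₂ + C₁ * (G + S₂))) =
      (1 + n) * M₁ + (a * S₂ - S₂) + n * n * C₁ * G := by rw [ha]; ring
  have e4 : K * M₁ = (1 + n) * M₁ + a * (2 / t) * M₁ := by rw [hK]; ring
  have e5 : 0 ≤ K * C₂ * G := by positivity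
  have e6 : 0 ≤ (n : ℝ) * n * C₁ * S := by positivity
  have e7 : 2 * (K * C₂ + n * n * C₁) * (G + S) =
      2 * (K * C₂ * S + n * n * C₁ * G) + 2 * (K * C₂ * G) + 2 * (n * n * C₁ * S) := by ring
  linarith

end Crest.Agent.R238
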