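import Crest.Agent.R238.Int

/-!
# Row 238 (S0369): Slab
Calculus for the potentials `slab ε v c` and the functions `sf`, `sr`, `sk`.
-/

set_option autoImplicit false
set_option linter.unusedVariables false

open MeasureTheory Filter Topology Matrix
open Crest.Agent.R285 (bas pd gibbs WPot PolyB SConv)

noncomputable section

namespace Crest.Agent.R238

variable {n : ℕ}

variable {N : ℕ}

/-- `f = -∑ a_i s_i v'(s_i)` -/
def sf (a : Fin N → ℝ) (v : ℝ → ℝ) (c : Fin N → Fin n → ℝ) : Fn n := fun x =>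
  -∑ i, a i * lf (c i) x * deriv v (lf (c i) x)
/-- `r = -∑ a_i v'(s_i) c_i` -/
def sr (a : Fin N → ℝ) (v : ℝ → ℝ) (c : Fin N → Fin n → ℝ) (k : Fin n) : Fn n := fun x =>
  -∑ i, a i * deriv v (lf (c i) x) * c i k
/-- `k = ∑ a_i² (s_i v'(s_i) + s_i² v''(s_i))` -/
def sk (a : Fin N → ℝ) (v : ℝ → ℝ) (c : Fin N → Fin n → ℝ) : Fn n := fun x =>
  ∑ i, a i ^ 2 * (lf (c i) x * deriv v (lf (c i) x) + lf (c i) x ^ 2 * deriv (deriv v) (lf (c i) x))

lemma contDiff_lf (c : Fin n → ℝ) (m : WithTop ℕ∞) : ContDiff ℝ m (lf c) := by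
  exact ContDiff.sum fun a _ => contDiff_const.mul (contDiff_crd a m)
lemma pd_lf (c : Fin n → ℝ) (k : Fin n) : pd k (lf c) = fun _ => c k := by
  unfold lf
  rw [pd_usum k fun a => (differentiable_crd a).const_mul (c a)]
  funext x
  simp only [pd_cmul k _ (differentiable_crd _), pd_crd]
  simp
lemma lf_neg (c : Fin n → ℝ) (x : X n) : lf c (-x) = -lf c x := by
  simp [lf]
lemma abs_lf_le (c : Fin n → ℝ) (x : X n) : |lf c x| ≤ (∑ k, |c k|) * ‖x‖ := by
  rw [Finset.sum_mul]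
  refine (Finset.abs_sum_le_sum_abs _ _).trans (Finset.sum_le_sum fun k _ => ?_)
  rw [abs_mul]
  exact mul_le_mul_of_nonneg_left (R285.abs_coord_le x k) (abs_nonneg _)
lemma pd_comp_lf {φ : ℝ → ℝ} (hφ : Differentiable ℝ φ) (c : Fin n → ℝ) (k : Fin n) :
    pd k (fun x => φ (lf c x)) = fun x => deriv φ (lf c x) * c k := by
  funext x
  rw [pd_comp_real k (hφ (lf c x)).hasDerivAt ((contDiff_lf c 1).differentiable one_ne_zero x), pd_lf]

variable {v : ℝ → ℝ} {B ε : ℝ}

lemma Prof.smooth1 (h : Prof v B) (m : ℕ) : ContDiff ℝ m (deriv v) := by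
  exact ContDiff.deriv' (n := m) (by exact_mod_cast h.smooth (m + 1))
lemma Prof.smooth2 (h : Prof v B) (m : ℕ) : ContDiff ℝ m (deriv (deriv v)) := by
  exact ContDiff.deriv' (n := m) (by exact_mod_cast h.smooth1 (m + 1))
lemma Prof.odd1 (h : Prof v B) (s : ℝ) : deriv v (-s) = -deriv v s := by
  have h1 := deriv_comp_neg v s
  rw [show (fun x => v (-x)) = v from funext h.even] at h1
  rw [h1, neg_neg]
lemma Prof.le (h : Prof v B) (s : ℝ) : v s ≤ v 0 + B * |s| := by
  have hd : Differentiable ℝ v := (h.smooth 1).differentiable (by simp)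
  have h1 := Convex.norm_image_sub_le_of_norm_deriv_le (s := Set.univ) (f := v) (C := B)
    (fun x _ => hd x) (fun x _ => h.d1 x) convex_univ (Set.mem_univ 0) (Set.mem_univ s)
  rw [sub_zero, Real.norm_eq_abs, Real.norm_eq_abs] at h1
  linarith [le_abs_self (v s - v 0)]

lemma contDiff_slab (h : Prof v B) (ε : ℝ) (c : Fin N → Fin n → ℝ) (m : ℕ) :
    ContDiff ℝ m (slab ε v c) := by
  exact (contDiff_const.mul (contDiff_normsq m)).add
    (ContDiff.sum fun i _ => (h.smooth m).comp (contDiff_lf (c i) m))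
lemma le_slab (h : Prof v B) (ε : ℝ) (c : Fin N → Fin n → ℝ) (x : X n) :
    ε / 2 * ‖x‖ ^ 2 ≤ slab ε v c x := by
  exact le_add_of_nonneg_right (Finset.sum_nonneg fun i _ => h.nonneg _)
lemma slaba_diff {φ : ℝ → ℝ} (hφ : Differentiable ℝ φ) (c : Fin n → ℝ) :
    Differentiable ℝ fun x : X n => φ (lf c x) :=
  hφ.comp ((contDiff_lf c 1).differentiable one_ne_zero)

lemma slaba_pg (h : Prof v B) (c : Fin n → ℝ) : PG 1 fun x : X n => v (lf c x) := by
  have hd : Differentiable ℝ v := (h.smooth 1).differentiable (by simp)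
  have hl : PG 0 (lf c) := PG.sum fun a => (PG.crd 0 a).cmul (c a)
  refine ⟨⟨(slaba_diff hd c).continuous, ?_⟩, slaba_diff hd c, fun k => ?_⟩
  · refine ((PolyB.const (v 0)).add ((PolyB.const B).mul hl.polyB.norm')).of_le' fun x => ?_
    rw [Real.norm_of_nonneg (h.nonneg _)]
    exact (h.le _).trans (le_abs_self _)
  · rw [pd_comp_lf hd]
    refine PG.mul ⟨(h.smooth1 0).continuous.comp hl.continuous, 0, B, fun x => ?_⟩ (PG.const 0 _)
    rw [pow_zero, mul_one]
    exact h.d1 _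

lemma wpot_slab (h : Prof v B) (hε : 0 < ε) (c : Fin N → Fin n → ℝ) : WPot (slab ε v c) := by
  refine wpot_of_pg (((PG.normsq 1).cmul (ε / 2)).add (PG.sum fun i => slaba_pg h (c i)))
    (half_pos hε) (C := 0) fun x => ?_
  rw [sub_zero]
  exact le_slab h ε c x
lemma slaba_pd (h : Prof v B) (ε : ℝ) (c : Fin N → Fin n → ℝ) (k : Fin n) :
    pd k (slab ε v c) = fun x => ε * x k + ∑ i, deriv v (lf (c i) x) * c i k := by
  have hd : Differentiable ℝ v := (h.smooth 1).differentiable (by simp)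
  have h1 : Differentiable ℝ fun x : X n => ‖x‖ ^ 2 := (contDiff_normsq 1).differentiable one_ne_zero
  unfold slab
  rw [R285.pd_add k (h1.const_mul _) (Differentiable.fun_sum fun i _ => slaba_diff hd (c i)),
    pd_cmul k _ h1, pd_normsq, pd_usum k fun i => slaba_diff hd (c i)]
  funext x
  simp only [pd_comp_lf hd]
  ring

lemma slaba_d2 (h : Prof v B) (ε : ℝ) (c : Fin N → Fin n → ℝ) (j k : Fin n) (x : X n) :
    d2 (slab ε v c) j k x =
      ε * (if k = j then 1 else 0) + ∑ i, deriv (deriv v) (lf (c i) x) * c i j * c i k := by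
  have hd : Differentiable ℝ (deriv v) := (h.smooth1 1).differentiable (by simp)
  have h1 : ∀ i, Differentiable ℝ fun x : X n => deriv v (lf (c i) x) * c i k := fun i =>
    (slaba_diff hd (c i)).mul_const _
  rw [d2, slaba_pd h, R285.pd_add j ((differentiable_crd k).const_mul _)
    (Differentiable.fun_sum fun i _ => h1 i), pd_cmul j _ (differentiable_crd k), pd_crd, pd_usum j h1]
  simp only [mul_comm _ (c _ k)]
  simp only [pd_cmul j _ (slaba_diff hd _), pd_comp_lf hd]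

lemma qf_d2_slab (h : Prof v B) (ε : ℝ) (c : Fin N → Fin n → ℝ) (x : X n) (ξ : Fin n → ℝ) :
    qf (fun i j => d2 (slab ε v c) i j x) ξ =
      ε * ssq ξ + ∑ i, deriv (deriv v) (lf (c i) x) * (∑ k, c i k * ξ k) ^ 2 := by
  simp only [qf, slaba_d2 h, add_mul, Finset.sum_add_distrib]
  congr 1
  · simp [ssq, Finset.mul_sum, sq, mul_assoc]
  · simp only [sq, Finset.sum_mul_sum, Finset.mul_sum, Finset.sum_mul]
    rw [eq_comm, Finset.sum_comm]
    refine Finset.sum_congr rfl fun a _ => ?_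
    rw [Finset.sum_comm]
    exact Finset.sum_congr rfl fun b _ => Finset.sum_congr rfl fun i _ => by ring

lemma slabb_c1 (h : Prof v B) (c : Fin n → ℝ) (m : ℕ) : ContDiff ℝ m fun x : X n => deriv v (lf c x) :=
  (h.smooth1 m).comp (contDiff_lf c m)
lemma slabb_c2 (h : Prof v B) (c : Fin n → ℝ) (m : ℕ) :
    ContDiff ℝ m fun x : X n => deriv (deriv v) (lf c x) :=
  (h.smooth2 m).comp (contDiff_lf c m)
lemma slabb_d0 (c : Fin n → ℝ) : Differentiable ℝ (lf c) := (contDiff_lf c 1).differentiable one_ne_zero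
lemma slabb_d1 (h : Prof v B) (c : Fin n → ℝ) : Differentiable ℝ fun x : X n => deriv v (lf c x) :=
  (slabb_c1 h c 1).differentiable (by simp)
lemma slabb_pd1 (h : Prof v B) (c : Fin n → ℝ) (k : Fin n) :
    pd k (fun x : X n => deriv v (lf c x)) = fun x => deriv (deriv v) (lf c x) * c k :=
  pd_comp_lf ((h.smooth1 1).differentiable (by simp)) c k

lemma contDiff_sf (h : Prof v B) (a : Fin N → ℝ) (c : Fin N → Fin n → ℝ) (m : ℕ) :
    ContDiff ℝ m (sf a v c) := by
  exact (ContDiff.sum fun i _ =>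
    (contDiff_const.mul (contDiff_lf (c i) m)).mul (slabb_c1 h (c i) m)).neg
lemma contDiff_sr (h : Prof v B) (a : Fin N → ℝ) (c : Fin N → Fin n → ℝ) (k : Fin n) (m : ℕ) :
    ContDiff ℝ m (sr a v c k) := by
  exact (ContDiff.sum fun i _ => (contDiff_const.mul (slabb_c1 h (c i) m)).mul contDiff_const).neg
lemma continuous_sk (h : Prof v B) (a : Fin N → ℝ) (c : Fin N → Fin n → ℝ) :
    Continuous (sk a v c) := by
  refine continuous_finsetSum _ fun i _ => continuous_const.mul ?_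
  have h0 := (contDiff_lf (c i) 0).continuous
  exact (h0.mul (slabb_c1 h (c i) 0).continuous).add ((h0.pow 2).mul (slabb_c2 h (c i) 0).continuous)
lemma od_sr (h : Prof v B) (a : Fin N → ℝ) (c : Fin N → Fin n → ℝ) (k : Fin n) : Od (sr a v c k) := by
  intro x
  simp only [sr, lf_neg, h.odd1, mul_neg, neg_mul, Finset.sum_neg_distrib]
lemma pd_sf (h : Prof v B) (a : Fin N → ℝ) (c : Fin N → Fin n → ℝ) (k : Fin n) (x : X n) :
    pd k (sf a v c) x - sr a v c k x =
      -∑ i, a i * lf (c i) x * deriv (deriv v) (lf (c i) x) * c i k := by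
  have e : sf a v c = fun x => -∑ i, a i * (lf (c i) x * deriv v (lf (c i) x)) := by
    funext x
    simp only [sf, mul_assoc]
  have hd : ∀ i, Differentiable ℝ fun x : X n => lf (c i) x * deriv v (lf (c i) x) :=
    fun i => (slabb_d0 (c i)).mul (slabb_d1 h (c i))
  rw [e, R285.pd_neg, pd_usum k fun i => (hd i).const_mul (a i)]
  simp only [pd_cmul k _ (hd _), R285.pd_mul k (slabb_d0 _) (slabb_d1 h _), pd_lf, slabb_pd1 h, sr]
  rw [sub_neg_eq_add, neg_add_eq_sub, ← Finset.sum_sub_distrib, ← Finset.sum_neg_distrib]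
  exact Finset.sum_congr rfl fun i _ => by ring
lemma pd_sr (h : Prof v B) (a : Fin N → ℝ) (c : Fin N → Fin n → ℝ) (k l : Fin n) (x : X n) :
    pd l (sr a v c k) x = -∑ i, a i * deriv (deriv v) (lf (c i) x) * c i k * c i l := by
  have e : sr a v c k = fun x => -∑ i, a i * c i k * deriv v (lf (c i) x) := by
    funext x
    simp only [sr]
    congr 1
    exact Finset.sum_congr rfl fun i _ => by ring
  rw [e, R285.pd_neg, pd_usum l fun i => (slabb_d1 h (c i)).const_mul (a i * c i k)]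
  simp only [pd_cmul l _ (slabb_d1 h _), slabb_pd1 h]
  congr 1
  exact Finset.sum_congr rfl fun i _ => by ring

lemma slabb_sum {I : Type} [Fintype I] {f g : I → ℝ} (h : ∀ i, |f i| ≤ g i) : |∑ i, f i| ≤ ∑ i, g i :=
  (Finset.abs_sum_le_sum_abs _ _).trans (Finset.sum_le_sum fun i _ => h i)

/-- growth bounds -/
lemma slab_bounds (h : Prof v B) (a : Fin N → ℝ) (c : Fin N → Fin n → ℝ) : ∃ K : ℝ, 0 < K ∧ ∀ x,
    |sf a v c x| ≤ K * (1 + ‖x‖) ∧ (∀ k, |pd k (sf a v c) x| ≤ K * (1 + ‖x‖)) ∧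
    (∀ k, |sr a v c k x| ≤ K) ∧ (∀ k l, |pd l (sr a v c k) x| ≤ K) ∧
    |sk a v c x| ≤ K * (1 + ‖x‖) ^ 2 := by
  have hB : 0 ≤ B := (abs_nonneg _).trans (h.d1 0)
  have h2 : ∀ s, |deriv (deriv v) s| ≤ B := fun s => by
    rw [abs_of_nonneg (h.d2lo s)]; exact h.d2hi s
  obtain ⟨L, hL⟩ : ∃ L : Fin N → ℝ, ∀ i, L i = ∑ k, |c i k| := ⟨_, fun _ => rfl⟩
  have hL0 : ∀ i, 0 ≤ L i := fun i => by rw [hL]; positivity
  have hc : ∀ i k, |c i k| ≤ L i := fun i k => by
    rw [hL]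
    exact Finset.single_le_sum (f := fun k => |c i k|) (fun k _ => abs_nonneg _) (Finset.mem_univ k)
  have hl : ∀ i x, |lf (c i) x| ≤ L i * ‖x‖ := fun i x => by rw [hL]; exact abs_lf_le (c i) x
  obtain ⟨K₁, hK₁⟩ : ∃ K : ℝ, K = ∑ i, |a i| * L i * B := ⟨_, rfl⟩
  obtain ⟨K₂, hK₂⟩ : ∃ K : ℝ, K = ∑ i, |a i| * B * L i * L i := ⟨_, rfl⟩
  obtain ⟨K₃, hK₃⟩ : ∃ K : ℝ, K = ∑ i, a i ^ 2 * (L i * B + L i ^ 2 * B) := ⟨_, rfl⟩
  have p1 : 0 ≤ K₁ := hK₁ ▸ Finset.sum_nonneg fun i _ => by have := hL0 i; positivity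
  have p2 : 0 ≤ K₂ := hK₂ ▸ Finset.sum_nonneg fun i _ => by have := hL0 i; positivity
  have p3 : 0 ≤ K₃ := hK₃ ▸ Finset.sum_nonneg fun i _ => by have := hL0 i; positivity
  refine ⟨K₁ + K₂ + K₃ + 1, by positivity, fun x => ?_⟩
  have hx := norm_nonneg x
  have b1 : |sf a v c x| ≤ K₁ * ‖x‖ := by
    rw [sf, abs_neg, hK₁, Finset.sum_mul]
    refine slabb_sum fun i => ?_
    rw [abs_mul, abs_mul]
    have := hL0 i
    calc |a i| * |lf (c i) x| * |deriv v (lf (c i) x)| ≤ |a i| * (L i * ‖x‖) * B := by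
          gcongr
          exacts [hl i x, h.d1 _]
      _ = _ := by ring
  have b3 : ∀ k, |sr a v c k x| ≤ K₁ := fun k => by
    rw [sr, abs_neg, hK₁]
    refine slabb_sum fun i => ?_
    rw [abs_mul, abs_mul]
    calc |a i| * |deriv v (lf (c i) x)| * |c i k| ≤ |a i| * B * L i := by
          gcongr
          exacts [h.d1 _, hc i k]
      _ = _ := by ring
  have b2 : ∀ k, |pd k (sf a v c) x - sr a v c k x| ≤ K₂ * ‖x‖ := fun k => by
    rw [pd_sf h, abs_neg, hK₂, Finset.sum_mul]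
    refine slabb_sum fun i => ?_
    rw [abs_mul, abs_mul, abs_mul]
    have := hL0 i
    calc |a i| * |lf (c i) x| * |deriv (deriv v) (lf (c i) x)| * |c i k|
        ≤ |a i| * (L i * ‖x‖) * B * L i := by
          gcongr
          exacts [hl i x, h2 _, hc i k]
      _ = _ := by ring
  have b4 : ∀ k l, |pd l (sr a v c k) x| ≤ K₂ := fun k l => by
    rw [pd_sr h, abs_neg, hK₂]
    refine slabb_sum fun i => ?_
    rw [abs_mul, abs_mul, abs_mul]
    have := hL0 i
    gcongr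
    exacts [h2 _, hc i k, hc i l]
  have b5 : |sk a v c x| ≤ K₃ * (1 + ‖x‖) ^ 2 := by
    rw [sk, hK₃, Finset.sum_mul]
    refine slabb_sum fun i => ?_
    have := hL0 i
    rw [abs_mul, abs_of_nonneg (sq_nonneg (a i)), mul_assoc]
    refine mul_le_mul_of_nonneg_left ((abs_add_le _ _).trans ?_) (sq_nonneg _)
    rw [abs_mul, abs_mul, abs_pow]
    have e1 : ‖x‖ ≤ (1 + ‖x‖) ^ 2 := by nlinarith
    have e2 : ‖x‖ ^ 2 ≤ (1 + ‖x‖) ^ 2 := by nlinarith
    calc |lf (c i) x| * |deriv v (lf (c i) x)| + |lf (c i) x| ^ 2 * |deriv (deriv v) (lf (c i) x)|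
        ≤ L i * ‖x‖ * B + (L i * ‖x‖) ^ 2 * B := by
          gcongr
          exacts [hl i x, h.d1 _, hl i x, h2 _]
      _ = L i * B * ‖x‖ + L i ^ 2 * B * ‖x‖ ^ 2 := by ring
      _ ≤ L i * B * (1 + ‖x‖) ^ 2 + L i ^ 2 * B * (1 + ‖x‖) ^ 2 := by gcongr
      _ = _ := by ring
  refine ⟨b1.trans ?_, fun k => ?_, fun k => (b3 k).trans (by linarith), fun k l => (b4 k l).trans (by linarith),
    b5.trans ?_⟩
  · gcongr <;> linarith
  · have t := abs_add_le (pd k (sf a v c) x - sr a v c k x) (sr a v c k x)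
    rw [sub_add_cancel] at t
    have := b2 k
    have := b3 k
    nlinarith [mul_nonneg p1 hx, mul_nonneg p3 hx]
  · gcongr
    linarith

end Crest.Agent.R238
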