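import Crest.Agent.R238.Conc

/-!
# Row 238 (S0369): Slabs
From smooth profiles to intersections of symmetric slabs.
-/

set_option autoImplicit false
set_option linter.unusedVariables false

open MeasureTheory Filter Topology Matrix
open Crest.Agent.R285 (bas pd gibbs WPot PolyB SConv)

noncomputable section

namespace Crest.Agent.R238

variable {n : ℕ}

/-- `exp (-vm m s) = A / (A + cosh (m s))` with `A = m cosh m` (here `m ≥ 1`) -/
def vm (m : ℕ) (s : ℝ) : ℝ :=
  Real.log (1 + Real.cosh ((m + 1) * s) / ((m + 1) * Real.cosh (m + 1)))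

lemma vmx_A (m : ℕ) : (1 : ℝ) ≤ (m + 1) * Real.cosh (m + 1) := by
  have := Real.one_le_cosh ((m : ℝ) + 1)
  have h : (0 : ℝ) ≤ m := Nat.cast_nonneg m
  nlinarith

lemma vmx_d1 (μ A : ℝ) (hA : 1 ≤ A) (s : ℝ) :
    HasDerivAt (fun s => Real.log (1 + Real.cosh (μ * s) / A))
      (μ * Real.sinh (μ * s) / (A + Real.cosh (μ * s))) s := by
  have hc := Real.one_le_cosh (μ * s)
  have h1 : HasDerivAt (fun s => μ * s) μ s := by simpa using (hasDerivAt_id s).const_mul μ
  have h2 := ((h1.cosh.div_const A).const_add 1).log (by positivity)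
  convert h2 using 1
  field_simp

lemma vmx_d2 (μ A : ℝ) (hA : 1 ≤ A) (s : ℝ) :
    HasDerivAt (fun s => μ * Real.sinh (μ * s) / (A + Real.cosh (μ * s)))
      (μ ^ 2 * (A * Real.cosh (μ * s) + 1) / (A + Real.cosh (μ * s)) ^ 2) s := by
  have hc := Real.one_le_cosh (μ * s)
  have h1 : HasDerivAt (fun s => μ * s) μ s := by simpa using (hasDerivAt_id s).const_mul μ
  have h2 := (h1.sinh.const_mul μ).div (h1.cosh.const_add A) (by positivity)
  have hq := Real.cosh_sq (μ * s)
  refine HasDerivAt.congr_deriv h2 ?_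
  congr 1
  linear_combination (μ ^ 2) * hq

/-- with `μ = m + 1`, `A = μ cosh μ ≥ 1`: `v' = μ sinh (μ s)/(A + cosh (μ s))`,
`v'' = μ² (A cosh (μ s) + 1)/(A + cosh (μ s))²` -/
theorem prof_vm (m : ℕ) : Prof (vm m) ((m + 1) ^ 2) := by
  have hA := vmx_A m
  set μ : ℝ := m + 1 with hμ
  set A : ℝ := μ * Real.cosh μ with hAd
  have hμ1 : 1 ≤ μ := by have : (0 : ℝ) ≤ m := Nat.cast_nonneg m; linarith
  have e : vm m = fun s => Real.log (1 + Real.cosh (μ * s) / A) := rfl
  have e1 : deriv (vm m) = fun s => μ * Real.sinh (μ * s) / (A + Real.cosh (μ * s)) :=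
    funext fun s => by rw [e]; exact (vmx_d1 μ A hA s).deriv
  have e2 : deriv (deriv (vm m)) =
      fun s => μ ^ 2 * (A * Real.cosh (μ * s) + 1) / (A + Real.cosh (μ * s)) ^ 2 :=
    funext fun s => by rw [e1]; exact (vmx_d2 μ A hA s).deriv
  refine ⟨fun k => ?_, fun s => ?_, fun s => ?_, fun s => ?_, fun s => ?_, fun s => ?_⟩
  · rw [e]
    refine ContDiff.log (contDiff_const.add ((Real.contDiff_cosh.comp
      (contDiff_const.mul contDiff_id)).div_const A)) fun s => ?_
    have hc := Real.one_le_cosh (μ * s)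
    positivity
  · rw [e]; simp
  · rw [e]
    have hc := Real.one_le_cosh (μ * s)
    exact Real.log_nonneg (le_add_of_nonneg_right (by positivity))
  · rw [e1]
    have hc := Real.one_le_cosh (μ * s)
    have hs : |Real.sinh (μ * s)| ≤ Real.cosh (μ * s) := by
      rw [Real.abs_sinh, ← Real.cosh_abs]; exact (Real.sinh_lt_cosh _).le
    rw [abs_div, abs_mul, abs_of_pos (by linarith : 0 < μ), abs_of_pos (by linarith : 0 < A + Real.cosh (μ * s)),
      div_le_iff₀ (by linarith)]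
    have : μ * |Real.sinh (μ * s)| ≤ μ * (A + Real.cosh (μ * s)) := by gcongr; linarith
    have h' : μ * (A + Real.cosh (μ * s)) ≤ μ ^ 2 * (A + Real.cosh (μ * s)) := by
      gcongr; nlinarith
    linarith
  · rw [e2]
    have hc := Real.one_le_cosh (μ * s)
    positivity
  · rw [e2]
    have hc := Real.one_le_cosh (μ * s)
    rw [div_le_iff₀ (by positivity)]
    gcongr
    nlinarith

lemma vmx_exp (m : ℕ) (s : ℝ) : Real.exp (-vm m s) =
    ((m + 1) * Real.cosh (m + 1)) / ((m + 1) * Real.cosh (m + 1) + Real.cosh ((m + 1) * s)) := by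
  have hA := vmx_A m
  have hc := Real.one_le_cosh (((m : ℝ) + 1) * s)
  rw [vm, Real.exp_neg, Real.exp_log (by positivity)]
  field_simp

/-- `0 ≤ vm m s ≤ log (1 + 1/(m+1))` for `|s| ≤ 1` -/
lemma vm_in {s : ℝ} (hs : |s| ≤ 1) : Tendsto (fun m => Real.exp (-vm m s)) atTop (𝓝 1) := by
  have hl : Tendsto (fun m : ℕ => 1 - 1 / ((m : ℝ) + 1)) atTop (𝓝 1) := by
    simpa using (tendsto_const_nhds (x := (1 : ℝ))).sub (tendsto_one_div_add_atTop_nhds_zero_nat (𝕜 := ℝ))
  refine tendsto_of_tendsto_of_tendsto_of_le_of_le hl tendsto_const_nhds (fun m => ?_) fun m => ?_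
  · have hA := vmx_A m
    have hm : (0 : ℝ) < m + 1 := by positivity
    have hc := Real.one_le_cosh (((m : ℝ) + 1) * s)
    have hle : Real.cosh ((m + 1) * s) ≤ Real.cosh (m + 1) := by
      rw [Real.cosh_le_cosh, abs_mul, abs_of_pos hm]; nlinarith
    simp only [vmx_exp]
    rw [le_div_iff₀ (by positivity)]
    have h1 : (1 - 1 / ((m : ℝ) + 1)) * ((m + 1) * Real.cosh (m + 1) + Real.cosh ((m + 1) * s)) =
        (m + 1) * Real.cosh (m + 1) - Real.cosh (m + 1) + Real.cosh ((m + 1) * s) -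
          Real.cosh ((m + 1) * s) / (m + 1) := by field_simp; ring
    have h2 : 0 ≤ Real.cosh ((m + 1) * s) / ((m : ℝ) + 1) := by positivity
    linarith
  · exact Real.exp_le_one_iff.2 (neg_nonpos.2 ((prof_vm m).nonneg s))

/-- `exp (-vm m s) ≤ μ cosh μ / cosh (μ s) ≤ 2 μ exp (-μ (|s| - 1))` -/
lemma vm_out {s : ℝ} (hs : 1 < |s|) : Tendsto (fun m => Real.exp (-vm m s)) atTop (𝓝 0) := by
  set d := |s| - 1 with hd
  have hd0 : 0 < d := by linarith
  have h0 : Tendsto (fun m : ℕ => ((m : ℝ) + 1) * d) atTop atTop :=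
    (tendsto_atTop_add_const_right _ 1 tendsto_natCast_atTop_atTop).atTop_mul_const hd0
  have hl := ((Real.tendsto_pow_mul_exp_neg_atTop_nhds_zero 1).comp h0).const_mul (2 / d)
  rw [mul_zero] at hl
  refine tendsto_of_tendsto_of_tendsto_of_le_of_le tendsto_const_nhds hl
    (fun m => (Real.exp_pos _).le) fun m => ?_
  have hA := vmx_A m
  have hm : (0 : ℝ) < m + 1 := by positivity
  set μ : ℝ := m + 1 with hμ
  have hc := Real.one_le_cosh (μ * s)
  simp only [vmx_exp, Function.comp, pow_one, ← hμ]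
  rw [div_le_iff₀ (by positivity)]
  have h1 : Real.cosh μ ≤ Real.exp μ := by
    rw [Real.cosh_eq]; have := Real.exp_le_exp.2 (show -μ ≤ μ by linarith); linarith
  have h2 : Real.exp (μ * |s|) / 2 ≤ Real.cosh (μ * s) := by
    rw [← Real.cosh_abs, abs_mul, abs_of_pos hm, Real.cosh_eq]
    have := Real.exp_pos (-(μ * |s|)); linarith
  have h3 : Real.exp (-(μ * d)) * Real.exp (μ * |s|) = Real.exp μ := by
    rw [← Real.exp_add]; congr 1; rw [hd]; ring
  have h4 : 2 / d * (μ * d * Real.exp (-(μ * d))) = 2 * μ * Real.exp (-(μ * d)) := by field_simp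
  rw [h4]
  have h5 := Real.exp_pos (-(μ * d))
  calc μ * Real.cosh μ ≤ μ * Real.exp μ := by gcongr
    _ = 2 * μ * Real.exp (-(μ * d)) * (Real.exp (μ * |s|) / 2) := by rw [← h3]; ring
    _ ≤ _ := by gcongr; linarith

lemma slabsb_exp {N : ℕ} (ε : ℝ) (v : ℝ → ℝ) (c : Fin N → Fin n → ℝ) (x : X n) :
    Real.exp (-slab ε v c x) =
      Real.exp (-(ε / 2 * ‖x‖ ^ 2)) * ∏ i, Real.exp (-v (lf (c i) x)) := by
  rw [← Real.exp_sum, ← Real.exp_add, slab, Finset.sum_neg_distrib, neg_add]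

lemma slabsb_closed {N : ℕ} (c : Fin N → Fin n → ℝ) :
    MeasurableSet {x : X n | ∀ i, |lf (c i) x| ≤ 1} := by
  rw [Set.ofPred_forall]
  exact MeasurableSet.iInter fun i =>
    (isClosed_le (contDiff_lf (c i) 0).continuous.abs continuous_const).measurableSet

/-- dominated convergence: `exp (-slab) = exp (-ε|x|²/2) ∏ exp (-vm m s_i)` tends to the indicator -/
theorem slab_lim {N : ℕ} {ε : ℝ} (hε : 0 < ε) (c : Fin N → Fin n → ℝ) :
    Tendsto (fun m => ∫ x : X n, Real.exp (-slab ε (vm m) c x)) atTop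
      (𝓝 (gm ε {x : X n | ∀ i, |lf (c i) x| ≤ 1})) := by
  rw [gm, ← integral_indicator (slabsb_closed c)]
  refine tendsto_integral_of_dominated_convergence (fun x => Real.exp (-(ε / 2 * ‖x‖ ^ 2)))
    (fun m => (Real.continuous_exp.comp
      (contDiff_slab (prof_vm m) ε c 0).continuous.neg).aestronglyMeasurable)
    (intb_wpot0 hε).integrable_exp (fun m => Eventually.of_forall fun x => ?_)
    (Eventually.of_forall fun x => ?_)
  · rw [Real.norm_eq_abs, abs_of_pos (Real.exp_pos _)]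
    exact Real.exp_le_exp.2 (neg_le_neg (le_slab (prof_vm m) ε c x))
  · simp only [slabsb_exp]
    by_cases hx : x ∈ {x : X n | ∀ i, |lf (c i) x| ≤ 1}
    · rw [Set.indicator_of_mem hx]
      have h := tendsto_finsetProd (Finset.univ : Finset (Fin N)) fun i _ => vm_in (hx i)
      simpa using h.const_mul (Real.exp (-(ε / 2 * ‖x‖ ^ 2)))
    · rw [Set.indicator_of_notMem hx]
      simp only [Set.mem_ofPred_eq, not_forall, not_le] at hx
      obtain ⟨j, hj⟩ := hx
      have h := tendsto_finsetProd (Finset.univ : Finset (Fin N))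
        (f := fun i m => Real.exp (-vm m (lf (c i) x)))
        (a := fun i => if |lf (c i) x| ≤ 1 then 1 else 0) fun i _ => by
          split_ifs with hi
          · exact vm_in hi
          · exact vm_out (not_le.1 hi)
      rw [Finset.prod_eq_zero (Finset.mem_univ j) (by rw [if_neg (not_le.2 hj)])] at h
      simpa using h.const_mul (Real.exp (-(ε / 2 * ‖x‖ ^ 2)))

lemma slabsb_set {N : ℕ} (u : Fin N → X n) {h0 h1 : Fin N → ℝ}
    (p0 : ∀ i, 0 < h0 i) (p1 : ∀ i, 0 < h1 i) (t : ℝ) :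
    {x : X n | ∀ i, |lf (ct (fun i => Real.log (h1 i / h0 i)) (fun i k => u i k / h0 i) t i) x| ≤ 1} =
      {x : X n | ∀ i, |inner ℝ x (u i)| ≤ h0 i ^ (1 - t) * h1 i ^ t} := by
  ext x
  refine forall_congr' fun i => ?_
  have a0 := p0 i
  have a1 := p1 i
  have hp : 0 < h0 i ^ (1 - t) * h1 i ^ t := by positivity
  have e1 : lf (fun k => u i k / h0 i) x = inner ℝ x (u i) / h0 i := by
    simp only [lf, PiLp.inner_apply, RCLike.inner_apply, conj_trivial, Finset.sum_div]
    exact Finset.sum_congr rfl fun k _ => by ring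
  have e2 : Real.exp (-(t * Real.log (h1 i / h0 i))) * (h0 i ^ (1 - t) * h1 i ^ t) = h0 i := by
    rw [Real.rpow_def_of_pos a0, Real.rpow_def_of_pos a1, ← Real.exp_add, ← Real.exp_add,
      Real.log_div a1.ne' a0.ne']
    conv_rhs => rw [← Real.exp_log a0]
    congr 1
    ring
  have e3 : Real.exp (-(t * Real.log (h1 i / h0 i))) * (inner ℝ x (u i) / h0 i) =
      inner ℝ x (u i) / (h0 i ^ (1 - t) * h1 i ^ t) := by
    rw [eq_div_iff hp.ne', mul_right_comm, e2]
    field_simp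
  rw [lf_ct, e1, e3, abs_div, abs_of_pos hp, div_le_one hp]

/-- `c i k = u i k / h0 i`, `a i = log (h1 i / h0 i)`; `Zt_conc`, `slab_lim` at `0`, `1`, `t`; continuity of
`rpow` with nonnegative exponents -/
theorem gauss_slabs {N : ℕ} {ε : ℝ} (hε : 0 < ε) (u : Fin N → X n) {h0 h1 : Fin N → ℝ}
    (p0 : ∀ i, 0 < h0 i) (p1 : ∀ i, 0 < h1 i) {t : ℝ} (ht0 : 0 ≤ t) (ht1 : t ≤ 1) :
    gm ε {x : X n | ∀ i, |inner ℝ x (u i)| ≤ h0 i} ^ (1 - t) *
        gm ε {x : X n | ∀ i, |inner ℝ x (u i)| ≤ h1 i} ^ t ≤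
      gm ε {x : X n | ∀ i, |inner ℝ x (u i)| ≤ h0 i ^ (1 - t) * h1 i ^ t} := by
  have key : ∀ s : ℝ, Tendsto (fun m => Zt ε (vm m) (fun i => Real.log (h1 i / h0 i))
      (fun i k => u i k / h0 i) s) atTop
      (𝓝 (gm ε {x : X n | ∀ i, |inner ℝ x (u i)| ≤ h0 i ^ (1 - s) * h1 i ^ s})) := fun s => by
    rw [← slabsb_set u p0 p1 s]
    exact slab_lim hε _
  have k0 := key 0
  have k1 := key 1
  simp only [sub_zero, Real.rpow_one, Real.rpow_zero, mul_one, sub_self, one_mul] at k0 k1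
  exact le_of_tendsto_of_tendsto'
    ((k0.rpow_const (Or.inr (sub_nonneg.2 ht1))).mul (k1.rpow_const (Or.inr ht0))) (key t)
    fun m => Zt_conc (prof_vm m) hε _ _ ht0 ht1

end Crest.Agent.R238
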