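import Crest.Agent.R238.Gap
import Crest.Agent.R238.Lin

/-!
# Row 238 (S0369): Theta
Solvability of `(L + 1) χ = g` for even `g`, with `χ = om * h`, `h ∈ C^{5,1/2}`.
-/

set_option autoImplicit false
set_option linter.unusedVariables false

open MeasureTheory Filter Topology Matrix
open Crest.Agent.R285 (bas pd gibbs WPot PolyB SConv)

noncomputable section

namespace Crest.Agent.R238

variable {n : ℕ}

lemma thetaa_cc {τ : MF n} {B : ℝ} (hτ : ∀ a b x, |τ a b x| ≤ B) {θ : ℝ} (hθ : θ ≤ 1) (x : X n)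
    (hx : 2 * |2 * (n * B) + 2| + 1 ≤ ‖x‖) : cc τ θ x ≤ -(1 / 2) := by
  have h1 := cc_le hτ θ x
  have h2 := om_mul_rho x
  have h3 := rata_rho_pos x
  have h4 := abs_nonneg (2 * (n * B) + 2)
  have h5 : 2 * |2 * (n * B) + 2| ≤ om x := by
    unfold om
    nlinarith
  have h6 := mul_le_mul_of_nonneg_right h5 h3.le
  have h7 := mul_le_mul_of_nonneg_right (le_abs_self (2 * (n * B) + 2)) h3.le
  linarith

lemma thetaa_l2 (n : ℕ) (p : Par) : ∃ K : ℝ, 0 < K ∧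
    ∀ (b u : Fn n) (τ : MF n) (h : Fn n) (θ G : ℝ), Pot p b → Nice p.ε p.C₁ (quad p.C b) u τ →
    θ ≤ 1 → Mem 5 h → Ev h → ∫ x, omul h x ∂gibbs (quad p.C b) = 0 →
    HB 3 (Op τ (cβ τ) (cc τ θ) h) G → ∫ x, omul h x ^ 2 ∂gibbs (quad p.C b) ≤ K * G ^ 2 := by
  have hC : 0 < p.C := p.ε_pos.trans_le p.ε_le
  obtain ⟨K, hK, h1⟩ := l2_est n p.ε_pos (hC.trans_le p.le_C₁)
  obtain ⟨K', hK', h2⟩ := mom_hi n hC p.B
  refine ⟨K * K', by positivity, fun b u τ h θ G hb hN hθ hh he h0 hG => ?_⟩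
  have hc2 : ContDiff ℝ 2 h := lin_c2 (k := 3) hh
  have h3 := h1 _ u τ (omul h) (fun x => om x * Op τ (cβ τ) (cc τ θ) h x) θ hN
    (hh.pg.mono (by norm_num)).omul (fun x => by simp only [omul, ev_om x, he x]) h0 hθ
    (fun x => Lop_omul hN.geo.symm θ hc2 x)
  have h4 := h2 b (hb.hb.mem.pg.mono (by norm_num)) hb.hb.abs_le
  have h5 : ∫ x, (om x * Op τ (cβ τ) (cc τ θ) h x) ^ 2 ∂gibbs (quad p.C b) ≤
      ∫ x, G ^ 2 * om x ^ 2 ∂gibbs (quad p.C b) := by
    refine integral_mono (((PG.om 3).mul hG.mem.pg).sq.integrable hN.wpot)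
      (((PG.om 3).sq.cmul _).integrable hN.wpot) fun x => ?_
    have h6 : Op τ (cβ τ) (cc τ θ) h x ^ 2 ≤ G ^ 2 := by
      rw [← sq_abs]; exact pow_le_pow_left₀ (abs_nonneg _) (hG.abs_le x) 2
    have h7 := mul_le_mul_of_nonneg_left h6 (sq_nonneg (om x))
    simp only [mul_pow]
    linarith
  rw [integral_const_mul] at h5
  calc _ ≤ _ := h3
    _ ≤ K * (G ^ 2 * K') :=
        mul_le_mul_of_nonneg_left (h5.trans (mul_le_mul_of_nonneg_left h4 (sq_nonneg _))) hK.le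
    _ = _ := by ring

lemma thetaa_loc (n : ℕ) (p : Par) (R : ℝ) {r : ℝ} (hr : 0 < r) : ∃ D : ℝ, 0 < D ∧
    ∀ (b u : Fn n) (τ : MF n) (h : Fn n) (θ G : ℝ), Pot p b → Nice p.ε p.C₁ (quad p.C b) u τ →
    θ ≤ 1 → Mem 5 h → Ev h → ∫ x, omul h x ∂gibbs (quad p.C b) = 0 →
    HB 3 (Op τ (cβ τ) (cc τ θ) h) G → ∀ x, ‖x‖ < R → |h x| ≤ n * hn 5 h * r + D * G := by
  have hC : 0 < p.C := p.ε_pos.trans_le p.ε_le
  obtain ⟨K, hK, h1⟩ := thetaa_l2 n p
  obtain ⟨c, hc, h2⟩ := dens_lo n hC p.B R hr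
  refine ⟨K / c + 1, by positivity, fun b u τ h θ G hb hN hθ hh he h0 hG x hx => ?_⟩
  have hG0 := hG.nonneg
  have hM := hn_nonneg 5 h
  rcases le_or_gt (|h x| - n * hn 5 h * r) 0 with hs | hs
  · have : 0 ≤ (K / c + 1) * G := by positivity
    linarith
  have h3 := h2 b (fun y => omul h y ^ 2) x ((|h x| - n * hn 5 h * r) ^ 2)
    (hb.hb.mem.pg.mono (by norm_num)) hb.hb.abs_le hh.pg.zero.omul.sq (fun y => sq_nonneg _) hx.le
    (sq_nonneg _) (fun y hy => ?_)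
  · have h4 := h3.trans (h1 b u τ h θ G hb hN hθ hh he h0 hG)
    have h5 : (|h x| - n * hn 5 h * r) ^ 2 ≤ ((K / c + 1) * G) ^ 2 := by
      have h6 : (|h x| - n * hn 5 h * r) ^ 2 ≤ K / c * G ^ 2 := by
        rw [div_mul_eq_mul_div, le_div_iff₀ hc]; linarith
      have h7 : 0 ≤ K / c := by positivity
      have h8 : K / c ≤ (K / c + 1) ^ 2 := by nlinarith
      rw [mul_pow]
      exact h6.trans (mul_le_mul_of_nonneg_right h8 (sq_nonneg _))
    have := (pow_le_pow_iff_left₀ hs.le (by positivity) two_ne_zero).1 h5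
    linarith
  · have h4 := abs_sub_le_of_pd (Mem.diff (k := 4) hh)
      (fun a z => (HB.pd (k := 4) hh.hb a).abs_le z) y x
    have h5 : (n : ℝ) * hn 5 h * ‖y - x‖ ≤ n * hn 5 h * r :=
      mul_le_mul_of_nonneg_left hy (by positivity)
    have h6 := abs_sub_abs_le_abs_sub (h x) (h y)
    rw [abs_sub_comm] at h6
    have h7 : |h y| ≤ |omul h y| := by
      rw [omul, abs_mul, abs_of_pos (om_pos y)]
      exact le_mul_of_one_le_left (abs_nonneg _) (one_le_om y)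
    rw [← sq_abs (omul h y)]
    exact pow_le_pow_left₀ hs.le (by linarith) 2

/-- (1) `apri_sup` (`k = 3`, `κ = C₁⁻¹`, `hb_conj`): `M := hn 5 h ≤ C' (G + S)` if `|h| ≤ S`.
(2) `maxp_abs` with `R` such that `(2nB+2) rho 1 x ≤ 1/2` for `‖x‖ ≥ R` (`cc_le`, `c₀ = 1/2`).
(3) for `‖x‖ < R` and `‖y - x‖ ≤ r`: `|omul h y| ≥ |h y| ≥ |h x| - n M r`; `dens_lo` with `F = (omul h)²`,
`l2_est` with `Lop_omul`, `mom_hi` give `(|h x| - n M r)₊² c ≤ K K' G²`.  (4) choose `r` with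
`C' n r ≤ 1/2` and absorb. -/
theorem theta_apri (n : ℕ) (p : Par) (B Θ : ℝ) : ∃ C : ℝ, 0 < C ∧
    ∀ (b u : Fn n) (τ : MF n) (h : Fn n) (θ G : ℝ), Pot p b → Nice p.ε p.C₁ (quad p.C b) u τ →
    (∀ a c, HB 3 (τ a c) B) → |θ| ≤ Θ → θ ≤ 1 → Mem 5 h → Ev h →
    ∫ x, omul h x ∂gibbs (quad p.C b) = 0 → HB 3 (Op τ (cβ τ) (cc τ θ) h) G → hn 5 h ≤ C * G := by
  have hC₁ : 0 < p.C₁ := (p.ε_pos.trans_le p.ε_le).trans_le p.le_C₁
  obtain ⟨B', hB'⟩ := hb_conj n 3 B Θ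
  obtain ⟨C', hC', h1⟩ := apri_sup n 3 (inv_pos.2 hC₁) (max B B')
  have hr : 0 < 1 / (2 * C' * (n + 1)) := by positivity
  obtain ⟨D, hD, h2⟩ := thetaa_loc n p (2 * |2 * (n * B) + 2| + 1) hr
  refine ⟨2 * C' * (3 + D), by positivity, fun b u τ h θ G hb hN hτ hΘ hθ hh he h0 hG => ?_⟩
  have hG0 := hG.nonneg
  have hM := hn_nonneg 5 h
  obtain ⟨hβ, hc⟩ := hB' τ θ hτ hΘ
  have h3 := maxp_abs (B := max B B') hN.geo.symm hN.geo.psd
    (fun a c x => ((hτ a c).abs_le x).trans (le_max_left _ _))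
    (fun a x => ((hβ a).abs_le x).trans (le_max_right _ _)) (lin_c2 (k := 3) hh) hh.abs_le
    (c₀ := 1 / 2) (by norm_num) hG0 (thetaa_cc (fun a c x => (hτ a c).abs_le x) hθ) hG.abs_le
    (h2 b u τ h θ G hb hN hθ hh he h0 hG)
  have h4 := h1 τ (cβ τ) (cc τ θ) h G
    (n * hn 5 h * (1 / (2 * C' * (n + 1))) + D * G + 2 * G)
    ⟨hN.ell, fun a c => (hτ a c).weaken (le_max_left _ _)⟩
    (fun a => (hβ a).weaken (le_max_right _ _)) (hc.weaken (le_max_right _ _)) hh hG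
    (fun x => (h3 x).trans (max_le (by linarith) (by
      have : 0 ≤ n * hn 5 h * (1 / (2 * C' * (n + 1))) + D * G := by positivity
      linarith)))
  have h5 : C' * (n * hn 5 h * (1 / (2 * C' * (n + 1)))) ≤ hn 5 h / 2 := by
    have e : C' * (n * hn 5 h * (1 / (2 * C' * (n + 1)))) = hn 5 h / 2 * (n / (n + 1)) := by
      field_simp
    rw [e]
    refine mul_le_of_le_one_right (by positivity) ?_
    rw [div_le_one (by positivity)]
    linarith
  change hn 5 h ≤ _ at h4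
  linarith

/-- the even functions `y` with `E (om y) = 0` -/
def Y0 (V : Fn n) (hV : WPot V) : Submodule ℝ (HC n 3) where
  carrier := {y | Ev y.fn ∧ ∫ x, omul y.fn x ∂gibbs V = 0}
  zero_mem' := ⟨fun _ => rfl, by simp [omul]⟩
  add_mem' := by
    rintro y z ⟨hy, hy'⟩ ⟨hz, hz'⟩
    refine ⟨fun x => by simp [hy x, hz x], ?_⟩
    have e : (fun x => omul (y + z).fn x) = fun x => omul y.fn x + omul z.fn x := by
      funext x; simp [omul, mul_add]
    rw [e, integral_add (y.mem.pg.omul.integrable hV) (z.mem.pg.omul.integrable hV), hy', hz', add_zero]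
  smul_mem' := by
    rintro c y ⟨hy, hy'⟩
    refine ⟨fun x => by simp [hy x], ?_⟩
    have e : (fun x => omul (c • y).fn x) = fun x => c * omul y.fn x := by
      funext x; simp [omul]; ring
    rw [e, integral_const_mul, hy', mul_zero]

/-- evaluation is continuous, and `|E (om y) - E (om y')| ≤ ‖y - y'‖ E om` -/
lemma isClosed_Y0 (V : Fn n) (hV : WPot V) : IsClosed (Y0 V hV : Set (HC n 3)) := by
  have hc : Continuous fun y : HC n 3 => ∫ x, omul y.fn x ∂gibbs V := by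
    refine (LipschitzWith.of_dist_le' (K := ∫ x, om x ∂gibbs V) fun y z => ?_).continuous
    rw [dist_eq_norm, dist_eq_norm,
      ← integral_sub (y.mem.pg.omul.integrable hV) (z.mem.pg.omul.integrable hV), ← integral_mul_const]
    refine norm_integral_le_of_norm_le (((PG.om 0).integrable hV).mul_const _)
      (Eventually.of_forall fun x => ?_)
    rw [omul, omul, ← mul_sub, Real.norm_eq_abs, abs_mul, abs_of_pos (om_pos x)]
    exact mul_le_mul_of_nonneg_left ((y - z).abs_le x) (om_pos x).le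
  have e : (Y0 V hV : Set (HC n 3)) = (⋂ x, {y | HC.ev (-x) y = HC.ev x y}) ∩
      {y | ∫ x, omul y.fn x ∂gibbs V = 0} := by
    ext y
    simp only [Set.mem_inter_iff, Set.mem_iInter, Set.mem_ofPred_eq, HC.ev_apply]
    rfl
  rw [e]
  exact (isClosed_iInter fun x => isClosed_eq (HC.continuous_ev _) (HC.continuous_ev _)).inter
    (isClosed_eq hc continuous_const)

/-- the inclusion `C^{5,1/2} → C^{3,1/2}` -/
def thetab_inc : HC n 5 →L[ℝ] HC n 3 :=
  LinearMap.mkContinuous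
    { toFun := fun f => HC.mk f.fn (f.mem.mono (by norm_num))
      map_add' := fun _ _ => rfl
      map_smul' := fun _ _ => rfl } 1 fun f => by
    rw [one_mul]; exact hn_mono f.fn (by norm_num)

lemma thetab_fn (f : HC n 5) : (thetab_inc f).fn = f.fn := rfl

/-- `θ₀ = -(2 n B + 2)` makes `cc τ θ₀ ≤ -2`.  `T : HC 3 →L HC 5` solves `Op τ (cβ τ) (cc τ θ₀) (T y) = y`
(`lin_exist`, `exists_solOp`).  For `y ∈ Y0`, `T y` is even by uniqueness (`apri_neg`, `Op_neg_arg`) and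
`0 = E (om y) = E (L + θ₀)(om T y) = θ₀ E (om T y)`.  `K y = -T y` viewed in `Y0` (the inclusion
`HC 5 → HC 3` has norm `≤ 1` by `hn_mono`); `y - s K y = Op τ (cβ τ) (cc τ (θ₀ + s)) (T y)`;
`‖y‖ ≤ ‖y - sKy‖ + s ‖T y‖`, `theta_apri`; `cont_method` with `s₁ = 1 - θ₀`. -/
theorem theta_exist0 {p : Par} {b u : Fn n} {τ : MF n} (hb : Pot p b)
    (hN : Nice p.ε p.C₁ (quad p.C b) u τ) {z : Fn n} (hz : Mem 3 z) (he : Ev z)
    (h0 : ∫ x, omul z x ∂gibbs (quad p.C b) = 0) :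
    ∃ h, Mem 5 h ∧ Ev h ∧ ∀ x, Op τ (cβ τ) (cc τ 1) h x = z x := by
  have hκ : 0 < p.C₁⁻¹ := inv_pos.2 hN.C₁_pos
  obtain ⟨B, hB, hτ⟩ := exists_coef hN.ell hN.τ3
  obtain ⟨Θ, hΘ⟩ : ∃ Θ : ℝ, Θ = 2 * (n * B) + 2 := ⟨_, rfl⟩
  have hΘ2 : 2 ≤ Θ := by
    have : 0 ≤ n * B := by positivity
    linarith
  obtain ⟨B', hB'⟩ := hb_conj n 3 B Θ
  obtain ⟨hβ, hc⟩ := hB' τ (-Θ) hτ.hb (by rw [abs_neg, abs_of_pos (by linarith)])
  have hτ' : Coef 3 p.C₁⁻¹ (max B B') τ := ⟨hτ.ell, fun a c => (hτ.hb a c).weaken (le_max_left _ _)⟩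
  have hβ' := fun a => (hβ a).weaken (le_max_right B B')
  have hc' := hc.weaken (le_max_right B B')
  have hneg : ∀ x, cc τ (-Θ) x ≤ -2 := fun x => by
    have h1 := cc_le (fun a c x => (hτ.hb a c).abs_le x) (-Θ) x
    have h2 : rho 1 x ≤ 1 := inv_le_one_of_one_le₀ (by nlinarith [sq_nonneg ‖x‖])
    rw [← hΘ] at h1
    nlinarith
  obtain ⟨T, hT⟩ := exists_solOp (k := 3) hκ two_pos hτ' hβ' hc' hneg fun g hg =>
    lin_exist hκ two_pos hτ' hβ' hc' hneg hg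
  obtain ⟨C₀, -, H₀⟩ := apri_neg n 3 hκ two_pos (max B B')
  have hev : ∀ y : HC n 3, Ev y.fn → Ev (T y).fn := fun y hy x => by
    have hm := (T y).mem.neg_arg.sub (T y).mem
    have := H₀ τ _ _ _ _ hτ' hβ' hc' hneg hm ((HB.const 3 0).congr fun x => by
      rw [Op_sub τ _ _ (lin_c2 (T y).mem.neg_arg) (lin_c2 (T y).mem),
        Op_neg_arg hN.τeven (od_cβ hN.τeven) (ev_cc hN.τeven _) (lin_c2 (T y).mem), hT, hT, hy, sub_self])
    rw [abs_zero, mul_zero] at this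
    exact sub_eq_zero.1 (hm.eq_zero this x)
  have hmean : ∀ y : HC n 3, ∫ x, omul y.fn x ∂gibbs (quad p.C b) = 0 →
      ∫ x, omul (T y).fn x ∂gibbs (quad p.C b) = 0 := fun y hy => by
    have hp : PG 2 (omul (T y).fn) := ((T y).mem.pg.mono (by norm_num)).omul
    have e : ∀ x, omul y.fn x = Lop τ (omul (T y).fn) x + -Θ * omul (T y).fn x := fun x => by
      rw [Lop_omul hN.ell.symm _ (lin_c2 (T y).mem), hT, omul]
    simp only [e] at hy
    rw [integral_add ((PG.Lop (k := 0) (fun a c => (hN.τpg a c).zero) hp).integrable hN.wpot)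
      ((hp.integrable hN.wpot).const_mul _), hN.int_Lop hp, integral_const_mul, zero_add] at hy
    exact (mul_eq_zero.1 hy).resolve_left (by linarith)
  obtain ⟨K, hK⟩ : ∃ K : Y0 (quad p.C b) hN.wpot →L[ℝ] Y0 (quad p.C b) hN.wpot,
      ∀ y, (K y : HC n 3) = -thetab_inc (T y) :=
    ⟨((-(thetab_inc.comp T)).comp (Y0 (quad p.C b) hN.wpot).subtypeL).codRestrict _ fun y =>
      (Y0 (quad p.C b) hN.wpot).neg_mem (x := thetab_inc (T y)) ⟨hev y y.2.1, hmean y y.2.2⟩, fun _ => rfl⟩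
  have key : ∀ (s : ℝ) (y : Y0 (quad p.C b) hN.wpot) x,
      ((y - s • K y : Y0 (quad p.C b) hN.wpot) : HC n 3).fn x =
        Op τ (cβ τ) (cc τ (-Θ + s)) (T y).fn x := fun s y x => by
    have h1 := hT y x
    simp only [Submodule.coe_sub, Submodule.coe_smul, hK, HC.fn_sub, HC.fn_smul, HC.fn_neg, thetab_fn]
    simp only [Op, cc] at h1 ⊢
    linarith
  obtain ⟨C, hC, H⟩ := theta_apri n p B Θ
  have : CompleteSpace (Y0 (quad p.C b) hN.wpot) := (isClosed_Y0 _ hN.wpot).completeSpace_coe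
  obtain ⟨y, hy⟩ := cont_method K (C := 1 + (1 + Θ) * C) (s₁ := 1 + Θ) (fun s hs y => by
    have h1 : hn 5 (T y).fn ≤ C * ‖y - s • K y‖ :=
      H b u τ _ (-Θ + s) _ hb hN hτ.hb (abs_le.2 ⟨by linarith [hs.1], by linarith [hs.2]⟩)
        (by linarith [hs.2]) (T y).mem (hev y y.2.1) (hmean y y.2.2) ((HC.hb _).congr (key s y))
    have h2 : ‖K y‖ ≤ hn 5 (T y).fn := by
      rw [← Submodule.norm_coe, hK, norm_neg]
      exact hn_mono _ (by norm_num)
    have h3 := norm_add_le (y - s • K y) (s • K y)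
    rw [sub_add_cancel, norm_smul, Real.norm_of_nonneg hs.1] at h3
    have h4 : s * ‖K y‖ ≤ (1 + Θ) * (C * ‖y - s • K y‖) :=
      mul_le_mul hs.2 (h2.trans h1) (norm_nonneg _) (by linarith)
    linarith) (1 + Θ) ⟨by linarith, le_rfl⟩ ⟨HC.mk z hz, he, h0⟩
  refine ⟨(T y).fn, (T y).mem, hev y y.2.1, fun x => ?_⟩
  have := key (1 + Θ) y x
  rw [hy, show -Θ + (1 + Θ) = 1 by ring] at this
  exact this.symm

lemma thetac_mul (t : ℝ) (x : X n) : om x * (t * rho 1 x) = t := by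
  rw [mul_left_comm, om_mul_rho, mul_one]

lemma thetac_Lop (τ : MF n) {h : Fn n} (hh : Mem 5 h) (m : ℝ) (x : X n) :
    omul (fun y => h y + m * rho 1 y) x = omul h x + m ∧
      Lop τ (omul fun y => h y + m * rho 1 y) x = Lop τ (omul h) x := by
  have e : (omul fun y => h y + m * rho 1 y) = fun y => omul h y + m := by
    funext y; simp only [omul, mul_add, thetac_mul]
  rw [e, Lop_add τ (contDiff_omul (m := 2) (lin_c2 hh)) contDiff_const, Lop_const, add_zero]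
  exact ⟨rfl, rfl⟩

/-- `m = E g`, `z = (g - m) rho 1`, `h = h₀ + m rho 1` (`omul (rho 1) = 1`, `Lop_omul`, `Lop_const`) -/
theorem theta_exist {p : Par} {b u : Fn n} {τ : MF n} (hb : Pot p b)
    (hN : Nice p.ε p.C₁ (quad p.C b) u τ) {g : Fn n} (hg : Mem 3 g) (he : Ev g) :
    ∃ h, Mem 5 h ∧ Ev h ∧ ∀ x, Lop τ (omul h) x + omul h x = g x := by
  have := hN.wpot.prob
  obtain ⟨h, h1, h2, h3⟩ := theta_exist0 hb hN
    (z := fun x => (g x - ∫ y, g y ∂gibbs (quad p.C b)) * rho 1 x)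
    ((hg.sub (Mem.const 3 _)).mul (mem_rho_one 3).1) (fun x => by simp only [he x, ev_rho 1 x]) (by
      simp only [omul, thetac_mul]
      rw [integral_sub (hg.pg.integrable hN.wpot) (integrable_const _)]
      simp)
  refine ⟨fun x => h x + (∫ y, g y ∂gibbs (quad p.C b)) * rho 1 x,
    h1.add ((mem_rho_one 5).1.cmul _), fun x => by simp only [h2 x, ev_rho 1 x], fun x => ?_⟩
  have e := Lop_omul hN.ell.symm 1 (lin_c2 h1) x
  rw [h3, thetac_mul] at e
  rw [(thetac_Lop τ h1 _ x).1, (thetac_Lop τ h1 _ x).2]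
  linarith

/-- `m = E (omul h) = E g` (`int_Lop`), `|m| ≤ G`; `theta_apri` (`θ = 1`) for `h - m rho 1`, whose image
is `(g - m) rho 1` -/
theorem theta_bound (n : ℕ) (p : Par) (B : ℝ) : ∃ C : ℝ, 0 < C ∧
    ∀ (b u : Fn n) (τ : MF n) (h g : Fn n) (G : ℝ), Pot p b → Nice p.ε p.C₁ (quad p.C b) u τ →
    (∀ a c, HB 3 (τ a c) B) → Mem 5 h → Ev h → HB 3 g G →
    (∀ x, Lop τ (omul h) x + omul h x = g x) → hn 5 h ≤ C * G := by
  obtain ⟨C, hC, H⟩ := theta_apri n p B 1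
  have r3 := hn_nonneg 3 (rho 1 : Fn n)
  have r5 := hn_nonneg 5 (rho 1 : Fn n)
  refine ⟨C * (2 * hn 3 (rho 1 : Fn n)) + hn 5 (rho 1 : Fn n) + 1, by positivity, ?_⟩
  intro b u τ h g G hb hN hτ hh he hg hE
  have := hN.wpot.prob
  have i1 := hh.pg.omul.integrable hN.wpot
  have p2 : PG 2 (omul h) := (hh.pg.mono (by norm_num)).omul
  obtain ⟨m, hm⟩ : ∃ m, m = ∫ y, omul h y ∂gibbs (quad p.C b) := ⟨_, rfl⟩
  have e1 : ∫ y, g y ∂gibbs (quad p.C b) = m := by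
    simp only [← hE]
    rw [integral_add ((PG.Lop (k := 0) (fun a c => (hN.τpg a c).zero) p2).integrable hN.wpot) i1,
      hN.int_Lop p2, zero_add, hm]
  have hmG : |m| ≤ G := by
    rw [← e1]
    simpa using norm_integral_le_of_norm_le_const (μ := gibbs (quad p.C b)) (f := g) (C := G)
      (Eventually.of_forall hg.abs_le)
  have h5 : Mem 5 fun y => h y + -m * rho 1 y := hh.add ((mem_rho_one 5).1.cmul _)
  have key := H b u τ _ 1 ((G + |m|) * hn 3 (rho 1 : Fn n)) hb hN hτ (by simp) le_rfl h5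
    (fun x => by simp only [he x, ev_rho 1 x])
    (by
      simp only [fun x => (thetac_Lop τ hh (-m) x).1]
      rw [integral_add i1 (integrable_const _), ← hm]
      simp)
    (((hg.sub (HB.const 3 m)).mul (mem_rho_one 3).1.hb).congr fun x => by
      refine mul_left_cancel₀ (om_pos x).ne' ?_
      rw [← Lop_omul hN.ell.symm 1 (lin_c2 h5), thetac_mul, (thetac_Lop τ hh _ x).1,
        (thetac_Lop τ hh _ x).2, ← hE x]
      ring)
  have k2 := ((h5.hb.add ((mem_rho_one 5).1.hb.cmul m)).congr (g := h) fun x => by ring).le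
  have a1 := mul_le_mul_of_nonneg_right hmG r5
  have a2 := mul_le_mul_of_nonneg_left (mul_le_mul_of_nonneg_right hmG r3) hC.le
  nlinarith [hg.nonneg]

end Crest.Agent.R238
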