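import Crest.Agent.R238.Bnd
import Crest.Agent.R238.Theta

/-!
# Row 238 (S0369): Step
The continuity method for the moment equation.
-/

set_option autoImplicit false
set_option linter.unusedVariables false

open MeasureTheory Filter Topology Matrix
open Crest.Agent.R285 (bas pd gibbs WPot PolyB SConv)

noncomputable section

namespace Crest.Agent.R238

variable {n : ℕ}

lemma stepa_d2_sub {f g : Fn n} (hf : ContDiff ℝ 2 f) (hg : ContDiff ℝ 2 g) (i j : Fin n) :
    d2 (fun x => f x - g x) i j = fun x => d2 f i j x - d2 g i j x := by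
  simp only [d2]
  rw [R285.pd_sub j (hf.differentiable two_ne_zero) (hg.differentiable two_ne_zero),
    R285.pd_sub i (differentiable_pd hf j) (differentiable_pd hg j)]

/-- Choose `h` by `theta_exist`, `S g = omul h`.  Bounds: `boot`, `τ_decay` with the `η` of `up`,
`theta_bound`, `up`; for differences apply them to `h - h'`, `g - g'` (`Lop_sub`, `omul` is linear). -/
theorem inv_op (n : ℕ) (p : Par) : ∃ C : ℝ, 0 < C ∧ ∀ (b u : Fn n) (τ : MF n), Pot p b →
    Mom (quad p.C b) u τ → ∃ S : Fn n → Fn n,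
      (∀ g, Mem 3 g → Ev g → ContDiff ℝ 2 (S g) ∧ Ev (S g) ∧ (∀ x, Lop τ (S g) x + S g x = g x) ∧
        ∀ i j, HB 3 (d2 (S g) i j) (C * hn 3 g)) ∧
      ∀ g g', Mem 3 g → Ev g → Mem 3 g' → Ev g' → ∀ i j,
        hn 3 (fun x => d2 (S g) i j x - d2 (S g') i j x) ≤ C * hn 3 fun x => g x - g' x := by
  have hκ : 0 < p.C₁⁻¹ := inv_pos.2 (p.ε_pos.trans_le (p.ε_le.trans p.le_C₁))
  obtain ⟨η, hη, hup⟩ := up n hκ
  obtain ⟨B, hB⟩ := boot n p
  obtain ⟨R, hR⟩ := τ_decay n p hη
  obtain ⟨C₁, hC₁, hup⟩ := hup B R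
  obtain ⟨C₂, hC₂, hθ⟩ := theta_bound n p B
  refine ⟨C₁ * (1 + C₂), by positivity, fun b u τ hb hm => ?_⟩
  have hN := hm.nice hb
  have key : ∀ h g, Mem 5 h → Ev h → Mem 3 g → (∀ x, Lop τ (omul h) x + omul h x = g x) →
      ∀ i j, HB 3 (d2 (omul h) i j) (C₁ * (1 + C₂) * hn 3 g) := fun h g h5 he hg hL i j => by
    refine (hup τ h g _ ⟨hN.ell, (hB b u τ hb hm).2⟩ (hR b u τ hb hm) h5 hg.hb hL i j).weaken ?_
    have := hθ b u τ h g _ hb hN (hB b u τ hb hm).2 h5 he hg.hb hL
    rw [mul_assoc]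
    exact mul_le_mul_of_nonneg_left (by linarith) hC₁.le
  choose! H h5 hev hL using fun g (hg : Mem 3 g) (he : Ev g) => theta_exist hb hN hg he
  have hc : ∀ g, Mem 3 g → Ev g → ContDiff ℝ 2 (omul (H g)) := fun g hg he =>
    contDiff_omul (m := 2) ((h5 g hg he).mono (by norm_num)).contDiff
  refine ⟨fun g => omul (H g), fun g hg he => ⟨hc g hg he, fun x => ?_, hL g hg he,
    key _ _ (h5 g hg he) (hev g hg he) hg (hL g hg he)⟩, fun g g' hg he hg' he' i j => ?_⟩
  · simp only [omul, ev_om x, hev g hg he x]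
  · have e : omul (fun x => H g x - H g' x) = fun x => omul (H g) x - omul (H g') x := by
      funext x; simp only [omul, mul_sub]
    have := key (fun x => H g x - H g' x) (fun x => g x - g' x) ((h5 g hg he).sub (h5 g' hg' he'))
      (fun x => by simp only [hev g hg he x, hev g' hg' he' x]) (hg.sub hg') (fun x => by
        rw [e, Lop_sub τ (hc g hg he) (hc g' hg' he'), ← hL g hg he x, ← hL g' hg' he' x]
        ring) i j
    rw [e, stepa_d2_sub (hc g hg he) (hc g' hg' he')] at this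
    exact this.le

/-- a uniformly positive definite field in `C^{3,1/2}` has an elliptic inverse in `C^{3,1/2}`
(`exists_inv` pointwise, `inv_symm`, `inv_upper`, `abs_entry_le`, `hb_inv`, `inv_lower` with `abs_qf_le`) -/
theorem exists_inv_field {H : MF n} {c : ℝ} (hc : 0 < c) (hs : ∀ a b x, H a b x = H b a x)
    (hm : ∀ a b, Mem 3 (H a b)) (h1 : ∀ x ξ, c * ssq ξ ≤ qf (fun a b => H a b x) ξ) :
    ∃ τ : MF n, (∀ a b, Mem 3 (τ a b)) ∧ (∃ κ, 0 < κ ∧ Ell κ τ) ∧
      ∀ x i j, ∑ a, τ i a x * H a j x = if i = j then 1 else 0 := by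
  let τ : MF n := fun i a x => (Matrix.of fun a b => H a b x)⁻¹ i a
  have hi : ∀ x i j, ∑ a, τ i a x * H a j x = if i = j then 1 else 0 := fun x =>
    (exists_inv hc (fun a b => hs a b x) (h1 x)).2
  have hτ : ∀ a b x, τ a b x = τ b a x := fun a b x => inv_symm (hi x) (fun a b => hs a b x) a b
  have hu := fun x => inv_upper hc (fun a b => hs a b x) (hi x) (h1 x)
  have h0 : ∀ a b x, |τ a b x| ≤ c⁻¹ := fun a b x =>
    abs_entry_le (fun a b => hτ a b x) (fun ξ => (hu x ξ).1) (fun ξ => (hu x ξ).2) a b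
  obtain ⟨B, hB0, hB⟩ := exists_coef ⟨hs, h1⟩ hm
  obtain ⟨B', hB'⟩ := hb_inv n 3 B c⁻¹
  have hC : 0 < n * B + 1 := by positivity
  refine ⟨τ, fun a b => (hB' τ H hB.hb h0 hi a b).1, ⟨_, inv_pos.2 hC, hτ, fun x =>
    inv_lower hC (fun a b => hτ a b x) (fun ξ => (hu x ξ).1) (hi x) fun ξ => ?_⟩, hi⟩
  have := (le_abs_self _).trans (abs_qf_le (fun a b => (hB.hb a b).abs_le x) ξ)
  have := ssq_nonneg ξ
  linarith

lemma stepb_d2_add {f g : Fn n} (hf : ContDiff ℝ 2 f) (hg : ContDiff ℝ 2 g) (i j : Fin n) :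
    d2 (fun x => f x + g x) i j = fun x => d2 f i j x + d2 g i j x := by
  unfold d2
  rw [R285.pd_add j (opsa_diff hf) (opsa_diff hg),
    R285.pd_add i (differentiable_pd hf j) (differentiable_pd hg j)]

lemma stepb_small {A : A2 n} {c : ℝ} (hc : 0 ≤ c) (h : ∀ a b, n * |A a b| ≤ c) (ξ : Fin n → ℝ) :
    |qf A ξ| ≤ c * ssq ξ := by
  have h1 : ∀ a b, |A a b| ≤ c / n := fun a b => by
    have hn : (0 : ℝ) < n := by exact_mod_cast a.pos
    rw [le_div_iff₀ hn, mul_comm]; exact h a b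
  refine (abs_qf_le h1 ξ).trans (mul_le_mul_of_nonneg_right ?_ (ssq_nonneg ξ))
  rcases Nat.eq_zero_or_pos n with h0 | h0
  · simp [h0, hc]
  · have hn : (0 : ℝ) < n := by exact_mod_cast h0
    rw [mul_div_cancel₀ _ hn.ne']

/-- The new solution `u + χ`.  `H' = H + D²χ ≥ ε/2` (`abs_qf_le`), `exists_inv_field`;
`H' = H (1 + τ D²χ)` (`inv_right`), so `log det H' = log det H + log det (1 + P)` (`det H > 0` by
`exists_inv`), and `log det (1+P) = tr P - g - d = x·∇χ - χ - d`. -/
theorem mom_add {ε C₁ : ℝ} {V u χ g d : Fn n} {τ : MF n} (h : Mom V u τ) (hN : Nice ε C₁ V u τ)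
    (hχ : ContDiff ℝ 2 χ) (he : Ev χ) (hm : ∀ i j, Mem 3 (d2 χ i j))
    (hs : ∀ i j x, n * |d2 χ i j x| ≤ ε / 2) (hL : ∀ x, Lop τ χ x + χ x = g x)
    (hdet : ∀ x, (1 + Matrix.of fun i j => ∑ a, τ i a x * d2 χ a j x).det *
      Real.exp (g x - ∑ i, ∑ a, τ i a x * d2 χ a i x) = Real.exp (-d x)) :
    ∃ τ', Mom (fun x => V x + d x) (fun x => u x + χ x) τ' := by
  have hε := hN.ε_pos
  have hu2 := h.u2
  have hs2 : ContDiff ℝ 2 fun x => u x + χ x := hu2.add hχ
  have hd1 : ∀ a, pd a (fun x => u x + χ x) = fun x => pd a u x + pd a χ x := fun a =>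
    R285.pd_add a (opsa_diff hu2) (opsa_diff hχ)
  have hd2 := stepb_d2_add hu2 hχ
  have hlow : ∀ x ξ, ε / 2 * ssq ξ ≤ qf (fun a b => d2 (fun x => u x + χ x) a b x) ξ := by
    intro x ξ
    have h1 := (hN.H_bounds x ξ).1
    have h2 := stepb_small (A := fun a b => d2 χ a b x) (by linarith : 0 ≤ ε / 2)
      (fun a b => hs a b x) ξ
    have h3 : qf (fun a b => d2 (fun x => u x + χ x) a b x) ξ =
        qf (fun a b => d2 u a b x) ξ + qf (fun a b => d2 χ a b x) ξ := by
      simp only [qf, hd2, add_mul, Finset.sum_add_distrib]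
    have h4 := (abs_le.1 h2).1
    linarith
  have hm' : ∀ a b, Mem 3 (d2 (fun x => u x + χ x) a b) := fun a b => by
    rw [hd2]; exact (h.H3 a b).add (hm a b)
  obtain ⟨τ', hτ3, hell, hinv⟩ := exists_inv_field (H := d2 fun x => u x + χ x) (half_pos hε)
    (fun a b x => by rw [d2_comm hs2]) hm' hlow
  refine ⟨τ', hs2, hm', hτ3, hell, hinv, fun x => by simp only [h.even x, he x], fun x => ?_⟩
  have hpos : 0 < (mat (d2 u) x).det :=
    (exists_inv (H := fun a b => d2 u a b x) hε (fun a b => by rw [d2_comm hu2])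
      (fun ξ => (hN.H_bounds x ξ).1)).1
  have hmul : mat (d2 fun x => u x + χ x) x =
      mat (d2 u) x * (1 + Matrix.of fun i j => ∑ a, τ i a x * d2 χ a j x) := by
    ext i j
    rw [Matrix.mul_add, Matrix.mul_one, Matrix.add_apply, Matrix.mul_apply]
    simp only [mat, Matrix.of_apply, hd2]
    congr 1
    exact (tensa_mul_inv (T := fun a b => d2 u a b x) (H := fun a b => τ a b x)
      (inv_right (T := fun a b => τ a b x) (H := fun a b => d2 u a b x) (h.inv x))
      (fun a => d2 χ a j x) i).symm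
  have hP : (1 + Matrix.of fun i j => ∑ a, τ i a x * d2 χ a j x).det =
      Real.exp (-d x - (g x - ∑ i, ∑ a, τ i a x * d2 χ a i x)) := by
    rw [Real.exp_sub, eq_div_iff (Real.exp_pos _).ne']
    exact hdet x
  have htr : ∑ i, ∑ a, τ i a x * d2 χ a i x = ∑ i, ∑ a, τ i a x * d2 χ i a x :=
    Finset.sum_congr rfl fun i _ => Finset.sum_congr rfl fun a _ => by rw [d2_comm hχ]
  have hg := hL x
  unfold Lop at hg
  rw [hmul, Matrix.det_mul, hP, Real.log_mul hpos.ne' (Real.exp_pos _).ne', Real.log_exp, h.eq x, htr]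
  simp only [hd1, mul_add, Finset.sum_add_distrib]
  linarith

/-- the even part -/
def stepc_E (g : Fn n) : Fn n := fun x => (1 / 2) * (g x + g (-x))

lemma stepc_E_hb {k : ℕ} {g : Fn n} {M : ℝ} (h : HB k g M) : HB k (stepc_E g) M :=
  ((h.add h.neg_arg).cmul (1 / 2)).weaken (le_of_eq (by rw [abs_of_pos (by norm_num)]; ring))

lemma stepc_E_ev (g : Fn n) : Ev (stepc_E g) := fun x => by
  simp only [stepc_E, neg_neg, add_comm]

lemma stepc_E_sub (g g' : Fn n) :
    (fun x => stepc_E g x - stepc_E g' x) = stepc_E fun x => g x - g' x := by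
  funext x
  simp only [stepc_E]
  ring

/-- `A = HC n 3`, `ev g = (g + g(-·))/2`, `P g i j = ∑_a τ_{ia} d2 (S (ev g)) a j`, `nonlin_step` with
`η` such that `n C η ≤ ε/2`.  Evaluating at `x` and `-x` (`fn_det`, `fn_exp`; `P g` and `d` are even) shows
that `g` is even (cancel the nonzero determinant, `Real.exp_injective`), so `ev g = g`; `mom_add`. -/
theorem step (n : ℕ) (p : Par) : ∃ δ : ℝ, 0 < δ ∧ ∀ (b u d : Fn n) (τ : MF n), Pot p b →
    Mom (quad p.C b) u τ → Ev d → HB 3 d δ →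
    ∃ u' τ', Mom (quad p.C fun x => b x + d x) u' τ' := by
  obtain ⟨C, hC, hS⟩ := inv_op n p
  obtain ⟨B, hB⟩ := boot n p
  have hε := p.ε_pos
  obtain ⟨δ, hδ, hnl⟩ := nonlin_step (A := HC n 3) n (C := n * (|B| * C))
    (η := p.ε / (2 * (n * C + 1))) (by positivity) (by positivity)
  refine ⟨δ, hδ, fun b u d τ hb hM hd hdδ => ?_⟩
  obtain ⟨S, hS1, hS2⟩ := hS b u τ hb hM
  have hN := hM.nice hb
  have hτ : ∀ i j, HB 3 (τ i j) |B| := fun i j => ((hB b u τ hb hM).2 i j).weaken (le_abs_self B)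
  have hE : ∀ g : HC n 3, HB 3 (stepc_E g.fn) ‖g‖ := fun g => stepc_E_hb g.hb
  have hχ : ∀ (g : HC n 3) i j, HB 3 (d2 (S (stepc_E g.fn)) i j) (C * ‖g‖) := fun g i j =>
    ((hS1 _ (hE g).1 (stepc_E_ev _)).2.2.2 i j).weaken (mul_le_mul_of_nonneg_left (hE g).2 hC.le)
  have hP : ∀ (g : HC n 3) i j, HB 3 (fun x => ∑ a, τ i a x * d2 (S (stepc_E g.fn)) a j x)
      (n * (|B| * (C * ‖g‖))) := fun g i j => HB.nsum fun a => (hτ i a).mul (hχ g a j)
  obtain ⟨g, hg, heq⟩ := hnl (fun g i j => HC.mk _ (hP g i j).1)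
    (fun g i j => (hP g i j).2.trans (le_of_eq (by ring)))
    (fun g g' i j => by
      have h1 : ∀ a, HB 3 (fun x => d2 (S (stepc_E g.fn)) a j x - d2 (S (stepc_E g'.fn)) a j x)
          (C * ‖g - g'‖) := fun a => ⟨(hχ g a j).1.sub (hχ g' a j).1, by
        refine (hS2 _ _ (hE g).1 (stepc_E_ev _) (hE g').1 (stepc_E_ev _) a j).trans
          (mul_le_mul_of_nonneg_left ?_ hC.le)
        rw [stepc_E_sub]
        exact (hE (g - g')).2⟩
      have h2 := (HB.nsum fun a => (hτ i a).mul (h1 a)).congr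
        (g := (HC.mk _ (hP g i j).1 - HC.mk _ (hP g' i j).1).fn) fun x => by
          simp only [HC.fn_sub, HC.fn_mk, mul_sub, Finset.sum_sub_distrib]
      exact h2.2.trans (le_of_eq (by ring)))
    (HC.mk d hdδ.1) hdδ.2
  obtain ⟨c2, ce, cL, -⟩ := hS1 _ (hE g).1 (stepc_E_ev _)
  have hb2 := hχ g
  generalize hχ' : S (stepc_E g.fn) = χ at c2 ce cL hb2
  have hpt : ∀ x, (1 + Matrix.of fun i j => ∑ a, τ i a x * d2 χ a j x).det *
      Real.exp (g.fn x - ∑ i, ∑ a, τ i a x * d2 χ a i x) = Real.exp (-d x) := fun x => by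
    have h1 := congrArg (fun f : HC n 3 => f.fn x) heq
    simp only [HC.fn_mul, HC.fn_exp, HC.fn_det, HC.fn_sub, HC.fn_sum, HC.fn_neg, HC.fn_mk, hχ'] at h1
    rw [← h1]
    congr 2
    ext i j
    simp only [Matrix.add_apply, Matrix.of_apply, HC.fn_add, HC.fn_mk, Matrix.one_apply, hχ']
    split_ifs <;> rfl
  have hev : ∀ a j, Ev (d2 χ a j) := fun a j =>
    (ce.pd (c2.differentiable (by norm_num)) j).pd (differentiable_pd c2 j) a
  have hge : Ev g.fn := fun x => by
    have h1 := hpt x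
    have h2 := hpt (-x)
    simp only [hev _ _ x, hN.τeven _ _ x, hd x] at h2
    have h3 : (1 + Matrix.of fun i j => ∑ a, τ i a x * d2 χ a j x).det ≠ 0 := fun h => by
      rw [h, zero_mul] at h1
      exact (Real.exp_pos _).ne h1
    have h4 := Real.exp_injective (mul_left_cancel₀ h3 (h2.trans h1.symm))
    linarith
  have hEg : ∀ x, stepc_E g.fn x = g.fn x := fun x => by
    simp only [stepc_E, hge x]
    ring
  obtain ⟨τ', h'⟩ := mom_add (g := g.fn) hM hN c2 ce (fun i j => (hb2 i j).1) (fun i j x => by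
    have h1 := mul_le_mul_of_nonneg_left (((hb2 i j).abs_le x).trans
      (mul_le_mul_of_nonneg_left hg hC.le)) (Nat.cast_nonneg (α := ℝ) n)
    refine h1.trans ?_
    rw [← mul_assoc, ← mul_div_assoc, div_le_div_iff₀ (by positivity) (by positivity)]
    nlinarith) (fun x => by rw [cL, hEg]) hpt
  refine ⟨fun x => u x + χ x, τ', ?_⟩
  have e : (quad p.C fun x => b x + d x) = fun x => quad p.C b x + d x := by
    funext x
    simp only [quad, add_assoc]
  rwa [e]

lemma stepc_qf (C s : ℝ) (A : A2 n) (ξ : Fin n → ℝ) :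
    qf (fun i j => (if i = j then C else 0) + s * A i j) ξ = C * ssq ξ + s * qf A ξ := by
  simp only [qf, ssq, add_mul, Finset.sum_add_distrib, Finset.mul_sum, ite_mul, zero_mul,
    Finset.sum_ite_eq, Finset.mem_univ, if_true, mul_assoc, sq]

lemma stepc_d2 (s : ℝ) {b : Fn n} (hb : ContDiff ℝ 2 b) (i j : Fin n) :
    d2 (fun x => s * b x) i j = fun x => s * d2 b i j x := by
  unfold d2
  rw [pd_cmul j s (hb.differentiable (by norm_num)), pd_cmul i s (differentiable_pd hb j)]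

lemma Pot.smul {p : Par} {b : Fn n} (h : Pot p b) {s : ℝ} (h0 : 0 ≤ s) (h1 : s ≤ 1) :
    Pot p fun x => s * b x := by
  have c3 : ContDiff ℝ 3 b := h.hb.1.contDiff
  have c2 : ContDiff ℝ 2 b := c3.of_le (by norm_num)
  have e1 : ∀ x ξ, qf (fun i j => d2 (quad p.C fun x => s * b x) i j x) ξ =
      p.C * ssq ξ + s * qf (fun i j => d2 b i j x) ξ := fun x ξ => by
    simp only [d2_quad p.C (contDiff_const.mul c2), stepc_d2 s c2]
    exact stepc_qf ..
  have e2 : ∀ x ξ, qf (fun i j => d2 (quad p.C b) i j x) ξ =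
      p.C * ssq ξ + qf (fun i j => d2 b i j x) ξ := fun x ξ => by
    have := stepc_qf p.C 1 (fun i j => d2 b i j x) ξ
    simp only [one_mul] at this
    simp only [d2_quad p.C c2]
    exact this
  refine ⟨fun x => by simp only [h.even x], (h.hb.cmul s).weaken ?_, fun x ξ => ?_, fun x ξ => ?_,
    fun x hx i j k => ?_⟩
  · rw [abs_of_nonneg h0]
    exact mul_le_of_le_one_left h.hb.nonneg h1
  · have a1 := mul_le_mul_of_nonneg_left (h.lo x ξ) h0
    have a2 := mul_le_mul_of_nonneg_left (mul_le_mul_of_nonneg_right p.ε_le (ssq_nonneg ξ))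
      (sub_nonneg.2 h1)
    rw [e2] at a1
    rw [e1]
    linarith
  · have a1 := mul_le_mul_of_nonneg_left (h.hi x ξ) h0
    have a2 := mul_le_mul_of_nonneg_left (mul_le_mul_of_nonneg_right p.le_C₁ (ssq_nonneg ξ))
      (sub_nonneg.2 h1)
    rw [e2] at a1
    rw [e1]
    linarith
  · have e : d3 (fun x => s * b x) i j k = pd i (d2 (fun x => s * b x) j k) := rfl
    rw [e, stepc_d2 s c2, pd_cmul i s ((h.hb.1.d2 (k := 1) j k).diff (k := 0))]
    exact mul_eq_zero_of_right s (h.out x hx i j k)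

/-- `u₀ = C |x|²/2 - n log C`, `τ₀ = C⁻¹ 1` -/
lemma mom_zero (n : ℕ) {C : ℝ} (hC : 0 < C) :
    ∃ (u : Fn n) (τ : MF n), Mom (quad C fun _ => 0) u τ := by
  have hc : ContDiff ℝ (2 : ℕ) fun _ : X n => -(n * Real.log C) := contDiff_const
  have hd2 : ∀ i j : Fin n, d2 (quad C fun _ : X n => -(n * Real.log C)) i j =
      fun _ => if i = j then C else 0 := fun i j => by
    rw [d2_quad C hc]
    funext x
    unfold d2
    rw [R285.pd_const, R285.pd_const, add_zero]
  have hn2 : Differentiable ℝ fun x : X n => ‖x‖ ^ 2 := opsa_diff (contDiff_normsq 2)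
  have hd1 : ∀ a : Fin n, pd a (quad C fun _ : X n => -(n * Real.log C)) = fun x => C * x a := by
    intro a
    unfold quad
    rw [R285.pd_add a (hn2.const_mul _) (differentiable_const _), pd_cmul a _ hn2, pd_normsq,
      R285.pd_const]
    funext x
    ring
  refine ⟨quad C fun _ => -(n * Real.log C), fun a b _ => if a = b then C⁻¹ else 0,
    contDiff_quad C hc, fun i j => ?_, fun i j => Mem.const 3 _,
    ⟨C⁻¹, inv_pos.2 hC, fun a b x => ?_, fun x ξ => ?_⟩, fun x i j => ?_, fun x => ?_, fun x => ?_⟩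
  · rw [hd2]; exact Mem.const 3 _
  · simp only [eq_comm]
  · simp only [qf, ssq, ite_mul, zero_mul, Finset.sum_ite_eq, Finset.mem_univ, if_true,
      Finset.mul_sum]
    exact le_of_eq (Finset.sum_congr rfl fun a _ => by ring)
  · simp only [hd2, ite_mul, zero_mul, Finset.sum_ite_eq, Finset.mem_univ, if_true]
    split_ifs
    · exact inv_mul_cancel₀ hC.ne'
    · exact mul_zero _
  · simp only [quad, norm_neg]
  · have hm : mat (d2 (quad C fun _ : X n => -(n * Real.log C))) x = Matrix.diagonal fun _ => C := by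
      ext i j
      simp only [mat, Matrix.of_apply, hd2, Matrix.diagonal_apply]
    have hs : ∑ a, x a * (C * x a) = C * ‖x‖ ^ 2 := by
      rw [← ssq_coe, ssq, Finset.mul_sum]
      exact Finset.sum_congr rfl fun a _ => by ring
    rw [hm, Matrix.det_diagonal, Finset.prod_const, Finset.card_univ, Fintype.card_fin, Real.log_pow]
    simp only [hd1, hs, quad]
    ring

/-- induction over `s = j / N`, `N ≥ 1` with `B / N ≤ δ` -/
theorem mom_exist {p : Par} {b : Fn n} (hb : Pot p b) : ∃ u τ, Mom (quad p.C b) u τ := by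
  obtain ⟨δ, hδ, hstep⟩ := step n p
  obtain ⟨N, hN⟩ := exists_nat_gt (p.B / δ)
  have hB := hb.hb.nonneg
  have hN0 : (0 : ℝ) < N := lt_of_le_of_lt (by positivity) hN
  have key : ∀ j : ℕ, j ≤ N → ∃ u τ, Mom (quad p.C fun x => (j / N : ℝ) * b x) u τ := by
    intro j
    induction j with
    | zero =>
      intro _
      simpa using mom_zero n (p.ε_pos.trans_le p.ε_le)
    | succ j ih =>
      intro hj
      obtain ⟨u, τ, hM⟩ := ih (by omega)
      have hp := hb.smul (s := j / N) (by positivity)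
        ((div_le_one hN0).2 (by exact_mod_cast (by omega : j ≤ N)))
      obtain ⟨u', τ', h'⟩ := hstep _ u (fun x => (1 / N : ℝ) * b x) τ hp hM
        (fun x => by simp only [hb.even x]) ((hb.hb.cmul _).weaken (by
          rw [abs_of_pos (by positivity), one_div, inv_mul_le_iff₀ hN0]
          exact ((div_lt_iff₀ hδ).1 hN).le))
      refine ⟨u', τ', ?_⟩
      have e : (fun x => (((j + 1 : ℕ) : ℝ) / N) * b x) =
          fun x => (j / N : ℝ) * b x + (1 / N : ℝ) * b x := by
        funext x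
        push_cast
        ring
      rwa [e]
  simpa [div_self hN0.ne'] using key N le_rfl

end Crest.Agent.R238
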