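import Crest.Agent.R238.Cut
import Crest.Agent.R238.Core
import Crest.Agent.R238.Step
import Crest.Agent.R238.AppAlg

/-!
# Row 238 (S0369): VarIneq
The variance inequality for `gibbs (slab ε v c)`.
-/

set_option autoImplicit false
set_option linter.unusedVariables false

open MeasureTheory Filter Topology Matrix
open Crest.Agent.R285 (bas pd gibbs WPot PolyB SConv)

noncomputable section

namespace Crest.Agent.R238

variable {n : ℕ}

variable {N : ℕ} {v : ℝ → ℝ} {B ε : ℝ}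

lemma varineqb_pg2 (h : Prof v B) (c : Fin n → ℝ) : PG 0 fun x => deriv (deriv v) (lf c x) := by
  refine ⟨(h.smooth2 0).continuous.comp (contDiff_lf c 0).continuous, 0, B, fun x => ?_⟩
  rw [Real.norm_eq_abs, abs_of_nonneg (h.d2lo _), pow_zero, mul_one]
  exact h.d2hi _

lemma varineqb_pd (h : Prof v B) (c : Fin n → ℝ) (k : Fin n) :
    pd k (fun x => deriv v (lf c x)) = fun x => deriv (deriv v) (lf c x) * c k :=
  pd_comp_lf ((h.smooth1 1).differentiable (by simp)) c k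

lemma varineqb_pg1 (h : Prof v B) (c : Fin n → ℝ) : PG 1 fun x => deriv v (lf c x) := by
  refine ⟨⟨(h.smooth1 0).continuous.comp (contDiff_lf c 0).continuous, 0, B, fun x => ?_⟩,
    ((h.smooth1 1).differentiable (by simp)).comp ((contDiff_lf c 1).differentiable (by simp)),
    fun k => ?_⟩
  · rw [Real.norm_eq_abs, pow_zero, mul_one]
    exact h.d1 _
  · rw [varineqb_pd h]
    exact (varineqb_pg2 h c).mul (PG.const 0 _)

lemma varineqb_one (h : Prof v B) (c : Fin n → ℝ) {C₁ : ℝ} {V u : Fn n} {τ : MF n}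
    (hN : Nice ε C₁ V u τ) :
    ∫ x, deriv (deriv v) (lf c x) * qf (fun k l => τ k l x) c ∂gibbs V =
      ∫ x, lf c x * deriv v (lf c x) ∂gibbs V := by
  have hτ : ∀ k l, PG 0 (τ k l) := fun k l => (hN.τpg k l).zero
  have h1 := varineqb_pg1 h c
  have e1 : ∀ x, lf c x * deriv v (lf c x) = ∑ k, c k * (x k * deriv v (lf c x)) := fun x => by
    simp only [← mul_assoc, ← Finset.sum_mul]
    rfl
  have e2 : ∀ x, deriv (deriv v) (lf c x) * qf (fun k l => τ k l x) c =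
      ∑ k, c k * ∑ l, τ k l x * pd l (fun x => deriv v (lf c x)) x := fun x => by
    simp only [varineqb_pd h, qf, Finset.mul_sum]
    exact Finset.sum_congr rfl fun k _ => Finset.sum_congr rfl fun l _ => by ring
  simp only [e1, e2]
  rw [integral_finsetSum _ fun k _ =>
      ((PG.sum fun l => (hτ k l).mul (h1.pd l)).cmul _).integrable hN.wpot,
    integral_finsetSum _ fun k _ => (((PG.crd 0 k).mul h1.zero).cmul _).integrable hN.wpot]
  refine Finset.sum_congr rfl fun k _ => ?_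
  rw [integral_const_mul, integral_const_mul, hN.stein h1 k]

/-- Stein's identity (`Nice.stein` with `F = v'(s_i)`, weights `c_{ik}`): `E ∑ a² v'' τ(c,c) = E ∑ a² s v'` -/
lemma stein_slab (h : Prof v B) (a : Fin N → ℝ) (c : Fin N → Fin n → ℝ) {C₁ : ℝ} {V u : Fn n}
    {τ : MF n} (hN : Nice ε C₁ V u τ) :
    ∫ x, ∑ i, a i ^ 2 * deriv (deriv v) (lf (c i) x) * qf (fun k l => τ k l x) (c i) ∂gibbs V =
      ∫ x, ∑ i, a i ^ 2 * (lf (c i) x * deriv v (lf (c i) x)) ∂gibbs V := by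
  have hτ : ∀ k l, PG 0 (τ k l) := fun k l => (hN.τpg k l).zero
  have hq : ∀ i, PG 0 fun x => qf (fun k l => τ k l x) (c i) := fun i =>
    PG.sum fun k => PG.sum fun l => ((hτ k l).mul (PG.const 0 _)).mul (PG.const 0 _)
  have hl : ∀ i, PG 0 (lf (c i)) := fun i => PG.sum fun k => (PG.crd 0 k).cmul _
  rw [integral_finsetSum _ fun i _ => (((varineqb_pg2 h (c i)).cmul _).mul (hq i)).integrable hN.wpot,
    integral_finsetSum _ fun i _ =>
      (((hl i).mul (varineqb_pg1 h (c i)).zero).cmul _).integrable hN.wpot]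
  refine Finset.sum_congr rfl fun i _ => ?_
  simp only [mul_assoc]
  rw [integral_const_mul, integral_const_mul, varineqb_one h (c i) hN]

lemma varineqa_mul {s t S T : ℝ} (hs : |s| ≤ S) (ht : |t| ≤ T) : |s * t| ≤ S * T := by
  rw [abs_mul]
  exact mul_le_mul hs ht (abs_nonneg _) ((abs_nonneg _).trans hs)

lemma varineqa_sq {g : Fin n → ℝ} {M : ℝ} (h : ∀ k, |g k| ≤ M) : ∑ k, g k ^ 2 ≤ n * M ^ 2 :=
  (Finset.sum_le_card_nsmul _ _ (M ^ 2) fun k _ =>
    sq_le_sq' (abs_le.1 (h k)).1 (abs_le.1 (h k)).2).trans_eq (by simp)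

lemma varineqa_pg_lf (c : Fin n → ℝ) : PG 0 (lf c) := PG.sum fun k => (PG.crd 0 k).cmul (c k)

lemma varineqa_pg1 (h : Prof v B) (c : Fin n → ℝ) : PG 0 fun x => deriv v (lf c x) :=
  ⟨(h.smooth1 0).continuous.comp (varineqa_pg_lf c).continuous, 0, B, fun x => by
    rw [pow_zero, mul_one]; exact h.d1 _⟩

lemma varineqa_pg2 (h : Prof v B) (c : Fin n → ℝ) : PG 0 fun x => deriv (deriv v) (lf c x) :=
  ⟨(h.smooth2 0).continuous.comp (varineqa_pg_lf c).continuous, 0, B, fun x => by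
    rw [pow_zero, mul_one, Real.norm_of_nonneg (h.d2lo _)]; exact h.d2hi _⟩

lemma varineqa_pg_α (h : Prof v B) (a : Fin N → ℝ) (c : Fin N → Fin n → ℝ) :
    PG 0 fun x => ∑ i, a i ^ 2 * lf (c i) x ^ 2 * deriv (deriv v) (lf (c i) x) :=
  PG.sum fun i => ((varineqa_pg_lf (c i)).sq.cmul _).mul (varineqa_pg2 h (c i))

lemma varineqa_pg_γ (h : Prof v B) (a : Fin N → ℝ) (c : Fin N → Fin n → ℝ) :
    PG 0 fun x => ∑ i, a i ^ 2 * (lf (c i) x * deriv v (lf (c i) x)) :=
  PG.sum fun i => ((varineqa_pg_lf (c i)).mul (varineqa_pg1 h (c i))).cmul _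

/-- `V = quad p.C b` from `cut_pot`, `u, τ` from `mom_exist`, `Mom.nice`; `f = ζ sf`, `r k = ζ sr k` with `ζ`
from `exists_cut`; `core_var` with `α = ∑ a² s² v'' + K₁ (1+‖x‖)⁴/R²`, `β = ∑ a² v'' τ(c,c) + K₂ (1+‖x‖)⁴/R²`.
For `‖x‖ < R`: `V = slab`, `ζ = 1` near `x` (`pd_congr_ev`), `alpha_in`, `beta_in`, `qf_d2_slab`, `pd_sf`,
`pd_sr`.  For `‖x‖ ≥ R`: `alpha_out`, `beta_out`, `slab_bounds`, `1 ≤ ‖x‖²/R²`.  Then `stein_slab`. -/
theorem var_cut (h : Prof v B) (hε : 0 < ε) (a : Fin N → ℝ) (c : Fin N → Fin n → ℝ) :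
    ∃ K : ℝ, ∀ R : ℝ, 1 ≤ R → ∃ V f : Fn n, Continuous V ∧ Continuous f ∧
      (∀ x, ε / 2 * ‖x‖ ^ 2 ≤ V x) ∧ (∀ x, ‖x‖ ≤ R → V x = slab ε v c x ∧ f x = sf a v c x) ∧
      (∀ x, |f x| ≤ K * (1 + ‖x‖)) ∧
      ∫ x, f x ^ 2 ∂gibbs V - (∫ x, f x ∂gibbs V) ^ 2 ≤
        ∫ x, sk a v c x ∂gibbs V + K / R ^ 2 * ∫ x, (1 + ‖x‖) ^ 4 ∂gibbs V := by
  obtain ⟨Kz, hKz, hcut⟩ := exists_cut n
  obtain ⟨Ks, hKs, hs⟩ := slab_bounds h a c
  obtain ⟨M, hM⟩ : ∃ M, M = Kz * Ks + 2 * Ks := ⟨_, rfl⟩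
  obtain ⟨K₁, hK₁⟩ : ∃ K₁ : ℝ, K₁ = n * M ^ 2 / ε := ⟨_, rfl⟩
  obtain ⟨K₂, hK₂⟩ : ∃ K₂ : ℝ, K₂ = n * (n * M ^ 2) / ε ^ 2 := ⟨_, rfl⟩
  have p₁ : 0 ≤ K₁ := by rw [hK₁]; positivity
  have p₂ : 0 ≤ K₂ := by rw [hK₂]; positivity
  refine ⟨Ks + K₁ + K₂, fun R hR => ?_⟩
  obtain ⟨ζ, z1, z2, z3, z4, z5, z6⟩ := hcut R hR
  obtain ⟨p, b, hp, hb, hin, hlo⟩ := cut_pot h hε c hR
  obtain ⟨u, τ, hm⟩ := mom_exist hb
  have hN := hm.nice hb
  rw [hp] at hN
  generalize quad p.C b = V at hin hlo hN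
  have zd : Differentiable ℝ ζ := (z1 1).differentiable (by simp)
  have fd : Differentiable ℝ (sf a v c) := (contDiff_sf h a c 1).differentiable (by simp)
  have rd : ∀ k, Differentiable ℝ (sr a v c k) := fun k =>
    (contDiff_sr h a c k 1).differentiable (by simp)
  have za : ∀ x, |ζ x| ≤ 1 := fun x => by rw [abs_of_nonneg (z3 x).1]; exact (z3 x).2
  have hw0 : ∀ x : X n, 0 ≤ (1 + ‖x‖) ^ 4 / R ^ 2 := fun x => by positivity
  have hw : ∀ x : X n, R ≤ ‖x‖ → (1 + ‖x‖) ^ 2 ≤ (1 + ‖x‖) ^ 4 / R ^ 2 := fun x hx => by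
    rw [le_div_iff₀ (by positivity), show (1 + ‖x‖) ^ 4 = (1 + ‖x‖) ^ 2 * (1 + ‖x‖) ^ 2 by ring]
    exact mul_le_mul_of_nonneg_left (pow_le_pow_left₀ (by linarith) (by linarith) 2) (by positivity)
  have ball : ∀ x : X n, ‖x‖ < R → ∀ᶠ y in 𝓝 x, ‖y‖ ≤ R := fun x hx =>
    (continuous_norm.continuousAt.eventually (gt_mem_nhds hx)).mono fun y hy => hy.le
  have hΛ : ∀ x : X n, ‖x‖ < R → ∀ ξ, ∑ i, deriv (deriv v) (lf (c i) x) * (∑ k, c i k * ξ k) ^ 2 ≤
      qf (fun i j => d2 V i j x) ξ := fun x hx ξ => by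
    have e : V =ᶠ[𝓝 x] slab ε v c := (ball x hx).mono fun y hy => hin y hy
    have e2 : (fun i j => d2 V i j x) = fun i j => d2 (slab ε v c) i j x :=
      funext₂ fun i j => (pd_congr_ev i (pd_congr_ev j e)).eq_of_nhds
    rw [e2, qf_d2_slab h]
    exact le_add_of_nonneg_left (mul_nonneg hε.le (ssq_nonneg ξ))
  have hpd : ∀ (F : Fn n) (x : X n), ‖x‖ < R → ∀ k, pd k (fun y => ζ y * F y) x = pd k F x :=
    fun F x hx k => (pd_congr_ev k ((ball x hx).mono fun y hy => by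
      simp only [z4 y (by linarith), one_mul])).eq_of_nhds
  have g1 := varineqa_pg_α h a c
  have g2 : PG 0 fun x => ∑ i, a i ^ 2 * deriv (deriv v) (lf (c i) x) *
      qf (fun k l => τ k l x) (c i) :=
    PG.sum fun i => ((varineqa_pg2 h (c i)).cmul _).mul (PG.sum fun k => PG.sum fun l =>
      ((hN.τpg k l).zero.mul (PG.const 0 _)).mul (PG.const 0 _))
  have g3 := varineqa_pg_γ h a c
  have g4 : PG 0 fun x : X n => (1 + ‖x‖) ^ 4 :=
    ⟨by fun_prop, 4, 1, fun x => by rw [one_mul, Real.norm_of_nonneg (by positivity)]⟩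
  have key := core_var hN (f := fun x => ζ x * sf a v c x) (r := fun k x => ζ x * sr a v c k x)
    (mem_cut_mul z1 z5 (contDiff_sf h a c) 1) (fun k => mem_cut_mul z1 z5 (contDiff_sr h a c k) 1)
    (fun k x => by simp only [z2 x, od_sr h a c k x, mul_neg])
    (g1.add ((g4.div_const (R ^ 2)).cmul K₁)) (g2.add ((g4.div_const (R ^ 2)).cmul K₂))
    (fun x ξ => by
      rcases lt_or_ge ‖x‖ R with hx | hx
      · simp only [hpd _ x hx, z4 x (by linarith), one_mul, pd_sf h]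
        exact (alpha_in (fun i => h.d2lo _) (hΛ x hx) ξ).trans
          (le_add_of_nonneg_right (mul_nonneg p₁ (hw0 x)))
      · refine (alpha_out hε (hN.lo x) _ ξ).trans (le_add_of_nonneg_of_le (Finset.sum_nonneg
          fun i _ => mul_nonneg (by positivity) (h.d2lo _)) ?_)
        refine le_trans ?_ (mul_le_mul_of_nonneg_left (hw x hx) p₁)
        rw [hK₁, div_mul_eq_mul_div, mul_assoc, ← mul_pow]
        refine div_le_div_of_nonneg_right (varineqa_sq fun k => ?_) hε.le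
        rw [R285.pd_mul k zd fd]
        have b1 := varineqa_mul (z6 k x) (hs x).1
        have b2 := varineqa_mul (za x) ((hs x).2.1 k)
        have b3 := varineqa_mul (za x) ((hs x).2.2.1 k)
        have b4 := mul_nonneg hKs.le (norm_nonneg x)
        refine (abs_sub _ _).trans ((add_le_add (abs_add_le _ _) le_rfl).trans ?_)
        rw [hM]
        linarith)
    (fun x e he => by
      rcases lt_or_ge ‖x‖ R with hx | hx
      · simp only [hpd _ x hx, pd_sr h]
        exact (beta_in (T := mat τ x) (fun k l => hN.geo.symm k l x) (hN.geo.psd x) he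
          (fun i => h.d2lo _) (hΛ x hx)).trans (le_add_of_nonneg_right (mul_nonneg p₂ (hw0 x)))
      · refine (beta_out (T := mat τ x) hε (fun k l => hN.geo.symm k l x) (hN.geo.psd x) (hN.τhi x) he
          (hN.lo x) _).trans (le_add_of_nonneg_of_le (Finset.sum_nonneg fun i _ =>
            mul_nonneg (mul_nonneg (sq_nonneg _) (h.d2lo _)) (hN.geo.psd x _)) ?_)
        refine le_trans ?_ (le_mul_of_one_le_right p₂ (le_trans
          (one_le_pow₀ (le_add_of_nonneg_right (norm_nonneg x))) (hw x hx)))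
        rw [hK₂]
        refine div_le_div_of_nonneg_right ((Finset.sum_le_card_nsmul _ _ (n * M ^ 2) fun k _ =>
          varineqa_sq fun l => ?_).trans_eq (by simp)) (sq_nonneg ε)
        rw [R285.pd_mul l zd (rd k)]
        have b1 := varineqa_mul (z6 l x) ((hs x).2.2.1 k)
        have b2 := varineqa_mul (za x) ((hs x).2.2.2.1 k l)
        refine (abs_add_le _ _).trans ?_
        rw [hM]
        linarith)
  refine ⟨V, fun x => ζ x * sf a v c x, hN.Vpg.continuous, zd.continuous.mul fd.continuous, hlo,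
    fun x hx => ⟨hin x hx, by simp only [z4 x (by linarith), one_mul]⟩, fun x => ?_, key.trans ?_⟩
  · refine (varineqa_mul (za x) (hs x).1).trans ?_
    rw [one_mul]
    exact mul_le_mul_of_nonneg_right (by linarith) (by positivity)
  · have i1 := g1.integrable hN.wpot
    have i2 := g2.integrable hN.wpot
    have i3 := g3.integrable hN.wpot
    have i4 := ((g4.div_const (R ^ 2)).integrable hN.wpot)
    have e : ∫ x, sk a v c x ∂gibbs V =
        ∫ x, ∑ i, a i ^ 2 * (lf (c i) x * deriv v (lf (c i) x)) ∂gibbs V +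
          ∫ x, ∑ i, a i ^ 2 * lf (c i) x ^ 2 * deriv (deriv v) (lf (c i) x) ∂gibbs V := by
      rw [← integral_add i3 i1]
      refine integral_congr_ae (Eventually.of_forall fun x => ?_)
      simp only [sk, ← Finset.sum_add_distrib]
      exact Finset.sum_congr rfl fun i _ => by ring
    have q : 0 ≤ (∫ x : X n, (1 + ‖x‖) ^ 4 ∂gibbs V) / R ^ 2 :=
      div_nonneg (integral_nonneg fun x => by positivity) (sq_nonneg R)
    rw [integral_add i1 (i4.const_mul K₁), integral_add i2 (i4.const_mul K₂), integral_const_mul,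
      integral_const_mul, integral_div, stein_slab h a c hN, e, div_mul_eq_mul_div, mul_div_assoc]
    have := mul_nonneg hKs.le q
    linarith

/-- `R = m + 1 → ∞`, `gibbs_lim` for each of the four integrals -/
theorem var_ineq (h : Prof v B) (hε : 0 < ε) (a : Fin N → ℝ) (c : Fin N → Fin n → ℝ) :
    ∫ x, sf a v c x ^ 2 ∂gibbs (slab ε v c) - (∫ x, sf a v c x ∂gibbs (slab ε v c)) ^ 2 ≤
      ∫ x, sk a v c x ∂gibbs (slab ε v c) := by
  obtain ⟨K, hK⟩ := var_cut h hε a c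
  obtain ⟨K', hK'0, hK'⟩ := slab_bounds h a c
  have hR : ∀ m : ℕ, (1 : ℝ) ≤ (m : ℝ) + 1 := fun m => by
    have : (0 : ℝ) ≤ m := Nat.cast_nonneg m
    linarith
  choose V f hV hf hlo heq hfb hineq using fun m : ℕ => hK ((m : ℝ) + 1) (hR m)
  have hev : ∀ x : X n, ∀ᶠ m : ℕ in atTop, ‖x‖ ≤ (m : ℝ) + 1 := fun x => by
    filter_upwards [eventually_ge_atTop ⌈‖x‖⌉₊] with m hm
    have h1 : (⌈‖x‖⌉₊ : ℝ) ≤ m := by exact_mod_cast hm
    linarith [Nat.le_ceil ‖x‖]
  have hlV : ∀ x, Tendsto (fun m => V m x) atTop (𝓝 (slab ε v c x)) := fun x =>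
    tendsto_const_nhds.congr' ((hev x).mono fun m hm => (heq m x hm).1.symm)
  have hlf : ∀ x, Tendsto (fun m => f m x) atTop (𝓝 (sf a v c x)) := fun x =>
    tendsto_const_nhds.congr' ((hev x).mono fun m hm => (heq m x hm).2.symm)
  have hV₀ := (contDiff_slab h ε c 0).continuous
  have l1 := gibbs_lim hε hV hV₀ hlo hlV (F := fun m x => f m x ^ 2) (F₀ := fun x => sf a v c x ^ 2)
    (fun m => (hf m).pow 2) (K := K ^ 2) (k := 2) (fun m x => by
      rw [abs_pow, ← mul_pow]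
      exact pow_le_pow_left₀ (abs_nonneg _) (hfb m x) 2) fun x => (hlf x).pow 2
  have l2 := gibbs_lim hε hV hV₀ hlo hlV hf (K := K) (k := 1)
    (fun m x => by rw [pow_one]; exact hfb m x) hlf
  have l3 := gibbs_lim hε hV hV₀ hlo hlV (F := fun _ => sk a v c) (F₀ := sk a v c)
    (fun _ => continuous_sk h a c) (K := K') (k := 2) (fun _ x => (hK' x).2.2.2.2)
    fun x => tendsto_const_nhds
  have l4 := gibbs_lim hε hV hV₀ hlo hlV (F := fun _ x => (1 + ‖x‖) ^ 4)
    (F₀ := fun x => (1 + ‖x‖) ^ 4) (fun _ => by fun_prop) (K := 1) (k := 4)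
    (fun _ x => by rw [one_mul, abs_of_nonneg (by positivity)]) fun x => tendsto_const_nhds
  have l5 : Tendsto (fun m : ℕ => K / ((m : ℝ) + 1) ^ 2) atTop (𝓝 0) :=
    tendsto_const_nhds.div_atTop ((tendsto_pow_atTop two_ne_zero).comp
      (tendsto_atTop_add_const_right _ 1 tendsto_natCast_atTop_atTop))
  have l6 := l3.add (l5.mul l4)
  rw [zero_mul, add_zero] at l6
  exact le_of_tendsto_of_tendsto' (l1.sub (l2.pow 2)) l6 hineq

end Crest.Agent.R238
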